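import Mathlib
import Crest.Prelude.Def_Torus3

/-!
# R81 (S0108): basic definitions

Frequency side: circle `Tc`, trigonometric polynomials, finite sequences and their Fourier
transforms, tower functions.  Geometry side: `IsTD`, `Close`, the normal form state `St`.
-/

set_option autoImplicit false

namespace Crest.Agent.R81

open MeasureTheory Crest.AnalysisR.Torus3
open scoped ContDiff

/-- the circle `ℝ/ℤ` -/
abbrev Tc : Type := UnitAddCircle
/-- `ℝ³` -/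
abbrev V3 : Type := Fin 3 → ℝ

/-- representative in `[0,1)` -/
noncomputable def rp (x : Tc) : ℝ := (AddCircle.equivIco 1 0 x : ℝ)

/-- `e(t) = exp(2 π i t)` -/
noncomputable def ee (t : ℝ) : ℂ := fourier 1 ((t : ℝ) : Tc)

/-- `L²` norm with respect to `volume` -/
noncomputable def n2 {α E : Type} [MeasureSpace α] [NormedAddCommGroup E] (f : α → E) : ℝ :=
  lpNorm f 2 volume

/-- trigonometric polynomial -/
noncomputable def tp (A : Finset ℤ) (c : ℤ → ℂ) (θ : Tc) : ℂ := ∑ k ∈ A, c k * fourier k θ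

/-- normalised Fourier transform of the sequence `g` restricted to `[0,N)` -/
noncomputable def FT (N : ℕ) (g : ℤ → ℂ) (θ : Tc) : ℂ :=
  ((Real.sqrt N)⁻¹ : ℝ) * ∑ i ∈ Finset.Ico (0 : ℤ) N, g i * fourier (-i) θ

/-- normalised `ℓ²` norm of the sequence `g` restricted to `[0,N)` -/
noncomputable def sn (N : ℕ) (g : ℤ → ℂ) : ℝ :=
  Real.sqrt ((∑ i ∈ Finset.Ico (0 : ℤ) N, ‖g i‖ ^ 2) / N)

/-- evaluation of a tower function: `G m i` is the coefficient of the character `m` on floor `i` -/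
noncomputable def ev (Ms : Finset ℤ) (G : ℤ → ℤ → ℂ) (i : ℤ) (x : Tc) : ℂ :=
  ∑ m ∈ Ms, G m i * fourier m x

/-- norm of a tower function -/
noncomputable def tn (N : ℕ) (Ms : Finset ℤ) (G : ℤ → ℤ → ℂ) : ℝ :=
  Real.sqrt (∑ m ∈ Ms, sn N (G m) ^ 2)

/-- square root of the spectral density of a tower function -/
noncomputable def sd (N : ℕ) (Ms : Finset ℤ) (G : ℤ → ℤ → ℂ) (θ : Tc) : ℝ :=
  Real.sqrt (∑ m ∈ Ms, ‖FT N (G m) θ‖ ^ 2)

/-- on `U m`, outside the core `C m`, the component `m` is dominated by a polynomial of norm `≤ γ` -/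
def Dom (N : ℕ) (Ms : Finset ℤ) (U C : ℤ → Set Tc) (G : ℤ → ℤ → ℂ) (γ : ℝ) : Prop :=
  ∃ Y : ℤ → ℂ, sn N Y ≤ γ ∧
    ∀ m ∈ Ms, ∀ θ ∈ U m, θ ∉ C m → ‖FT N (G m) θ‖ ≤ ‖FT N Y θ‖ / Ms.card

/-- the component `m` lives on the core `C m`, with leak `γ` -/
def Main (N : ℕ) (Ms : Finset ℤ) (C : ℤ → Set Tc) (G : ℤ → ℤ → ℂ) (γ : ℝ) : Prop :=
  Dom N Ms (fun _ => Set.univ) C G γ

/-- the cores are `r`-separated -/
def Sep (Ms : Finset ℤ) (C : ℤ → Set Tc) (r : ℝ) : Prop :=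
  ∀ m ∈ Ms, ∀ m' ∈ Ms, m ≠ m' → ∀ θ ∈ C m, ∀ θ' ∈ C m', r ≤ dist θ θ'

/-- the cores are pairwise disjoint -/
def Disj (Ms : Finset ℤ) (C : ℤ → Set Tc) : Prop :=
  ∀ m ∈ Ms, ∀ m' ∈ Ms, ∀ θ, θ ∈ C m → θ ∈ C m' → m = m'

/-- the tower function vanishes on the `b` lowest and the `b` highest floors -/
def Marg (N : ℕ) (Ms : Finset ℤ) (G : ℤ → ℤ → ℂ) (b : ℕ) : Prop :=
  ∀ m ∈ Ms, ∀ i : ℤ, (i < b ∨ (N : ℤ) - b ≤ i) → G m i = 0

/-- smooth volume preserving diffeomorphism of the torus -/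
def IsTD (T : Equiv.Perm T3) : Prop :=
  IsSmoothDiffeo T ∧ MeasurePreserving T volume volume

/-- `C^k` closeness of torus maps -/
def Close (k : ℕ) (ε : ℝ) (T T' : T3 → T3) : Prop :=
  ∃ E : V3 → V3, ContDiff ℝ ∞ E ∧ (∀ j ≤ k, ∀ p, ‖iteratedFDeriv ℝ j E p‖ ≤ ε) ∧
    ∀ p, T' (proj p) = T (proj p) + proj (E p)

/-- admissible twist profile: smooth, periodic, quadratic off a `δ`-neighbourhood of `ℤ` -/
def Prof (κ : ℕ) (δ : ℝ) (Ψ : ℝ → ℝ) : Prop :=
  ContDiff ℝ ∞ Ψ ∧ Function.Periodic Ψ 1 ∧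
    ∀ y ∈ Set.Icc δ (1 - δ), Ψ y = (κ : ℝ) ^ 4 * (y ^ 2 - y) / 2

/-- lift of the normal form (`sg = 1`) and of its inverse (`sg = -1`) -/
noncomputable def nfL (N : ℕ) (P : ℤ) (Ψ : ℝ → ℝ) (sg : ℝ) (p : V3) : V3 :=
  ![p 0 + sg * deriv Ψ (p 1) / N, p 1, p 2 + sg * P / N]

/-- A state: `T = H S H⁻¹` with `S (x,y,z) = (x + Ψ'(y)/N, y, z + P/N)`. -/
structure St where
  N : ℕ
  P : ℤ
  a : ℤ
  ns : ℕ
  t0 : ℕ
  κ : ℕ
  δ : ℝ
  Ψ : ℝ → ℝ
  H : Equiv.Perm T3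
  S : Equiv.Perm T3
  hN : 0 < N
  hns : (ns : ℤ) * P ≡ 1 [ZMOD N]
  hns' : ns < N
  ha : IsCoprime a (N : ℤ)
  ht0 : 0 < t0
  hκ : 2 ≤ κ
  hκe : Even κ
  hδ : 0 < δ
  hδ' : δ ≤ 1 / 8
  hΨ : Prof κ δ Ψ
  hH : IsTD H
  hS : IsTD S
  hSl : ∀ p, S (proj p) = proj (nfL N P Ψ 1 p)

namespace St

/-- the diffeomorphism of the state -/
def T (σ : St) : Equiv.Perm T3 := σ.H * σ.S * σ.H⁻¹

/-- the number of sweeps -/
def K (σ : St) : ℕ := σ.κ ^ 4

/-- floor of the tower (normal coordinates) -/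
noncomputable def pos (σ : St) (q : T3) : ℤ :=
  ((σ.ns : ℤ) * (⌊(σ.N : ℝ) * rp (q 2) - σ.a * rp (q 1)⌋ + ⌊(σ.t0 : ℝ) * rp (q 1)⌋)) % σ.N

/-- fibre coordinate with concentrated holonomy (normal coordinates) -/
noncomputable def xc (σ : St) (q : T3) : Tc :=
  q 0 - ((deriv σ.Ψ (rp (q 1)) * σ.pos q / σ.N : ℝ) : Tc)

/-- the function on the manifold defined by a function on the tower -/
noncomputable def vec (σ : St) (g : ℤ → Tc → ℂ) (p : T3) : ℂ :=
  g (σ.pos (σ.H⁻¹ p)) (σ.xc (σ.H⁻¹ p))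

/-- quality of a state -/
noncomputable def ql (σ : St) : ℝ := 4 / σ.κ + Real.sqrt (2 * σ.δ)

end St

/-- bounded measurable function on the tower -/
def BM (g : ℤ → Tc → ℂ) : Prop := (∀ i, Measurable (g i)) ∧ ∃ B : ℝ, ∀ i x, ‖g i x‖ ≤ B

/-- finite filter applied to a function -/
noncomputable def flt (T : Equiv.Perm T3) (A : Finset ℤ) (a : ℤ → ℂ) (v : T3 → ℂ) (p : T3) : ℂ :=
  ∑ k ∈ A, a k * v ((T ^ k) p)

/-- `s²` is a spectral density of `v` -/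
def HasD (T : Equiv.Perm T3) (v : T3 → ℂ) (s : Tc → ℝ) : Prop :=
  ∀ k : ℤ, ∫ p, (starRingEnd ℂ) (v p) * v ((T ^ k) p) = ∫ θ, fourier k θ * ((s θ : ℝ) : ℂ) ^ 2

/-! ### elementary API -/

theorem rp_coe (t : ℝ) : rp ((t : ℝ) : Tc) = Int.fract t := by
  unfold rp
  have := AddCircle.coe_equivIco_mk_apply (1 : ℝ) t
  simpa using this

theorem coe_rp (x : Tc) : ((rp x : ℝ) : Tc) = x := by
  unfold rp
  exact (AddCircle.equivIco 1 0).symm_apply_apply x

theorem rp_nonneg (x : Tc) : 0 ≤ rp x := (AddCircle.equivIco 1 0 x).2.1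

theorem rp_lt_one (x : Tc) : rp x < 1 := by
  have := (AddCircle.equivIco 1 0 x).2.2
  simpa [rp] using this

theorem measurable_rp : Measurable rp :=
  measurable_subtype_coe.comp (AddCircle.measurableEquivIco 1 0).measurable

theorem coe_intCast (n : ℤ) : (((n : ℝ) : ℝ) : Tc) = 0 := by
  rw [AddCircle.coe_eq_zero_iff]; exact ⟨n, by simp⟩

theorem coe_add_int (t : ℝ) (n : ℤ) : ((t + n : ℝ) : Tc) = (t : Tc) := by
  rw [AddCircle.coe_add, coe_intCast, add_zero]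

theorem coe_eq_coe_iff (s t : ℝ) : ((s : ℝ) : Tc) = (t : Tc) ↔ ∃ n : ℤ, s = t + n := by
  constructor
  · intro h
    have h2 : ((s - t : ℝ) : Tc) = 0 := by rw [AddCircle.coe_sub, h, sub_self]
    rw [AddCircle.coe_eq_zero_iff] at h2
    obtain ⟨n, hn⟩ := h2
    exact ⟨n, by simp at hn; linarith⟩
  · rintro ⟨n, rfl⟩; exact coe_add_int t n

theorem proj_surj (q : T3) : proj (fun i => rp (q i)) = q := by
  funext i; exact coe_rp (q i)

theorem proj_add (p q : V3) : proj (p + q) = proj p + proj q := by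
  funext i; simp [proj]

theorem fourier_coe (n : ℤ) (t : ℝ) : fourier n ((t : ℝ) : Tc) = ee (n * t) := by
  unfold ee
  rw [fourier_coe_apply, fourier_coe_apply]
  congr 1; push_cast; ring

theorem ee_eq (t : ℝ) : ee t = Complex.exp (2 * Real.pi * Complex.I * t) := by
  unfold ee; rw [fourier_coe_apply]; congr 1; push_cast; ring

theorem ee_add (s t : ℝ) : ee (s + t) = ee s * ee t := by
  rw [ee_eq, ee_eq, ee_eq, ← Complex.exp_add]; congr 1; push_cast; ring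

theorem ee_zero : ee 0 = 1 := by rw [ee_eq]; simp

theorem norm_ee (t : ℝ) : ‖ee t‖ = 1 := by
  unfold ee; exact Circle.norm_coe _

theorem norm_fourier' (n : ℤ) (x : Tc) : ‖fourier n x‖ = 1 := Circle.norm_coe _

theorem ee_intCast (n : ℤ) : ee (n : ℝ) = 1 := by
  unfold ee; rw [coe_intCast]; simp

theorem ee_add_int (t : ℝ) (n : ℤ) : ee (t + n) = ee t := by rw [ee_add, ee_intCast, mul_one]

theorem norm_ee_sub_one_le (t : ℝ) : ‖ee t - 1‖ ≤ 2 * Real.pi * |t| := by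
  rw [ee_eq]
  have h : (2 * Real.pi * Complex.I * t : ℂ) = Complex.I * ((2 * Real.pi * t : ℝ) : ℂ) := by
    push_cast; ring
  rw [h]
  refine (Real.norm_exp_I_mul_ofReal_sub_one_le).trans ?_
  rw [Real.norm_eq_abs, abs_mul, abs_of_pos (by positivity : (0 : ℝ) < 2 * Real.pi)]

theorem norm_ee_sub_le (s t : ℝ) : ‖ee s - ee t‖ ≤ 2 * Real.pi * |s - t| := by
  have h : ee s - ee t = ee t * (ee (s - t) - 1) := by
    rw [mul_sub, ← ee_add]; simp
  rw [h, norm_mul, norm_ee, one_mul]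
  exact norm_ee_sub_one_le _

theorem fourier_add_pt (n : ℤ) (x y : Tc) : fourier n (x + y) = fourier n x * fourier n y := by
  rw [← coe_rp x, ← coe_rp y, ← AddCircle.coe_add, fourier_coe, fourier_coe, fourier_coe, ← ee_add]
  congr 1; ring

instance : IsProbabilityMeasure (volume : Measure Tc) := ⟨by simp⟩

instance : IsProbabilityMeasure (volume : Measure T3) := by
  unfold T3; infer_instance

end Crest.Agent.R81
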