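import Crest.Agent.R81.Smooth0

/-!
# R81: plateau functions, smoothed saw tooth, twist profiles
-/

set_option autoImplicit false

namespace Crest.Agent.R81

open scoped ContDiff

/-- `0` for `t ≤ a` and `t ≥ 1 - a`, `1` on `[b, 1-b]` -/
noncomputable def plat (a b t : ℝ) : ℝ :=
  Real.smoothTransition ((t - a) / (b - a)) * Real.smoothTransition ((1 - t - a) / (b - a))

/-- smooth periodic function equal to the fractional part off a `δ`-neighbourhood of `ℤ` -/
noncomputable def saw (δ t : ℝ) : ℝ := Int.fract t * plat (δ / 2) δ (Int.fract t)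

/-- `t` is `δ`-inside the unit interval -/
def Gd (δ t : ℝ) : Prop := δ ≤ t ∧ t ≤ 1 - δ

theorem contDiff_plat (a b : ℝ) : ContDiff ℝ ∞ (plat a b) := by
  unfold plat
  exact (Real.smoothTransition.contDiff.comp (by fun_prop)).mul
    (Real.smoothTransition.contDiff.comp (by fun_prop))

theorem plat_left {a b t : ℝ} (hab : a < b) (h : t ≤ a) : plat a b t = 0 := by
  unfold plat
  rw [Real.smoothTransition.zero_of_nonpos (div_nonpos_of_nonpos_of_nonneg (by linarith) (by linarith)),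
    zero_mul]

theorem plat_right {a b t : ℝ} (hab : a < b) (h : 1 - a ≤ t) : plat a b t = 0 := by
  unfold plat
  rw [Real.smoothTransition.zero_of_nonpos (x := (1 - t - a) / (b - a))
    (div_nonpos_of_nonpos_of_nonneg (by linarith) (by linarith)), mul_zero]

theorem plat_one {a b t : ℝ} (hab : a < b) (h : b ≤ t) (h' : t ≤ 1 - b) : plat a b t = 1 := by
  unfold plat
  rw [Real.smoothTransition.one_of_one_le ((one_le_div (by linarith)).2 (by linarith)),
    Real.smoothTransition.one_of_one_le ((one_le_div (by linarith)).2 (by linarith)), mul_one]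

theorem plat_mem (a b t : ℝ) : 0 ≤ plat a b t ∧ plat a b t ≤ 1 :=
  ⟨mul_nonneg (Real.smoothTransition.nonneg _) (Real.smoothTransition.nonneg _),
    mul_le_one₀ (Real.smoothTransition.le_one _) (Real.smoothTransition.nonneg _)
      (Real.smoothTransition.le_one _)⟩

/-- near a non-integer `y₀`, `fract y = y - ⌊y₀⌋`; near an integer the composition vanishes. -/
theorem contDiff_comp_fract {g : ℝ → ℝ} (hg : ContDiff ℝ ∞ g) {η : ℝ} (hη : 0 < η)
    (h0 : ∀ t, (t ≤ η ∨ 1 - η ≤ t) → g t = 0) : ContDiff ℝ ∞ fun y => g (Int.fract y) := by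
  refine contDiff_iff_contDiffAt.2 fun y0 => ?_
  have h1 : ContDiffAt ℝ ∞ (fun y => g (y - ⌊y0⌋)) y0 :=
    (hg.comp (contDiff_id.sub contDiff_const)).contDiffAt
  refine h1.congr_of_eventuallyEq ?_
  have hm : 0 < min η 1 := lt_min hη one_pos
  have hmem : Set.Ioo ((⌊y0⌋ : ℝ) - min η 1) (⌊y0⌋ + 1) ∈ nhds y0 :=
    Ioo_mem_nhds (by linarith [Int.floor_le y0]) (Int.lt_floor_add_one y0)
  filter_upwards [hmem] with y hy
  rcases le_or_gt (⌊y0⌋ : ℝ) y with h | h
  · have : ⌊y⌋ = ⌊y0⌋ := Int.floor_eq_iff.2 ⟨h, hy.2⟩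
    rw [Int.fract, this]
  · have h2 := min_le_left η 1
    have h3 := min_le_right η 1
    have h4 := hy.1
    have : ⌊y⌋ = ⌊y0⌋ - 1 := Int.floor_eq_iff.2 ⟨by push_cast; linarith, by push_cast; linarith⟩
    rw [h0 (y - ⌊y0⌋) (Or.inl (by linarith)), h0 _ (Or.inr ?_)]
    rw [Int.fract, this]
    push_cast
    linarith

theorem contDiff_saw {δ : ℝ} (hδ : 0 < δ) : ContDiff ℝ ∞ (saw δ) := by
  refine contDiff_comp_fract (g := fun t => t * plat (δ / 2) δ t) (contDiff_id.mul (contDiff_plat _ _))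
    (half_pos hδ) fun t ht => ?_
  rcases ht with ht | ht
  · rw [plat_left (half_lt_self hδ) ht, mul_zero]
  · rw [plat_right (half_lt_self hδ) ht, mul_zero]

theorem saw_add_int (δ t : ℝ) (n : ℤ) : saw δ (t + n) = saw δ t := by
  unfold saw
  rw [Int.fract_add_intCast]

theorem saw_eq {δ t : ℝ} (hδ : 0 < δ) (h : Gd δ (Int.fract t)) : saw δ t = Int.fract t := by
  unfold saw
  rw [plat_one (half_lt_self hδ) h.1 h.2, mul_one]

theorem abs_saw_le (δ t : ℝ) : |saw δ t| ≤ 1 := by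
  unfold saw
  obtain ⟨h1, h2⟩ := plat_mem (δ / 2) δ (Int.fract t)
  rw [abs_of_nonneg (mul_nonneg (Int.fract_nonneg t) h1)]
  exact mul_le_one₀ (Int.fract_lt_one t).le h1 h2

/-- `‖(t : Tc)‖ = min (fract t) (1 - fract t)`. -/
theorem Gd_of_norm {δ t : ℝ} (h : δ ≤ ‖(t : Tc)‖) : Gd δ (Int.fract t) := by
  rw [UnitAddCircle.norm_eq, abs_sub_round_eq_min] at h
  exact ⟨h.trans (min_le_left _ _), by linarith [h.trans (min_le_right _ _)]⟩

theorem exists_prof (κ : ℕ) {δ : ℝ} (hδ : 0 < δ) : ∃ Ψ, Prof κ δ Ψ := by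
  refine ⟨fun y => (κ : ℝ) ^ 4 * (Int.fract y ^ 2 - Int.fract y) / 2 * plat (δ / 2) δ (Int.fract y),
    contDiff_comp_fract (g := fun t => (κ : ℝ) ^ 4 * (t ^ 2 - t) / 2 * plat (δ / 2) δ t)
      (ContDiff.mul (by fun_prop) (contDiff_plat _ _)) (half_pos hδ) fun t ht => ?_, fun y => ?_,
    fun y hy => ?_⟩
  · rcases ht with ht | ht
    · rw [plat_left (half_lt_self hδ) ht, mul_zero]
    · rw [plat_right (half_lt_self hδ) ht, mul_zero]
  · simp only [Int.fract_add_one]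
  · have : Int.fract y = y := Int.fract_eq_self.2 ⟨by linarith [hy.1], by linarith [hy.2]⟩
    simp only [this]
    rw [plat_one (half_lt_self hδ) hy.1 hy.2, mul_one]

theorem Prof.deriv_eq {κ : ℕ} {δ : ℝ} {Ψ : ℝ → ℝ} (h : Prof κ δ Ψ) {y : ℝ} (h1 : δ < y)
    (h2 : y < 1 - δ) : deriv Ψ y = (κ : ℝ) ^ 4 * (y - 1 / 2) := by
  have h3 : Ψ =ᶠ[nhds y] fun t => (κ : ℝ) ^ 4 * (t ^ 2 - t) / 2 := by
    filter_upwards [Icc_mem_nhds h1 h2] with t ht using h.2.2 t ht
  have h4 : HasDerivAt (fun t : ℝ => (κ : ℝ) ^ 4 * (t ^ 2 - t) / 2)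
      ((κ : ℝ) ^ 4 * (((2 : ℕ) : ℝ) * y ^ (2 - 1) - 1) / 2) y :=
    (((hasDerivAt_pow 2 y).sub (hasDerivAt_id y)).const_mul _).div_const 2
  rw [h3.deriv_eq, h4.deriv]
  push_cast
  ring

theorem periodic_add_int {E : Type} {f : ℝ → E} (h : Function.Periodic f 1) (t : ℝ) (n : ℤ) :
    f (t + n) = f t := by
  simpa using h.int_mul n t

theorem periodic_deriv {f : ℝ → ℝ} (h : Function.Periodic f 1) : Function.Periodic (deriv f) 1 := by
  intro t
  rw [← deriv_comp_add_const]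
  exact congrArg (fun g => deriv g t) (funext h)

/-- smooth with all derivatives (including order `0`) bounded -/
def BD0 {E : Type} [NormedAddCommGroup E] [NormedSpace ℝ E] (f : E → ℝ) : Prop :=
  ContDiff ℝ ∞ f ∧ ∀ j : ℕ, ∃ C : ℝ, ∀ p, ‖iteratedFDeriv ℝ j f p‖ ≤ C

theorem BD0_of_periodic {f : ℝ → ℝ} (hf : ContDiff ℝ ∞ f) (h : Function.Periodic f 1) : BD0 f := by
  refine ⟨hf, fun j => ?_⟩
  have hper : ∀ (p : ℝ) (z : ℤ), iteratedFDeriv ℝ j f (p + z) = iteratedFDeriv ℝ j f p := fun p z => by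
    rw [← iteratedFDeriv_comp_add_right]
    simp only [periodic_add_int h]
  obtain ⟨C, hC⟩ := (isCompact_Icc (a := (0 : ℝ)) (b := 1)).exists_bound_of_continuousOn
    (hf.continuous_iteratedFDeriv (m := j) (by exact_mod_cast le_top)).continuousOn
  refine ⟨C, fun p => ?_⟩
  rw [← Int.fract_add_floor p, hper]
  exact hC _ ⟨Int.fract_nonneg _, (Int.fract_lt_one _).le⟩

theorem BD0_of_periodic2 {F : ℝ × ℝ → ℝ} (hF : ContDiff ℝ ∞ F)
    (h : ∀ (y l : ℝ) (m n : ℤ), F (y + m, l + n) = F (y, l)) : BD0 F := by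
  refine ⟨hF, fun j => ?_⟩
  have hper : ∀ (p : ℝ × ℝ) (m n : ℤ),
      iteratedFDeriv ℝ j F (p + ((m : ℝ), (n : ℝ))) = iteratedFDeriv ℝ j F p := fun p m n => by
    rw [← iteratedFDeriv_comp_add_right]
    have : (fun z : ℝ × ℝ => F (z + ((m : ℝ), (n : ℝ)))) = F := funext fun z => h z.1 z.2 m n
    rw [this]
  obtain ⟨C, hC⟩ := (isCompact_Icc (a := (0 : ℝ × ℝ)) (b := 1)).exists_bound_of_continuousOn
    (hF.continuous_iteratedFDeriv (m := j) (by exact_mod_cast le_top)).continuousOn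
  refine ⟨C, fun p => ?_⟩
  have e : p = (Int.fract p.1, Int.fract p.2) + (((⌊p.1⌋ : ℤ) : ℝ), ((⌊p.2⌋ : ℤ) : ℝ)) := by
    ext <;> simp
  rw [e, hper]
  exact hC _ ⟨⟨Int.fract_nonneg _, Int.fract_nonneg _⟩, (Int.fract_lt_one _).le, (Int.fract_lt_one _).le⟩

end Crest.Agent.R81
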