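import Crest.Agent.R81.Filt0

/-!
# R81: trigonometric filters
-/

set_option autoImplicit false

namespace Crest.Agent.R81

open MeasureTheory

theorem Sep.thick {Ns : Finset ℤ} {A : ℤ → Set Tc} {r : ℝ} (h : Sep Ns A (3 * r)) :
    Sep Ns (fun n => Metric.thickening r (A n)) r := by
  intro m hm m' hm' hne θ hθ θ' hθ'
  obtain ⟨z, hz, h1⟩ := Metric.mem_thickening_iff.1 hθ
  obtain ⟨z', hz', h2⟩ := Metric.mem_thickening_iff.1 hθ'
  have h3 := h m hm m' hm' hne z hz z' hz'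
  have h4 := dist_triangle4 z θ θ' z'
  rw [dist_comm z θ] at h4
  linarith

theorem Sep.disj {Ns : Finset ℤ} {A : ℤ → Set Tc} {r : ℝ} (h : Sep Ns A r) (hr : 0 < r) :
    Disj Ns A := by
  intro m hm m' hm' θ hθ hθ'
  by_contra hne
  have := h m hm m' hm' hne θ hθ θ hθ'
  rw [dist_self] at this
  linarith

theorem Sep.mono {Ns Ns' : Finset ℤ} {A : ℤ → Set Tc} {r r' : ℝ} (h : Sep Ns A r) (hs : Ns' ⊆ Ns)
    (hr : r' ≤ r) : Sep Ns' A r' := by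
  exact fun m hm m' hm' hne θ hθ θ' hθ' => hr.trans (h m (hs hm) m' (hs hm') hne θ hθ θ' hθ')

theorem filt_bump (A : Set Tc) {r : ℝ} (hr : 0 < r) : ∃ u : Tc → ℝ, Continuous u ∧
    (∀ θ, 0 ≤ u θ) ∧ (∀ θ, u θ ≤ 1) ∧ (∀ θ ∈ A, u θ = 1) ∧
      ∀ θ, θ ∉ Metric.thickening r A → u θ = 0 :=
  ⟨fun θ => (thickenedIndicator hr A θ : ℝ),
    NNReal.continuous_coe.comp (thickenedIndicator hr A).continuous, fun _ => NNReal.coe_nonneg _,
    fun θ => by exact_mod_cast thickenedIndicator_le_one hr A θ,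
    fun θ hθ => by simp [thickenedIndicator_one hr A hθ],
    fun θ hθ => by simp [thickenedIndicator_zero hr A hθ]⟩

/-- Approximate `thickenedIndicator hr (A n)` (values in `[0,1]`, `= 1` on `A n`, `= 0` off the
thickening; the thickenings are disjoint) uniformly within `η = min ε 1 /(#Ns+1)`. -/
theorem exists_filters (Ns : Finset ℤ) (A : ℤ → Set Tc) (r : ℝ) (hr : 0 < r)
    (hsep : Sep Ns A (3 * r)) (ε : ℝ) (hε : 0 < ε) :
    ∃ (L : ℕ) (φc : ℤ → ℤ → ℂ), ∀ Ns0 ⊆ Ns,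
      (∀ θ, ∑ n ∈ Ns0, ‖tp (Finset.Icc (-(L : ℤ)) L) (φc n) θ‖ ≤ 2) ∧
      (∀ n ∈ Ns0, ∀ θ ∈ A n, ∀ x : Tc,
        ‖fourier n x - ∑ n' ∈ Ns0, tp (Finset.Icc (-(L : ℤ)) L) (φc n') θ * fourier n' x‖ ≤ ε) ∧
      (∀ n ∈ Ns0, ∀ θ ∈ A n,
        |Real.sqrt (∑ n' ∈ Ns0, ‖tp (Finset.Icc (-(L : ℤ)) L) (φc n') θ‖ ^ 2) - 1| ≤ ε) ∧
      (∀ n ∈ Ns0, ∀ θ, θ ∉ Metric.thickening r (A n) →
        ‖tp (Finset.Icc (-(L : ℤ)) L) (φc n) θ‖ * Ns0.card ≤ ε) := by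
  have hd := hsep.thick.disj hr
  choose u uc u0 u1 uA uT using fun n => filt_bump (A n) hr
  obtain ⟨η, hη, hη1, hηε, hηε'⟩ : ∃ η : ℝ, 0 < η ∧ Ns.card * η ≤ 1 ∧ Ns.card * η ≤ ε ∧ η ≤ ε := by
    have hc : (0 : ℝ) ≤ Ns.card := Nat.cast_nonneg _
    have hm : 0 < min ε 1 := lt_min hε one_pos
    have h1 : Ns.card * (min ε 1 / (Ns.card + 1)) ≤ min ε 1 := by
      rw [← mul_div_assoc, div_le_iff₀ (by positivity)]
      nlinarith
    exact ⟨min ε 1 / (Ns.card + 1), by positivity, h1.trans (min_le_right _ _),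
      h1.trans (min_le_left _ _), (div_le_self hm.le (by linarith)).trans (min_le_left _ _)⟩
  choose L0 c hc0 hc using fun n =>
    exists_tp_approx (f := fun θ => ((u n θ : ℝ) : ℂ)) (Complex.continuous_ofReal.comp (uc n)) hη
  refine ⟨Ns.sup L0, c, fun Ns0 hs => ?_⟩
  have hφ : ∀ n ∈ Ns0, ∀ θ,
      ‖tp (Finset.Icc (-((Ns.sup L0 : ℕ) : ℤ)) (Ns.sup L0 : ℕ)) (c n) θ - (u n θ : ℝ)‖ ≤ η :=
    fun n hn θ => by
      rw [tp_Icc_mono (Finset.le_sup (f := L0) (hs hn)) (hc0 n)]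
      exact hc n θ
  generalize (Finset.Icc (-((Ns.sup L0 : ℕ) : ℤ)) (Ns.sup L0 : ℕ)) = I at hφ ⊢
  have hcard : (Ns0.card : ℝ) * η ≤ Ns.card * η :=
    mul_le_mul_of_nonneg_right (by exact_mod_cast Finset.card_le_card hs) hη.le
  have hoff : ∀ n ∈ Ns0, ∀ θ ∈ Metric.thickening r (A n), ∀ n' ∈ Ns0, n' ≠ n → u n' θ = 0 :=
    fun n hn θ hθ n' hn' hne => uT n' θ fun h => hne (hd n' (hs hn') n (hs hn) θ h hθ)
  have hsum : ∀ θ, ∑ n ∈ Ns0, u n θ ≤ 1 := fun θ => by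
    by_cases h : ∃ n ∈ Ns0, θ ∈ Metric.thickening r (A n)
    · obtain ⟨n, hn, hθ⟩ := h
      rw [Finset.sum_eq_single_of_mem n hn (hoff n hn θ hθ)]
      exact u1 n θ
    · rw [Finset.sum_eq_zero fun n hn => uT n θ fun h' => h ⟨n, hn, h'⟩]
      exact zero_le_one
  have hle : ∀ n ∈ Ns0, ∀ θ, ‖tp I (c n) θ‖ ≤ u n θ + η := fun n hn θ => by
    have := norm_le_norm_sub_add (tp I (c n) θ) ((u n θ : ℝ) : ℂ)
    rw [Complex.norm_real, Real.norm_of_nonneg (u0 n θ)] at this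
    linarith [hφ n hn θ]
  have hS : ∀ θ, ∑ n ∈ Ns0, ‖tp I (c n) θ‖ ≤ 1 + Ns.card * η := fun θ => by
    refine (Finset.sum_le_sum fun n hn => hle n hn θ).trans ?_
    rw [Finset.sum_add_distrib, Finset.sum_const, nsmul_eq_mul]
    linarith [hsum θ]
  refine ⟨fun θ => by linarith [hS θ], fun n hn θ hθ x => ?_, fun n hn θ hθ => ?_,
    fun n hn θ hθ => ?_⟩
  · have e : fourier n x = ∑ n' ∈ Ns0, ((u n' θ : ℝ) : ℂ) * fourier n' x := by
      rw [Finset.sum_eq_single_of_mem n hn fun n' hn' hne => by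
        rw [hoff n hn θ (Metric.self_subset_thickening hr _ hθ) n' hn' hne]; simp, uA n θ hθ]
      simp
    rw [e, ← Finset.sum_sub_distrib]
    refine (norm_sum_le _ _).trans ((Finset.sum_le_sum (g := fun _ => η) fun n' hn' => ?_).trans ?_)
    · rw [← sub_mul, norm_mul, norm_fourier', mul_one, norm_sub_rev]
      exact hφ n' hn' θ
    · rw [Finset.sum_const, nsmul_eq_mul]
      linarith
  · have h1 : Real.sqrt (∑ n' ∈ Ns0, ‖tp I (c n') θ‖ ^ 2) ≤ ∑ n' ∈ Ns0, ‖tp I (c n') θ‖ :=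
      Real.sqrt_le_iff.2 ⟨Finset.sum_nonneg fun _ _ => norm_nonneg _,
        Finset.sum_sq_le_sq_sum_of_nonneg fun _ _ => norm_nonneg _⟩
    have h2 : ‖tp I (c n) θ‖ ≤ Real.sqrt (∑ n' ∈ Ns0, ‖tp I (c n') θ‖ ^ 2) :=
      Real.le_sqrt_of_sq_le (Finset.single_le_sum (f := fun n' => ‖tp I (c n') θ‖ ^ 2)
        (fun _ _ => sq_nonneg _) hn)
    have h3 := norm_sub_norm_le ((u n θ : ℝ) : ℂ) (tp I (c n) θ)
    rw [norm_sub_rev, Complex.norm_real, Real.norm_of_nonneg (u0 n θ)] at h3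
    have h4 := uA n θ hθ
    rw [abs_le]
    constructor <;> linarith [hφ n hn θ, hS θ]
  · have h1 := hle n hn θ
    rw [uT n θ hθ, zero_add] at h1
    have h2 := mul_le_mul_of_nonneg_right h1 (Nat.cast_nonneg (α := ℝ) Ns0.card)
    linarith

end Crest.Agent.R81
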