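import Crest.Agent.R81.Smooth

/-!
# R81: volume preserving smooth diffeomorphisms of the torus: group operations, shears, linear maps,
limits
-/

set_option autoImplicit false

namespace Crest.Agent.R81

open MeasureTheory Crest.AnalysisR.Torus3
open scoped ContDiff

theorem IsTD.continuous {T : Equiv.Perm T3} (h : IsTD T) : Continuous T := by
  obtain ⟨⟨⟨F, hF⟩, -⟩, -⟩ := h
  exact lift_continuous hF

theorem IsTD.one : IsTD 1 := by
  exact ⟨⟨⟨id, contDiff_id, fun _ => rfl⟩, ⟨id, contDiff_id, fun _ => rfl⟩⟩, MeasurePreserving.id _⟩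

theorem IsTD.mul {S T : Equiv.Perm T3} (hS : IsTD S) (hT : IsTD T) : IsTD (S * T) := by
  obtain ⟨⟨⟨F, hF, hF'⟩, ⟨G, hG, hG'⟩⟩, hm⟩ := hS
  obtain ⟨⟨⟨F₁, hF₁, hF₁'⟩, ⟨G₁, hG₁, hG₁'⟩⟩, hm₁⟩ := hT
  refine ⟨⟨⟨F ∘ F₁, hF.comp hF₁, fun p => ?_⟩, ⟨G₁ ∘ G, hG₁.comp hG, fun p => ?_⟩⟩, hm.comp hm₁⟩
  · rw [Equiv.Perm.mul_apply, hF₁', hF']
    rfl
  · change T.symm (S.symm (proj p)) = _
    rw [hG', hG₁']
    rfl

/-- `T` is a homeomorphism, hence a measurable equivalence (`MeasurePreserving.symm`). -/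
theorem IsTD.inv {T : Equiv.Perm T3} (hT : IsTD T) : IsTD T⁻¹ := by
  obtain ⟨⟨⟨F, hF⟩, ⟨G, hG⟩⟩, hm⟩ := hT
  refine ⟨⟨⟨G, hG⟩, ⟨F, hF⟩⟩, ?_⟩
  let Hh : T3 ≃ₜ T3 :=
    { toEquiv := T
      continuous_toFun := lift_continuous hF
      continuous_invFun := lift_continuous hG }
  exact MeasurePreserving.symm Hh.toMeasurableEquiv hm

theorem IsTD.zpow {T : Equiv.Perm T3} (hT : IsTD T) (k : ℤ) : IsTD (T ^ k) := by
  induction k using Int.induction_on with
  | zero => exact IsTD.one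
  | succ n ih =>
    rw [zpow_add_one]
    exact ih.mul hT
  | pred n ih =>
    rw [zpow_sub_one]
    exact ih.mul hT.inv

theorem St.isTD (σ : St) : IsTD σ.T := (σ.hH.mul σ.hS).mul σ.hH.inv

/-- a pair of mutually inverse maps of `ℝ³` that respect the lattice descends to the torus -/
theorem exists_perm_of_lift (F G : V3 → V3) (hFG : ∀ p, F (G p) = p) (hGF : ∀ p, G (F p) = p)
    (hF : ∀ p z, proj (F (p + iv z)) = proj (F p)) (hG : ∀ p z, proj (G (p + iv z)) = proj (G p)) :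
    ∃ T : Equiv.Perm T3, (∀ p, T (proj p) = proj (F p)) ∧ ∀ p, T⁻¹ (proj p) = proj (G p) := by
  have key : ∀ (F : V3 → V3), (∀ p z, proj (F (p + iv z)) = proj (F p)) →
      ∀ p, proj (F fun i => rp (proj p i)) = proj (F p) := by
    intro F hF p
    obtain ⟨z, hz⟩ := (proj_eq_iff _ _).1 (proj_surj (proj p))
    rw [hz, hF]
  refine ⟨⟨fun q => proj (F fun i => rp (q i)), fun q => proj (G fun i => rp (q i)),
    fun q => ?_, fun q => ?_⟩, key F hF, key G hG⟩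
  · simp only
    rw [key G hG, hGF, proj_surj]
  · simp only
    rw [key F hF, hFG, proj_surj]

end Crest.Agent.R81
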