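import Crest.Agent.R81.FinC
import Crest.Agent.R81.TD0

/-!
# R81: soft end game, part D: the Koopman operator
-/

set_option autoImplicit false

namespace Crest.Agent.R81

open MeasureTheory Filter Topology Crest.AnalysisR.Torus3
open scoped InnerProductSpace ComplexConjugate

/-- `L²` of the torus -/
abbrev L3 : Type := Lp ℂ 2 (volume : Measure T3)

theorem comp_comp_inv {T : Equiv.Perm T3} (hT : IsTD T) (v : L3) :
    Lp.compMeasurePreserving T hT.2 (Lp.compMeasurePreserving ⇑T⁻¹ hT.inv.2 v) = v := by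
  refine Lp.ext ?_
  have h1 := Lp.coeFn_compMeasurePreserving (Lp.compMeasurePreserving ⇑T⁻¹ hT.inv.2 v) hT.2
  have h2 := hT.2.quasiMeasurePreserving.ae_eq_comp (Lp.coeFn_compMeasurePreserving v hT.inv.2)
  filter_upwards [h1, h2] with p e1 e2
  rw [e1, e2]
  simp

/-- the Koopman operator -/
noncomputable def koop {T : Equiv.Perm T3} (hT : IsTD T) : L3 ≃ₗᵢ[ℂ] L3 :=
  LinearIsometryEquiv.ofSurjective (Lp.compMeasurePreservingₗᵢ ℂ T hT.2)
    fun v => ⟨_, comp_comp_inv hT v⟩

theorem coeFn_koop {T : Equiv.Perm T3} (hT : IsTD T) (v : L3) :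
    koop hT v =ᵐ[volume] fun p => v (T p) :=
  Lp.coeFn_compMeasurePreserving v hT.2

theorem coeFn_koop_inv {T : Equiv.Perm T3} (hT : IsTD T) (v : L3) :
    (koop hT)⁻¹ v =ᵐ[volume] fun p => v (T⁻¹ p) := by
  have : (koop hT)⁻¹ v = Lp.compMeasurePreserving ⇑T⁻¹ hT.inv.2 v := by
    apply (koop hT).injective
    rw [LinearIsometryEquiv.inv_def, LinearIsometryEquiv.apply_symm_apply]
    exact (comp_comp_inv hT v).symm
  rw [this]
  exact Lp.coeFn_compMeasurePreserving v hT.inv.2

theorem coeFn_koop_zpow {T : Equiv.Perm T3} (hT : IsTD T) (k : ℤ) (v : L3) :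
    ((koop hT) ^ k) v =ᵐ[volume] fun p => v ((T ^ k) p) := by
  induction k using Int.induction_on generalizing v with
  | zero => simp
  | succ k ih =>
    have h1 := ih (koop hT v)
    have h2 := (hT.zpow k).2.quasiMeasurePreserving.ae_eq_comp (coeFn_koop hT v)
    rw [zpow_add_one, LinearIsometryEquiv.coe_mul, Function.comp_apply]
    filter_upwards [h1, h2] with p e1 e2
    rw [e1]
    simp only [Function.comp_apply] at e2
    rw [e2, add_comm, zpow_one_add, Equiv.Perm.mul_apply]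
  | pred k ih =>
    have h1 := ih ((koop hT)⁻¹ v)
    have h2 := (hT.zpow (-k)).2.quasiMeasurePreserving.ae_eq_comp (coeFn_koop_inv hT v)
    rw [zpow_sub_one, LinearIsometryEquiv.coe_mul, Function.comp_apply]
    filter_upwards [h1, h2] with p e1 e2
    rw [e1]
    simp only [Function.comp_apply] at e2
    rw [e2, sub_eq_add_neg, add_comm, zpow_add, Equiv.Perm.mul_apply, zpow_neg_one]

theorem coeFn_koop_toLp {T : Equiv.Perm T3} (hT : IsTD T) (k : ℤ) {v : T3 → ℂ}
    (hv : MemLp v 2 volume) :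
    ((koop hT) ^ k) (hv.toLp v) =ᵐ[volume] fun p => v ((T ^ k) p) :=
  (coeFn_koop_zpow hT k _).trans
    ((hT.zpow k).2.quasiMeasurePreserving.ae_eq_comp hv.coeFn_toLp)

theorem coeFn_flt {T : Equiv.Perm T3} (hT : IsTD T) (A : Finset ℤ) (a : ℤ → ℂ) {v : T3 → ℂ}
    (hv : MemLp v 2 volume) :
    ((∑ k ∈ A, a k • ((koop hT) ^ k) (hv.toLp v) : L3) : T3 → ℂ) =ᵐ[volume] flt T A a v := by
  classical
  induction A using Finset.induction_on with
  | empty =>
    simp only [Finset.sum_empty]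
    filter_upwards [Lp.coeFn_zero ℂ 2 (volume : Measure T3)] with p e
    rw [e]; simp [flt]
  | insert k A hk ih =>
    rw [Finset.sum_insert hk]
    filter_upwards [Lp.coeFn_add (a k • ((koop hT) ^ k) (hv.toLp v))
      (∑ k ∈ A, a k • ((koop hT) ^ k) (hv.toLp v)), ih,
      Lp.coeFn_smul (a k) (((koop hT) ^ k) (hv.toLp v)), coeFn_koop_toLp hT k hv]
      with p e1 e2 e3 e4
    rw [e1, Pi.add_apply, e2, e3, Pi.smul_apply, e4]
    simp [flt, Finset.sum_insert hk]

theorem norm_eq_n2 (w : L3) {v : T3 → ℂ} (h : (w : T3 → ℂ) =ᵐ[volume] v) : ‖w‖ = n2 v := by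
  rw [Lp.norm_def, eLpNorm_congr_ae h, n2, toReal_eLpNorm ((Lp.aestronglyMeasurable w).congr h)]

theorem inner_L3 (u w : L3) {a b : T3 → ℂ} (ha : (u : T3 → ℂ) =ᵐ[volume] a)
    (hb : (w : T3 → ℂ) =ᵐ[volume] b) : ⟪u, w⟫_ℂ = ∫ p, conj (a p) * b p := by
  rw [L2.inner_def]
  refine integral_congr_ae ?_
  filter_upwards [ha, hb] with p e1 e2
  rw [e1, e2, RCLike.inner_apply, mul_comm]

/-- the constant function one -/
noncomputable def one3 : L3 := (memLp_const (1 : ℂ)).toLp fun _ => (1 : ℂ)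

theorem coeFn_one3 : one3 =ᵐ[volume] fun _ => (1 : ℂ) := MemLp.coeFn_toLp _

theorem inner_one3 (w : L3) {b : T3 → ℂ} (hb : (w : T3 → ℂ) =ᵐ[volume] b) :
    ⟪one3, w⟫_ℂ = ∫ p, b p := by
  rw [inner_L3 one3 w coeFn_one3 hb]; simp

theorem memLp_cmap {E : Type} [NormedAddCommGroup E] (c : C(T3, E)) : MemLp c 2 volume :=
  MemLp.of_bound c.continuous.aestronglyMeasurable ‖c‖
    (Eventually.of_forall fun p => c.norm_coe_le_norm p)

/-- A closed subspace that contains all real continuous functions of mean zero contains all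
functions of mean zero. -/
theorem mem_of_mean_zero (K : Submodule ℂ L3) (hK : IsClosed (K : Set L3))
    (h : ∀ c : C(T3, ℝ), ∫ p, c p = 0 → ((memLp_cmap c).ofReal (K := ℂ)).toLp _ ∈ K)
    (v : L3) (hv : ⟪one3, v⟫_ℂ = 0) : v ∈ K := by
  let P : L3 →L[ℂ] L3 := ContinuousLinearMap.id ℂ L3 - (innerSL ℂ one3).smulRight one3
  have hP : ∀ w, P w = w - ⟪one3, w⟫_ℂ • one3 := fun w => by simp [P]
  have hreal : ∀ c : C(T3, ℝ), P (((memLp_cmap c).ofReal (K := ℂ)).toLp _) ∈ K := by
    intro c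
    have hci : Integrable c volume := (memLp_cmap c).integrable one_le_two
    have h0 := h (c - ContinuousMap.const _ (∫ p, c p)) (by
      simp only [ContinuousMap.sub_apply, ContinuousMap.const_apply]
      rw [integral_sub hci (integrable_const _)]; simp)
    convert h0 using 1
    rw [hP, inner_one3 _ (MemLp.coeFn_toLp _)]
    refine Lp.ext ?_
    filter_upwards [Lp.coeFn_sub (((memLp_cmap c).ofReal (K := ℂ)).toLp _)
      ((∫ p, ((c p : ℝ) : ℂ)) • one3), Lp.coeFn_smul (∫ p, ((c p : ℝ) : ℂ)) one3, coeFn_one3,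
      ((memLp_cmap c).ofReal (K := ℂ)).coeFn_toLp,
      ((memLp_cmap (c - ContinuousMap.const _ (∫ p, c p))).ofReal (K := ℂ)).coeFn_toLp]
      with p e1 e2 e3 e4 e5
    erw [e1, e5]
    rw [Pi.sub_apply, e2, e4, Pi.smul_apply, e3, integral_complex_ofReal]
    simp
  have hall : ∀ w, P w ∈ K := by
    intro w
    have hd := ContinuousMap.toLp_denseRange ℂ (volume : Measure T3) ℂ (p := 2) (by simp)
    refine hd.induction_on w (hK.preimage P.continuous) fun c => ?_
    let a : C(T3, ℝ) := ⟨fun p => (c p).re, by fun_prop⟩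
    let b : C(T3, ℝ) := ⟨fun p => (c p).im, by fun_prop⟩
    have : ContinuousMap.toLp 2 (volume : Measure T3) ℂ c
        = ((memLp_cmap a).ofReal (K := ℂ)).toLp _
          + Complex.I • ((memLp_cmap b).ofReal (K := ℂ)).toLp _ := by
      refine Lp.ext ?_
      filter_upwards [ContinuousMap.coeFn_toLp (p := 2) (μ := (volume : Measure T3)) (𝕜 := ℂ) c,
        Lp.coeFn_add (((memLp_cmap a).ofReal (K := ℂ)).toLp _)
          (Complex.I • ((memLp_cmap b).ofReal (K := ℂ)).toLp _),
        Lp.coeFn_smul Complex.I (((memLp_cmap b).ofReal (K := ℂ)).toLp _),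
        ((memLp_cmap a).ofReal (K := ℂ)).coeFn_toLp, ((memLp_cmap b).ofReal (K := ℂ)).coeFn_toLp]
        with p e1 e2 e3 e4 e5
      rw [e1, e2, Pi.add_apply, e3, e4, Pi.smul_apply, e5]
      simp only [a, b, ContinuousMap.coe_mk, smul_eq_mul]
      rw [mul_comm]
      exact (Complex.re_add_im _).symm
    rw [this, map_add, map_smul]
    exact K.add_mem (hreal a) (K.smul_mem _ (hreal b))
  have := hall v
  rwa [hP, hv, zero_smul, sub_zero] at this

end Crest.Agent.R81
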