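import Crest.Agent.R81.TD
import Crest.Agent.R81.Filt
import Crest.Agent.R81.FinD

/-!
# R81: the soft end game (owner: helper16)
-/

set_option autoImplicit false

namespace Crest.Agent.R81

open MeasureTheory Crest.AnalysisR.Torus3
open scoped InnerProductSpace ComplexConjugate

/-- von Neumann's inequality for the Koopman operator. -/
theorem opB {T : Equiv.Perm T3} (hT : IsTD T) (A : Finset ℤ) (a : ℤ → ℂ) (B : ℝ)
    (hB : ∀ θ, ‖tp A a θ‖ ≤ B) {v : T3 → ℂ} (hv : MemLp v 2 volume) :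
    n2 (flt T A a v) ≤ B * n2 v := by
  rw [← norm_eq_n2 _ (coeFn_flt hT A a hv), ← norm_eq_n2 _ hv.coeFn_toLp]
  exact opB_abs (koop hT) A a B hB _

/-- A real cyclic vector with a spectral density, and vectors with density close to `1`, give a real
function whose orbit is an orthonormal basis of the mean zero functions. -/
theorem final {T : Equiv.Perm T3} (hT : IsTD T) (f : C(T3, ℝ)) (hf0 : ∫ p, f p = 0)
    (cyc : ∀ h : C(T3, ℝ), ∫ p, h p = 0 → ∀ ε > 0, ∃ (A : Finset ℤ) (a : ℤ → ℂ),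
      n2 (fun p => flt T A a (fun q => (f q : ℂ)) p - (h p : ℂ)) ≤ ε)
    (s : Tc → ℝ) (hs : MemLp s 2 volume) (hD : HasD T (fun q => (f q : ℂ)) s)
    (hfull : ∀ ε > 0, ∃ (v : T3 → ℂ) (t : Tc → ℝ), MemLp v 2 volume ∧ ∫ p, v p = 0 ∧
      MemLp t 2 volume ∧ HasD T v t ∧ n2 (fun θ => t θ - 1) ≤ ε) :
    ∃ g : T3 → ℝ, MemLp g 2 volume ∧ ∫ x, g x = 0 ∧
      (∀ m n : ℤ, ∫ x, g ((T ^ m) x) * g ((T ^ n) x) = if m = n then 1 else 0) ∧
      (∀ h : T3 → ℂ, MemLp h 2 volume → ∫ x, h x = 0 →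
        (∀ n : ℤ, ∫ x, h x * (g ((T ^ n) x) : ℂ) = 0) → h =ᵐ[volume] 0) := by
  have hf2 : MemLp (fun q => (f q : ℂ)) 2 volume := (memLp_cmap f).ofReal (K := ℂ)
  set F : L3 := hf2.toLp _ with hF
  set U := koop hT with hU
  have hUF : ∀ k : ℤ, ((U ^ k) F : T3 → ℂ) =ᵐ[volume] fun p => (f ((T ^ k) p) : ℂ) := fun k =>
    coeFn_koop_toLp hT k hf2
  have hcomp : ∀ (k : ℤ) {φ : T3 → ℂ}, AEStronglyMeasurable φ volume →
      ∫ p, φ ((T ^ k) p) = ∫ p, φ p := by
    intro k φ hφ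
    have h1 := (hT.zpow k).2
    rw [← integral_map h1.measurable.aemeasurable (by rwa [h1.map_eq]), h1.map_eq]
  -- the cyclic subspace is the space of mean zero functions
  have hK1 : ∀ v ∈ csp (fun k : ℤ => (U ^ k) F), ⟪one3, v⟫_ℂ = 0 := fun v hv =>
    csp_inner_zero (fun k => by
      rw [inner_one3 _ (hUF k), hcomp k hf2.1, integral_complex_ofReal, hf0]; simp) hv
  have hK2 : ∀ v : L3, ⟪one3, v⟫_ℂ = 0 → v ∈ csp (fun k : ℤ => (U ^ k) F) := by
    refine mem_of_mean_zero _ (csp_closed _) fun c hc => ?_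
    refine (csp_closed _).closure_subset (Metric.mem_closure_iff.2 fun ε hε => ?_)
    obtain ⟨A, a, hA⟩ := cyc c hc (ε / 2) (half_pos hε)
    refine ⟨∑ k ∈ A, a k • (U ^ k) F,
      Submodule.sum_mem _ fun k _ => Submodule.smul_mem _ _ (mem_csp _ k), ?_⟩
    rw [dist_comm, dist_eq_norm]
    refine lt_of_le_of_lt (le_trans (le_of_eq (norm_eq_n2 _ ?_)) hA) (half_lt_self hε)
    filter_upwards [Lp.coeFn_sub (∑ k ∈ A, a k • (U ^ k) F)
      (((memLp_cmap c).ofReal (K := ℂ)).toLp _), coeFn_flt hT A a hf2,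
      ((memLp_cmap c).ofReal (K := ℂ)).coeFn_toLp] with p e1 e2 e3
    rw [e1, Pi.sub_apply, e2, e3]
    rfl
  have hD' : ∀ k : ℤ, ⟪F, (U ^ k) F⟫_ℂ = ∫ θ, fourier k θ * ((s θ : ℝ) : ℂ) ^ 2 := fun k => by
    rw [inner_L3 _ _ hf2.coeFn_toLp (hUF k), ← hD k]
  obtain ⟨g, hg, horth, hcomplete, hmom⟩ := soft_abs U F s hs hD' (fun ε hε => by
    obtain ⟨v, t, hv, hv0, ht, hvt, htn⟩ := hfull ε hε
    refine ⟨hv.toLp v, hK2 _ (by rw [inner_one3 _ hv.coeFn_toLp, hv0]), t, ht, fun k => ?_, htn⟩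
    rw [inner_L3 _ _ hv.coeFn_toLp (coeFn_koop_toLp hT k hv), ← hvt k])
  have hgm : MemLp (g : T3 → ℂ) 2 volume := Lp.memLp g
  have hgi : Integrable (g : T3 → ℂ) volume := hgm.integrable one_le_two
  have hg0 : ∫ p, (g : T3 → ℂ) p = 0 := by
    rw [← inner_one3 g (ae_eq_refl _)]; exact hK1 g hg
  -- `g` is real
  have hreal : ∀ k : ℤ, (⟪g, (U ^ k) F⟫_ℂ).im = 0 := fun k => by
    rw [hmom k]
    refine moments_abs_real s hs (fun j => ?_) k
    rw [← hD j]
    simp only [Complex.conj_ofReal, ← Complex.ofReal_mul, integral_complex_ofReal,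
      Complex.ofReal_im]
  have him : MemLp (fun p => (((g : T3 → ℂ) p).im : ℂ)) 2 volume := hgm.im.ofReal (K := ℂ)
  have him0 : him.toLp _ = 0 := by
    have h1 : him.toLp _ ∈ csp (fun k : ℤ => (U ^ k) F) := hK2 _ (by
      rw [inner_one3 _ him.coeFn_toLp, integral_complex_ofReal]
      have := integral_im hgi
      simp only [RCLike.im_to_complex] at this
      rw [this, hg0]; simp)
    have h2 : ∀ k : ℤ, ⟪him.toLp _, (U ^ k) F⟫_ℂ = 0 := fun k => by
      have h3 := hreal k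
      have h4 : Integrable (fun p => conj ((g : T3 → ℂ) p) * (f ((T ^ k) p) : ℂ)) volume := by
        have h5 := L2.integrable_inner (𝕜 := ℂ) g ((U ^ k) F)
        refine h5.congr ?_
        filter_upwards [hUF k] with p e
        rw [e, RCLike.inner_apply, mul_comm]
      rw [inner_L3 _ _ (ae_eq_refl _) (hUF k)] at h3
      have h6 := integral_im h4
      simp only [RCLike.im_to_complex] at h6
      rw [h3] at h6
      rw [inner_L3 _ _ him.coeFn_toLp (hUF k)]
      simp only [Complex.conj_ofReal, ← Complex.ofReal_mul, integral_complex_ofReal,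
        Complex.ofReal_eq_zero]
      rw [← neg_eq_zero, ← integral_neg, ← h6]
      refine integral_congr_ae (Filter.Eventually.of_forall fun p => ?_)
      simp
    exact inner_self_eq_zero.1 (csp_inner_zero h2 h1)
  have hge : (g : T3 → ℂ) =ᵐ[volume] fun p => ((((g : T3 → ℂ) p).re : ℝ) : ℂ) := by
    have h1 := him.coeFn_toLp
    rw [him0] at h1
    filter_upwards [h1, Lp.coeFn_zero ℂ 2 (volume : Measure T3)] with p e1 e2
    rw [e2, Pi.zero_apply, eq_comm, Complex.ofReal_eq_zero] at e1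
    exact Complex.ext (by simp) (by simp [e1])
  have hUg : ∀ k : ℤ, ((U ^ k) g : T3 → ℂ) =ᵐ[volume]
      fun p => ((((g : T3 → ℂ) ((T ^ k) p)).re : ℝ) : ℂ) := fun k =>
    (coeFn_koop_zpow hT k g).trans ((hT.zpow k).2.quasiMeasurePreserving.ae_eq_comp hge)
  refine ⟨fun p => ((g : T3 → ℂ) p).re, hgm.re, ?_, fun m n => ?_, fun h hh hh0 hn => ?_⟩
  · have := integral_re hgi
    simp only [RCLike.re_to_complex] at this
    rw [this, hg0]; simp
  · have h1 := horth m n
    rw [inner_L3 _ _ (hUg m) (hUg n)] at h1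
    simp only [Complex.conj_ofReal, ← Complex.ofReal_mul, integral_complex_ofReal] at h1
    apply Complex.ofReal_injective
    rw [h1]
    split_ifs <;> simp
  · have h1 := hcomplete (hh.toLp h) (hK2 _ (by rw [inner_one3 _ hh.coeFn_toLp, hh0])) fun n => by
      rw [inner_L3 _ _ (hUg n) hh.coeFn_toLp, ← hn n]
      simp only [Complex.conj_ofReal, mul_comm]
    have h2 := hh.coeFn_toLp
    rw [h1] at h2
    exact h2.symm.trans (Lp.coeFn_zero ℂ 2 (volume : Measure T3))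

end Crest.Agent.R81
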