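import Crest.Agent.R81.Link
import Crest.Agent.R81.Bump
import Crest.Agent.R81.Final

/-!
# R81: filters on the tower of a state
-/

set_option autoImplicit false

namespace Crest.Agent.R81

open MeasureTheory Crest.AnalysisR.Torus3 Filter Topology

/-- the filtered function in the ideal model (holonomy `x ↦ x + K y`) -/
noncomputable def idl (N K : ℕ) (Ms A : Finset ℤ) (a : ℤ → ℂ) (V G : ℤ → ℤ → ℂ) (i : ℤ)
    (z : Tc × Tc) : ℂ :=
  ∑ m ∈ Ms, (∑ k ∈ A, a k * V m ((i + k) % N) * fourier (m * K * ((i + k) / N)) z.2 - G m i)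
    * fourier m z.1

theorem idl_sq {ι : Type} (A : Finset ι) (e : ι → ℤ) (c : ι → ℂ) :
    ((∫ θ : Tc, ‖∑ a ∈ A, c a * fourier (e a) θ‖ ^ 2 : ℝ) : ℂ) =
      ∑ a ∈ A, ∑ b ∈ A, if e a = e b then (starRingEnd ℂ) (c a) * c b else 0 := by
  rw [← law_orth A A e e c c, ← integral_complex_ofReal]
  refine integral_congr_ae (Eventually.of_forall fun θ => ?_)
  simp only [Complex.conj_mul']
  norm_cast

theorem idl_abs {κ : Type} (N : ℕ) (μ : ℤ) (hμ : μ ≠ 0) (S : Finset κ) (c : ℤ → κ → ℂ)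
    (w : ℤ → κ → ℤ) :
    ∑ i ∈ Finset.Ico (0 : ℤ) N, ∫ y : Tc, ‖∑ s ∈ S, c i s * fourier (μ * w i s) y‖ ^ 2 =
      ∫ θ : Tc, ‖∑ i ∈ Finset.Ico (0 : ℤ) N, ∑ s ∈ S, c i s * fourier (N * w i s - i) θ‖ ^ 2 := by
  have h1 : ∀ θ : Tc, ∑ i ∈ Finset.Ico (0 : ℤ) N, ∑ s ∈ S, c i s * fourier (N * w i s - i) θ =
      ∑ z ∈ Finset.Ico (0 : ℤ) N ×ˢ S, c z.1 z.2 * fourier (N * w z.1 z.2 - z.1) θ := fun θ => by
    rw [Finset.sum_product]
  simp only [h1]
  apply Complex.ofReal_injective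
  rw [idl_sq _ (fun z : ℤ × κ => N * w z.1 z.2 - z.1) (fun z => c z.1 z.2), Complex.ofReal_sum,
    Finset.sum_product]
  refine Finset.sum_congr rfl fun i hi => ?_
  rw [idl_sq S (fun s => μ * w i s) (c i)]
  refine Finset.sum_congr rfl fun s _ => ?_
  rw [Finset.sum_product, Finset.sum_eq_single i]
  · refine Finset.sum_congr rfl fun t _ => ?_
    have hN : (N : ℤ) ≠ 0 := by
      have := Finset.mem_Ico.1 hi
      omega
    have e : (μ * w i s = μ * w i t) ↔ ((N : ℤ) * w i s - i = N * w i t - i) := by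
      rw [sub_left_inj, mul_right_inj' hμ, mul_right_inj' hN]
    simp only [e]
  · intro j hj hji
    refine Finset.sum_eq_zero fun t _ => if_neg fun h => hji ?_
    obtain ⟨a1, a2⟩ := Finset.mem_Ico.1 hi
    obtain ⟨b1, b2⟩ := Finset.mem_Ico.1 hj
    have h2 : j = i + N * (w j t - w i s) := by
      simp only at h
      linear_combination h
    have h3 : j % N = i % N := by rw [h2, Int.add_mul_emod_self_left]
    rwa [Int.emod_eq_of_lt b1 b2, Int.emod_eq_of_lt a1 a2] at h3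
  · intro h
    exact absurd hi h

theorem idl_shift (N : ℕ) (hN : 0 < N) (k : ℤ) (F : ℤ → ℂ) :
    ∑ i ∈ Finset.Ico (0 : ℤ) N, F ((i + k) % N) = ∑ j ∈ Finset.Ico (0 : ℤ) N, F j := by
  have hN' : (0 : ℤ) < N := by exact_mod_cast hN
  refine Finset.sum_nbij' (fun i => (i + k) % N) (fun j => (j - k) % N) ?_ ?_ ?_ ?_ ?_
  · intro i _
    exact Finset.mem_Ico.2 ⟨Int.emod_nonneg _ hN'.ne', Int.emod_lt_of_pos _ hN'⟩
  · intro i _
    exact Finset.mem_Ico.2 ⟨Int.emod_nonneg _ hN'.ne', Int.emod_lt_of_pos _ hN'⟩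
  · intro i hi
    obtain ⟨a1, a2⟩ := Finset.mem_Ico.1 hi
    rw [Int.emod_sub_emod, add_sub_cancel_right, Int.emod_eq_of_lt a1 a2]
  · intro i hi
    obtain ⟨a1, a2⟩ := Finset.mem_Ico.1 hi
    rw [Int.emod_add_emod, sub_add_cancel, Int.emod_eq_of_lt a1 a2]
  · intro i _
    rfl

/-- One component.  Let `c n = ∑_{k ∈ A, n+k ∈ [0,N)} a k v (n+k) - [n ∈ [0,N)] g n`, finitely supported.
`√N (tp A a θ · FT N v θ - FT N g θ) = ∑_n c n fourier (-n) θ`, so the right side is `N⁻¹ ∑_n |c n|²`.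
On the left, grouping by `w = (i+k)/N`, the integrand is `‖∑_w c (i - w N) fourier (μ w) y‖²`, with integral
`∑_w |c (i - w N)|²` (`parseval_inj`, `μ ≠ 0`); `(i,w) ↦ i - w N` is a bijection `[0,N) × ℤ → ℤ`.
(Alternative without regrouping: expand both sides into correlations `∑_{k,k'}` with `integral_fourier`.) -/
theorem ideal1 (N : ℕ) (hN : 0 < N) (μ : ℤ) (hμ : μ ≠ 0) (A : Finset ℤ) (a v g : ℤ → ℂ) :
    (∑ i ∈ Finset.Ico (0 : ℤ) N,
        ∫ y : Tc, ‖∑ k ∈ A, a k * v ((i + k) % N) * fourier (μ * ((i + k) / N)) y - g i‖ ^ 2) / N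
      = ∫ θ : Tc, ‖tp A a θ * FT N v θ - FT N g θ‖ ^ 2 := by
  have hN' : (0 : ℝ) < N := by exact_mod_cast hN
  have h := idl_abs N μ hμ (Finset.insertNone A)
    (fun i s => s.elim (-g i) fun k => a k * v ((i + k) % N))
    (fun i s => s.elim 0 fun k => (i + k) / N)
  simp only [Finset.sum_insertNone, Option.elim, mul_zero, fourier_zero, mul_one, zero_sub] at h
  have h1 : ∀ (i : ℤ) (y : Tc),
      ∑ k ∈ A, a k * v ((i + k) % N) * fourier (μ * ((i + k) / N)) y - g i =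
      -g i + ∑ k ∈ A, a k * v ((i + k) % N) * fourier (μ * ((i + k) / N)) y := fun i y => by ring
  simp only [h1]
  rw [h, ← integral_div]
  refine integral_congr_ae (Eventually.of_forall fun θ => ?_)
  have h2 : ∑ i ∈ Finset.Ico (0 : ℤ) N, (-g i * fourier (-i) θ +
      ∑ k ∈ A, a k * v ((i + k) % N) * fourier (N * ((i + k) / N) - i) θ) =
      tp A a θ * (∑ i ∈ Finset.Ico (0 : ℤ) N, v i * fourier (-i) θ) -
        ∑ i ∈ Finset.Ico (0 : ℤ) N, g i * fourier (-i) θ := by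
    rw [Finset.sum_add_distrib, Finset.sum_comm, tp, Finset.sum_mul]
    have h3 : ∀ k ∈ A, ∑ i ∈ Finset.Ico (0 : ℤ) N,
        a k * v ((i + k) % N) * fourier (N * ((i + k) / N) - i) θ =
        a k * fourier k θ * ∑ i ∈ Finset.Ico (0 : ℤ) N, v i * fourier (-i) θ := fun k _ => by
      rw [← idl_shift N hN k (fun i => v i * fourier (-i) θ), Finset.mul_sum]
      refine Finset.sum_congr rfl fun i _ => ?_
      have e : (N : ℤ) * ((i + k) / N) - i = k + -((i + k) % N) := by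
        rw [Int.emod_def]; ring
      rw [e, fourier_add]
      ring
    rw [Finset.sum_congr rfl h3]
    simp only [neg_mul, Finset.sum_neg_distrib]
    ring
  simp only [h2]
  have h4 : tp A a θ * FT N v θ - FT N g θ = (((Real.sqrt N)⁻¹ : ℝ) : ℂ) *
      (tp A a θ * (∑ i ∈ Finset.Ico (0 : ℤ) N, v i * fourier (-i) θ) -
        ∑ i ∈ Finset.Ico (0 : ℤ) N, g i * fourier (-i) θ) := by
    unfold FT
    ring
  rw [h4, norm_mul, mul_pow, Complex.norm_real, Real.norm_eq_abs, sq_abs, inv_pow,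
    Real.sq_sqrt hN'.le, div_eq_inv_mul]

theorem cont_idl (N K : ℕ) (Ms A : Finset ℤ) (a : ℤ → ℂ) (V G : ℤ → ℤ → ℂ) (i : ℤ) :
    Continuous (idl N K Ms A a V G i) := by
  unfold idl
  fun_prop

/-- Fubini, Parseval in the first variable (`parseval_inj`), then `ideal1`. -/
theorem ideal (N K : ℕ) (hN : 0 < N) (hK : 0 < K) (Ms : Finset ℤ) (h0 : 0 ∉ Ms) (A : Finset ℤ)
    (a : ℤ → ℂ) (V G : ℤ → ℤ → ℂ) :
    (∑ i ∈ Finset.Ico (0 : ℤ) N, ∫ z, ‖idl N K Ms A a V G i z‖ ^ 2) / N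
      = ∫ θ : Tc, ∑ m ∈ Ms, ‖tp A a θ * FT N (V m) θ - FT N (G m) θ‖ ^ 2 := by
  have h1 : ∀ i, ∫ z, ‖idl N K Ms A a V G i z‖ ^ 2 = ∑ m ∈ Ms, ∫ y : Tc,
      ‖∑ k ∈ A, a k * V m ((i + k) % N) * fourier (m * K * ((i + k) / N)) y - G m i‖ ^ 2 := by
    intro i
    have hc : Continuous fun z => ‖idl N K Ms A a V G i z‖ ^ 2 :=
      (cont_idl N K Ms A a V G i).norm.pow 2
    have hi : Integrable (fun z => ‖idl N K Ms A a V G i z‖ ^ 2)
        ((volume : Measure Tc).prod volume) := by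
      rw [← Measure.volume_eq_prod]
      exact hc.integrable_of_hasCompactSupport (HasCompactSupport.of_compactSpace _)
    rw [Measure.volume_eq_prod, integral_prod_symm _ hi,
      ← integral_finsetSum _ fun m _ => f1_integrable_cont (by fun_prop)]
    refine integral_congr_ae (Eventually.of_forall fun y => ?_)
    exact parseval_inj Ms id (Set.injOn_id _) fun m =>
      ∑ k ∈ A, a k * V m ((i + k) % N) * fourier (m * K * ((i + k) / N)) y - G m i
  simp only [h1]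
  rw [Finset.sum_comm, Finset.sum_div,
    integral_finsetSum _ fun m _ => f1_integrable_cont (by fun_prop)]
  refine Finset.sum_congr rfl fun m hm => ?_
  refine ideal1 N hN (m * K) (mul_ne_zero ?_ ?_) A a (V m) (G m)
  · rintro rfl
    exact h0 hm
  · exact_mod_cast hK.ne'

theorem idl_hol (σ : St) {y : Tc} (hy : σ.δ < ‖y‖) (m w : ℤ) :
    fourier m ((deriv σ.Ψ (rp y) * (w : ℤ) : ℝ) : Tc) = fourier (m * σ.K * w) y := by
  have h1 : σ.δ < ‖((rp y : ℝ) : Tc)‖ := by rwa [coe_rp]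
  rw [UnitAddCircle.norm_eq, abs_sub_round_eq_min,
    Int.fract_eq_self.2 ⟨rp_nonneg y, rp_lt_one y⟩] at h1
  have h2 := σ.hΨ.deriv_eq (h1.trans_le (min_le_left _ _))
    (by linarith [h1.trans_le (min_le_right _ _)])
  obtain ⟨r, hr⟩ := σ.hκe
  conv_rhs => rw [← coe_rp y]
  rw [fourier_coe, fourier_coe, h2, ← ee_add_int _ (m * w * (8 * r ^ 4))]
  congr 1
  simp only [St.K, hr]
  push_cast
  ring

theorem idl_eq (σ : St) (Ms A : Finset ℤ) (a : ℤ → ℂ) (V G : ℤ → ℤ → ℂ) (p : T3)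
    (hy : σ.δ < ‖(σ.H⁻¹ p) 1‖) :
    flt σ.T A a (σ.vec (ev Ms V)) p - σ.vec (ev Ms G) p =
      idl σ.N σ.K Ms A a V G (σ.pos (σ.H⁻¹ p)) (σ.xc (σ.H⁻¹ p), (σ.H⁻¹ p) 1) := by
  unfold flt idl St.vec ev
  simp only [sub_mul, Finset.sum_sub_distrib, Finset.sum_mul, Finset.mul_sum]
  rw [Finset.sum_comm]
  congr 1
  refine Finset.sum_congr rfl fun m _ => Finset.sum_congr rfl fun k _ => ?_
  obtain ⟨d1, -, d3⟩ := σ.dyn k (σ.H⁻¹ p)
  rw [σ.T_zpow, d1, d3, fourier_add_pt, idl_hol σ hy]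
  ring

/-- Let `Z = {y | ‖y‖ ≤ δ}` (volume `≤ 2δ`, `AddCircle.volume_closedBall`), `q = H⁻¹ p`.  If `q 1 ∉ Z` then
`δ < rp (q 1) < 1 - δ`, `Ψ' (rp (q 1)) = K (rp (q 1) - 1/2)` (`Prof.deriv_eq`), `K/2 ∈ ℤ`, so by `T_zpow`, `dyn`
the function equals `idl … (pos q) (xc q, q 1)`, whose norm is computed by `lawH` and `ideal`.
On `Z`: `1_Z (q 1)` is `T`-invariant (`dyn`), so the function is `flt T A a (1_Z vec V) - 1_Z vec G`; use `opB`
and `n2_vec_indicator`. -/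
theorem St.flt_le (σ : St) (Ms : Finset ℤ) (h0 : 0 ∉ Ms) (A : Finset ℤ) (a : ℤ → ℂ) (B : ℝ)
    (hB : ∀ θ, ‖tp A a θ‖ ≤ B) (V G : ℤ → ℤ → ℂ) :
    n2 (fun p => flt σ.T A a (σ.vec (ev Ms V)) p - σ.vec (ev Ms G) p) ≤
      n2 (fun θ => Real.sqrt (∑ m ∈ Ms, ‖tp A a θ * FT σ.N (V m) θ - FT σ.N (G m) θ‖ ^ 2))
        + Real.sqrt (2 * σ.δ) * (B * tn σ.N Ms V + tn σ.N Ms G) := by
  have hB0 : 0 ≤ B := (norm_nonneg _).trans (hB 0)
  have hδ := σ.hδ
  set Z : Set Tc := Metric.closedBall 0 σ.δ with hZdef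
  have hZ : MeasurableSet Z := Metric.isClosed_closedBall.measurableSet
  have hv : volume Z ≤ ENNReal.ofReal (2 * σ.δ) := by
    rw [hZdef, AddCircle.volume_closedBall]
    exact ENNReal.ofReal_le_ofReal (min_le_right _ _)
  have hmH : Measurable ⇑σ.H⁻¹ := σ.hH.inv.2.measurable
  have hZ' : MeasurableSet ((fun p => (σ.H⁻¹ p) 1) ⁻¹' Z) :=
    ((measurable_pi_apply 1).comp hmH) hZ
  have hmem : ∀ X : ℤ → ℤ → ℂ, MemLp
      (fun p => Z.indicator (fun _ => σ.vec (ev Ms X) p) ((σ.H⁻¹ p) 1)) 2 volume := fun X =>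
    (σ.memLp_vec_ev Ms X).indicator hZ'
  set U : T3 → ℂ := fun p => Z.indicator (fun _ => σ.vec (ev Ms V) p) ((σ.H⁻¹ p) 1) with hU
  set W : T3 → ℂ := fun p => Z.indicator (fun _ => σ.vec (ev Ms G) p) ((σ.H⁻¹ p) 1) with hW
  have hUm : MemLp U 2 volume := hmem V
  have hWm : MemLp W 2 volume := hmem G
  have hFm : MemLp (flt σ.T A a U) 2 volume :=
    (Lp.memLp _).ae_eq (coeFn_flt σ.isTD A a hUm)
  have hU1 : ∀ (k : ℤ) (p : T3), U ((σ.T ^ k) p) =
      Z.indicator (fun _ => σ.vec (ev Ms V) ((σ.T ^ k) p)) ((σ.H⁻¹ p) 1) := fun k p => by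
    simp only [hU]
    rw [σ.T_zpow, (σ.dyn k (σ.H⁻¹ p)).2.1]
  set I : T3 → ℝ := fun p =>
    ‖idl σ.N σ.K Ms A a V G (σ.pos (σ.H⁻¹ p)) (σ.xc (σ.H⁻¹ p), (σ.H⁻¹ p) 1)‖ with hI
  have hbd : ∀ i, ∃ C : ℝ, ∀ z, ‖idl σ.N σ.K Ms A a V G i z‖ ≤ C := fun i => by
    obtain ⟨C, hC⟩ := (isCompact_univ.image (cont_idl σ.N σ.K Ms A a V G i).norm).bddAbove
    exact ⟨C, fun z => hC ⟨z, Set.mem_univ _, rfl⟩⟩
  have hIme : Measurable I := by
    have h1 : Measurable fun z : (Tc × Tc) × ℤ => idl σ.N σ.K Ms A a V G z.2 z.1 :=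
      measurable_from_prod_countable_left fun i => (cont_idl σ.N σ.K Ms A a V G i).measurable
    exact (h1.comp (((σ.measurable_xc.comp hmH).prodMk
      ((measurable_pi_apply 1).comp hmH)).prodMk (σ.measurable_pos.comp hmH))).norm
  have hIm : MemLp I 2 volume := by
    choose C hC using hbd
    refine MemLp.of_bound hIme.aestronglyMeasurable (∑ i ∈ Finset.Ico (0 : ℤ) σ.N, |C i|)
      (ae_of_all _ fun p => ?_)
    rw [hI, norm_norm]
    exact ((hC _ _).trans (le_abs_self _)).trans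
      (Finset.single_le_sum (f := fun i => |C i|) (fun _ _ => abs_nonneg _) (σ.pos_mem _))
  have hI2 : n2 I = n2 (fun θ => Real.sqrt
      (∑ m ∈ Ms, ‖tp A a θ * FT σ.N (V m) θ - FT σ.N (G m) θ‖ ^ 2)) := by
    rw [n2_eq_sqrt hIme.aestronglyMeasurable,
      n2_eq_sqrt (Continuous.aestronglyMeasurable (by fun_prop))]
    congr 1
    have hK : 0 < σ.K := by
      have := σ.hκ
      unfold St.K
      positivity
    have h1 := σ.lawH (fun i z => ‖idl σ.N σ.K Ms A a V G i z‖ ^ 2)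
      (fun i => ((cont_idl σ.N σ.K Ms A a V G i).norm.pow 2).stronglyMeasurable)
      (fun i => by
        obtain ⟨C, hC⟩ := hbd i
        refine ⟨C ^ 2, fun z => ?_⟩
        rw [Real.norm_of_nonneg (sq_nonneg _)]
        exact pow_le_pow_left₀ (norm_nonneg _) (hC z) 2)
    simp only [hI, norm_norm]
    rw [h1, smul_eq_mul, ← div_eq_inv_mul, ideal σ.N σ.K σ.hN hK Ms h0]
    refine integral_congr_ae (Eventually.of_forall fun θ => ?_)
    simp only [Real.norm_eq_abs, sq_abs]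
    rw [Real.sq_sqrt (Finset.sum_nonneg fun _ _ => sq_nonneg _)]
  have e : (fun p => flt σ.T A a (σ.vec (ev Ms V)) p - σ.vec (ev Ms G) p) = fun p =>
      (flt σ.T A a U p - W p) +
        (flt σ.T A a (σ.vec (ev Ms V)) p - σ.vec (ev Ms G) p - (flt σ.T A a U p - W p)) := by
    funext p
    ring
  have k1 : n2 (fun p => flt σ.T A a (σ.vec (ev Ms V)) p - σ.vec (ev Ms G) p
      - (flt σ.T A a U p - W p)) ≤ n2 I := by
    refine n2_mono hIm fun p => ?_
    by_cases hp : (σ.H⁻¹ p) 1 ∈ Z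
    · have : flt σ.T A a U p = flt σ.T A a (σ.vec (ev Ms V)) p := by
        unfold flt
        refine Finset.sum_congr rfl fun k _ => ?_
        rw [hU1, Set.indicator_of_mem hp]
      rw [this]
      simp only [hW, Set.indicator_of_mem hp, sub_self, norm_zero]
      exact norm_nonneg _
    · have : flt σ.T A a U p = 0 := by
        unfold flt
        refine Finset.sum_eq_zero fun k _ => ?_
        rw [hU1, Set.indicator_of_notMem hp, mul_zero]
      rw [this]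
      simp only [hW, Set.indicator_of_notMem hp, sub_zero]
      rw [idl_eq σ Ms A a V G p (by simpa [hZdef] using hp)]
  have k2 : n2 (fun p => flt σ.T A a U p - W p) ≤ B * n2 U + n2 W := by
    have h1 := n2_sub_le (f := flt σ.T A a U) (g := fun _ => 0) (h := W) hFm (memLp_const 0)
    rw [n2_sub_comm (fun _ => 0) W] at h1
    simp only [sub_zero] at h1
    have h2 := opB σ.isTD A a B hB hUm
    have e1 : (fun x => flt σ.T A a U x) = flt σ.T A a U := rfl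
    have e2 : (fun x => W x) = W := rfl
    rw [e1, e2] at h1
    linarith
  have k3 : n2 U ≤ Real.sqrt (2 * σ.δ) * tn σ.N Ms V :=
    σ.n2_vec_indicator Ms V hZ (by positivity) hv
  have k4 : n2 W ≤ Real.sqrt (2 * σ.δ) * tn σ.N Ms G :=
    σ.n2_vec_indicator Ms G hZ (by positivity) hv
  rw [e, ← hI2]
  refine (n2_add_le (f := fun p => flt σ.T A a U p - W p) (hFm.sub hWm)).trans ?_
  have k5 := mul_le_mul_of_nonneg_left k3 hB0
  nlinarith

end Crest.Agent.R81
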