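import Crest.Agent.R81.Coef
import Crest.Agent.R81.Ideal
import Crest.Agent.R81.Filt

/-!
# R81: approximate cyclicity at a level; approximation by tower polynomials
-/

set_option autoImplicit false

namespace Crest.Agent.R81

open MeasureTheory Crest.AnalysisR.Torus3 Filter Topology

theorem memLp_flt {T : Equiv.Perm T3} (hT : IsTD T) (A : Finset ℤ) (a : ℤ → ℂ) {v : T3 → ℂ}
    (hv : MemLp v 2 volume) : MemLp (flt T A a v) 2 volume :=
  memLp_finsetSum A fun k _ => (hv.comp_measurePreserving (hT.zpow k).2).const_mul (a k)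

theorem cfil_memLp (f : C(T3, ℝ)) : MemLp (fun p => (f p : ℂ)) 2 volume :=
  memLp_cont3 (by fun_prop)

theorem cfil_tn (σ : St) (Ms : Finset ℤ) (G : ℤ → ℤ → ℂ) (f : C(T3, ℝ)) {d : ℝ}
    (h : n2 (fun p => (f p : ℂ) - σ.vec (ev Ms G) p) ≤ d) : tn σ.N Ms G ≤ ‖f‖ + d := by
  have h1 := n2_sub_le (f := σ.vec (ev Ms G)) (g := fun p => (f p : ℂ)) (h := fun _ => 0)
    (σ.memLp_vec_ev Ms G) (cfil_memLp f)
  have h2 : n2 (fun p => (f p : ℂ)) ≤ ‖f‖ :=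
    n2_le_bound (fun p => by simpa using f.norm_coe_le_norm p) (norm_nonneg _)
  rw [n2_sub_comm (σ.vec (ev Ms G)) (fun p => (f p : ℂ))] at h1
  simp only [sub_zero] at h1
  have h3 : n2 (fun p => σ.vec (ev Ms G) p) = tn σ.N Ms G := σ.n2_vec_ev Ms G
  linarith

theorem cfil_norm_integral_le {u : T3 → ℂ} (hu : MemLp u 2 volume) : ‖∫ p, u p‖ ≤ n2 u := by
  refine (norm_integral_le_integral_norm _).trans ?_
  rw [← lpNorm_one_eq_integral_norm hu.1, ← toReal_eLpNorm hu.1, n2, ← toReal_eLpNorm hu.1]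
  exact ENNReal.toReal_mono hu.2.ne (eLpNorm_le_eLpNorm_of_exponent_le (by norm_num) hu.1)

theorem cfil_nat {H β : ℝ} (hH : 0 ≤ H) (hβ : 0 < β) :
    ∃ n : ℕ, 0 < n ∧ 2 * (H + 2) / Real.sqrt n + 1 / n ≤ β / 2 := by
  obtain ⟨m, hm⟩ := exists_nat_ge (2 * (2 * H + 5) / β + 1)
  have h0 : 0 ≤ 2 * (2 * H + 5) / β := by positivity
  have h1 : (1 : ℝ) ≤ m := by linarith
  have h2 : 0 < m := by exact_mod_cast (zero_lt_one.trans_le h1)
  refine ⟨m ^ 2, by positivity, ?_⟩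
  push_cast
  rw [Real.sqrt_sq (by linarith)]
  have h3 : 1 / (m : ℝ) ^ 2 ≤ 1 / m := by
    gcongr
    nlinarith
  have h4 : (2 * H + 5) / m ≤ β / 2 := by
    rw [div_le_iff₀ (by linarith)]
    have : 2 * (2 * H + 5) / β ≤ m := by linarith
    rw [div_le_iff₀ hβ] at this
    linarith
  have h5 : (2 * H + 5) / m = 2 * (H + 2) / m + 1 / m := by ring
  linarith

/-- `c0 = β/(2(‖h‖+1))`, `n` with `2 (‖h‖+2)/√n + 1/n ≤ β/2`, `B = 3n²/c0`, `γ0 ≤ 1` small.  With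
`V = Gf + c Gh`: `vec (ev V) = vec (ev Gf) + c vec (ev Gh)`, `tn Gh ≤ ‖h‖ + γ0`,
`tn V ≤ ‖f‖ + γ0 + 2 c0 (‖h‖ + γ0)` (`n2_vec_ev`), `√(2δ) ≤ ql ≤ γ0`;
`flt (f + c h) - h = flt (f + c h - vec V) + (flt (vec V) - vec Gh) + (vec Gh - h)`; `opB`, `St.flt_le`,
`exists_coef` (`Sep.disj`). -/
theorem cfil (f h : C(T3, ℝ)) {β : ℝ} (hβ : 0 < β) :
    ∃ γ0 > 0, ∀ L : Lv, L.ql ≤ γ0 → ∀ Gf Gh : ℤ → ℤ → ℂ,
      Main L.N L.Ms L.C Gf γ0 → Main L.N L.Ms L.C Gh γ0 →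
      n2 (fun p => (f p : ℂ) - L.vec (ev L.Ms Gf) p) ≤ γ0 →
      n2 (fun p => (h p : ℂ) - L.vec (ev L.Ms Gh) p) ≤ γ0 →
      ∃ (c : ℝ) (A : Finset ℤ) (a : ℤ → ℂ), |c| * ‖h‖ ≤ β ∧
        n2 (fun p => flt L.T A a (fun q => ((f + c • h) q : ℂ)) p - (h p : ℂ)) ≤ β := by
  have hF := norm_nonneg f
  have hH := norm_nonneg h
  obtain ⟨n, hn, hnβ⟩ := cfil_nat hH hβ
  obtain ⟨c0, hc0d⟩ : ∃ c0, c0 = β / (2 * (‖h‖ + 1)) := ⟨_, rfl⟩
  have hc0 : 0 < c0 := by rw [hc0d]; positivity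
  have hc0β : 2 * c0 * ‖h‖ ≤ β := by
    have : 2 * c0 * (‖h‖ + 1) = β := by rw [hc0d]; field_simp
    nlinarith
  obtain ⟨B, hB⟩ : ∃ B : ℝ, B = 3 * n ^ 2 / c0 := ⟨_, rfl⟩
  have hB0 : 0 ≤ B := by rw [hB]; positivity
  obtain ⟨K, hK⟩ : ∃ K : ℝ, K = B * (1 + 2 * c0) + 2 * (B * (1 + 2 * c0) + 1) +
    (B * (‖f‖ + β + (1 + 2 * c0)) + (‖h‖ + 1)) + 1 := ⟨_, rfl⟩
  have hK0 : 0 < K := by rw [hK]; positivity
  refine ⟨min 1 (β / (2 * K)), lt_min one_pos (by positivity), fun L hL Gf Gh hGf hGh hf hh => ?_⟩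
  have hγ1 : min 1 (β / (2 * K)) ≤ 1 := min_le_left _ _
  have hγK : min 1 (β / (2 * K)) * K ≤ β / 2 := by
    calc _ ≤ β / (2 * K) * K := by gcongr; exact min_le_right _ _
      _ = β / 2 := by field_simp
  have hγ0 := hGf.nonneg
  generalize min 1 (β / (2 * K)) = γ at *
  obtain ⟨c, A, a, h1, h2, h3, h4⟩ :=
    exists_coef L.N L.Ms L.C (L.hsep.disj L.hr) Gf Gh γ hGf hGh c0 hc0 n hn
  rw [← hB] at h3 h4
  have hc : 0 ≤ c := hc0.le.trans h1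
  have hcβ : |c| * ‖h‖ ≤ β := by
    rw [abs_of_nonneg hc]
    nlinarith
  refine ⟨c, A, a, hcβ, ?_⟩
  set V : ℤ → ℤ → ℂ := fun m i => Gf m i + c * Gh m i with hV
  have hVe : ∀ p, L.vec (ev L.Ms V) p = L.vec (ev L.Ms Gf) p + c * L.vec (ev L.Ms Gh) p := fun p => by
    simp only [St.vec, ev, hV, add_mul, Finset.sum_add_distrib, Finset.mul_sum, mul_assoc]
  have k1 : n2 (fun p => ((f + c • h) p : ℂ) - L.vec (ev L.Ms V) p) ≤ (1 + 2 * c0) * γ := by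
    have e : (fun p => ((f + c • h) p : ℂ) - L.vec (ev L.Ms V) p) = fun p =>
        ((f p : ℂ) - L.vec (ev L.Ms Gf) p) + c * ((h p : ℂ) - L.vec (ev L.Ms Gh) p) := by
      funext p
      rw [hVe]
      simp only [ContinuousMap.add_apply, ContinuousMap.smul_apply, smul_eq_mul]
      push_cast
      ring
    rw [e]
    refine (n2_add_le (f := fun p => (f p : ℂ) - L.vec (ev L.Ms Gf) p)
      ((cfil_memLp f).sub (L.memLp_vec_ev _ _))).trans ?_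
    rw [n2_const_mul', Complex.norm_real, Real.norm_of_nonneg hc]
    have := mul_le_mul h2 hh (n2_nonneg _) (by positivity)
    linarith
  have k2 : tn L.N L.Ms V ≤ ‖f‖ + β + (1 + 2 * c0) := by
    have a1 := cfil_tn L.toSt L.Ms V (f + c • h) k1
    have a2 := norm_add_le f (c • h)
    rw [norm_smul, Real.norm_eq_abs] at a2
    have a3 : (1 + 2 * c0) * γ ≤ (1 + 2 * c0) * 1 := by gcongr
    linarith
  have k3 : tn L.N L.Ms Gh ≤ ‖h‖ + γ := cfil_tn L.toSt L.Ms Gh h hh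
  have k4 : n2 (fun p => flt L.T A a (fun q => ((f + c • h) q : ℂ)) p -
      flt L.T A a (L.vec (ev L.Ms V)) p) ≤ B * ((1 + 2 * c0) * γ) := by
    have e : (fun p => flt L.T A a (fun q => ((f + c • h) q : ℂ)) p -
        flt L.T A a (L.vec (ev L.Ms V)) p) =
        flt L.T A a (fun q => ((f + c • h) q : ℂ) - L.vec (ev L.Ms V) q) := by
      funext p
      simp only [flt, mul_sub, Finset.sum_sub_distrib]
    rw [e]
    refine (opB L.isTD A a B h3 ((cfil_memLp _).sub (L.memLp_vec_ev _ _))).trans ?_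
    gcongr
    exact k1
  have k5 := L.flt_le L.Ms L.h0 A a B h3 V Gh
  have k6 : Real.sqrt (2 * L.δ) * (B * tn L.N L.Ms V + tn L.N L.Ms Gh) ≤
      γ * (B * (‖f‖ + β + (1 + 2 * c0)) + (‖h‖ + 1)) := by
    have a1 : Real.sqrt (2 * L.δ) ≤ γ := by
      have : (0 : ℝ) ≤ 4 / L.κ := by positivity
      unfold St.ql at hL
      linarith
    have := tn_nonneg L.N L.Ms V
    have := tn_nonneg L.N L.Ms Gh
    gcongr
    linarith
  have k7 : 2 * (tn L.N L.Ms Gh + γ) / Real.sqrt n ≤ 2 * (‖h‖ + 2) / Real.sqrt n :=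
    div_le_div_of_nonneg_right (by linarith) (Real.sqrt_nonneg _)
  have m1 := memLp_flt L.isTD A a (cfil_memLp (f + c • h))
  have m2 := memLp_flt L.isTD A a (L.memLp_vec_ev L.Ms V)
  have t1 := n2_sub_le (h := fun p => (h p : ℂ)) m1 m2
  have t2 := n2_sub_le (h := fun p => (h p : ℂ)) m2 (L.memLp_vec_ev L.Ms Gh)
  rw [n2_sub_comm (L.vec (ev L.Ms Gh)) (fun p => (h p : ℂ))] at t2
  have e : γ * K = B * ((1 + 2 * c0) * γ) + 2 * (B * (1 + 2 * c0) + 1) * γ +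
      γ * (B * (‖f‖ + β + (1 + 2 * c0)) + (‖h‖ + 1)) + γ := by rw [hK]; ring
  linarith

/-- uniform continuity of `f ∘ σ.H` on the compact torus -/
theorem exists_modulus (σ : St) (f : C(T3, ℝ)) {ω : ℝ} (hω : 0 < ω) :
    ∃ η > 0, ∀ q q', dist q q' ≤ η → |f (σ.H q) - f (σ.H q')| ≤ ω := by
  have hc : Continuous fun q => f (σ.H q) := f.continuous.comp σ.hH.continuous
  obtain ⟨η, hη, h⟩ := Metric.uniformContinuous_iff_le.1
    (CompactSpace.uniformContinuous_of_continuous hc) ω hω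
  exact ⟨η, hη, fun q q' hq => by simpa only [Real.dist_eq] using h hq⟩

/-- `Gen` (for the complexification of `f`, same norm) gives `g` with `BM g`; `exists_ev_approx` gives
`M0, G0` and `n2 (vec g - vec (ev G0)) ≤ ε/2` (`n2_vec_le'` for the truncated difference, `BM_ev`,
`vec_trunc`).  For `M ≥ M0` extend `G0` by zero outside `Icc (-M0) M0`, and subtract from `G 0 i` the mean
`μ = ∫ vec (ev G0) = (∑_i G0 0 i)/N` (`integral_vec_ev`), `‖μ‖ = ‖∫ (f - vec)‖ ≤ n2 (f - vec)`. -/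
theorem approx_ev {σ σ' : St} {η g : ℝ} (hG : Gen σ σ' η g) (f : C(T3, ℝ)) (hf : ∫ p, f p = 0)
    (ω : ℝ) (hω : ∀ q q', dist q q' ≤ η → |f (σ.H q) - f (σ.H q')| ≤ ω) {ε : ℝ} (hε : 0 < ε) :
    ∃ M0 : ℕ, ∀ M : ℕ, M0 ≤ M → ∃ G : ℤ → ℤ → ℂ, ∑ i ∈ Finset.Ico (0 : ℤ) σ'.N, G 0 i = 0 ∧
      n2 (fun p => (f p : ℂ) - σ'.vec (ev (Finset.Icc (-(M : ℤ)) M) G) p)
        ≤ 2 * (ω + 2 * ‖f‖ * Real.sqrt g) + ε := by
  classical
  obtain ⟨u, hu, hu2⟩ := hG ⟨fun p => (f p : ℂ), by fun_prop⟩ ω fun q q' hq => by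
    have := hω q q' hq
    simp only [ContinuousMap.coe_mk]
    rwa [← Complex.ofReal_sub, Complex.norm_real, Real.norm_eq_abs]
  have hn : ‖(⟨fun p => (f p : ℂ), by fun_prop⟩ : C(T3, ℂ))‖ ≤ ‖f‖ :=
    (ContinuousMap.norm_le _ (norm_nonneg _)).2 fun p => by simpa using f.norm_coe_le_norm p
  have k1 : n2 (fun p => (f p : ℂ) - σ'.vec u p) ≤ ω + 2 * ‖f‖ * Real.sqrt g :=
    hu2.trans (by gcongr)
  obtain ⟨M0, G0, hG0⟩ := exists_ev_approx σ'.N u hu (half_pos hε)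
  have k2 : n2 (fun p => σ'.vec u p - σ'.vec (ev (Finset.Icc (-(M0 : ℤ)) M0) G0) p) ≤ ε / 2 := by
    obtain ⟨b1, B1, b2⟩ := BM_ev (Finset.Icc (-(M0 : ℤ)) M0) G0 σ'.N
    obtain ⟨b3, B2, b4⟩ := hu
    rw [σ'.vec_trunc (ev _ G0)]
    refine σ'.n2_vec_le' (g := fun i x => u i x - if i ∈ Finset.Ico (0 : ℤ) σ'.N then
      ev (Finset.Icc (-(M0 : ℤ)) M0) G0 i x else 0) ⟨fun i => (b3 i).sub (b1 i), B2 + B1, fun i x =>
        (norm_sub_le _ _).trans (add_le_add (b4 i x) (b2 i x))⟩ (half_pos hε).le fun i hi => ?_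
    simpa only [if_pos hi] using hG0 i hi
  have k3 := n2_sub_le (h := σ'.vec (ev (Finset.Icc (-(M0 : ℤ)) M0) G0)) (cfil_memLp f)
    (σ'.memLp_vec hu)
  have m1 := σ'.memLp_vec_ev (Finset.Icc (-(M0 : ℤ)) M0) G0
  have k4 := cfil_norm_integral_le ((cfil_memLp f).sub m1)
  have h0 : (0 : ℤ) ∈ Finset.Icc (-(M0 : ℤ)) M0 := by simp
  simp only [Pi.sub_apply] at k4
  rw [integral_sub ((cfil_memLp f).integrable one_le_two) (m1.integrable one_le_two),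
    integral_complex_ofReal, hf, σ'.integral_vec_ev, if_pos h0, Complex.ofReal_zero, zero_sub,
    norm_neg] at k4
  set μ : ℂ := (∑ i ∈ Finset.Ico (0 : ℤ) σ'.N, G0 0 i) / σ'.N with hμ
  refine ⟨M0, fun M hM => ⟨fun m i => (if m ∈ Finset.Icc (-(M0 : ℤ)) M0 then G0 m i else 0) -
    if m = 0 then μ else 0, ?_, ?_⟩⟩
  · have hN : (σ'.N : ℂ) ≠ 0 := by exact_mod_cast σ'.hN.ne'
    simp only [if_pos h0, if_true, Finset.sum_sub_distrib, Finset.sum_const, Int.card_Ico,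
      sub_zero, Int.toNat_natCast, nsmul_eq_mul]
    rw [hμ]
    field_simp
    ring
  · have hsub : Finset.Icc (-(M0 : ℤ)) M0 ⊆ Finset.Icc (-(M : ℤ)) M :=
      Finset.Icc_subset_Icc (by omega) (by omega)
    have e : (fun p => (f p : ℂ) - σ'.vec (ev (Finset.Icc (-(M : ℤ)) M) fun m i =>
        (if m ∈ Finset.Icc (-(M0 : ℤ)) M0 then G0 m i else 0) - if m = 0 then μ else 0) p) =
        fun p => ((f p : ℂ) - σ'.vec (ev (Finset.Icc (-(M0 : ℤ)) M0) G0) p) + μ := by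
      funext p
      simp only [St.vec, ev, sub_mul, Finset.sum_sub_distrib, ite_mul, zero_mul]
      rw [Finset.sum_ite_eq', if_pos (hsub h0), Finset.sum_ite_mem, Finset.inter_eq_right.2 hsub,
        fourier_zero]
      ring
    rw [e]
    refine (n2_add_le ((cfil_memLp f).sub m1)).trans ?_
    have k5 : n2 (fun _ : T3 => μ) ≤ ‖μ‖ := n2_le_bound (fun _ => le_rfl) (norm_nonneg _)
    have e2 : n2 ((fun p => (f p : ℂ)) - σ'.vec (ev (Finset.Icc (-(M0 : ℤ)) M0) G0)) =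
      n2 (fun p => (f p : ℂ) - σ'.vec (ev (Finset.Icc (-(M0 : ℤ)) M0) G0) p) := rfl
    linarith

/-- norm of an approximating tower polynomial -/
theorem tn_le_of_approx (σ : St) (Ms : Finset ℤ) (G : ℤ → ℤ → ℂ) (f : C(T3, ℝ)) {d : ℝ}
    (h : n2 (fun p => (f p : ℂ) - σ.vec (ev Ms G) p) ≤ d) : tn σ.N Ms G ≤ ‖f‖ + d :=
  cfil_tn σ Ms G f h

end Crest.Agent.R81
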