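import Crest.Agent.R81.ChuA

/-!
# R81: flatness of Chu polynomials
-/

set_option autoImplicit false

namespace Crest.Agent.R81

open MeasureTheory

theorem chu_Pz_split (c c0 : ℝ) {I J : Finset ℤ} (h : I ⊆ J) (m : ℤ) (K R : ℕ) (ξ : Tc) :
    Pz c I m K R ξ - Pz c0 J m K R ξ = Pz (c - c0) I m K R ξ - Pz c0 (J \ I) m K R ξ := by
  unfold Pz
  rw [← Finset.sum_sdiff h]
  push_cast
  ring

theorem chu_abs_sub_one_le {x : ℝ} (hx : 0 ≤ x) : |x - 1| ≤ |x ^ 2 - 1| := by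
  rw [show x ^ 2 - 1 = (x - 1) * (x + 1) by ring, abs_mul]
  exact le_mul_of_one_le_right (abs_nonneg _) (by rw [abs_of_nonneg (by linarith)]; linarith)

/-- Take `w = ‖P' - P‖ + |‖P‖² - 1|` (`|x-1| ≤ |x²-1|` for `x ≥ 0`), with `P` the full polynomial of
`chu`.  `P' - P = (Pz c I - Pz R^{-1/2} I) - Pz R^{-1/2} (Ico 0 R \ I)`; norms `≤ 1/R` (as
`1 ≤ N R/N' < R/(R-1)`) and `≤ √g`. -/
theorem flatP (κ : ℕ) (hκ : 2 ≤ κ) (m : ℤ) (hm : m ≠ 0) (N N' R : ℕ) (hN : 0 < N) (hR : 2 ≤ R)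
    (hN1 : N * (R - 1) < N') (hN2 : N' ≤ N * R) (hmod : R ≡ 1 [MOD m.natAbs * κ ^ 4])
    (I : Finset ℤ) (hI : I ⊆ Finset.Ico (0 : ℤ) R) (g : ℝ) (hg : (1 - g) * R ≤ I.card) :
    ∃ w : Tc → ℝ, Continuous w ∧ n2 w ≤ 4 / κ + Real.sqrt g + 2 / R ∧
      ∀ ξ, |‖Pz (Real.sqrt (N / N')) I m (κ ^ 4) R ξ‖ - 1| ≤ w ξ := by
  have hR' : (2 : ℝ) ≤ R := by exact_mod_cast hR
  have hR0 : (0 : ℝ) < R := by linarith
  have hNp : (0 : ℝ) < N := by exact_mod_cast hN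
  have h1 : (N : ℝ) * (R - 1) < N' := by
    have : ((N * (R - 1) : ℕ) : ℝ) < N' := by exact_mod_cast hN1
    rwa [Nat.cast_mul, Nat.cast_sub (by omega), Nat.cast_one] at this
  have h2 : (N' : ℝ) ≤ N * R := by exact_mod_cast hN2
  have hN' : (0 : ℝ) < N' := lt_of_le_of_lt (by nlinarith) h1
  have hs : 0 < Real.sqrt R := Real.sqrt_pos.2 hR0
  set c : ℝ := Real.sqrt (N / N') with hc
  set c0 : ℝ := (Real.sqrt R)⁻¹ with hc0
  set J : Finset ℤ := Finset.Ico (0 : ℤ) R with hJ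
  have hc0' : 0 ≤ c0 := by positivity
  have hcc : c0 ≤ c := by
    rw [hc0, ← Real.sqrt_inv]
    refine Real.sqrt_le_sqrt ?_
    rw [inv_eq_one_div, div_le_div_iff₀ hR0 hN']
    linarith
  have hJc : J.card = R := by simp [hJ]
  have hIc : I.card ≤ R := hJc ▸ Finset.card_le_card hI
  have hA : n2 (Pz (c - c0) I m (κ ^ 4) R) ≤ 2 / R := by
    rw [n2_Pz _ (sub_nonneg.2 hcc)]
    have h3 : Real.sqrt I.card ≤ Real.sqrt R := Real.sqrt_le_sqrt (by exact_mod_cast hIc)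
    refine (mul_le_mul_of_nonneg_left h3 (sub_nonneg.2 hcc)).trans ?_
    rw [sub_mul, hc0, inv_mul_cancel₀ hs.ne', hc, ← Real.sqrt_mul (by positivity), sub_le_iff_le_add,
      Real.sqrt_le_left (by positivity)]
    have h4 : (N : ℝ) / N' * R ≤ 2 / R + 1 := by
      rw [div_mul_eq_mul_div, div_add_one hR0.ne', div_le_div_iff₀ hN' hR0]
      have h5 : (N : ℝ) * R * R ≤ (2 + R) * (N * (R - 1)) := by nlinarith
      nlinarith
    have h6 : (0 : ℝ) ≤ 2 / R := by positivity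
    nlinarith
  have hB : n2 (Pz c0 (J \ I) m (κ ^ 4) R) ≤ Real.sqrt g := by
    rw [n2_Pz _ hc0', hc0, ← Real.sqrt_inv, ← Real.sqrt_mul (by positivity)]
    refine Real.sqrt_le_sqrt ?_
    rw [Finset.card_sdiff_of_subset hI, hJc, Nat.cast_sub hIc, inv_mul_le_iff₀ hR0]
    linarith
  have hC := chu κ hκ m hm R (by omega) hmod
  refine ⟨fun ξ => ‖‖Pz c0 J m (κ ^ 4) R ξ‖ ^ 2 - 1‖ + ‖Pz c0 (J \ I) m (κ ^ 4) R ξ‖ +
    ‖Pz (c - c0) I m (κ ^ 4) R ξ‖, by fun_prop, ?_, fun ξ => ?_⟩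
  · refine (n2_add_le (memLp_cont (by fun_prop))).trans (add_le_add
      ((n2_add_le (memLp_cont (by fun_prop))).trans (add_le_add ?_ ?_)) ?_)
    · rwa [n2_norm (Continuous.aestronglyMeasurable (by fun_prop))]
    · rwa [n2_norm (Continuous.aestronglyMeasurable (by fun_prop))]
    · rwa [n2_norm (Continuous.aestronglyMeasurable (by fun_prop))]
  · have h3 := abs_norm_sub_norm_le (Pz c I m (κ ^ 4) R ξ) (Pz c0 J m (κ ^ 4) R ξ)
    rw [chu_Pz_split c c0 hI] at h3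
    have h4 := norm_sub_le (Pz (c - c0) I m (κ ^ 4) R ξ) (Pz c0 (J \ I) m (κ ^ 4) R ξ)
    have h5 := chu_abs_sub_one_le (norm_nonneg (Pz c0 J m (κ ^ 4) R ξ))
    have h6 := abs_sub_le ‖Pz c I m (κ ^ 4) R ξ‖ ‖Pz c0 J m (κ ^ 4) R ξ‖ 1
    beta_reduce
    rw [Real.norm_eq_abs]
    linarith

end Crest.Agent.R81
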