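import Crest.Agent.R81.Four

/-!
# R81: flatness of Chu polynomials
-/

set_option autoImplicit false

namespace Crest.Agent.R81

open MeasureTheory

/-- partial chirp polynomial -/
noncomputable def Pz (c : ℝ) (I : Finset ℤ) (m : ℤ) (K R : ℕ) (ξ : Tc) : ℂ :=
  (c : ℂ) * ∑ j ∈ I, ee (m * K * (j : ℝ) ^ 2 / (2 * R)) * fourier (-j) ξ

@[fun_prop] theorem cont_Pz (c : ℝ) (I : Finset ℤ) (m : ℤ) (K R : ℕ) :
    Continuous (Pz c I m K R) := by
  unfold Pz; fun_prop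

/-- Parseval (`parseval_inj`, `n2_eq_sqrt`). -/
theorem n2_Pz (c : ℝ) (hc : 0 ≤ c) (I : Finset ℤ) (m : ℤ) (K R : ℕ) :
    n2 (Pz c I m K R) = c * Real.sqrt I.card := by
  rw [n2_eq_sqrt (cont_Pz c I m K R).aestronglyMeasurable]
  simp only [Pz, Finset.mul_sum, ← mul_assoc]
  rw [parseval_inj I (fun j => -j) (fun _ _ _ _ h => neg_injective h)]
  simp only [norm_mul, norm_ee, mul_one, Complex.norm_real, Real.norm_of_nonneg hc,
    Finset.sum_const, nsmul_eq_mul]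
  rw [mul_comm, Real.sqrt_mul (sq_nonneg c), Real.sqrt_sq hc]

/-- aperiodic autocorrelation -/
noncomputable def chuC (u : ℤ → ℂ) (R : ℕ) (h : ℤ) : ℂ :=
  ∑ j ∈ (Finset.Ico (0 : ℤ) R).filter (fun j => j + h ∈ Finset.Ico (0 : ℤ) R),
    u (j + h) * (starRingEnd ℂ) (u j)

theorem chu_expand (u : ℤ → ℂ) (R : ℕ) (ξ : Tc) :
    ((‖∑ j ∈ Finset.Ico (0 : ℤ) R, u j * fourier (-j) ξ‖ ^ 2 : ℝ) : ℂ) =
      ∑ h ∈ Finset.Ioo (-(R : ℤ)) R, chuC u R h * fourier (-h) ξ := by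
  rw [Complex.ofReal_pow, ← Complex.conj_mul', map_sum, Finset.sum_mul]
  simp only [chuC, Finset.sum_mul, Finset.sum_filter]
  rw [Finset.sum_comm]
  refine Finset.sum_congr rfl fun j hj => ?_
  simp only [ite_mul, zero_mul]
  rw [← Finset.sum_filter, Finset.mul_sum]
  rw [Finset.mem_Ico] at hj
  refine Finset.sum_nbij' (fun i => i - j) (fun h => j + h) (fun i hi => ?_) (fun h hh => ?_)
    (fun i _ => by ring) (fun h _ => by ring) fun i _ => ?_
  · simp only [Finset.mem_Ico, Finset.mem_filter, Finset.mem_Ioo] at hi ⊢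
    omega
  · exact (Finset.mem_filter.1 hh).2
  · rw [map_mul, ← fourier_neg, neg_neg, add_sub_cancel, neg_sub, sub_eq_add_neg j i, fourier_add]
    ring

theorem chu_geom (x : ℝ) (s t : ℤ) (hst : s ≤ t) :
    (ee x - 1) * ∑ j ∈ Finset.Ico s t, ee (x * j) = ee (x * t) - ee (x * s) := by
  induction t, hst using Int.leInduction with
  | base => simp
  | succ t ht ih =>
    rw [Finset.Ico_add_one_right_eq_Icc, ← Finset.Ico_insert_right ht,
      Finset.sum_insert Finset.right_notMem_Ico, mul_add, ih]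
    push_cast
    rw [mul_add, mul_one, ee_add]
    ring

theorem chu_conj (t : ℝ) : (starRingEnd ℂ) (ee t) = ee (-t) := by
  rw [ee, ← fourier_neg, fourier_coe]
  simp

theorem chu_norm (A : ℝ) (R : ℕ) (h : ℤ) (hh : |h| ≤ R) :
    ‖ee (A * h / R) - 1‖ * ‖chuC (fun j => ee (A * (j : ℝ) ^ 2 / (2 * R))) R h‖ =
      ‖ee (A * h / R * ((R - |h| : ℤ) : ℝ)) - 1‖ := by
  have h1 : (Finset.Ico (0 : ℤ) R).filter (fun j => j + h ∈ Finset.Ico (0 : ℤ) R) =
      Finset.Ico (max 0 (-h)) (max 0 (-h) + (R - |h|)) := by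
    ext j
    simp only [Finset.mem_filter, Finset.mem_Ico]
    rcases abs_cases h with h2 | h2 <;> omega
  have h2 : chuC (fun j => ee (A * (j : ℝ) ^ 2 / (2 * R))) R h = ee (A * (h : ℝ) ^ 2 / (2 * R)) *
      ∑ j ∈ Finset.Ico (max 0 (-h)) (max 0 (-h) + (R - |h|)), ee (A * h / R * j) := by
    rw [chuC, h1, Finset.mul_sum]
    refine Finset.sum_congr rfl fun j _ => ?_
    rw [chu_conj, ← ee_add, ← ee_add]
    congr 1
    push_cast
    ring
  rw [h2, norm_mul, norm_ee, one_mul, ← norm_mul, chu_geom _ _ _ (by omega), Int.cast_add, mul_add,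
    ee_add, ← mul_sub_one, norm_mul, norm_ee, one_mul]

theorem chu_lower {y : ℝ} (hy : |y| ≤ 1 / 2) : 4 * |y| ≤ ‖ee y - 1‖ := by
  have h := four_norm_le ((-y : ℝ) : Tc)
  rw [(AddCircle.norm_coe_eq_abs_iff (1 : ℝ) one_ne_zero).2 (by simpa using hy), abs_neg,
    fourier_coe, norm_sub_rev] at h
  simpa using h

theorem chu_num {N D n k : ℝ} (hN : 0 ≤ N) (hn : 0 < n) (hk : 0 < k) (h1 : 4 * n * N ≤ D)
    (h2 : D ≤ 2) (h3 : D ≤ 7 * (n ^ 2 / k ^ 2)) : N ^ 2 ≤ 4 / (n + k) ^ 2 := by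
  have h4 : N * (n + k) ≤ 2 := by
    rcases le_total k (3 * n) with h | h
    · nlinarith
    · have h5 : 4 * N * k ^ 2 ≤ 7 * n := by
        have h6 := h1.trans h3
        rw [← mul_div_assoc, le_div_iff₀ (by positivity)] at h6
        refine le_of_mul_le_mul_left ?_ hn
        nlinarith
      have h6 : N * k ≤ 1 := by
        refine le_of_mul_le_mul_left ?_ hk
        nlinarith
      nlinarith
  rw [le_div_iff₀ (by positivity), ← mul_pow]
  have h5 : 0 ≤ N * (n + k) := by positivity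
  nlinarith

theorem chu_res {A q : ℤ} {R : ℕ} (hR : 0 < R) (hq : (R : ℤ) = A * q + 1) (h : ℤ) :
    ∃ r t : ℤ, h = t * R - r * q ∧ 2 * |r| ≤ R := by
  obtain ⟨r, i, h1, h2⟩ : ∃ r i : ℤ, A * h = r + i * R ∧ 2 * |r| ≤ R := by
    have hR' : (0 : ℤ) < R := by exact_mod_cast hR
    have h3 := Int.emod_nonneg (A * h) hR'.ne'
    have h4 := Int.emod_lt_of_pos (A * h) hR'
    have h5 := Int.emod_add_ediv_mul (A * h) R
    rcases le_total (2 * (A * h % R)) R with h6 | h6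
    · exact ⟨_, _, h5.symm, by rw [abs_of_nonneg h3]; exact h6⟩
    · refine ⟨A * h % R - R, A * h / R + 1, by linarith, ?_⟩
      rw [abs_of_nonpos (by omega)]
      omega
  exact ⟨r, h - i * q, by linear_combination (-h) * hq - q * h1, h2⟩

theorem chu_term {A q r t h : ℤ} {R : ℕ} {k : ℝ} (hR : 0 < R) (hq : (R : ℤ) = A * q + 1)
    (hk : 0 < k) (hA : k ^ 2 ≤ |(A : ℝ)|) (hh : |h| ≤ R) (ht : h = t * R - r * q)
    (hr : 2 * |r| ≤ R) (hr0 : r ≠ 0) :
    ‖chuC (fun j => ee (A * (j : ℝ) ^ 2 / (2 * R))) R h / R‖ ^ 2 ≤ 4 / (|(r : ℝ)| + k) ^ 2 := by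
  have hR' : (0 : ℝ) < R := by exact_mod_cast hR
  have hq' : (R : ℝ) = A * q + 1 := by exact_mod_cast hq
  have ht' : (h : ℝ) = t * R - r * q := by exact_mod_cast ht
  have h1 := chu_norm A R h hh
  have h2 : (A : ℝ) * h / R = r / R + ((A * t - r : ℤ) : ℝ) := by
    push_cast
    field_simp
    linear_combination A * ht' + r * hq'
  have h3 : 4 * |(r : ℝ) / R| ≤ ‖ee (A * h / R) - 1‖ := by
    rw [h2, ee_add_int]
    refine chu_lower ?_
    have : 2 * |(r : ℝ)| ≤ R := by exact_mod_cast hr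
    rw [abs_div, abs_of_pos hR', div_le_iff₀ hR']
    linarith
  obtain ⟨σ, hσ, hσ'⟩ : ∃ σ : ℤ, |h| = σ * h ∧ |(σ : ℝ)| = 1 := by
    rcases abs_cases h with h4 | h4
    · exact ⟨1, by omega, by simp⟩
    · exact ⟨-1, by omega, by simp⟩
  have h4 : (A : ℝ) * h / R * ((R - |h| : ℤ) : ℝ) =
      σ * (r ^ 2 * (q / R)) + ((A * h - σ * ((A * t - r) * h + r * t) : ℤ) : ℝ) := by
    rw [hσ]
    push_cast
    field_simp
    linear_combination (-σ * (A * h + r)) * ht' - σ * r * h * hq'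
  have h5 : |(q : ℝ) / R| ≤ 1 / k ^ 2 := by
    rw [abs_div, abs_of_pos hR', div_le_div_iff₀ hR' (by positivity), one_mul]
    have h6 : |(A : ℝ) * q| ≤ R := by
      have : (1 : ℝ) ≤ R := by exact_mod_cast hR
      rw [abs_le]
      constructor <;> linarith
    rw [abs_mul] at h6
    nlinarith [abs_nonneg (q : ℝ)]
  refine chu_num (D := ‖ee (A * h / R * ((R - |h| : ℤ) : ℝ)) - 1‖) (norm_nonneg _)
    (abs_pos.2 (by exact_mod_cast hr0)) hk ?_ ?_ ?_
  · rw [← h1, norm_div, Complex.norm_natCast]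
    rw [abs_div, abs_of_pos hR'] at h3
    refine le_trans (le_of_eq ?_) (mul_le_mul_of_nonneg_right h3 (norm_nonneg _))
    ring
  · refine (norm_sub_le _ _).trans ?_
    rw [norm_ee, norm_one]
    norm_num
  · rw [h4, ee_add_int]
    refine (norm_ee_sub_one_le _).trans ?_
    rw [abs_mul, hσ', one_mul, abs_mul, abs_pow]
    refine mul_le_mul (by linarith [Real.pi_lt_d2]) ?_ (by positivity) (by norm_num)
    rw [div_eq_mul_one_div (_ ^ 2)]
    exact mul_le_mul_of_nonneg_left h5 (by positivity)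

theorem chu_tele {k : ℝ} (hk : 0 < k) (N : ℕ) :
    ∑ n ∈ Finset.Icc 1 N, 4 / ((n : ℝ) + k) ^ 2 ≤ 4 / k - 4 / (N + k) := by
  induction N with
  | zero => simp
  | succ N ih =>
    rw [Finset.sum_Icc_succ_top (by omega)]
    have h1 : 4 / (((N + 1 : ℕ) : ℝ) + k) ^ 2 ≤ 4 / (N + k) - 4 / (((N + 1 : ℕ) : ℝ) + k) := by
      push_cast
      rw [div_sub_div _ _ (by positivity) (by positivity), div_le_div_iff₀ (by positivity)
        (by positivity)]
      have : (0 : ℝ) ≤ N + k := by positivity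
      nlinarith
    linarith

theorem chu_sum {q : ℤ} {R : ℕ} {k : ℝ} (hk : 0 < k) {r t : ℤ → ℤ}
    (ht : ∀ h, h = t h * R - r h * q) (hr : ∀ h, 2 * |r h| ≤ R)
    (hr0 : ∀ h ∈ (Finset.Ioo (-(R : ℤ)) R).erase 0, r h ≠ 0) :
    ∑ h ∈ (Finset.Ioo (-(R : ℤ)) R).erase 0, 4 / (|(r h : ℝ)| + k) ^ 2 ≤ 16 / k := by
  have hinj : Set.InjOn (fun h => ((decide (0 < h), decide (0 < r h)), (r h).natAbs))
      ((Finset.Ioo (-(R : ℤ)) R).erase 0 : Finset ℤ) := by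
    intro h hh h' hh' e
    simp only [Prod.mk.injEq, decide_eq_decide] at e
    obtain ⟨⟨e1, e2⟩, e3⟩ := e
    have h1 : r h = r h' := by omega
    simp only [Finset.coe_erase, Set.mem_sdiff, Finset.mem_coe, Finset.mem_Ioo,
      Set.mem_singleton_iff] at hh hh'
    have h2 : (R : ℤ) ∣ h - h' := ⟨t h - t h', by linear_combination ht h - ht h' - q * h1⟩
    have h3 := Int.eq_zero_of_abs_lt_dvd h2 (by rw [abs_lt]; omega)
    omega
  have h1 := Finset.sum_image (f := fun p : (Bool × Bool) × ℕ => 4 / ((p.2 : ℝ) + k) ^ 2) hinj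
  simp only [Nat.cast_natAbs, Int.cast_abs] at h1
  rw [← h1]
  refine (Finset.sum_le_sum_of_subset_of_nonneg (t := Finset.univ ×ˢ Finset.Icc 1 R)
    (fun p hp => ?_) fun _ _ _ => by positivity).trans ?_
  · obtain ⟨h, hh, rfl⟩ := Finset.mem_image.1 hp
    have h2 := hr h
    have h3 := hr0 h hh
    rw [Int.abs_eq_natAbs] at h2
    simp only [Finset.mem_product, Finset.mem_univ, Finset.mem_Icc, true_and]
    omega
  · rw [Finset.sum_product]
    simp only [Finset.sum_const, Finset.card_univ, Fintype.card_prod, Fintype.card_bool,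
      nsmul_eq_mul]
    have h2 := chu_tele hk R
    have h3 : 0 ≤ 4 / (R + k) := by positivity
    have h4 : 16 / k = 4 * (4 / k) := by ring
    push_cast
    linarith

/-- **Chu flatness.**  Put `a = |m| κ⁴`, `u_j = e(± a j²/(2R))`.  `‖P‖² - 1 = R⁻¹ ∑_{0<|h|<R} c_h
fourier(∓h)` with `c_h = ∑_{0≤j<R-h} u_{j+h} conj u_j`, so by Parseval the square of the norm is
`2 R⁻² ∑_{h=1}^{R-1} |c_h|²`, and `|c_h| = |∑_{j<R-h} e(a h j/R)| = |sin(π a h²/R)|/|sin(π a h/R)|`.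
Write `a h = r + i R` with `|r| ≤ R/2`; `r ≠ 0` and `h ↦ r` is injective as `gcd(a,R)=1`;
`|c_h| ≤ R/(2|r|) · |sin(π r h/R)|`.  For `|r| > r₀ := κ²` the total is `≤ R²/(2 r₀)`.  For
`0<|r| ≤ r₀ < a`: `R ≡ 1 mod a` gives `r + i ≡ 0 mod a`, `0 ≤ i ≤ a`, so `i = a - r` (`r>0`) or
`i = -r` (`r<0`); hence `r h / R` is within `r²/a` of an integer and `|c_h| ≤ R π |r|/(2a)`;
total `≤ 5 r₀³ R²/a²`.  Altogether `≤ 1/r₀ + 10 r₀³/a² ≤ 11/κ² ≤ (4/κ)²`. -/
theorem chu (κ : ℕ) (hκ : 2 ≤ κ) (m : ℤ) (hm : m ≠ 0) (R : ℕ) (hR : 0 < R)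
    (hmod : R ≡ 1 [MOD m.natAbs * κ ^ 4]) :
    n2 (fun ξ => ‖Pz (Real.sqrt R)⁻¹ (Finset.Ico (0 : ℤ) R) m (κ ^ 4) R ξ‖ ^ 2 - 1) ≤ 4 / κ := by
  have hR' : (0 : ℝ) < R := by exact_mod_cast hR
  have hκ' : (0 : ℝ) < κ := by exact_mod_cast (by omega : 0 < κ)
  obtain ⟨q, hq⟩ : ∃ q : ℤ, (R : ℤ) = m * (κ : ℤ) ^ 4 * q + 1 := by
    have h1 := hmod.symm.dvd
    push_cast at h1
    obtain ⟨q, hq⟩ := (mul_dvd_mul_right (self_dvd_abs m) _).trans h1
    exact ⟨q, by linarith⟩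
  choose r t ht hr using chu_res hR hq
  have hr0 : ∀ h ∈ (Finset.Ioo (-(R : ℤ)) R).erase 0, r h ≠ 0 := fun h hh e => by
    rw [Finset.mem_erase, Finset.mem_Ioo] at hh
    exact hh.1 (Int.eq_zero_of_abs_lt_dvd (m := R)
      ⟨t h, by linear_combination ht h - q * e⟩ (abs_lt.2 hh.2))
  set u : ℤ → ℂ := fun j => ee (((m * (κ : ℤ) ^ 4 : ℤ) : ℝ) * (j : ℝ) ^ 2 / (2 * R)) with hu
  have h0 : chuC u R 0 = R := by
    simp only [chuC, add_zero, Complex.mul_conj', hu, norm_ee]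
    rw [Finset.filter_true_of_mem fun _ h => h]
    simp
  have h1 : ∀ ξ, ‖‖Pz (Real.sqrt R)⁻¹ (Finset.Ico (0 : ℤ) R) m (κ ^ 4) R ξ‖ ^ 2 - 1‖ =
      ‖∑ h ∈ (Finset.Ioo (-(R : ℤ)) R).erase 0, chuC u R h / R * fourier (-h) ξ‖ := fun ξ => by
    rw [← Complex.norm_real]
    congr 1
    have h2 := chu_expand u R ξ
    rw [← Finset.add_sum_erase (Finset.Ioo (-(R : ℤ)) R) _ (a := 0) (by simpa using hR), h0] at h2
    have h3 : ‖Pz (Real.sqrt R)⁻¹ (Finset.Ico (0 : ℤ) R) m (κ ^ 4) R ξ‖ ^ 2 =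
        ‖∑ j ∈ Finset.Ico (0 : ℤ) R, u j * fourier (-j) ξ‖ ^ 2 / R := by
      rw [Pz, norm_mul, mul_pow, Complex.norm_real, Real.norm_eq_abs, sq_abs, inv_pow,
        Real.sq_sqrt hR'.le, inv_mul_eq_div]
      simp only [hu, Int.cast_mul, Int.cast_pow, Int.cast_natCast, Nat.cast_pow]
    have h4 : (R : ℂ) ≠ 0 := by exact_mod_cast hR.ne'
    rw [h3, Complex.ofReal_sub, Complex.ofReal_div, h2]
    simp only [div_mul_eq_mul_div, ← Finset.sum_div, neg_zero, fourier_zero, mul_one,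
      Complex.ofReal_natCast, Complex.ofReal_one]
    field_simp
    ring
  rw [n2_eq_sqrt (Continuous.aestronglyMeasurable (by fun_prop))]
  simp only [h1]
  rw [parseval_inj _ (fun h => -h) (fun _ _ _ _ h => neg_injective h)]
  refine Real.sqrt_le_iff.2 ⟨by positivity, ?_⟩
  have hA : ((κ : ℝ) ^ 2) ^ 2 ≤ |((m * (κ : ℤ) ^ 4 : ℤ) : ℝ)| := by
    have h2 : (1 : ℝ) ≤ |(m : ℝ)| := by exact_mod_cast Int.one_le_abs hm
    push_cast
    rw [abs_mul, abs_of_pos (pow_pos hκ' 4), ← pow_mul]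
    exact le_mul_of_one_le_left (by positivity) h2
  refine (Finset.sum_le_sum fun h hh => chu_term hR hq (pow_pos hκ' 2) hA
    (abs_lt.2 (Finset.mem_Ioo.1 (Finset.mem_erase.1 hh).2)).le (ht h) (hr h) (hr0 h hh)).trans
    ((chu_sum (pow_pos hκ' 2) ht hr hr0).trans (le_of_eq ?_))
  ring

end Crest.Agent.R81
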