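import Crest.Agent.R81.Link

/-!
# R81: the cyclicity filter on the frequency side
-/

set_option autoImplicit false

namespace Crest.Agent.R81

open MeasureTheory Crest.AnalysisR.Torus3 Filter Topology

/-- regularised denominator -/
noncomputable def cfD (κ s : ℝ) (V H : ℂ) : ℝ := max (max (‖V‖ ^ 2) ((κ * ‖H‖) ^ 2)) (s ^ 2)

/-- regularised quotient `H / V` -/
noncomputable def cfa (κ s : ℝ) (V H : ℂ) : ℂ := H * (starRingEnd ℂ) V / (cfD κ s V H : ℝ)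

theorem cfD_pos (κ : ℝ) {s : ℝ} (hs : 0 < s) (V H : ℂ) : 0 < cfD κ s V H :=
  lt_max_of_lt_right (by positivity)

theorem cfD_ge (κ s : ℝ) (V H : ℂ) : ‖V‖ ^ 2 ≤ cfD κ s V H :=
  le_max_of_le_left (le_max_left _ _)

theorem cfa_norm {κ s : ℝ} (hκ : 0 < κ) (hs : 0 < s) (V H : ℂ) : ‖cfa κ s V H‖ ≤ 1 / κ := by
  have h0 := cfD_pos κ hs V H
  have h1 := cfD_ge κ s V H
  have h2 : (κ * ‖H‖) ^ 2 ≤ cfD κ s V H := le_max_of_le_left (le_max_right _ _)
  unfold cfa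
  rw [norm_div, norm_mul, Complex.norm_conj, Complex.norm_real, Real.norm_of_nonneg h0.le,
    div_le_div_iff₀ h0 hκ]
  nlinarith [sq_nonneg (‖V‖ - κ * ‖H‖)]

theorem cfa_err (κ : ℝ) {s : ℝ} (hs : 0 < s) (V H : ℂ) :
    ‖cfa κ s V H * V - H‖ = ‖H‖ * (1 - ‖V‖ ^ 2 / cfD κ s V H) := by
  have h0 := cfD_pos κ hs V H
  have h1 := cfD_ge κ s V H
  have e : cfa κ s V H * V - H = -(H * ((1 - ‖V‖ ^ 2 / cfD κ s V H : ℝ) : ℂ)) := by
    unfold cfa
    push_cast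
    rw [← Complex.conj_mul']
    ring
  rw [e, norm_neg, norm_mul, Complex.norm_real, Real.norm_of_nonneg]
  rw [sub_nonneg, div_le_one h0]
  exact h1

theorem cfa_err_le (κ : ℝ) {s : ℝ} (hs : 0 < s) (V H : ℂ) : ‖cfa κ s V H * V - H‖ ≤ ‖H‖ := by
  rw [cfa_err κ hs]
  have h0 := cfD_pos κ hs V H
  have : 0 ≤ ‖V‖ ^ 2 / cfD κ s V H := by positivity
  nlinarith [norm_nonneg H]

theorem cfa_err_good {κ s : ℝ} (hκ : 0 < κ) (hs : 0 < s) {V H : ℂ} (h : κ * ‖H‖ ≤ ‖V‖) :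
    ‖cfa κ s V H * V - H‖ ≤ s / κ := by
  by_cases hV : s ≤ ‖V‖
  · have e : cfD κ s V H = ‖V‖ ^ 2 := by
      unfold cfD
      rw [max_eq_left (pow_le_pow_left₀ (by positivity) h 2),
        max_eq_left (pow_le_pow_left₀ hs.le hV 2)]
    have : 0 < ‖V‖ := hs.trans_le hV
    rw [cfa_err κ hs, e, div_self (by positivity), sub_self, mul_zero]
    positivity
  · refine (cfa_err_le κ hs V H).trans ?_
    rw [le_div_iff₀ hκ]
    linarith [not_le.1 hV]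

theorem cont_cfa (κ : ℝ) {s : ℝ} (hs : 0 < s) {V H : Tc → ℂ} (hV : Continuous V)
    (hH : Continuous H) : Continuous fun θ => cfa κ s (V θ) (H θ) := by
  unfold cfa
  refine (hH.mul (Complex.continuous_conj.comp hV)).div ?_ fun θ => ?_
  · unfold cfD
    fun_prop
  · exact_mod_cast (cfD_pos κ hs _ _).ne'

theorem cf_sum {c0 s : ℝ} (hc0 : 0 < c0) (hs : 0 < s) {n : ℕ} (hn : 0 < n) (F H : ℂ) :
    ∑ i ∈ Finset.range n, ‖cfa (c0 / (2 * n)) s (F + (c0 * (1 + i / n) : ℝ) * H) H *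
        (F + (c0 * (1 + i / n) : ℝ) * H) - H‖ ^ 2 ≤ ‖H‖ ^ 2 + n * (s / (c0 / (2 * n))) ^ 2 := by
  classical
  have hn' : (0 : ℝ) < n := by exact_mod_cast hn
  have hκ : 0 < c0 / (2 * n) := by positivity
  set κ := c0 / (2 * n) with hκd
  set V : ℕ → ℂ := fun i => F + (c0 * (1 + i / n) : ℝ) * H with hV
  have hcard : ((Finset.range n).filter fun i => ‖V i‖ < κ * ‖H‖).card ≤ 1 := by
    refine Finset.card_le_one.2 fun i hi j hj => ?_
    have hi' := (Finset.mem_filter.1 hi).2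
    have hj' := (Finset.mem_filter.1 hj).2
    by_contra hij
    have h1 : V i - V j = ((c0 * ((i : ℝ) - j) / n : ℝ) : ℂ) * H := by
      simp only [hV]
      push_cast
      ring
    have h2 : (1 : ℝ) ≤ |(i : ℝ) - j| := by
      have : (1 : ℤ) ≤ |(i : ℤ) - j| := Int.one_le_abs (by omega)
      exact_mod_cast this
    have h3 : ‖V i - V j‖ = c0 * |(i : ℝ) - j| / n * ‖H‖ := by
      rw [h1, norm_mul, Complex.norm_real, Real.norm_eq_abs, abs_div, abs_mul, abs_of_pos hc0,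
        abs_of_pos hn']
    have h4 : 2 * κ ≤ c0 * |(i : ℝ) - j| / n := by
      have : 2 * κ = c0 * 1 / n := by rw [hκd]; field_simp
      rw [this]
      gcongr
    have h5 := norm_sub_le (V i) (V j)
    have h6 := mul_le_mul_of_nonneg_right h4 (norm_nonneg H)
    linarith
  calc ∑ i ∈ Finset.range n, ‖cfa κ s (V i) H * V i - H‖ ^ 2
      ≤ ∑ i ∈ Finset.range n, ((if ‖V i‖ < κ * ‖H‖ then ‖H‖ ^ 2 else 0) + (s / κ) ^ 2) := by
        refine Finset.sum_le_sum fun i _ => ?_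
        split_ifs with h
        · have := pow_le_pow_left₀ (norm_nonneg _) (cfa_err_le κ hs (V i) H) 2
          nlinarith [sq_nonneg (s / κ)]
        · rw [zero_add]
          exact pow_le_pow_left₀ (norm_nonneg _) (cfa_err_good hκ hs (not_lt.1 h)) 2
    _ ≤ ‖H‖ ^ 2 + n * (s / κ) ^ 2 := by
        rw [Finset.sum_add_distrib, ← Finset.sum_filter, Finset.sum_const, Finset.sum_const,
          Finset.card_range, nsmul_eq_mul, nsmul_eq_mul]
        have : (((Finset.range n).filter fun i => ‖V i‖ < κ * ‖H‖).card : ℝ) ≤ 1 := by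
          exact_mod_cast hcard
        nlinarith [sq_nonneg ‖H‖]

/-- Scalar version.  For `i < n` let `c_i = c0 (1 + i/n)`, `V_i = F + c_i H`, `η = 1/(2n²)`,
`a_i = H conj V_i/(|V_i|² + η² c0² |H|² + t)` (continuous, `|a_i| ≤ 1/(2 η c0) = n²/c0`),
`φ_i = |a_i V_i - H| = |H| (η²c0²|H|² + t)/(|V_i|² + η²c0²|H|² + t) ≤ |H|`.  If `|V_i| ≥ c0 |H|/(2n)` then
`φ_i ≤ |H|/n² + √t n²/c0`.  As `V_i - V_j = c0 (i-j)/n · H`, at each `θ` this fails for at most one `i`, so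
`∑_i max (φ_i - |H|/n² - √t n²/c0) 0 ^ 2 ≤ |H|²`; integrate and pick the best `i`.  Then approximate `a_i`
uniformly by a trigonometric polynomial (`exists_tp_approx`). -/
theorem exists_coef0 (F H : Tc → ℂ) (hF : Continuous F) (hH : Continuous H) (c0 : ℝ) (hc0 : 0 < c0)
    (n : ℕ) (hn : 0 < n) :
    ∃ (c : ℝ) (A : Finset ℤ) (a : ℤ → ℂ), c0 ≤ c ∧ c ≤ 2 * c0 ∧
      (∀ θ, ‖tp A a θ‖ ≤ 3 * n ^ 2 / c0) ∧
      n2 (fun θ => tp A a θ * (F θ + c * H θ) - H θ) ≤ 2 * n2 H / Real.sqrt n + 1 / n := by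
  have hn' : (0 : ℝ) < n := by exact_mod_cast hn
  have hn1 : (1 : ℝ) ≤ n := by exact_mod_cast hn
  have hκ : 0 < c0 / (2 * n) := by positivity
  set κ := c0 / (2 * n) with hκd
  have hs : 0 < κ / (2 * n) := by positivity
  set s := κ / (2 * n) with hsd
  have hr : s / κ = 1 / (2 * n) := by rw [hsd]; field_simp
  set V : ℕ → Tc → ℂ := fun i θ => F θ + (c0 * (1 + i / n) : ℝ) * H θ with hV
  have hVc : ∀ i, Continuous (V i) := fun i => by simp only [hV]; fun_prop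
  set φ : ℕ → Tc → ℂ := fun i θ => cfa κ s (V i θ) (H θ) * V i θ - H θ with hφ
  have hφc : ∀ i, Continuous (φ i) := fun i =>
    ((cont_cfa κ hs (hVc i) hH).mul (hVc i)).sub hH
  have hsum : ∑ i ∈ Finset.range n, n2 (φ i) ^ 2 ≤
      ∑ _i ∈ Finset.range n, (n2 H ^ 2 / n + (1 / (2 * n)) ^ 2) := by
    simp only [n2_sq (hφc _).aestronglyMeasurable]
    rw [← integral_finsetSum _ (f := fun i θ => ‖φ i θ‖ ^ 2)
      fun i _ => f1_integrable_cont ((hφc i).norm.pow 2),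
      Finset.sum_const, Finset.card_range, nsmul_eq_mul, n2_sq hH.aestronglyMeasurable]
    calc ∫ θ, ∑ i ∈ Finset.range n, ‖φ i θ‖ ^ 2
        ≤ ∫ θ, (‖H θ‖ ^ 2 + n * (s / κ) ^ 2) :=
          integral_mono (f1_integrable_cont (continuous_finsetSum _ fun i _ => (hφc i).norm.pow 2))
            (f1_integrable_cont (by fun_prop)) fun θ => cf_sum hc0 hs hn (F θ) (H θ)
      _ = n * ((∫ θ, ‖H θ‖ ^ 2) / n + (1 / (2 * n)) ^ 2) := by
          rw [integral_add (f1_integrable_cont (by fun_prop)) (integrable_const _), hr]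
          simp only [integral_const, probReal_univ, smul_eq_mul, one_mul]
          field_simp
  obtain ⟨i, hi, hi2⟩ := Finset.exists_le_of_sum_le (Finset.nonempty_range_iff.2 hn.ne') hsum
  have hin : (i : ℝ) < n := by exact_mod_cast Finset.mem_range.1 hi
  have hsq : 0 < Real.sqrt n := Real.sqrt_pos.2 hn'
  have hH0 := n2_nonneg H
  have hφ2 : n2 (φ i) ≤ n2 H / Real.sqrt n + 1 / (2 * n) := by
    refine (pow_le_pow_iff_left₀ (n2_nonneg _) (by positivity) two_ne_zero).1 (hi2.trans ?_)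
    rw [add_sq, div_pow (n2 H), Real.sq_sqrt hn'.le]
    have : 0 ≤ 2 * (n2 H / Real.sqrt n) * (1 / (2 * n)) := by positivity
    linarith
  obtain ⟨M, hM⟩ := law_bdd (hVc i)
  have hM0 : 0 ≤ M := (norm_nonneg _).trans (hM 0)
  have hε : 0 < min (n ^ 2 / c0) (1 / (2 * n * (M + 1))) := lt_min (by positivity) (by positivity)
  obtain ⟨L, a, -, ha⟩ := exists_tp_approx (cont_cfa κ hs (hVc i) hH) hε
  refine ⟨c0 * (1 + i / n), Finset.Icc (-(L : ℤ)) L, a, ?_, ?_, fun θ => ?_, ?_⟩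
  · have : (0 : ℝ) ≤ i / n := by positivity
    nlinarith
  · have : (i : ℝ) / n ≤ 1 := (div_le_one hn').2 hin.le
    nlinarith
  · have h1 := (ha θ).trans (min_le_left _ _)
    have h2 := cfa_norm hκ hs (V i θ) (H θ)
    have h3 := norm_sub_norm_le (tp (Finset.Icc (-(L : ℤ)) L) a θ) (cfa κ s (V i θ) (H θ))
    have h4 : 1 / κ ≤ 2 * (n ^ 2 / c0) := by
      have : 1 / κ = 2 * (n / c0) := by rw [hκd]; field_simp
      rw [this]
      gcongr
      nlinarith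
    have h5 : 3 * (n : ℝ) ^ 2 / c0 = 3 * (n ^ 2 / c0) := by ring
    linarith
  · have e : (fun θ => tp (Finset.Icc (-(L : ℤ)) L) a θ *
        (F θ + ((c0 * (1 + i / n) : ℝ) : ℂ) * H θ) - H θ) = fun θ => φ i θ +
        (tp (Finset.Icc (-(L : ℤ)) L) a θ - cfa κ s (V i θ) (H θ)) * V i θ := by
      funext θ
      simp only [hφ, hV]
      ring
    rw [e]
    refine (n2_add_le (memLp_cont (hφc i))).trans ?_
    have h1 : n2 (fun θ => (tp (Finset.Icc (-(L : ℤ)) L) a θ - cfa κ s (V i θ) (H θ)) * V i θ)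
        ≤ 1 / (2 * n) := by
      refine n2_le_bound (fun θ => ?_) (by positivity)
      rw [norm_mul]
      calc _ ≤ 1 / (2 * n * (M + 1)) * (M + 1) :=
            mul_le_mul ((ha θ).trans (min_le_right _ _)) ((hM θ).trans (by linarith))
              (norm_nonneg _) (by positivity)
        _ = 1 / (2 * n) := by field_simp
    have h2 : 0 ≤ n2 H / Real.sqrt n := by positivity
    have h3 : 1 / (n : ℝ) = 1 / (2 * n) + 1 / (2 * n) := by field_simp; ring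
    have h4 : 2 * n2 H / Real.sqrt n = 2 * (n2 H / Real.sqrt n) := by ring
    linarith

theorem cf_split (Ms S : Finset ℤ) (hS : S ⊆ Ms) (h1 : S.card ≤ 1) (w : ℤ → ℂ) {y : ℝ}
    (hy : 0 ≤ y) (hw : ∀ m ∈ Ms, m ∉ S → ‖w m‖ ≤ y / Ms.card) :
    ∑ m ∈ Ms, ‖w m‖ ≤ ‖∑ m ∈ Ms, w m‖ + 2 * y ∧
      ‖∑ m ∈ Ms, w m‖ ≤ Real.sqrt (∑ m ∈ Ms, ‖w m‖ ^ 2) + y := by
  have hR : ∑ m ∈ Ms \ S, ‖w m‖ ≤ y := by
    refine (Finset.sum_le_card_nsmul _ _ (y / Ms.card) fun m hm => ?_).trans ?_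
    · obtain ⟨a, b⟩ := Finset.mem_sdiff.1 hm
      exact hw m a b
    · rw [nsmul_eq_mul]
      have h2 : ((Ms \ S).card : ℝ) ≤ Ms.card := by
        exact_mod_cast Finset.card_le_card Finset.sdiff_subset
      calc ((Ms \ S).card : ℝ) * (y / Ms.card) ≤ Ms.card * (y / Ms.card) := by gcongr
        _ ≤ y := by
          rcases Nat.eq_zero_or_pos Ms.card with h | h
          · simp [h, hy]
          · have : (0 : ℝ) < Ms.card := by exact_mod_cast h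
            rw [mul_div_cancel₀ _ this.ne']
  have hR' : ‖∑ m ∈ Ms \ S, w m‖ ≤ y := (norm_sum_le _ _).trans hR
  have hS1 : ∑ m ∈ S, ‖w m‖ = ‖∑ m ∈ S, w m‖ ∧
      ‖∑ m ∈ S, w m‖ ≤ Real.sqrt (∑ m ∈ Ms, ‖w m‖ ^ 2) := by
    rcases Finset.card_le_one_iff_subset_singleton.1 h1 with ⟨m, hm⟩
    rcases Finset.subset_singleton_iff.1 hm with rfl | rfl
    · simp
    · simp only [Finset.sum_singleton, true_and]
      exact Real.le_sqrt_of_sq_le (Finset.single_le_sum (f := fun m => ‖w m‖ ^ 2)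
        (fun _ _ => sq_nonneg _) (hS (Finset.mem_singleton_self m)))
  rw [← Finset.sum_sdiff hS (f := fun m => ‖w m‖), ← Finset.sum_sdiff hS (f := w)]
  have a1 := norm_add_le (∑ m ∈ Ms \ S, w m) (∑ m ∈ S, w m)
  have a2 := norm_sub_le (∑ m ∈ Ms \ S, w m + ∑ m ∈ S, w m) (∑ m ∈ Ms \ S, w m)
  rw [add_sub_cancel_left] at a2
  constructor
  · linarith [hS1.1]
  · linarith [hS1.2]

/-- Apply `exists_coef0` to `F = ∑_m FT (Gf m)`, `H = ∑_m FT (Gh m)`.  At each `θ` at most one `m₀` has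
`θ ∈ C m₀`, and `∑_{m ≠ m₀} ‖FT (Gf m) θ‖ ≤ ‖FT Yf θ‖` (same for `Gh`).  Hence `‖H‖ ≤ sd Gh + ‖FT Yh‖`, and with
`w_m = a V_m - H_m`: `√(∑ ‖w_m‖²) ≤ ∑ ‖w_m‖ ≤ ‖∑ w_m‖ + 2 ∑_{m ≠ m₀} ‖w_m‖`. -/
theorem exists_coef (N : ℕ) (Ms : Finset ℤ) (C : ℤ → Set Tc) (hC : Disj Ms C) (Gf Gh : ℤ → ℤ → ℂ)
    (γ : ℝ) (hf : Main N Ms C Gf γ) (hh : Main N Ms C Gh γ) (c0 : ℝ) (hc0 : 0 < c0) (n : ℕ)
    (hn : 0 < n) :
    ∃ (c : ℝ) (A : Finset ℤ) (a : ℤ → ℂ), c0 ≤ c ∧ c ≤ 2 * c0 ∧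
      (∀ θ, ‖tp A a θ‖ ≤ 3 * n ^ 2 / c0) ∧
      n2 (fun θ => Real.sqrt (∑ m ∈ Ms,
          ‖tp A a θ * FT N (fun i => Gf m i + c * Gh m i) θ - FT N (Gh m) θ‖ ^ 2))
        ≤ 2 * (tn N Ms Gh + γ) / Real.sqrt n + 2 * (3 * n ^ 2 / c0 * (1 + 2 * c0) + 1) * γ + 1 / n := by
  classical
  have hγ := hf.nonneg
  obtain ⟨Yf, hYf, hf⟩ := hf
  obtain ⟨Yh, hYh, hh⟩ := hh
  have hn' : (0 : ℝ) < n := by exact_mod_cast hn
  obtain ⟨c, A, a, h1, h2, h3, h4⟩ := exists_coef0 (fun θ => ∑ m ∈ Ms, FT N (Gf m) θ)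
    (fun θ => ∑ m ∈ Ms, FT N (Gh m) θ) (by fun_prop) (by fun_prop) c0 hc0 n hn
  refine ⟨c, A, a, h1, h2, h3, ?_⟩
  set B : ℝ := 3 * n ^ 2 / c0 with hB
  have hB0 : 0 ≤ B := by positivity
  have hc : 0 ≤ c := hc0.le.trans h1
  have hcard : ∀ θ, (Ms.filter fun m => θ ∈ C m).card ≤ 1 := fun θ =>
    hC.card_le θ _ (Finset.filter_subset _ _) fun m hm => (Finset.mem_filter.1 hm).2
  have hnot : ∀ θ, ∀ m ∈ Ms, m ∉ (Ms.filter fun m => θ ∈ C m) → θ ∉ C m := fun θ m hm h h' =>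
    h (Finset.mem_filter.2 ⟨hm, h'⟩)
  have k1 : n2 (fun θ => ∑ m ∈ Ms, FT N (Gh m) θ) ≤ tn N Ms Gh + γ := by
    have a1 : n2 (fun θ => ∑ m ∈ Ms, FT N (Gh m) θ) ≤
        n2 (fun θ => sd N Ms Gh θ + ‖FT N Yh θ‖) :=
      n2_mono (memLp_cont (by fun_prop)) fun θ =>
        (cf_split Ms _ (Finset.filter_subset _ _) (hcard θ) (fun m => FT N (Gh m) θ)
          (norm_nonneg _) fun m hm h => hh m hm θ trivial (hnot θ m hm h)).2
    have a2 := n2_add_le (f := sd N Ms Gh) (g := fun θ => ‖FT N Yh θ‖) (memLp_cont (by fun_prop))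
    rw [n2_sd, n2_norm (cont_FT N Yh).aestronglyMeasurable, n2_FT] at a2
    linarith
  have k2 : ∀ θ, ‖Real.sqrt (∑ m ∈ Ms,
      ‖tp A a θ * FT N (fun i => Gf m i + c * Gh m i) θ - FT N (Gh m) θ‖ ^ 2)‖ ≤
      ‖tp A a θ * (∑ m ∈ Ms, FT N (Gf m) θ + c * ∑ m ∈ Ms, FT N (Gh m) θ) -
        ∑ m ∈ Ms, FT N (Gh m) θ‖ +
        ((2 * B) * ‖FT N Yf θ‖ + (2 * (B * (2 * c0) + 1)) * ‖FT N Yh θ‖) := fun θ => by
    rw [Real.norm_of_nonneg (Real.sqrt_nonneg _)]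
    have a1 := (cf_split Ms _ (Finset.filter_subset _ _) (hcard θ)
      (fun m => tp A a θ * FT N (fun i => Gf m i + c * Gh m i) θ - FT N (Gh m) θ)
      (y := B * ‖FT N Yf θ‖ + (B * (2 * c0) + 1) * ‖FT N Yh θ‖) (by positivity)
      fun m hm h => ?_).1
    · have e : ∑ m ∈ Ms, (tp A a θ * FT N (fun i => Gf m i + c * Gh m i) θ - FT N (Gh m) θ) =
          tp A a θ * (∑ m ∈ Ms, FT N (Gf m) θ + c * ∑ m ∈ Ms, FT N (Gh m) θ) -
            ∑ m ∈ Ms, FT N (Gh m) θ := by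
        simp only [FT_add, FT_const_mul, Finset.sum_sub_distrib, ← Finset.mul_sum,
          Finset.sum_add_distrib]
      rw [e] at a1
      refine (Real.sqrt_le_iff.2 ⟨Finset.sum_nonneg fun _ _ => norm_nonneg _,
        Finset.sum_sq_le_sq_sum_of_nonneg fun _ _ => norm_nonneg _⟩).trans ?_
      linarith
    · have b1 := hf m hm θ trivial (hnot θ m hm h)
      have b2 := hh m hm θ trivial (hnot θ m hm h)
      rw [FT_add, FT_const_mul]
      have b3 : ‖FT N (Gf m) θ + c * FT N (Gh m) θ‖ ≤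
          ‖FT N Yf θ‖ / Ms.card + 2 * c0 * (‖FT N Yh θ‖ / Ms.card) := by
        refine (norm_add_le _ _).trans (add_le_add b1 ?_)
        rw [norm_mul, Complex.norm_real, Real.norm_of_nonneg hc]
        gcongr
      refine (norm_sub_le _ _).trans ?_
      rw [norm_mul]
      have b4 := mul_le_mul (h3 θ) b3 (norm_nonneg _) hB0
      have e : (B * ‖FT N Yf θ‖ + (B * (2 * c0) + 1) * ‖FT N Yh θ‖) / Ms.card =
          B * (‖FT N Yf θ‖ / Ms.card + 2 * c0 * (‖FT N Yh θ‖ / Ms.card)) +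
            ‖FT N Yh θ‖ / Ms.card := by ring
      rw [e]
      linarith
  refine (n2_mono (memLp_cont (by fun_prop)) k2).trans ?_
  refine (n2_add_le (memLp_cont (by fun_prop))).trans ?_
  rw [n2_norm (Continuous.aestronglyMeasurable (by fun_prop))]
  have k3 := n2_add_le (f := fun θ => (2 * B) * ‖FT N Yf θ‖)
    (g := fun θ => (2 * (B * (2 * c0) + 1)) * ‖FT N Yh θ‖) (memLp_cont (by fun_prop))
  rw [n2_const_mul, n2_const_mul, n2_norm (cont_FT N Yh).aestronglyMeasurable,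
    n2_norm (cont_FT N Yf).aestronglyMeasurable, n2_FT, n2_FT, abs_of_nonneg (by positivity),
    abs_of_nonneg (by positivity)] at k3
  have k4 : 2 * B * sn N Yf ≤ 2 * B * γ := by gcongr
  have k5 : 2 * (B * (2 * c0) + 1) * sn N Yh ≤ 2 * (B * (2 * c0) + 1) * γ := by gcongr
  have k6 : 2 * n2 (fun θ => ∑ m ∈ Ms, FT N (Gh m) θ) / Real.sqrt n ≤
      2 * (tn N Ms Gh + γ) / Real.sqrt n := by gcongr
  have e : 2 * (B * (1 + 2 * c0) + 1) * γ = 2 * B * γ + 2 * (B * (2 * c0) + 1) * γ := by ring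
  linarith

end Crest.Agent.R81
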