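import Crest.Agent.R81.GF1

/-!
# R81: the filtered function is close to the pulled back function
-/

set_option autoImplicit false

namespace Crest.Agent.R81

open MeasureTheory

theorem gf2_n2_sqrt {ι : Type} (S : Finset ι) {f : ι → Tc → ℝ} (hf : ∀ i ∈ S, Continuous (f i)) :
    n2 (fun θ => Real.sqrt (∑ i ∈ S, f i θ ^ 2)) = Real.sqrt (∑ i ∈ S, n2 (f i) ^ 2) := by
  have h1 : Continuous fun θ => Real.sqrt (∑ i ∈ S, f i θ ^ 2) :=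
    (continuous_finsetSum S fun i hi => (hf i hi).pow 2).sqrt
  have h2 : ∀ i ∈ S, Integrable fun θ => ‖f i θ‖ ^ 2 := fun i hi =>
    ((hf i hi).norm.pow 2).integrable_of_hasCompactSupport (HasCompactSupport.of_compactSpace _)
  rw [n2_eq_sqrt h1.aestronglyMeasurable,
    Finset.sum_congr rfl fun i hi => n2_sq (hf i hi).aestronglyMeasurable,
    ← integral_finsetSum S h2]
  congr 2
  funext θ
  rw [Real.norm_eq_abs, sq_abs, Real.sq_sqrt (Finset.sum_nonneg fun _ _ => sq_nonneg _)]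
  exact Finset.sum_congr rfl fun i _ => by rw [Real.norm_eq_abs, sq_abs]

theorem gf2_point (Ms : Finset ℤ) (Ds : Finset ℕ) (F : ℤ → ℂ) (P e : ℤ → ℕ → ℂ) (Φ : ℂ)
    (Θ : ℤ → ℂ) (u c : ℤ → Prop) (o : ℤ → ℕ → Prop) (w : ℤ → ℕ → ℝ) {η1 ε2 y : ℝ} {ν : ℕ}
    (hη1 : 0 ≤ η1) (hε2 : 0 ≤ ε2) (hy : 0 ≤ y) (he : ∀ m d, ‖e m d‖ = 1) (hΦ : ‖Φ‖ ≤ 2)
    (hΘ : ∀ m, ‖Θ m‖ ≤ 1) (hw : ∀ m ∈ Ms, ∀ d ∈ Ds, 0 ≤ w m d)
    (H1 : ∀ m ∈ Ms, ∀ d ∈ Ds, o m d → u m ∧ ‖e m d - Θ m‖ ≤ η1)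
    (HL : ∀ m ∈ Ms, ∀ d ∈ Ds, ¬ o m d → ‖P m d‖ ≤ w m d)
    (H2 : ∀ m ∈ Ms, u m → c m → ‖Θ m - Φ‖ ≤ ε2)
    (Hν : ∀ S ⊆ Ms, (∀ m ∈ S, c m) → S.card ≤ ν)
    (HD : ∀ m ∈ Ms, u m → ¬ c m → ‖F m‖ ≤ y / Ms.card) :
    ‖∑ m ∈ Ms, ∑ d ∈ Ds, F m * P m d * (e m d - Φ)‖ ≤
      ε2 * Real.sqrt ν * Real.sqrt (∑ m ∈ Ms, (‖F m‖ * ‖∑ d ∈ Ds, P m d‖) ^ 2) +
        ∑ m ∈ Ms, 3 / (Ms.card : ℝ) * (y * ‖∑ d ∈ Ds, P m d‖) +
        ∑ m ∈ Ms, ∑ d ∈ Ds, η1 * (‖F m‖ * ‖P m d‖) + ∑ m ∈ Ms, ∑ d ∈ Ds, 6 * (‖F m‖ * w m d) := by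
  classical
  have hE3 : ∀ m, ‖Θ m - Φ‖ ≤ 3 := fun m => (norm_sub_le _ _).trans (by linarith [hΘ m])
  have h1 : ∑ m ∈ Ms.filter c, ε2 * (‖F m‖ * ‖∑ d ∈ Ds, P m d‖) ≤
      ε2 * Real.sqrt ν * Real.sqrt (∑ m ∈ Ms, (‖F m‖ * ‖∑ d ∈ Ds, P m d‖) ^ 2) := by
    rw [← Finset.mul_sum, mul_assoc, ← Real.sqrt_mul (Nat.cast_nonneg _)]
    refine mul_le_mul_of_nonneg_left (Real.le_sqrt_of_sq_le
      (sq_sum_le_card_mul_sum_sq.trans (mul_le_mul ?_ ?_ ?_ ?_))) hε2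
    · exact_mod_cast Hν _ (Finset.filter_subset _ _) fun m hm => (Finset.mem_filter.1 hm).2
    · exact Finset.sum_le_sum_of_subset_of_nonneg (Finset.filter_subset _ _) fun _ _ _ => sq_nonneg _
    · exact Finset.sum_nonneg fun _ _ => sq_nonneg _
    · exact Nat.cast_nonneg _
  refine le_trans ?_ (add_le_add (add_le_add (add_le_add h1 le_rfl) le_rfl) le_rfl)
  rw [Finset.sum_filter, ← Finset.sum_add_distrib, ← Finset.sum_add_distrib,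
    ← Finset.sum_add_distrib]
  refine (norm_sum_le _ _).trans (Finset.sum_le_sum fun m hm => ?_)
  obtain ⟨E, hE⟩ : ∃ E, E = if u m then Θ m - Φ else 0 := ⟨_, rfl⟩
  have h2 : ∑ d ∈ Ds, F m * P m d * (e m d - Φ) =
      F m * (∑ d ∈ Ds, P m d) * E + ∑ d ∈ Ds, F m * P m d * (e m d - Φ - E) := by
    rw [Finset.mul_sum, Finset.sum_mul, ← Finset.sum_add_distrib]
    exact Finset.sum_congr rfl fun d _ => by ring
  rw [h2, add_assoc, ← Finset.sum_add_distrib]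
  refine (norm_add_le _ _).trans (add_le_add ?_
    ((norm_sum_le _ _).trans (Finset.sum_le_sum fun d hd => ?_)))
  · have h3 : 0 ≤ 3 / (Ms.card : ℝ) * (y * ‖∑ d ∈ Ds, P m d‖) := by positivity
    have h4 : 0 ≤ ‖F m‖ * ‖∑ d ∈ Ds, P m d‖ := by positivity
    rw [norm_mul, norm_mul, hE]
    by_cases hu : u m
    · rw [if_pos hu]
      by_cases hc : c m
      · rw [if_pos hc]
        nlinarith [mul_le_mul_of_nonneg_left (H2 m hm hu hc) h4]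
      · rw [if_neg hc, zero_add]
        calc _ ≤ y / Ms.card * ‖∑ d ∈ Ds, P m d‖ * 3 := by
              have := HD m hm hu hc
              have := hE3 m
              gcongr
          _ = _ := by ring
    · rw [if_neg hu, norm_zero, mul_zero]
      split_ifs <;> positivity
  · have h3 := hw m hm d hd
    rw [norm_mul, norm_mul]
    by_cases ho : o m d
    · obtain ⟨hu, h4⟩ := H1 m hm d hd ho
      rw [hE, if_pos hu, show e m d - Φ - (Θ m - Φ) = e m d - Θ m by ring]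
      nlinarith [mul_le_mul_of_nonneg_left h4 (show 0 ≤ ‖F m‖ * ‖P m d‖ by positivity),
        show 0 ≤ ‖F m‖ * w m d by positivity]
    · have h4 : ‖E‖ ≤ 3 := by
        rw [hE]
        split_ifs
        · exact hE3 m
        · simp
      have h5 : ‖e m d - Φ - E‖ ≤ 6 := (norm_sub_le _ _).trans (by
        linarith [norm_sub_le (e m d) Φ, he m d])
      have h6 : ‖F m‖ * ‖P m d‖ * ‖e m d - Φ - E‖ ≤ ‖F m‖ * w m d * 6 := by
        have := HL m hm d hd ho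
        gcongr
      nlinarith [show 0 ≤ η1 * (‖F m‖ * ‖P m d‖) by positivity]

/-- **Closeness.**  By `n2_FT`, `FT_sub`, `FT_pbk`, `FT_ev`, `FT_Gnew`, `FT_ych`, `Pz_biUnion` the
left side is the `L²` norm of `Δ θ = ∑_m ∑_d F_m P_{m,d}(Nθ) (e_{m,d} - Φ)`, `e_{m,d} = fourier s θ ·
ee (m φ d)`, `Φ = ∑_n φ_n θ · fourier n x`, `‖Φ‖ ≤ 2`.  With `E_m = Θ m θ - Φ` (`‖E_m‖ ≤ 3`) and
`1_m` the indicator of `θ ∈ U m`: for `N•θ ∈ Ω m d`, `e - Φ = (e - Θ) + 1_m E_m`; otherwise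
`‖P_{m,d}‖ ≤ w`, `‖e - Φ - 1_m E_m‖ ≤ 6`.  So pointwise
`‖Δ‖ ≤ ∑_m ‖F_m P'_m‖ 1_m ‖E_m‖ + η1 ∑_{m,d} ‖F_m‖‖P_{m,d}‖ + 6 ∑_{m,d} ‖F_m‖ w_{m,d}(Nθ)`, and the first
sum is `≤ ε2 √ν √(∑_m ‖F_m P'_m‖²) + 3 ∑_m ‖FT Y‖ ‖P'_m‖/#Ms` (split according to `θ ∈ C m`;
Cauchy–Schwarz on the at most `ν` indices with `θ ∈ C m`).  All majorants are continuous; finish
with `n2_mono`, `n2_add_le`, `n2_sum_le`, `n2_indep`/`indep`, `n2_Pz_le_one`, `sum_n2_Pz_le`,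
`sum_sn_le`. -/
theorem gf_close {N N' b L : ℕ} (K R : ℕ) (hN : 0 < N) (hN' : 0 < N') {Ds : Finset ℕ}
    {I : ℕ → Finset ℤ} (hZ : Zon N N' Ds I b) (hL : L ≤ b) (Ms Ns : Finset ℤ) (G : ℤ → ℤ → ℂ)
    (s : ℤ) (hs : |s| ≤ b) (φ : ℕ → ℝ) (x : Tc) (φc : ℤ → ℤ → ℂ)
    (Ω : ℤ → ℕ → Set Tc) (U C : ℤ → Set Tc) (Θ : ℤ → Tc → ℂ) (η1 η2 ε2 γ : ℝ) (ν : ℕ)
    (hη1 : 0 ≤ η1) (hη2 : 0 ≤ η2) (hε2 : 0 ≤ ε2)
    (hΘ : ∀ m θ, ‖Θ m θ‖ ≤ 1)
    (H1 : ∀ m ∈ Ms, ∀ d ∈ Ds, ∀ θ : Tc, N • θ ∈ Ω m d →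
      θ ∈ U m ∧ ‖fourier s θ * ee (m * φ d) - Θ m θ‖ ≤ η1)
    (HL : ∀ m ∈ Ms, ∀ d ∈ Ds, ∃ w : Tc → ℝ, Continuous w ∧ (∀ ξ, 0 ≤ w ξ) ∧ n2 w ≤ η2 ∧
      ∀ ξ, ξ ∉ Ω m d → ‖Pz (Real.sqrt (N / N')) (I d) m K R ξ‖ ≤ w ξ)
    (H2 : ∀ m ∈ Ms, ∀ θ ∈ U m, θ ∈ C m →
      ‖Θ m θ - ∑ n ∈ Ns, tp (Finset.Icc (-(L : ℤ)) L) (φc n) θ * fourier n x‖ ≤ ε2)
    (HΦ : ∀ θ, ∑ n ∈ Ns, ‖tp (Finset.Icc (-(L : ℤ)) L) (φc n) θ‖ ≤ 2)
    (Hν : ∀ θ, ∀ S ⊆ Ms, (∀ m ∈ S, θ ∈ C m) → S.card ≤ ν)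
    (HD : Dom N Ms U C G γ) :
    sn N' (fun J => pbk N K R Ds I Ms G s φ J - ev Ns (Gnew L φc (ych N K R Ds I Ms G)) J x)
      ≤ (ε2 * Real.sqrt ν + η1 * Real.sqrt (Ds.card * Ms.card)
          + 6 * η2 * Ds.card * Real.sqrt Ms.card) * tn N Ms G + 3 * γ := by
  classical
  obtain ⟨Y, hY, hD⟩ := HD
  choose! w hwc hw0 hw2 hwP using HL
  have hγ : 0 ≤ γ := (sn_nonneg N Y).trans hY
  have hy : ∀ J : ℤ, (J < L ∨ (N' : ℤ) - L ≤ J) → ych N K R Ds I Ms G J = 0 :=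
    ych_eq_zero K R hN (hZ.mono hL) Ms G
  have cF : ∀ m, Continuous (FT N (G m)) := fun m => cont_FT _ _
  have cP : ∀ (J : Finset ℤ) (m : ℤ), Continuous fun θ : Tc =>
      ‖Pz (Real.sqrt (N / N')) J m K R (N • θ)‖ := fun J m =>
    ((cont_Pz _ _ _ _ _).comp (continuous_const_smul N)).norm
  have cA : Continuous fun θ : Tc => ε2 * Real.sqrt ν * Real.sqrt (∑ m ∈ Ms,
      (‖FT N (G m) θ‖ * ‖Pz (Real.sqrt (N / N')) (Ds.biUnion I) m K R (N • θ)‖) ^ 2) :=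
    continuous_const.mul (continuous_finsetSum _ fun m _ => ((cF m).norm.mul (cP _ m)).pow 2).sqrt
  have cB : ∀ m ∈ Ms, Continuous fun θ : Tc => 3 / (Ms.card : ℝ) *
      (‖FT N Y θ‖ * ‖Pz (Real.sqrt (N / N')) (Ds.biUnion I) m K R (N • θ)‖) := fun m _ =>
    continuous_const.mul ((cont_FT _ _).norm.mul (cP _ m))
  have cC : ∀ m, ∀ d, Continuous fun θ : Tc =>
      η1 * (‖FT N (G m) θ‖ * ‖Pz (Real.sqrt (N / N')) (I d) m K R (N • θ)‖) := fun m d =>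
    continuous_const.mul ((cF m).norm.mul (cP _ m))
  have cD : ∀ m ∈ Ms, ∀ d ∈ Ds, Continuous fun θ : Tc => 6 * (‖FT N (G m) θ‖ * w m d (N • θ)) :=
    fun m hm d hd => continuous_const.mul
      ((cF m).norm.mul ((hwc m hm d hd).comp (continuous_const_smul N)))
  have cB' := continuous_finsetSum Ms cB
  have cC' := continuous_finsetSum Ms fun m _ => continuous_finsetSum Ds fun d _ => cC m d
  have cD' := continuous_finsetSum Ms fun m hm => continuous_finsetSum Ds (cD m hm)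
  rw [← n2_FT]
  refine (n2_mono (memLp_cont (((cA.add cB').add cC').add cD')) fun θ => ?_).trans ?_
  · have h1 : FT N' (fun J => pbk N K R Ds I Ms G s φ J -
        ev Ns (Gnew L φc (ych N K R Ds I Ms G)) J x) θ = ∑ m ∈ Ms, ∑ d ∈ Ds,
          FT N (G m) θ * Pz (Real.sqrt (N / N')) (I d) m K R (N • θ) *
            (fourier s θ * ee (m * φ d) -
              ∑ n ∈ Ns, tp (Finset.Icc (-(L : ℤ)) L) (φc n) θ * fourier n x) := by
      rw [FT_sub, FT_pbk K R hN hN' hZ Ms G s hs, FT_ev]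
      have h2 : ∑ n ∈ Ns, FT N' (Gnew L φc (ych N K R Ds I Ms G) n) θ * fourier n x =
          FT N' (ych N K R Ds I Ms G) θ *
            ∑ n ∈ Ns, tp (Finset.Icc (-(L : ℤ)) L) (φc n) θ * fourier n x := by
        rw [Finset.mul_sum]
        exact Finset.sum_congr rfl fun n _ => by rw [FT_Gnew N' L φc _ hy]; ring
      rw [h2, FT_ych K R hN hN' hZ, Finset.sum_mul, ← Finset.sum_sub_distrib]
      refine Finset.sum_congr rfl fun m _ => ?_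
      rw [Pz_biUnion _ hZ, Finset.mul_sum Ds, Finset.sum_mul, ← Finset.sum_sub_distrib]
      exact Finset.sum_congr rfl fun d _ => by ring
    rw [h1]
    simp only [Pi.add_apply, Pz_biUnion _ hZ]
    refine gf2_point Ms Ds _ _ _ _ (fun m => Θ m θ) (fun m => θ ∈ U m) (fun m => θ ∈ C m)
      (fun m d => N • θ ∈ Ω m d) (fun m d => w m d (N • θ)) hη1 hε2 (norm_nonneg _)
      (fun m d => by rw [norm_mul, norm_fourier', norm_ee, mul_one]) ?_ (fun m => hΘ m θ)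
      (fun m hm d hd => hw0 m hm d hd _) (fun m hm d hd => H1 m hm d hd θ)
      (fun m hm d hd => hwP m hm d hd _) (fun m hm => H2 m hm θ) (Hν θ) fun m hm => hD m hm θ
    refine (norm_sum_le _ _).trans (le_trans (le_of_eq ?_) (HΦ θ))
    exact Finset.sum_congr rfl fun n _ => by rw [norm_mul, norm_fourier', mul_one]
  have nP : ∀ (J : Finset ℤ) (m : ℤ) (g : ℤ → ℂ), n2 (fun θ : Tc =>
      ‖FT N g θ‖ * ‖Pz (Real.sqrt (N / N')) J m K R (N • θ)‖) =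
      sn N g * n2 (Pz (Real.sqrt (N / N')) J m K R) := fun J m g => by
    rw [n2_indep N hN g (w := fun ξ => ‖Pz (Real.sqrt (N / N')) J m K R ξ‖)
      (cont_Pz _ _ _ _ _).norm, n2_norm (cont_Pz _ _ _ _ _).aestronglyMeasurable]
  have hs := sum_sn_le N Ms G
  have hA : n2 (fun θ : Tc => ε2 * Real.sqrt ν * Real.sqrt (∑ m ∈ Ms,
      (‖FT N (G m) θ‖ * ‖Pz (Real.sqrt (N / N')) (Ds.biUnion I) m K R (N • θ)‖) ^ 2)) ≤
      ε2 * Real.sqrt ν * tn N Ms G := by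
    rw [n2_const_mul, abs_of_nonneg (by positivity)]
    refine mul_le_mul_of_nonneg_left ((gf2_n2_sqrt Ms (f := fun m θ => ‖FT N (G m) θ‖ *
      ‖Pz (Real.sqrt (N / N')) (Ds.biUnion I) m K R (N • θ)‖)
      fun m _ => (cF m).norm.mul (cP _ m)).trans_le
      (Real.sqrt_le_sqrt (Finset.sum_le_sum fun m _ => ?_))) (by positivity)
    rw [nP]
    exact pow_le_pow_left₀ (mul_nonneg (sn_nonneg _ _) (n2_nonneg _))
      (mul_le_of_le_one_right (sn_nonneg _ _) (n2_Pz_le_one hZ m K R)) 2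
  have hB : n2 (fun θ : Tc => ∑ m ∈ Ms, 3 / (Ms.card : ℝ) *
      (‖FT N Y θ‖ * ‖Pz (Real.sqrt (N / N')) (Ds.biUnion I) m K R (N • θ)‖)) ≤ 3 * γ := by
    refine (n2_sum_le Ms fun m hm => memLp_cont (cB m hm)).trans
      ((Finset.sum_le_card_nsmul _ _ (3 / (Ms.card : ℝ) * γ) fun m _ => ?_).trans ?_)
    · rw [n2_const_mul, abs_of_nonneg (by positivity), nP]
      exact mul_le_mul_of_nonneg_left
        ((mul_le_of_le_one_right (sn_nonneg _ _) (n2_Pz_le_one hZ m K R)).trans hY) (by positivity)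
    · rw [nsmul_eq_mul]
      rcases Nat.eq_zero_or_pos Ms.card with h | h
      · rw [h]; simp [hγ]
      · have : (Ms.card : ℝ) ≠ 0 := by positivity
        exact le_of_eq (by field_simp)
  have hC : n2 (fun θ : Tc => ∑ m ∈ Ms, ∑ d ∈ Ds,
      η1 * (‖FT N (G m) θ‖ * ‖Pz (Real.sqrt (N / N')) (I d) m K R (N • θ)‖)) ≤
      η1 * Real.sqrt (Ds.card * Ms.card) * tn N Ms G := by
    refine (n2_sum_le Ms fun m _ => memLp_cont (continuous_finsetSum Ds fun d _ => cC m d)).trans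
      ((Finset.sum_le_sum (g := fun m => η1 * Real.sqrt Ds.card * sn N (G m)) fun m _ => ?_).trans ?_)
    · refine (n2_sum_le Ds fun d _ => memLp_cont (cC m d)).trans ?_
      simp only [n2_const_mul, abs_of_nonneg hη1, nP, ← Finset.mul_sum]
      rw [mul_assoc, mul_comm (Real.sqrt _)]
      exact mul_le_mul_of_nonneg_left
        (mul_le_mul_of_nonneg_left (sum_n2_Pz_le hZ m K R) (sn_nonneg _ _)) hη1
    · rw [← Finset.mul_sum, Real.sqrt_mul (Nat.cast_nonneg _), mul_assoc η1, mul_assoc η1,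
        mul_assoc]
      gcongr
  have hD' : n2 (fun θ : Tc => ∑ m ∈ Ms, ∑ d ∈ Ds, 6 * (‖FT N (G m) θ‖ * w m d (N • θ))) ≤
      6 * η2 * Ds.card * Real.sqrt Ms.card * tn N Ms G := by
    refine (n2_sum_le Ms fun m hm => memLp_cont (continuous_finsetSum Ds (cD m hm))).trans
      ((Finset.sum_le_sum (g := fun m => 6 * η2 * Ds.card * sn N (G m)) fun m hm => ?_).trans ?_)
    · refine (n2_sum_le Ds fun d hd => memLp_cont (cD m hm d hd)).trans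
        ((Finset.sum_le_card_nsmul _ _ (6 * (sn N (G m) * η2)) fun d hd => ?_).trans (le_of_eq ?_))
      · rw [n2_const_mul, abs_of_nonneg (by norm_num), n2_indep N hN _ (hwc m hm d hd)]
        exact mul_le_mul_of_nonneg_left
          (mul_le_mul_of_nonneg_left (hw2 m hm d hd) (sn_nonneg _ _)) (by norm_num)
      · rw [nsmul_eq_mul]; ring
    · rw [← Finset.mul_sum, mul_assoc _ (Real.sqrt _)]
      exact mul_le_mul_of_nonneg_left hs (by positivity)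
  have t1 := n2_add_le (g := fun θ : Tc => ∑ m ∈ Ms, ∑ d ∈ Ds, 6 * (‖FT N (G m) θ‖ * w m d (N • θ)))
    (memLp_cont ((cA.add cB').add cC'))
  have t2 := n2_add_le (g := fun θ : Tc => ∑ m ∈ Ms, ∑ d ∈ Ds,
      η1 * (‖FT N (G m) θ‖ * ‖Pz (Real.sqrt (N / N')) (I d) m K R (N • θ)‖))
    (memLp_cont (cA.add cB'))
  have t3 := n2_add_le (g := fun θ : Tc => ∑ m ∈ Ms, 3 / (Ms.card : ℝ) *
      (‖FT N Y θ‖ * ‖Pz (Real.sqrt (N / N')) (Ds.biUnion I) m K R (N • θ)‖)) (memLp_cont cA)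
  refine t1.trans ((add_le_add (t2.trans (add_le_add (t3.trans (add_le_add hA hB)) hC)) hD').trans
    (le_of_eq ?_))
  ring

end Crest.Agent.R81
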