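import Crest.Agent.R81.GF1

/-!
# R81: the spectral density changes little
-/

set_option autoImplicit false

namespace Crest.Agent.R81

open MeasureTheory

theorem gf3_sqrt_le_sum {ι : Type} (s : Finset ι) {a : ι → ℝ} (ha : ∀ i ∈ s, 0 ≤ a i) :
    Real.sqrt (∑ i ∈ s, a i ^ 2) ≤ ∑ i ∈ s, a i :=
  Real.sqrt_le_iff.2 ⟨Finset.sum_nonneg ha, Finset.sum_sq_le_sq_sum_of_nonneg ha⟩

theorem gf3_le_sqrt {ι : Type} {s : Finset ι} (a : ι → ℝ) {i : ι} (hi : i ∈ s) :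
    a i ≤ Real.sqrt (∑ j ∈ s, a j ^ 2) :=
  Real.le_sqrt_of_sq_le (Finset.single_le_sum (f := fun j => a j ^ 2) (fun _ _ => sq_nonneg _) hi)

/-- the pointwise majorant -/
theorem gf3_point (Ms : Finset ℤ) (Ds : Finset ℕ) (F P : ℤ → ℂ) (wf : ℤ → ℝ) (w : ℤ → ℕ → ℝ)
    (A Φ ε4 : ℝ) (inC inU : ℤ → Prop) (hA : 0 ≤ A) (hε4 : 0 ≤ ε4) (hΦ0 : 0 ≤ Φ) (hΦ2 : Φ ≤ 2)
    (hdom : ∀ m ∈ Ms, ¬ inC m → ‖F m‖ ≤ A)
    (huniq : ∀ m ∈ Ms, ∀ m' ∈ Ms, inC m → inC m' → m = m')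
    (hwf : ∀ m ∈ Ms, |‖P m‖ - 1| ≤ wf m)
    (hw0 : ∀ m ∈ Ms, ∀ d ∈ Ds, 0 ≤ w m d)
    (hw : ∀ m ∈ Ms, ¬ inU m → ‖P m‖ ≤ ∑ d ∈ Ds, w m d)
    (hΦ : ∀ m ∈ Ms, inU m → inC m → |Φ - 1| ≤ ε4) :
    |Real.sqrt (∑ m ∈ Ms, ‖F m‖ ^ 2) - Φ * ‖∑ m ∈ Ms, F m * P m‖| ≤
      Real.sqrt (∑ m ∈ Ms, (‖F m‖ * wf m) ^ 2) + ε4 * Real.sqrt (∑ m ∈ Ms, (‖F m‖ * ‖P m‖) ^ 2) +
        ∑ m ∈ Ms, ∑ d ∈ Ds, ‖F m‖ * w m d + 2 * ∑ m ∈ Ms, A * ‖P m‖ + ∑ _m ∈ Ms, A * 1 := by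
  classical
  have hΦ1 : |Φ - 1| ≤ 1 := abs_le.2 ⟨by linarith, by linarith⟩
  have h1 : 0 ≤ Real.sqrt (∑ m ∈ Ms, (‖F m‖ * wf m) ^ 2) := Real.sqrt_nonneg _
  have h2 : 0 ≤ ε4 * Real.sqrt (∑ m ∈ Ms, (‖F m‖ * ‖P m‖) ^ 2) :=
    mul_nonneg hε4 (Real.sqrt_nonneg _)
  have h3 : 0 ≤ ∑ m ∈ Ms, ∑ d ∈ Ds, ‖F m‖ * w m d :=
    Finset.sum_nonneg fun m hm => Finset.sum_nonneg fun d hd =>
      mul_nonneg (norm_nonneg _) (hw0 m hm d hd)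
  have h4 : 0 ≤ ∑ m ∈ Ms, A * ‖P m‖ := Finset.sum_nonneg fun m _ => by positivity
  have hs0 : 0 ≤ Real.sqrt (∑ m ∈ Ms, ‖F m‖ ^ 2) := Real.sqrt_nonneg _
  have hs1 : Real.sqrt (∑ m ∈ Ms, ‖F m‖ ^ 2) ≤ ∑ m ∈ Ms, ‖F m‖ :=
    gf3_sqrt_le_sum Ms fun _ _ => norm_nonneg _
  have hy0 : 0 ≤ ‖∑ m ∈ Ms, F m * P m‖ := norm_nonneg _
  by_cases hex : ∃ m0 ∈ Ms, inC m0
  · obtain ⟨m0, hm0, hC0⟩ := hex
    have hT : ∀ m ∈ Ms.erase m0, ‖F m‖ ≤ A := fun m hm =>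
      hdom m (Finset.mem_of_mem_erase hm) fun hc =>
        Finset.ne_of_mem_erase hm (huniq m (Finset.mem_of_mem_erase hm) m0 hm0 hc hC0)
    have e1 : ‖F m0‖ ≤ Real.sqrt (∑ m ∈ Ms, ‖F m‖ ^ 2) := gf3_le_sqrt (fun m => ‖F m‖) hm0
    have e2 : ∑ m ∈ Ms, ‖F m‖ ≤ ‖F m0‖ + ∑ _m ∈ Ms, A * 1 := by
      rw [← Finset.add_sum_erase Ms (fun m => ‖F m‖) hm0]
      refine add_le_add le_rfl ((Finset.sum_le_sum fun m hm => ?_).trans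
        (Finset.sum_le_sum_of_subset_of_nonneg (Finset.erase_subset m0 Ms) fun _ _ _ => by positivity))
      simpa using hT m hm
    have e3 : |‖∑ m ∈ Ms, F m * P m‖ - ‖F m0‖ * ‖P m0‖| ≤ ∑ m ∈ Ms, A * ‖P m‖ := by
      rw [← norm_mul]
      refine (abs_norm_sub_norm_le _ _).trans ?_
      rw [← Finset.add_sum_erase Ms (fun m => F m * P m) hm0, add_sub_cancel_left]
      refine (norm_sum_le _ _).trans ((Finset.sum_le_sum fun m hm => ?_).trans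
        (Finset.sum_le_sum_of_subset_of_nonneg (Finset.erase_subset m0 Ms) fun _ _ _ => by positivity))
      rw [norm_mul]
      exact mul_le_mul_of_nonneg_right (hT m hm) (norm_nonneg _)
    have e4 : |‖F m0‖ * ‖P m0‖ - ‖F m0‖| ≤ Real.sqrt (∑ m ∈ Ms, (‖F m‖ * wf m) ^ 2) := by
      refine le_trans ?_ (gf3_le_sqrt (fun m => ‖F m‖ * wf m) hm0)
      rw [← mul_sub_one, abs_mul, abs_of_nonneg (norm_nonneg _)]
      exact mul_le_mul_of_nonneg_left (hwf m0 hm0) (norm_nonneg _)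
    have hab : 0 ≤ ‖F m0‖ * ‖P m0‖ := by positivity
    have e5 : |Φ - 1| * (‖F m0‖ * ‖P m0‖) ≤ ε4 * Real.sqrt (∑ m ∈ Ms, (‖F m‖ * ‖P m‖) ^ 2) +
        ∑ m ∈ Ms, ∑ d ∈ Ds, ‖F m‖ * w m d := by
      by_cases hU : inU m0
      · have := mul_le_mul (hΦ m0 hm0 hU hC0) (gf3_le_sqrt (fun m => ‖F m‖ * ‖P m‖) hm0) hab hε4
        linarith
      · have a1 : ‖F m0‖ * ‖P m0‖ ≤ ∑ d ∈ Ds, ‖F m0‖ * w m0 d := by
          rw [← Finset.mul_sum]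
          exact mul_le_mul_of_nonneg_left (hw m0 hm0 hU) (norm_nonneg _)
        have a2 : ∑ d ∈ Ds, ‖F m0‖ * w m0 d ≤ ∑ m ∈ Ms, ∑ d ∈ Ds, ‖F m‖ * w m d :=
          Finset.single_le_sum (f := fun m => ∑ d ∈ Ds, ‖F m‖ * w m d)
            (fun m hm => Finset.sum_nonneg fun d hd => mul_nonneg (norm_nonneg _) (hw0 m hm d hd)) hm0
        have a3 := mul_le_mul_of_nonneg_right hΦ1 hab
        linarith
    have e6 : |(Φ - 1) * ‖∑ m ∈ Ms, F m * P m‖| ≤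
        |Φ - 1| * (‖F m0‖ * ‖P m0‖) + ∑ m ∈ Ms, A * ‖P m‖ := by
      rw [abs_mul, abs_of_nonneg hy0]
      have a1 : ‖∑ m ∈ Ms, F m * P m‖ ≤ ‖F m0‖ * ‖P m0‖ + ∑ m ∈ Ms, A * ‖P m‖ := by
        linarith [(abs_le.1 e3).2]
      have a2 := mul_le_mul_of_nonneg_left a1 (abs_nonneg (Φ - 1))
      have a3 := mul_le_mul_of_nonneg_right hΦ1 h4
      linarith
    obtain ⟨b1, b2⟩ := abs_le.1 e3
    obtain ⟨b3, b4⟩ := abs_le.1 e4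
    obtain ⟨b5, b6⟩ := abs_le.1 e6
    have h5 : 0 ≤ ∑ _m ∈ Ms, A * 1 := Finset.sum_nonneg fun m _ => by positivity
    exact abs_le.2 ⟨by linarith, by linarith⟩
  · push Not at hex
    have e2 : ∑ m ∈ Ms, ‖F m‖ ≤ ∑ _m ∈ Ms, A * 1 :=
      Finset.sum_le_sum fun m hm => by simpa using hdom m hm (hex m hm)
    have e3 : ‖∑ m ∈ Ms, F m * P m‖ ≤ ∑ m ∈ Ms, A * ‖P m‖ := by
      refine (norm_sum_le _ _).trans (Finset.sum_le_sum fun m hm => ?_)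
      rw [norm_mul]
      exact mul_le_mul_of_nonneg_right (hdom m hm (hex m hm)) (norm_nonneg _)
    have a1 := mul_le_mul_of_nonneg_right hΦ2 hy0
    have a2 := mul_nonneg hΦ0 hy0
    exact abs_le.2 ⟨by linarith, by linarith⟩

theorem gf3_cont_comp (N : ℕ) {w : Tc → ℝ} (hw : Continuous w) :
    Continuous fun θ : Tc => w (N • θ) := hw.comp (continuous_nsmul N)

theorem gf3_n2_sqrt (N : ℕ) (hN : 0 < N) (Ms : Finset ℤ) (G : ℤ → ℤ → ℂ) (w : ℤ → Tc → ℝ) (β : ℝ)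
    (hβ : 0 ≤ β) (hw : ∀ m ∈ Ms, Continuous (w m)) (hn : ∀ m ∈ Ms, n2 (w m) ≤ β) :
    n2 (fun θ => Real.sqrt (∑ m ∈ Ms, (‖FT N (G m) θ‖ * w m (N • θ)) ^ 2)) ≤ β * tn N Ms G := by
  have hc : ∀ m ∈ Ms, Continuous fun θ : Tc => ‖FT N (G m) θ‖ * w m (N • θ) := fun m hm =>
    (cont_FT N (G m)).norm.mul (gf3_cont_comp N (hw m hm))
  have hc2 : Continuous fun θ : Tc => ∑ m ∈ Ms, (‖FT N (G m) θ‖ * w m (N • θ)) ^ 2 :=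
    continuous_finsetSum _ fun m hm => (hc m hm).pow 2
  refine (sq_le_sq₀ (n2_nonneg _) (mul_nonneg hβ (tn_nonneg _ _ _))).1 ?_
  rw [n2_sq hc2.sqrt.aestronglyMeasurable]
  have h1 : ∀ θ : Tc, ‖Real.sqrt (∑ m ∈ Ms, (‖FT N (G m) θ‖ * w m (N • θ)) ^ 2)‖ ^ 2 =
      ∑ m ∈ Ms, ‖‖FT N (G m) θ‖ * w m (N • θ)‖ ^ 2 := fun θ => by
    rw [Real.norm_eq_abs, sq_abs, Real.sq_sqrt (Finset.sum_nonneg fun _ _ => sq_nonneg _)]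
    exact Finset.sum_congr rfl fun m _ => by rw [Real.norm_eq_abs, sq_abs]
  simp_rw [h1]
  rw [integral_finsetSum (f := fun m θ => ‖‖FT N (G m) θ‖ * w m (N • θ)‖ ^ 2) _ fun m hm =>
    ((hc m hm).norm.pow 2).integrable_of_hasCompactSupport
    (HasCompactSupport.of_compactSpace _), mul_pow, tn,
    Real.sq_sqrt (Finset.sum_nonneg fun _ _ => sq_nonneg _), Finset.mul_sum]
  refine Finset.sum_le_sum fun m hm => ?_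
  rw [← n2_sq (hc m hm).aestronglyMeasurable, n2_indep N hN _ (hw m hm), mul_pow, mul_comm]
  exact mul_le_mul_of_nonneg_right (pow_le_pow_left₀ (n2_nonneg _) (hn m hm) 2) (sq_nonneg _)

theorem gf3_n2_lam (N : ℕ) (hN : 0 < N) (Ms : Finset ℤ) (Y : ℤ → ℂ) (w : ℤ → Tc → ℝ)
    (hw : ∀ m ∈ Ms, Continuous (w m)) (hn : ∀ m ∈ Ms, n2 (w m) ≤ 1) :
    n2 (fun θ => ∑ m ∈ Ms, ‖FT N Y θ‖ / Ms.card * w m (N • θ)) ≤ sn N Y := by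
  refine (n2_sum_le Ms (f := fun m θ => ‖FT N Y θ‖ / Ms.card * w m (N • θ)) fun m hm =>
    memLp_cont (((cont_FT N Y).norm.div_const _).mul (gf3_cont_comp N (hw m hm)))).trans ?_
  have h1 : ∀ m ∈ Ms, n2 (fun θ : Tc => ‖FT N Y θ‖ / Ms.card * w m (N • θ)) ≤
      (Ms.card : ℝ)⁻¹ * sn N Y := fun m hm => by
    have : (fun θ : Tc => ‖FT N Y θ‖ / Ms.card * w m (N • θ)) =
        fun θ : Tc => (Ms.card : ℝ)⁻¹ * (‖FT N Y θ‖ * w m (N • θ)) := by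
      funext θ; ring
    rw [this, n2_const_mul, n2_indep N hN _ (hw m hm), abs_of_nonneg (by positivity)]
    exact mul_le_mul_of_nonneg_left (mul_le_of_le_one_right (sn_nonneg _ _) (hn m hm)) (by positivity)
  refine (Finset.sum_le_sum h1).trans ?_
  rw [Finset.sum_const, nsmul_eq_mul, ← mul_assoc]
  exact mul_le_of_le_one_left (sn_nonneg _ _) mul_inv_le_one

theorem gf3_n2_w (N : ℕ) (hN : 0 < N) (Ms : Finset ℤ) (Ds : Finset ℕ) (G : ℤ → ℤ → ℂ)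
    (w : ℤ → ℕ → Tc → ℝ) (η : ℝ) (hη : 0 ≤ η) (hw : ∀ m ∈ Ms, ∀ d ∈ Ds, Continuous (w m d))
    (hn : ∀ m ∈ Ms, ∀ d ∈ Ds, n2 (w m d) ≤ η) :
    n2 (fun θ => ∑ m ∈ Ms, ∑ d ∈ Ds, ‖FT N (G m) θ‖ * w m d (N • θ)) ≤
      η * Ds.card * Real.sqrt Ms.card * tn N Ms G := by
  have hc : ∀ m ∈ Ms, ∀ d ∈ Ds, Continuous fun θ : Tc => ‖FT N (G m) θ‖ * w m d (N • θ) :=
    fun m hm d hd => (cont_FT N (G m)).norm.mul (gf3_cont_comp N (hw m hm d hd))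
  refine (n2_sum_le Ms (f := fun m θ => ∑ d ∈ Ds, ‖FT N (G m) θ‖ * w m d (N • θ)) fun m hm =>
    memLp_cont (continuous_finsetSum _ (hc m hm))).trans ?_
  have h1 : ∀ m ∈ Ms, n2 (fun θ : Tc => ∑ d ∈ Ds, ‖FT N (G m) θ‖ * w m d (N • θ)) ≤
      η * Ds.card * sn N (G m) := fun m hm => by
    refine (n2_sum_le Ds (f := fun d θ => ‖FT N (G m) θ‖ * w m d (N • θ)) fun d hd =>
      memLp_cont (hc m hm d hd)).trans ?_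
    have h2 : ∀ d ∈ Ds, n2 (fun θ : Tc => ‖FT N (G m) θ‖ * w m d (N • θ)) ≤ sn N (G m) * η :=
      fun d hd => by
        rw [n2_indep N hN _ (hw m hm d hd)]
        exact mul_le_mul_of_nonneg_left (hn m hm d hd) (sn_nonneg _ _)
    refine (Finset.sum_le_sum h2).trans (le_of_eq ?_)
    rw [Finset.sum_const, nsmul_eq_mul]
    ring
  refine (Finset.sum_le_sum h1).trans ?_
  rw [← Finset.mul_sum, mul_assoc (η * Ds.card)]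
  exact mul_le_mul_of_nonneg_left (sum_sn_le N Ms G) (by positivity)

/-- **Flatness.**  By `FT_Gnew`, `FT_ych`: `sd' θ = Φ₂ θ · ‖Y''θ‖` with `Φ₂ = √(∑_n ‖φ_n‖²) ∈ [0,2]`
and `Y'' = ∑_m F_m P'_m(Nθ)`.  Let `λ θ = ∑_m ‖FT Y θ‖ (‖P'_m‖ + 1)/#Ms` (norm `≤ 2γ`) and
`λ' θ = ∑_m ‖FT Y θ‖ ‖P'_m‖/#Ms` (norm `≤ γ`).  Pointwise:
`|‖Y''‖ - sd| ≤ √(∑_m ‖F_m‖² wf_m(Nθ)²) + λ` (at most one `m₀` has `θ ∈ C m₀`; all other components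
are dominated; `|√(∑ a_m²) - a_{m₀}| ≤ ∑_{m ≠ m₀} a_m`), and
`|Φ₂ - 1| ‖Y''‖ ≤ ε4 √(∑_m ‖F_m P'_m‖²) + ∑_{m,d} ‖F_m‖ w_{m,d}(Nθ) + λ'`
(if `θ ∈ C m₀ ∩ U m₀` use `HΦ2`; if `θ ∈ C m₀ \ U m₀` then `N•θ ∉ Ω m₀ d` for all `d`). -/
theorem gf_flat {N N' L : ℕ} (K R : ℕ) (hN : 0 < N) (hN' : 0 < N') {Ds : Finset ℕ}
    {I : ℕ → Finset ℤ} (hZ : Zon N N' Ds I L) (Ms Ns : Finset ℤ) (G : ℤ → ℤ → ℂ)
    (φc : ℤ → ℤ → ℂ) (Ω : ℤ → ℕ → Set Tc) (U C : ℤ → Set Tc) (η2 ε3 ε4 γ : ℝ)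
    (hη2 : 0 ≤ η2) (hε3 : 0 ≤ ε3) (hε4 : 0 ≤ ε4)
    (H1 : ∀ m ∈ Ms, ∀ d ∈ Ds, ∀ θ : Tc, N • θ ∈ Ω m d → θ ∈ U m)
    (HL : ∀ m ∈ Ms, ∀ d ∈ Ds, ∃ w : Tc → ℝ, Continuous w ∧ (∀ ξ, 0 ≤ w ξ) ∧ n2 w ≤ η2 ∧
      ∀ ξ, ξ ∉ Ω m d → ‖Pz (Real.sqrt (N / N')) (I d) m K R ξ‖ ≤ w ξ)
    (HF : ∀ m ∈ Ms, ∃ w : Tc → ℝ, Continuous w ∧ n2 w ≤ ε3 ∧
      ∀ ξ, |‖Pz (Real.sqrt (N / N')) (Ds.biUnion I) m K R ξ‖ - 1| ≤ w ξ)
    (HΦ2 : ∀ m ∈ Ms, ∀ θ ∈ U m, θ ∈ C m →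
      |Real.sqrt (∑ n ∈ Ns, ‖tp (Finset.Icc (-(L : ℤ)) L) (φc n) θ‖ ^ 2) - 1| ≤ ε4)
    (HΦ : ∀ θ, ∑ n ∈ Ns, ‖tp (Finset.Icc (-(L : ℤ)) L) (φc n) θ‖ ≤ 2)
    (hC : Disj Ms C) (HM : Main N Ms C G γ) :
    n2 (fun θ => sd N Ms G θ - sd N' Ns (Gnew L φc (ych N K R Ds I Ms G)) θ)
      ≤ (ε3 + ε4 + η2 * Ds.card * Real.sqrt Ms.card) * tn N Ms G + 3 * γ := by
  obtain ⟨Y, hY, hdom⟩ := HM
  choose! w hwc hw0 hwn hw using HL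
  choose! wf hfc hfn hf using HF
  set P : ℤ → Tc → ℂ := fun m => Pz (Real.sqrt (N / N')) (Ds.biUnion I) m K R with hP
  have hPc : ∀ m, Continuous fun ξ => ‖P m ξ‖ := fun m => (cont_Pz _ _ _ _ _).norm
  have hPn : ∀ m, n2 (fun ξ => ‖P m ξ‖) ≤ 1 := fun m => by
    rw [n2_norm (cont_Pz _ _ _ _ _).aestronglyMeasurable]
    exact n2_Pz_le_one hZ m K R
  have hsd : ∀ θ, sd N' Ns (Gnew L φc (ych N K R Ds I Ms G)) θ =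
      Real.sqrt (∑ n ∈ Ns, ‖tp (Finset.Icc (-(L : ℤ)) L) (φc n) θ‖ ^ 2) *
        ‖∑ m ∈ Ms, FT N (G m) θ * P m (N • θ)‖ := fun θ => by
    unfold sd
    simp_rw [FT_Gnew N' L φc _ (ych_eq_zero K R hN hZ Ms G), FT_ych K R hN hN' hZ, norm_mul, mul_pow]
    rw [← Finset.sum_mul, Real.sqrt_mul (Finset.sum_nonneg fun _ _ => sq_nonneg _),
      Real.sqrt_sq (norm_nonneg _)]
  have c1 : Continuous fun θ : Tc =>
      Real.sqrt (∑ m ∈ Ms, (‖FT N (G m) θ‖ * wf m (N • θ)) ^ 2) :=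
    (continuous_finsetSum _ fun m hm =>
      ((cont_FT N (G m)).norm.mul (gf3_cont_comp N (hfc m hm))).pow 2).sqrt
  have c2 : Continuous fun θ : Tc =>
      ε4 * Real.sqrt (∑ m ∈ Ms, (‖FT N (G m) θ‖ * ‖P m (N • θ)‖) ^ 2) :=
    continuous_const.mul (continuous_finsetSum _ fun m _ =>
      ((cont_FT N (G m)).norm.mul (gf3_cont_comp N (hPc m))).pow 2).sqrt
  have c3 : Continuous fun θ : Tc => ∑ m ∈ Ms, ∑ d ∈ Ds, ‖FT N (G m) θ‖ * w m d (N • θ) :=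
    continuous_finsetSum _ fun m hm => continuous_finsetSum _ fun d hd =>
      (cont_FT N (G m)).norm.mul (gf3_cont_comp N (hwc m hm d hd))
  have c4 : Continuous fun θ : Tc => 2 * ∑ m ∈ Ms, ‖FT N Y θ‖ / Ms.card * ‖P m (N • θ)‖ :=
    continuous_const.mul (continuous_finsetSum _ fun m _ =>
      ((cont_FT N Y).norm.div_const _).mul (gf3_cont_comp N (hPc m)))
  have c5 : Continuous fun θ : Tc => ∑ _m ∈ Ms, ‖FT N Y θ‖ / Ms.card * 1 :=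
    continuous_finsetSum _ fun m _ => ((cont_FT N Y).norm.div_const _).mul continuous_const
  have b1 := gf3_n2_sqrt N hN Ms G wf ε3 hε3 hfc hfn
  have b2 : n2 (fun θ : Tc => ε4 * Real.sqrt (∑ m ∈ Ms, (‖FT N (G m) θ‖ * ‖P m (N • θ)‖) ^ 2)) ≤
      ε4 * tn N Ms G := by
    rw [n2_const_mul, abs_of_nonneg hε4]
    have := gf3_n2_sqrt N hN Ms G (fun m ξ => ‖P m ξ‖) 1 zero_le_one (fun m _ => hPc m)
      fun m _ => hPn m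
    rw [one_mul] at this
    exact mul_le_mul_of_nonneg_left this hε4
  have b3 := gf3_n2_w N hN Ms Ds G w η2 hη2 hwc hwn
  have b4 : n2 (fun θ : Tc => 2 * ∑ m ∈ Ms, ‖FT N Y θ‖ / Ms.card * ‖P m (N • θ)‖) ≤ 2 * γ := by
    rw [n2_const_mul, abs_of_nonneg zero_le_two]
    have := gf3_n2_lam N hN Ms Y (fun m ξ => ‖P m ξ‖) (fun m _ => hPc m) fun m _ => hPn m
    linarith
  have b5 : n2 (fun θ : Tc => ∑ _m ∈ Ms, ‖FT N Y θ‖ / Ms.card * 1) ≤ γ :=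
    (gf3_n2_lam N hN Ms Y (fun _ _ => 1) (fun _ _ => continuous_const)
      fun _ _ => n2_le_bound (fun _ => by simp) zero_le_one).trans hY
  refine (n2_mono (memLp_cont ((((c1.add c2).add c3).add c4).add c5)) fun θ => ?_).trans ?_
  · rw [Real.norm_eq_abs, hsd]
    refine gf3_point Ms Ds (fun m => FT N (G m) θ) (fun m => P m (N • θ)) (fun m => wf m (N • θ))
      (fun m d => w m d (N • θ)) (‖FT N Y θ‖ / Ms.card) _ ε4 (fun m => θ ∈ C m) (fun m => θ ∈ U m)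
      (by positivity) hε4 (Real.sqrt_nonneg _)
      ((gf3_sqrt_le_sum Ns fun _ _ => norm_nonneg _).trans (HΦ θ))
      (fun m hm hc => hdom m hm θ (Set.mem_univ _) hc) (fun m hm m' hm' => hC m hm m' hm' θ)
      (fun m hm => hf m hm _) (fun m hm d hd => hw0 m hm d hd _) (fun m hm hU => ?_)
      fun m hm hU hc => HΦ2 m hm θ hU hc
    simp only [hP]
    rw [Pz_biUnion _ hZ]
    exact (norm_sum_le _ _).trans (Finset.sum_le_sum fun d hd =>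
      hw m hm d hd _ fun hΩ => hU (H1 m hm d hd θ hΩ))
  · have a1 := n2_add_le (g := fun θ : Tc => ∑ _m ∈ Ms, ‖FT N Y θ‖ / Ms.card * 1)
      (memLp_cont (((c1.add c2).add c3).add c4))
    have a2 := n2_add_le (g := fun θ : Tc => 2 * ∑ m ∈ Ms, ‖FT N Y θ‖ / Ms.card * ‖P m (N • θ)‖)
      (memLp_cont ((c1.add c2).add c3))
    have a3 := n2_add_le
      (g := fun θ : Tc => ∑ m ∈ Ms, ∑ d ∈ Ds, ‖FT N (G m) θ‖ * w m d (N • θ)) (memLp_cont (c1.add c2))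
    have a4 := n2_add_le
      (g := fun θ : Tc => ε4 * Real.sqrt (∑ m ∈ Ms, (‖FT N (G m) θ‖ * ‖P m (N • θ)‖) ^ 2))
      (memLp_cont c1)
    refine a1.trans ((add_le_add (a2.trans (add_le_add (a3.trans (add_le_add (a4.trans
      (add_le_add b1 b2)) b3)) b4)) b5).trans (le_of_eq ?_))
    ring

end Crest.Agent.R81
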