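import Crest.Agent.R81.Loc

/-!
# R81: the pulled back tower function and its filtered version; Fourier transforms
-/

set_option autoImplicit false

namespace Crest.Agent.R81

open MeasureTheory

/-- all characters added up, chirped, on the good names -/
noncomputable def ych (N K R : ℕ) (Ds : Finset ℕ) (I : ℕ → Finset ℤ) (Ms : Finset ℤ)
    (G : ℤ → ℤ → ℂ) (J : ℤ) : ℂ :=
  ∑ m ∈ Ms, ∑ d ∈ Ds,
    if J / N ∈ I d then ee (m * K * ((J / N : ℤ) : ℝ) ^ 2 / (2 * R)) * G m (J % N) else 0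

/-- the new tower function -/
noncomputable def Gnew (L : ℕ) (φc : ℤ → ℤ → ℂ) (y : ℤ → ℂ) (n J : ℤ) : ℂ :=
  ∑ k ∈ Finset.Icc (-(L : ℤ)) L, φc n k * y (J + k)

/-- the pulled back tower function at a fixed fibre point (time shift `s`, phases `φ d`) -/
noncomputable def pbk (N K R : ℕ) (Ds : Finset ℕ) (I : ℕ → Finset ℤ) (Ms : Finset ℤ)
    (G : ℤ → ℤ → ℂ) (s : ℤ) (φ : ℕ → ℝ) (J : ℤ) : ℂ :=
  ∑ d ∈ Ds, if (J + s) / N ∈ I d then
    ev Ms G ((J + s) % N) ((φ d + K * (((J + s) / N : ℤ) : ℝ) ^ 2 / (2 * R) : ℝ) : Tc) else 0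

theorem gf0_nsmul (n : ℤ) (N : ℕ) (θ : Tc) : fourier n (N • θ) = fourier (n * N) θ := by
  rw [fourier_apply, fourier_apply, mul_smul, natCast_zsmul]

theorem gf0_div {N i j : ℤ} (h1 : 0 ≤ i) (h2 : i < N) :
    (j * N + i) / N = j ∧ (j * N + i) % N = i := by
  have h3 : 0 < N := h1.trans_lt h2
  exact (Int.ediv_emod_unique h3).2 ⟨by ring, h1, h2⟩

/-- Basic block formula: reindex `J + s = j N + i` (`(j,i) ∈ I × [0,N)`; by hypothesis all these
`J` lie in `[0,N')`), `fourier (-(jN+i-s)) θ = fourier s θ · fourier (-i) θ · fourier (-j) (N • θ)`,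
`(√N')⁻¹ = (√N)⁻¹ √(N/N')`. -/
theorem FT_block (N N' K R : ℕ) (hN : 0 < N) (hN' : 0 < N') (I : Finset ℤ) (m s : ℤ) (g : ℤ → ℂ)
    (hI : ∀ j ∈ I, |s| ≤ j * N ∧ (j + 1) * N + |s| ≤ N') (θ : Tc) :
    FT N' (fun J => if (J + s) / N ∈ I then
        ee (m * K * (((J + s) / N : ℤ) : ℝ) ^ 2 / (2 * R)) * g ((J + s) % N) else 0) θ
      = fourier s θ * FT N g θ * Pz (Real.sqrt (N / N')) I m K R (N • θ) := by
  have hN0 : (0 : ℤ) < N := by exact_mod_cast hN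
  have key : ∑ J ∈ Finset.Ico (0 : ℤ) N', (if (J + s) / N ∈ I then
        ee (m * K * (((J + s) / N : ℤ) : ℝ) ^ 2 / (2 * R)) * g ((J + s) % N) else 0) *
        fourier (-J) θ =
      ∑ p ∈ Finset.Ico (0 : ℤ) N ×ˢ I, fourier s θ * ((g p.1 * fourier (-p.1) θ) *
        (ee (m * K * (p.2 : ℝ) ^ 2 / (2 * R)) * fourier (-p.2) (N • θ))) := by
    simp only [ite_mul, zero_mul]
    rw [← Finset.sum_filter]
    refine Finset.sum_nbij' (fun J => ((J + s) % N, (J + s) / N)) (fun p => p.2 * N + p.1 - s)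
      ?_ ?_ ?_ ?_ ?_
    · intro J hJ
      exact Finset.mem_product.2 ⟨Finset.mem_Ico.2 ⟨Int.emod_nonneg _ hN0.ne',
        Int.emod_lt_of_pos _ hN0⟩, (Finset.mem_filter.1 hJ).2⟩
    · rintro ⟨i, j⟩ hp
      obtain ⟨hi, hj⟩ := Finset.mem_product.1 hp
      obtain ⟨h1, h2⟩ := Finset.mem_Ico.1 hi
      obtain ⟨h3, h4⟩ := hI j hj
      have h5 := le_abs_self s
      have h6 := neg_abs_le s
      refine Finset.mem_filter.2 ⟨Finset.mem_Ico.2 ⟨?_, ?_⟩, ?_⟩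
      · dsimp only at *
        linarith
      · dsimp only at *
        linarith
      · rw [sub_add_cancel, (gf0_div h1 h2).1]
        exact hj
    · intro J _
      have := Int.ediv_mul_add_emod (J + s) N
      dsimp only
      linarith
    · rintro ⟨i, j⟩ hp
      obtain ⟨h1, h2⟩ := Finset.mem_Ico.1 (Finset.mem_product.1 hp).1
      dsimp only at *
      rw [sub_add_cancel, (gf0_div h1 h2).1, (gf0_div h1 h2).2]
    · intro J _
      have h1 := Int.ediv_mul_add_emod (J + s) N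
      have h2 : -J = s + (-((J + s) % N) + -((J + s) / N) * N) := by linarith
      dsimp only
      rw [gf0_nsmul, h2, fourier_add, fourier_add]
      ring
  have hc : (Real.sqrt N')⁻¹ = (Real.sqrt N)⁻¹ * Real.sqrt (N / N') := by
    have h1 : 0 < Real.sqrt N := Real.sqrt_pos.2 (by exact_mod_cast hN)
    rw [Real.sqrt_div (Nat.cast_nonneg _)]
    field_simp
  unfold FT Pz
  rw [key, ← Finset.mul_sum, Finset.sum_product' _ _ fun i j : ℤ => (g i * fourier (-i) θ) *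
    (ee (m * K * (j : ℝ) ^ 2 / (2 * R)) * fourier (-j) (N • θ)), ← Finset.sum_mul_sum, hc]
  push_cast
  ring

theorem gf0_disj {N N' b : ℕ} {Ds : Finset ℕ} {I : ℕ → Finset ℤ} (hZ : Zon N N' Ds I b) :
    Set.PairwiseDisjoint (Ds : Set ℕ) I := fun d hd d' hd' hne =>
  Finset.disjoint_left.2 fun j h1 h2 => hne (hZ.1 d hd d' hd' j h1 h2)

theorem Pz_biUnion (c : ℝ) {N N' b : ℕ} {Ds : Finset ℕ} {I : ℕ → Finset ℤ} (hZ : Zon N N' Ds I b)
    (m : ℤ) (K R : ℕ) (ξ : Tc) :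
    Pz c (Ds.biUnion I) m K R ξ = ∑ d ∈ Ds, Pz c (I d) m K R ξ := by
  unfold Pz
  rw [Finset.sum_biUnion (gf0_disj hZ), Finset.mul_sum]

/-- the blocks `[jN,(j+1)N)` are disjoint subsets of `[0,N')` -/
theorem Zon_card {N N' b : ℕ} {Ds : Finset ℕ} {I : ℕ → Finset ℤ} (hZ : Zon N N' Ds I b) :
    (∑ d ∈ Ds, (I d).card) * N ≤ N' ∧ (Ds.biUnion I).card * N ≤ N' := by
  have h1 : (Ds.biUnion I).card * N ≤ N' := by
    have h2 := Finset.card_le_card_of_injOn (s := Ds.biUnion I ×ˢ Finset.Ico (0 : ℤ) N)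
      (t := Finset.Ico (0 : ℤ) N') (fun p => p.1 * N + p.2) ?_ ?_
    · simpa using h2
    · rintro ⟨j, i⟩ hp
      obtain ⟨hj, hi⟩ := Finset.mem_product.1 (Finset.mem_coe.1 hp)
      obtain ⟨d, hd, hj'⟩ := Finset.mem_biUnion.1 hj
      obtain ⟨h3, h4⟩ := Finset.mem_Ico.1 hi
      obtain ⟨h5, h6⟩ := hZ.2 d hd j hj'
      have h7 : (0 : ℤ) ≤ b := Int.natCast_nonneg b
      refine Finset.mem_coe.2 (Finset.mem_Ico.2 ⟨?_, ?_⟩)
      · dsimp only at *
        linarith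
      · dsimp only at *
        linarith
    · rintro ⟨j, i⟩ hp ⟨j', i'⟩ hp' e
      obtain ⟨h3, h4⟩ := Finset.mem_Ico.1 (Finset.mem_product.1 (Finset.mem_coe.1 hp)).2
      obtain ⟨h5, h6⟩ := Finset.mem_Ico.1 (Finset.mem_product.1 (Finset.mem_coe.1 hp')).2
      have h7 := gf0_div (j := j) h3 h4
      have h8 := gf0_div (j := j') h5 h6
      dsimp only at *
      rw [e] at h7
      exact Prod.ext (h7.1.symm.trans h8.1) (h7.2.symm.trans h8.2)
  exact ⟨by rwa [← Finset.card_biUnion (gf0_disj hZ)], h1⟩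

theorem gf0_le {N N' n : ℕ} (h : n * N ≤ N') : (N : ℝ) / N' * n ≤ 1 := by
  have h1 : (n : ℝ) * N ≤ N' := by exact_mod_cast h
  rw [div_mul_eq_mul_div, mul_comm]
  exact div_le_one_of_le₀ h1 (Nat.cast_nonneg _)

theorem n2_Pz_le_one {N N' b : ℕ} {Ds : Finset ℕ} {I : ℕ → Finset ℤ} (hZ : Zon N N' Ds I b)
    (m : ℤ) (K R : ℕ) : n2 (Pz (Real.sqrt (N / N')) (Ds.biUnion I) m K R) ≤ 1 := by
  rw [n2_Pz _ (Real.sqrt_nonneg _), ← Real.sqrt_mul (by positivity)]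
  exact Real.sqrt_le_one.2 (gf0_le (Zon_card hZ).2)

/-- Cauchy–Schwarz with `n2_Pz` and `Zon_card`. -/
theorem sum_n2_Pz_le {N N' b : ℕ} {Ds : Finset ℕ} {I : ℕ → Finset ℤ} (hZ : Zon N N' Ds I b)
    (m : ℤ) (K R : ℕ) :
    ∑ d ∈ Ds, n2 (Pz (Real.sqrt (N / N')) (I d) m K R) ≤ Real.sqrt Ds.card := by
  have h1 := gf0_le (Zon_card hZ).1
  refine Real.le_sqrt_of_sq_le ((sq_sum_le_card_mul_sum_sq (s := Ds)).trans ?_)
  refine mul_le_of_le_one_right (Nat.cast_nonneg _) (le_trans (le_of_eq ?_) h1)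
  rw [Nat.cast_sum, Finset.mul_sum]
  refine Finset.sum_congr rfl fun d _ => ?_
  rw [n2_Pz _ (Real.sqrt_nonneg _), mul_pow, Real.sq_sqrt (by positivity),
    Real.sq_sqrt (Nat.cast_nonneg _)]

end Crest.Agent.R81
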