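import Crest.Agent.R81.RLDef

/-!
# R81: the bad set
-/

set_option autoImplicit false

namespace Crest.Agent.R81

open MeasureTheory Crest.AnalysisR.Torus3 Filter Topology
open scoped ContDiff

namespace Par
variable {P : Par}

theorem rl9_arc {f : T3 → Tc} (hf : MeasurePreserving f volume volume) (r : ℝ) :
    MeasurableSet {q | ‖f q‖ < r} ∧ volume {q | ‖f q‖ < r} ≤ ENNReal.ofReal (2 * r) := by
  have hm : MeasurableSet {x : Tc | ‖x‖ < r} := measurableSet_lt measurable_norm measurable_const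
  refine ⟨hf.measurable hm, ?_⟩
  exact (hf.measure_preimage hm.nullMeasurableSet).trans_le (vol_ball r)

theorem rl9_char (a b c : ℤ) (h : a ≠ 0 ∨ b ≠ 0 ∨ c ≠ 0) :
    MeasurePreserving (fun q : T3 => a • q 0 + b • q 1 + c • q 2) volume volume := by
  have := mp_char ![a, b, c] (by
    intro h0
    have h1 := congrFun h0 0
    have h2 := congrFun h0 1
    have h3 := congrFun h0 2
    simp at h1 h2 h3
    tauto)
  simpa [Fin.sum_univ_three] using this

/-- five preimages of arcs under measure preserving maps (`mp_char`, `St.mp_xc`, `vol_ball`) -/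
theorem bad_meas (h : P.Ok) {N' : ℕ} (hN : 0 < N') (β : ℤ) (σ' : St) (μ : ℝ) (hμ : 0 ≤ μ) :
    MeasurableSet {q' | ¬ P.GoodPt N' β σ' μ q'} ∧
      volume {q' | ¬ P.GoodPt N' β σ' μ q'} ≤ ENNReal.ofReal (6 * P.δ2 + 4 * μ) := by
  have hN' : (N' : ℤ) ≠ 0 := by exact_mod_cast hN.ne'
  have hΛ : (P.Λ : ℤ) ≠ 0 := by exact_mod_cast h.hΛ.ne'
  have hJ : (P.J' : ℤ) ≠ 0 := by exact_mod_cast h.hJ.ne'
  have m1 : MeasurePreserving (fun q' : T3 => (N' : ℤ) • q' 2 - P.an N' β • q' 1)
      volume volume := by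
    convert rl9_char 0 (-P.an N' β) N' (Or.inr (Or.inr hN')) using 2 with q
    rw [zero_smul, zero_add, neg_smul]; abel
  have m2 : MeasurePreserving (fun q' : T3 => q' 1) volume volume := by
    convert rl9_char 0 1 0 (Or.inr (Or.inl one_ne_zero)) using 2 with q
    simp
  have m3 : MeasurePreserving (fun q' : T3 => P.Λ • q' 1) volume volume := by
    convert rl9_char 0 P.Λ 0 (Or.inr (Or.inl hΛ)) using 2 with q
    simp
  have m4 : MeasurePreserving (fun q' : T3 => P.J' • σ'.xc q') volume volume := by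
    convert (rl9_char P.J' 0 0 (Or.inl hJ)).comp σ'.mp_xc using 2 with q
    simp
  have m5 : MeasurePreserving (fun q' : T3 => q' 1 + σ'.xc q') volume volume := by
    convert (rl9_char 1 1 0 (Or.inl one_ne_zero)).comp σ'.mp_xc using 2 with q
    simp [add_comm]
  obtain ⟨a1, b1⟩ := rl9_arc m1 P.δ2
  obtain ⟨a2, b2⟩ := rl9_arc m2 P.δ2
  obtain ⟨a3, b3⟩ := rl9_arc m3 P.δ2
  obtain ⟨a4, b4⟩ := rl9_arc m4 μ
  obtain ⟨a5, b5⟩ := rl9_arc m5 μ
  have e : {q' | ¬ P.GoodPt N' β σ' μ q'} =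
      {q' : T3 | ‖(N' : ℤ) • q' 2 - P.an N' β • q' 1‖ < P.δ2} ∪ ({q' : T3 | ‖q' 1‖ < P.δ2} ∪
        ({q' : T3 | ‖P.Λ • q' 1‖ < P.δ2} ∪ ({q' : T3 | ‖P.J' • σ'.xc q'‖ < μ} ∪
          {q' : T3 | ‖q' 1 + σ'.xc q'‖ < μ}))) := by
    ext q'
    simp only [GoodPt, Set.mem_setOf_eq, Set.mem_union, not_and_or, not_le]
  rw [e]
  refine ⟨a1.union (a2.union (a3.union (a4.union a5))), ?_⟩
  have hδ := h.hδ2.le
  refine ((measure_union_le _ _).trans (add_le_add b1 ((measure_union_le _ _).trans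
    (add_le_add b2 ((measure_union_le _ _).trans (add_le_add b3 ((measure_union_le _ _).trans
      (add_le_add b4 b5)))))))).trans (le_of_eq ?_)
  rw [← ENNReal.ofReal_add (by positivity) (by positivity),
    ← ENNReal.ofReal_add (by positivity) (by positivity),
    ← ENNReal.ofReal_add (by positivity) (by positivity),
    ← ENNReal.ofReal_add (by positivity) (by positivity)]
  congr 1
  ring

theorem measurable_shf (s0 J' : ℕ) : Measurable (shf s0 J') := by
  exact (measurable_of_countable fun z : ℤ => (s0 : ℤ) * z).comp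
    (measurable_rp.const_mul (J' : ℝ)).floor

theorem measurable_phs (lam : ℕ → ℤ) (α1 : ℝ) (α2 : ℕ → ℝ) (J' d : ℕ) :
    Measurable fun x => phs lam α1 α2 J' x d := by
  exact ((measurable_rp.const_mul _).add
    ((measurable_rp.const_mul (J' : ℝ)).fract.const_mul _)).add (measurable_rp.const_mul _)

theorem shf_mem (s0 J' : ℕ) (x : Tc) : 0 ≤ shf s0 J' x ∧ shf s0 J' x ≤ (s0 * J' : ℕ) := by
  have h0 := rp_nonneg x
  have h1 := rp_lt_one x
  have hJ : (0 : ℝ) ≤ J' := Nat.cast_nonneg _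
  unfold shf
  refine ⟨mul_nonneg (Int.natCast_nonneg _) (Int.floor_nonneg.2 (mul_nonneg hJ h0)), ?_⟩
  push_cast
  refine mul_le_mul_of_nonneg_left ?_ (Int.natCast_nonneg _)
  have h2 : ((⌊(J' : ℝ) * rp x⌋ : ℤ) : ℝ) ≤ ((J' : ℤ) : ℝ) := by
    refine (Int.floor_le _).trans ?_
    push_cast
    nlinarith
  exact_mod_cast h2

theorem measurable_Xi (P : Par) (N' R d : ℕ) (J : ℤ) : Measurable (P.Xi N' R d J) := by
  have hs : ∀ F : ℤ → ℝ, Measurable fun x => F (shf P.s0 P.J' x) := fun F =>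
    (measurable_of_countable F).comp (measurable_shf _ _)
  refine measurable_pi_lambda _ fun i => AddCircle.measurable_mk'.comp ?_
  fin_cases i
  · exact ((measurable_phs _ _ _ _ _).add
      (hs fun z => P.σ.K * (((J + z) / P.σ.N : ℤ) : ℝ) ^ 2 / (2 * R))).add
      (hs fun z => P.σ.K * ((J : ℝ) / N' - 1 / 2) * (((J + z) % P.σ.N : ℤ) : ℝ) / P.σ.N)
  · exact measurable_const
  · exact (((hs fun z => P.σ.P * (J + z : ℤ) - P.kap d).add measurable_rp).add_const _).div_const _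

end Par

end Crest.Agent.R81
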