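import Crest.Agent.R81.Link
import Crest.Agent.R81.GF0
import Crest.Agent.R81.RL9

/-!
# R81: transfer of tower functions to the next tower
-/

set_option autoImplicit false

namespace Crest.Agent.R81

open MeasureTheory Crest.AnalysisR.Torus3 Filter Topology

theorem tr_vol_union (S : Finset ℕ) (c : ℕ → Tc) {r : ℝ} (hr : 0 ≤ r) :
    volume (⋃ d ∈ S, Metric.closedBall (c d) r) ≤ ENNReal.ofReal (S.card * (2 * r)) := by
  refine (measure_biUnion_finset_le S _).trans ?_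
  have h1 : ∀ d ∈ S, volume (Metric.closedBall (c d) r) ≤ ENNReal.ofReal (2 * r) := fun d _ => by
    rw [AddCircle.volume_closedBall]
    exact ENNReal.ofReal_le_ofReal (min_le_right _ _)
  refine (Finset.sum_le_sum h1).trans (le_of_eq ?_)
  rw [← ENNReal.ofReal_sum_of_nonneg fun _ _ => by positivity, Finset.sum_const, nsmul_eq_mul]

theorem tr_sum_ite {N N' b : ℕ} {Ds : Finset ℕ} {I : ℕ → Finset ℤ} (hZ : Zon N N' Ds I b) {j : ℤ}
    {d : ℕ} (hd : d ∈ Ds) (hj : j ∈ I d) (F : ℕ → ℂ) :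
    ∑ d' ∈ Ds, (if j ∈ I d' then F d' else 0) = F d := by
  rw [Finset.sum_eq_single_of_mem d hd fun d' hd' hne =>
    if_neg fun h => hne (hZ.1 d' hd' d hd j h hj), if_pos hj]

theorem tr_sum_none {Ds : Finset ℕ} {I : ℕ → Finset ℤ} {j : ℤ} (h : ¬ ∃ d ∈ Ds, j ∈ I d)
    (F : ℕ → ℂ) : ∑ d' ∈ Ds, (if j ∈ I d' then F d' else 0) = 0 :=
  Finset.sum_eq_zero fun d hd => if_neg fun hj => h ⟨d, hd, hj⟩

theorem tr_mp (σ : St) : MeasurePreserving (fun p : T3 => (σ.H⁻¹ p) 1) volume volume :=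
  (measurePreserving_eval (fun _ : Fin 3 => (volume : Measure Tc)) 1).comp σ.hH.inv.2

theorem tr_n2_three {u f : T3 → ℂ} (hu : MemLp u 2 volume) {bad : Set T3} (hbm : MeasurableSet bad)
    {ε η B : ℝ} (hbv : volume bad ≤ ENNReal.ofReal ε) (hε : 0 ≤ ε) (hη : 0 ≤ η) (hB : 0 ≤ B)
    (h : ∀ p, ‖f p‖ ≤ ‖u p‖ ∨ (‖f p‖ ≤ B ∧ (p ∉ bad → ‖f p‖ ≤ η))) :
    n2 f ≤ n2 u + (η + B * Real.sqrt ε) := by
  have hi : MemLp (bad.indicator fun _ => B) 2 volume := (memLp_const _).indicator hbm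
  have hi0 : ∀ p, 0 ≤ bad.indicator (fun _ => B) p := fun p => Set.indicator_nonneg (fun _ _ => hB) p
  have h2 : MemLp (fun p => η + bad.indicator (fun _ => B) p) 2 volume := (memLp_const η).add hi
  have h3 : MemLp (fun p => ‖u p‖ + (η + bad.indicator (fun _ => B) p)) 2 volume := hu.norm.add h2
  refine (n2_mono h3 fun p => ?_).trans ?_
  · have a0 := norm_nonneg (u p)
    have a1 := hi0 p
    rcases h p with a | ⟨a, a'⟩
    · linarith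
    · by_cases hp : p ∈ bad
      · rw [Set.indicator_of_mem hp]
        linarith
      · linarith [a' hp]
  · have c1 := n2_add_le (g := fun p => η + bad.indicator (fun _ => B) p) hu.norm
    have c2 := n2_add_le (f := fun _ : T3 => η) (g := bad.indicator fun _ => B) (memLp_const _)
    have c3 : n2 (fun _ : T3 => η) ≤ η := n2_le_bound (fun _ => (Real.norm_of_nonneg hη).le) hη
    have c4 : n2 (bad.indicator fun _ => B) ≤ 0 + B * Real.sqrt ε := by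
      refine n2_le_of_bad hbm hbv hε le_rfl (fun p => ?_) fun p hp => by simp [hp]
      rw [Real.norm_of_nonneg (hi0 p)]
      exact Set.indicator_le_self' (fun _ _ => hB) p
    rw [n2_norm hu.aestronglyMeasurable] at c1
    linarith

theorem tr_emod_mem {N : ℕ} (hN : 0 < N) (z : ℤ) : z % N ∈ Finset.Ico (0 : ℤ) N := by
  have hN' : (0 : ℤ) < N := by exact_mod_cast hN
  exact Finset.mem_Ico.2 ⟨Int.emod_nonneg _ hN'.ne', Int.emod_lt_of_pos _ hN'⟩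

/-- `Z = ⋃_{d ∈ range D \ Ds} closedBall ((d+1/2)/D) (1/(2D)) ∪ ⋃_{d ∈ range D} closedBall (d/D) (9δ3/D)`
(`AddCircle.volume_closedBall`).  If `y ∉ Z`, let `t = rp y`, `d = ⌊D t⌋₊ < D`. -/
theorem exists_Z (D : ℕ) (hD : 0 < D) (Ds : Finset ℕ) (hDs : Ds ⊆ Finset.range D) (δ3 g : ℝ)
    (hδ3 : 0 ≤ δ3) (hcard : (1 - g) * D ≤ Ds.card) :
    ∃ Z : Set Tc, MeasurableSet Z ∧ volume Z ≤ ENNReal.ofReal (g + 18 * δ3) ∧
      ∀ y : Tc, y ∉ Z → ∃ d ∈ Ds, ∃ t : ℝ, (t : Tc) = y ∧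
        (d + 9 * δ3) / D ≤ t ∧ t ≤ (d + 1 - 9 * δ3) / D := by
  have hD' : (0 : ℝ) < D := by exact_mod_cast hD
  have hle : (Ds.card : ℝ) ≤ D := by
    have := Finset.card_le_card hDs
    rw [Finset.card_range] at this
    exact_mod_cast this
  have hg : 0 ≤ g := by nlinarith
  refine ⟨(⋃ d ∈ Finset.range D \ Ds, Metric.closedBall (((d + 1 / 2) / D : ℝ) : Tc) (1 / (2 * D))) ∪
    ⋃ d ∈ Finset.range D, Metric.closedBall (((d : ℝ) / D : ℝ) : Tc) (9 * δ3 / D),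
    (Finset.measurableSet_biUnion _ fun _ _ => measurableSet_closedBall).union
      (Finset.measurableSet_biUnion _ fun _ _ => measurableSet_closedBall), ?_, fun y hy => ?_⟩
  · refine (measure_union_le _ _).trans ((add_le_add (tr_vol_union _ _ (by positivity))
      (tr_vol_union _ _ (by positivity))).trans ?_)
    rw [ENNReal.ofReal_add hg (by positivity)]
    refine add_le_add (ENNReal.ofReal_le_ofReal ?_) (ENNReal.ofReal_le_ofReal (le_of_eq ?_))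
    · rw [Finset.card_sdiff_of_subset hDs, Finset.card_range, Nat.cast_sub (by exact_mod_cast hle),
        show 2 * (1 / (2 * (D : ℝ))) = 1 / D by field_simp, mul_one_div, div_le_iff₀ hD']
      linarith
    · rw [Finset.card_range]
      field_simp
      ring
  · simp only [Set.mem_union, Set.mem_iUnion, not_or, not_exists, Metric.mem_closedBall, not_le] at hy
    obtain ⟨hy1, hy2⟩ := hy
    have h0 := rp_nonneg y
    have h1 := rp_lt_one y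
    have hy3 : ∀ d : ℕ, d ≤ D → 9 * δ3 / D < |rp y - d / D| := fun d hd => by
      refine lt_of_lt_of_le ?_ (dist_coe_le (rp y) (d / D))
      rw [coe_rp]
      rcases hd.lt_or_eq with hd | rfl
      · exact hy2 d (Finset.mem_range.2 hd)
      · have := hy2 0 (Finset.mem_range.2 hD)
        rw [div_self hD'.ne', AddCircle.coe_period]
        simpa using this
    have a1 : (⌊D * rp y⌋₊ : ℝ) ≤ D * rp y := Nat.floor_le (by positivity)
    have a2 : D * rp y < ⌊D * rp y⌋₊ + 1 := Nat.lt_floor_add_one _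
    have a3 : ⌊D * rp y⌋₊ < D := (Nat.floor_lt (by positivity)).2 (by nlinarith)
    generalize ⌊D * rp y⌋₊ = d at a1 a2 a3
    have b1 : (d : ℝ) / D ≤ rp y := by rw [div_le_iff₀ hD']; linarith
    have b2 : rp y ≤ (d + 1 : ℝ) / D := by rw [le_div_iff₀ hD']; linarith
    refine ⟨d, ?_, rp y, coe_rp y, ?_, ?_⟩
    · by_contra hd
      have c1 := hy1 d (Finset.mem_sdiff.2 ⟨Finset.mem_range.2 a3, hd⟩)
      have c2 := dist_coe_le (rp y) ((d + 1 / 2) / D)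
      rw [coe_rp] at c2
      have e1 : ((d : ℝ) + 1 / 2) / D = d / D + 1 / (2 * D) := by field_simp
      have e2 : ((d : ℝ) + 1) / D = d / D + 2 * (1 / (2 * D)) := by field_simp
      have c3 : |rp y - (d + 1 / 2) / D| ≤ 1 / (2 * D) := abs_le.2 ⟨by linarith, by linarith⟩
      linarith
    · have c1 := hy3 d a3.le
      rw [abs_of_nonneg (by linarith)] at c1
      rw [add_div]
      linarith
    · have c1 := hy3 (d + 1) a3
      push_cast at c1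
      rw [abs_of_nonpos (by linarith)] at c1
      rw [sub_div]
      linarith

/-- `y0 + J/N' = t + n` with `n ∈ ℤ`; as `1/D ≤ t ≤ 1 - 1/D` and `0 ≤ y0 + J/N' < 1 + 3/(R-1)`, `n = 0`.
With `j = (J+s)/N`: `|y0 + J/N' - j/R| ≤ (s0J + 6)/(R-1) < δ3/D`. -/
theorem zone_of_not_Z {N N' R D : ℕ} (hN : 0 < N) (hN1 : N * (R - 1) < N') (hN2 : N' ≤ N * R)
    (hD : 0 < D) {δ3 : ℝ} (hδ3 : 0 < δ3) (hδ3' : δ3 ≤ 1 / 20) (sJ : ℕ)
    (hRz : ((sJ : ℝ) + 8) * D ≤ δ3 * (R - 1)) {d : ℕ} (hd1 : 1 ≤ d) (hd2 : d + 2 ≤ D)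
    (J s : ℤ) (hJ : J ∈ Finset.Ico (0 : ℤ) N') (hs0 : 0 ≤ s) (hs : s ≤ sJ) (y0 t : ℝ)
    (hy0 : 0 ≤ y0) (hy1 : y0 ≤ 3 * N / N') (ht : (t : Tc) = ((y0 + (J : ℝ) / N' : ℝ) : Tc))
    (h1 : (d + 9 * δ3) / D ≤ t) (h2 : t ≤ (d + 1 - 9 * δ3) / D) :
    (J + s) / N ∈ Iz R D δ3 d := by
  have hD' : (0 : ℝ) < D := by exact_mod_cast hD
  have hD1 : (1 : ℝ) ≤ D := by exact_mod_cast hD
  have hN' : (0 : ℝ) < N := by exact_mod_cast hN
  have hNone : (1 : ℝ) ≤ N := by exact_mod_cast hN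
  have hNz : (0 : ℤ) < N := by exact_mod_cast hN
  have hsJ : (0 : ℝ) ≤ sJ := Nat.cast_nonneg _
  have hr0 : 160 * (D : ℝ) ≤ R - 1 := by
    have a1 : 0 ≤ (sJ : ℝ) * D := by positivity
    have a2 : 0 < δ3 * (R - 1) := by linarith
    have a3 : δ3 * (R - 1) ≤ 1 / 20 * (R - 1) :=
      mul_le_mul_of_nonneg_right hδ3' (pos_of_mul_pos_right a2 hδ3.le).le
    linarith
  have hR1 : 1 ≤ R := by
    have : (1 : ℝ) ≤ R := by linarith
    exact_mod_cast this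
  have hN1' : (N : ℝ) * (R - 1) < N' := by
    have : ((N * (R - 1) : ℕ) : ℝ) < N' := by exact_mod_cast hN1
    rwa [Nat.cast_mul, Nat.cast_sub hR1, Nat.cast_one] at this
  have hN2' : (N' : ℝ) ≤ N * R := by exact_mod_cast hN2
  have hN'0 : (0 : ℝ) < N' := lt_of_le_of_lt (mul_nonneg hN'.le (by linarith)) hN1'
  obtain ⟨hJ0, hJ1⟩ := Finset.mem_Ico.1 hJ
  have hJ0' : (0 : ℝ) ≤ J := by exact_mod_cast hJ0
  have hJ1' : (J : ℝ) < N' := by exact_mod_cast hJ1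
  have hs0' : (0 : ℝ) ≤ s := by exact_mod_cast hs0
  have hs' : (s : ℝ) ≤ sJ := by exact_mod_cast hs
  have hd1' : (1 : ℝ) ≤ d := by exact_mod_cast hd1
  have hd2' : (d : ℝ) + 2 ≤ D := by exact_mod_cast hd2
  set w : ℝ := J / N' with hw
  have hw0 : 0 ≤ w := by positivity
  have hw1 : w < 1 := (div_lt_one hN'0).2 hJ1'
  have hJw : (J : ℝ) = w * N' := by rw [hw]; field_simp
  have hy2 : y0 * (R - 1) ≤ 3 := by
    rw [le_div_iff₀ hN'0] at hy1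
    have : y0 * (N * (R - 1)) ≤ y0 * N' := mul_le_mul_of_nonneg_left hN1'.le hy0
    have : y0 * (R - 1) * N ≤ 3 * N := by linarith
    exact le_of_mul_le_mul_right this hN'
  have hy3 : y0 * D < 1 := by
    have := mul_le_mul_of_nonneg_left hr0 hy0
    linarith
  have hy4 : y0 ≤ 1 := by
    have := mul_le_mul_of_nonneg_left hD1 hy0
    linarith
  have htu : t = y0 + w := by
    obtain ⟨n, hn⟩ := (coe_eq_coe_iff _ _).1 ht
    rw [div_le_iff₀ hD'] at h1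
    rw [le_div_iff₀ hD'] at h2
    have n1 : (n : ℝ) < 1 := by
      by_contra hcon
      have := mul_le_mul_of_nonneg_right (show 1 ≤ t by linarith) hD'.le
      linarith
    have n2 : (-1 : ℝ) < n := by
      by_contra hcon
      have := mul_le_mul_of_nonneg_right (show t ≤ y0 by linarith) hD'.le
      linarith
    have : n = 0 := by
      have n1' : n < 1 := by exact_mod_cast n1
      have n2' : -1 < n := by exact_mod_cast n2
      omega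
    rw [hn, this]
    simp
  have j1 : ((((J + s) / N : ℤ) : ℝ)) * N ≤ J + s := by
    exact_mod_cast Int.ediv_mul_le (J + s) hNz.ne'
  have j2 : (J : ℝ) + s < ((((J + s) / N : ℤ) : ℝ) + 1) * N := by
    exact_mod_cast Int.lt_ediv_add_one_mul_self (J + s) hNz
  rw [mem_Iz]
  generalize ((((J + s) / N : ℤ) : ℝ)) = j at j1 j2 ⊢
  have q1 : (sJ : ℝ) + 8 ≤ δ3 / D * (R - 1) := by
    rw [div_mul_eq_mul_div, le_div_iff₀ hD']
    exact hRz
  have q0 : 0 < δ3 / D := by positivity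
  have k1 : w * (R - 1) < j + 1 := by
    have : w * (N * (R - 1)) ≤ w * N' := mul_le_mul_of_nonneg_left hN1'.le hw0
    have : w * (R - 1) * N < (j + 1) * N := by linarith
    exact lt_of_mul_lt_mul_right this hN'.le
  have k2 : j ≤ w * R + sJ := by
    have : w * N' ≤ w * (N * R) := mul_le_mul_of_nonneg_left hN2' hw0
    have : (sJ : ℝ) * 1 ≤ sJ * N := mul_le_mul_of_nonneg_left hNone hsJ
    have : j * N ≤ (w * R + sJ) * N := by linarith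
    exact le_of_mul_le_mul_right this hN'
  have hR0 : (0 : ℝ) ≤ R := Nat.cast_nonneg _
  have e1 : (d + 9 * δ3) / D = (d + 8 * δ3) / D + δ3 / D := by ring
  have e2 : (d + 1 - 9 * δ3) / D = (d + 1 - 8 * δ3) / D - δ3 / D := by ring
  rw [e1] at h1
  rw [e2] at h2
  rw [mul_div_assoc, mul_div_assoc]
  generalize (d + 8 * δ3) / (D : ℝ) = A at h1 ⊢
  generalize (d + 1 - 8 * δ3) / (D : ℝ) = B at h2 ⊢
  generalize δ3 / (D : ℝ) = q at h1 h2 q0 q1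
  have m1 := mul_le_mul_of_nonneg_left h1 hR0
  have m2 := mul_le_mul_of_nonneg_left h2 hR0
  have m3 := mul_nonneg hR0 hy0
  rw [htu] at m1 m2
  constructor <;> linarith

theorem measurable_pbk (N K R : ℕ) (Ds : Finset ℕ) (I : ℕ → Finset ℤ) (Ms : Finset ℤ)
    (G : ℤ → ℤ → ℂ) (s0 J' : ℕ) (lam : ℕ → ℤ) (α1 : ℝ) (α2 : ℕ → ℝ) (J : ℤ) :
    Measurable fun x : Tc => pbk N K R Ds I Ms G (shf s0 J' x) (phs lam α1 α2 J' x) J := by
  unfold pbk
  refine Finset.measurable_sum _ fun d _ => ?_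
  have h1 : Measurable fun z : ℤ × ℝ => if (J + z.1) / N ∈ I d then ev Ms G ((J + z.1) % N)
      ((z.2 + K * (((J + z.1) / N : ℤ) : ℝ) ^ 2 / (2 * R) : ℝ) : Tc) else 0 := by
    refine measurable_from_prod_countable_right fun z => ?_
    by_cases hz : (J + z) / N ∈ I d
    · simp only [if_pos hz]
      exact (cont_ev Ms G _).measurable.comp
        (AddCircle.measurable_mk'.comp (measurable_id.add_const _))
    · simp only [if_neg hz]
      exact measurable_const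
  exact h1.comp ((Par.measurable_shf s0 J').prodMk (Par.measurable_phs lam α1 α2 J' d))

theorem BM_pbk (N K R : ℕ) (hN : 0 < N) (Ds : Finset ℕ) (I : ℕ → Finset ℤ) (Ms : Finset ℤ)
    (G : ℤ → ℤ → ℂ) (s0 J' : ℕ) (lam : ℕ → ℤ) (α1 : ℝ) (α2 : ℕ → ℝ) :
    BM fun J x => pbk N K R Ds I Ms G (shf s0 J' x) (phs lam α1 α2 J' x) J := by
  refine ⟨measurable_pbk N K R Ds I Ms G s0 J' lam α1 α2,
    ∑ _d ∈ Ds, Real.sqrt (N * Ms.card) * tn N Ms G, fun J x => ?_⟩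
  unfold pbk
  refine (norm_sum_le _ _).trans (Finset.sum_le_sum fun d _ => ?_)
  split_ifs
  · exact norm_ev_le N Ms G (tr_emod_mem hN _) _
  · rw [norm_zero]
    exact mul_nonneg (Real.sqrt_nonneg _) (tn_nonneg _ _ _)

theorem tr_zone {σ σ' : St} {R D : ℕ} {Ds : Finset ℕ} {δ3 : ℝ} (s0 J' : ℕ)
    (hy : ∀ p, ∃ y0 : ℝ, 0 ≤ y0 ∧ y0 ≤ 3 * σ.N / σ'.N ∧
      (σ.H⁻¹ p) 1 = ((y0 + (σ'.pos (σ'.H⁻¹ p) : ℝ) / σ'.N : ℝ) : Tc))
    (hN1 : σ.N * (R - 1) < σ'.N) (hN2 : σ'.N ≤ σ.N * R)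
    (hD : 0 < D) (hδ3 : 0 < δ3) (hδ3' : δ3 ≤ 1 / 20)
    (hRz : ((s0 * J' : ℕ) + 8 : ℝ) * D ≤ δ3 * (R - 1)) (hDs : ∀ d ∈ Ds, 1 ≤ d ∧ d + 2 ≤ D)
    (g : ℝ) (hcard : (1 - g) * D ≤ Ds.card) :
    ∃ Z : Set Tc, MeasurableSet Z ∧ volume Z ≤ ENNReal.ofReal (g + 18 * δ3) ∧
      ∀ p, (σ.H⁻¹ p) 1 ∉ Z → ∃ d ∈ Ds,
        (σ'.pos (σ'.H⁻¹ p) + shf s0 J' (σ'.xc (σ'.H⁻¹ p))) / σ.N ∈ Iz R D δ3 d := by
  obtain ⟨Z, hZm, hZv, hZ⟩ := exists_Z D hD Ds
    (fun d hd => Finset.mem_range.2 (by have := (hDs d hd).2; omega)) δ3 g hδ3.le hcard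
  refine ⟨Z, hZm, hZv, fun p hp => ?_⟩
  obtain ⟨d, hd, t, ht, h1, h2⟩ := hZ _ hp
  obtain ⟨y0, a1, a2, a3⟩ := hy p
  exact ⟨d, hd, zone_of_not_Z σ.hN hN1 hN2 hD hδ3 hδ3' (s0 * J') hRz (hDs d hd).1 (hDs d hd).2 _ _
    (σ'.pos_mem _) (Par.shf_mem s0 J' _).1 (Par.shf_mem s0 J' _).2 y0 t a1 a2 (ht.trans a3) h1 h2⟩

/-- With `B = √(N #Ms) tn` (`norm_ev_le`, `norm_ev_sub_le`), pointwise
`‖f₁ - f₂‖ ≤ ‖1_Z f₁‖ + (7 M err B  or, on bad, 2 B)`: if the name index lies in a zone `d ∈ Ds` (unique by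
`hZ.1`) use `Link`; otherwise `f₂ = 0` and `(σ.H⁻¹ p) 1 ∈ Z` by `zone_of_not_Z`.  Then
`n2_vec_indicator`, `n2_le_of_bad`. -/
theorem transfer {σ σ' : St} {R D : ℕ} {Ds : Finset ℕ} {δ3 : ℝ} {s0 J' : ℕ} {lam : ℕ → ℤ} {α1 : ℝ}
    {α2 : ℕ → ℝ} {ε err : ℝ} (hL : Link σ σ' R D Ds δ3 s0 J' lam α1 α2 ε err)
    (hε : 0 ≤ ε) (herr : 0 ≤ err) (hN1 : σ.N * (R - 1) < σ'.N) (hN2 : σ'.N ≤ σ.N * R)
    (hD : 0 < D) (hδ3 : 0 < δ3) (hδ3' : δ3 ≤ 1 / 20)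
    (hRz : ((s0 * J' : ℕ) + 8 : ℝ) * D ≤ δ3 * (R - 1)) (hDs : ∀ d ∈ Ds, 1 ≤ d ∧ d + 2 ≤ D)
    {b : ℕ} (hZ : Zon σ.N σ'.N Ds (Iz R D δ3) b) (g : ℝ) (hg : 0 ≤ g)
    (hcard : (1 - g) * D ≤ Ds.card) (M : ℕ) (Ms : Finset ℤ) (hMs : Ms ⊆ Finset.Icc (-(M : ℤ)) M)
    (G : ℤ → ℤ → ℂ) :
    n2 (fun p => σ.vec (ev Ms G) p - σ'.vec (fun J x =>
        pbk σ.N σ.K R Ds (Iz R D δ3) Ms G (shf s0 J' x) (phs lam α1 α2 J' x) J) p)
      ≤ (Real.sqrt (g + 18 * δ3)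
          + (7 * M * err + 2 * Real.sqrt ε) * Real.sqrt (σ.N * Ms.card)) * tn σ.N Ms G := by
  obtain ⟨bad, Ξ, hbm, hbv, -, hy, hL⟩ := hL
  obtain ⟨Z, hZm, hZv, hZz⟩ := tr_zone s0 J' hy hN1 hN2 hD hδ3 hδ3' hRz hDs g hcard
  set B := Real.sqrt (σ.N * Ms.card) * tn σ.N Ms G with hB
  have hB0 : 0 ≤ B := mul_nonneg (Real.sqrt_nonneg _) (tn_nonneg _ _ _)
  have hη0 : 0 ≤ 7 * M * err * B := by positivity
  have hu : MemLp (fun p => Z.indicator (fun _ => σ.vec (ev Ms G) p) ((σ.H⁻¹ p) 1)) 2 volume := by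
    have e : (fun p => Z.indicator (fun _ => σ.vec (ev Ms G) p) ((σ.H⁻¹ p) 1)) =
        ((fun p : T3 => (σ.H⁻¹ p) 1) ⁻¹' Z).indicator (σ.vec (ev Ms G)) := by
      funext p
      by_cases hp : (σ.H⁻¹ p) 1 ∈ Z
      · rw [Set.indicator_of_mem hp, Set.indicator_of_mem (by exact hp)]
      · rw [Set.indicator_of_notMem hp, Set.indicator_of_notMem (by exact hp)]
    rw [e]
    exact (σ.memLp_vec_ev Ms G).indicator ((tr_mp σ).measurable hZm)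
  refine (tr_n2_three (η := 7 * M * err * B) (B := B + B) hu hbm hbv hε hη0 (add_nonneg hB0 hB0)
    fun p => ?_).trans ?_
  · by_cases hex : ∃ d ∈ Ds,
        (σ'.pos (σ'.H⁻¹ p) + shf s0 J' (σ'.xc (σ'.H⁻¹ p))) / σ.N ∈ Iz R D δ3 d
    · obtain ⟨d, hd, hj⟩ := hex
      right
      rw [St.vec, St.vec, pbk, tr_sum_ite hZ hd hj]
      refine ⟨norm_sub_le_of_le (norm_ev_le σ.N Ms G (σ.pos_mem _) _)
        (norm_ev_le σ.N Ms G (tr_emod_mem σ.hN _) _), fun hp => ?_⟩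
      obtain ⟨a1, a2, -⟩ := hL p hp d hd hj
      rw [← a1]
      exact (norm_ev_sub_le σ.N M Ms hMs G (σ.pos_mem _) _ _).trans (mul_le_mul_of_nonneg_right
        (mul_le_mul_of_nonneg_left a2 (by positivity : (0 : ℝ) ≤ 7 * M)) hB0)
    · have hp : (σ.H⁻¹ p) 1 ∈ Z := by
        by_contra hcon
        exact hex (hZz p hcon)
      left
      rw [Set.indicator_of_mem hp, St.vec, St.vec, pbk, tr_sum_none hex, sub_zero]
  · refine (add_le_add (σ.n2_vec_indicator Ms G hZm (by positivity) hZv) le_rfl).trans (le_of_eq ?_)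
    rw [hB]
    ring

/-- `G J x = ∑_{d ∈ Ds} if (J + shf x)/N ∈ Iz d then h (σ.H (Ξ d J x)) else 0`; the error is `≤ ω` off
`bad ∪ {(σ.H⁻¹ p) 1 ∈ Z}`, a set of measure `≤ ε + g + 18 δ3` (`mp_char` with `c = Pi.single 1 1`, or
`measurePreserving_eval`), and `≤ 2‖h‖` everywhere. -/
theorem gen {σ σ' : St} {R D : ℕ} {Ds : Finset ℕ} {δ3 : ℝ} {s0 J' : ℕ} {lam : ℕ → ℤ} {α1 : ℝ}
    {α2 : ℕ → ℝ} {ε err : ℝ} (hL : Link σ σ' R D Ds δ3 s0 J' lam α1 α2 ε err)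
    (hε : 0 ≤ ε) (herr : 0 ≤ err) (hN1 : σ.N * (R - 1) < σ'.N) (hN2 : σ'.N ≤ σ.N * R)
    (hD : 0 < D) (hδ3 : 0 < δ3) (hδ3' : δ3 ≤ 1 / 20)
    (hRz : ((s0 * J' : ℕ) + 8 : ℝ) * D ≤ δ3 * (R - 1)) (hDs : ∀ d ∈ Ds, 1 ≤ d ∧ d + 2 ≤ D)
    {b : ℕ} (hZ : Zon σ.N σ'.N Ds (Iz R D δ3) b) (g : ℝ) (hg : 0 ≤ g)
    (hcard : (1 - g) * D ≤ Ds.card) : Gen σ σ' err (g + 18 * δ3 + ε) := by
  obtain ⟨bad, Ξ, hbm, hbv, hΞ, hy, hL⟩ := hL
  obtain ⟨Z, hZm, hZv, hZz⟩ := tr_zone s0 J' hy hN1 hN2 hD hδ3 hδ3' hRz hDs g hcard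
  intro h ω hω
  have hω0 : 0 ≤ ω := by simpa using hω 0 0 (by simpa using herr)
  have hG : ∀ (J : ℤ) (x : Tc), ‖∑ d ∈ Ds, (if (J + shf s0 J' x) / σ.N ∈ Iz R D δ3 d then
      h (σ.H (Ξ d J x)) else 0)‖ ≤ ‖h‖ := fun J x => by
    by_cases hex : ∃ d ∈ Ds, (J + shf s0 J' x) / σ.N ∈ Iz R D δ3 d
    · obtain ⟨d, hd, hj⟩ := hex
      rw [tr_sum_ite hZ hd hj]
      exact h.norm_coe_le_norm _
    · rw [tr_sum_none hex, norm_zero]
      exact norm_nonneg _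
  refine ⟨fun J x => ∑ d ∈ Ds, if (J + shf s0 J' x) / σ.N ∈ Iz R D δ3 d then h (σ.H (Ξ d J x)) else 0,
    ⟨fun J => Finset.measurable_sum _ fun d _ => Measurable.ite ?_ ?_ measurable_const, ‖h‖, hG⟩, ?_⟩
  · exact Par.measurable_shf s0 J'
      (MeasurableSet.of_discrete (s := {z : ℤ | (J + z) / σ.N ∈ Iz R D δ3 d}))
  · exact h.continuous.measurable.comp (σ.hH.2.measurable.comp (hΞ d J))
  · refine n2_le_of_bad (bad := (fun p : T3 => (σ.H⁻¹ p) 1) ⁻¹' Z ∪ bad)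
      (((tr_mp σ).measurable hZm).union hbm) ?_ (by positivity) hω0 (fun p => ?_) fun p hp => ?_
    · refine (measure_union_le _ _).trans ?_
      rw [(tr_mp σ).measure_preimage hZm.nullMeasurableSet, ENNReal.ofReal_add (by positivity) hε]
      exact add_le_add hZv hbv
    · rw [two_mul]
      exact norm_sub_le_of_le (h.norm_coe_le_norm _) (hG _ _)
    · rw [Set.mem_union, not_or] at hp
      obtain ⟨d, hd, hj⟩ := hZz p hp.1
      have := hω _ _ (hL p hp.2 d hd hj).2.2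
      rw [St.vec, tr_sum_ite hZ hd hj]
      simpa using this

end Crest.Agent.R81
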