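import Crest.Agent.R81.RL
import Crest.Agent.R81.Transfer
import Crest.Agent.R81.GF2
import Crest.Agent.R81.GF3

/-!
# R81: the common part of the two steps
-/

set_option autoImplicit false

namespace Crest.Agent.R81

open MeasureTheory Crest.AnalysisR.Torus3 Filter Topology

theorem core_sqrt {g ε x : ℝ} (hg : 0 ≤ g) (hε : 0 ≤ ε) (hx : x ≤ g + ε ^ 2) :
    Real.sqrt x ≤ Real.sqrt g + ε := by
  rw [Real.sqrt_le_left (by positivity)]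
  have := Real.sq_sqrt hg
  have := Real.sqrt_nonneg g
  nlinarith

theorem core_eps {ε ν0 : ℝ} (M : ℕ) (hε : 0 < ε) (hε1 : ε ≤ 1) (hν : 0 ≤ ν0) :
    ∃ ε' > 0, ε' ≤ ε / 2 ∧ (7 * M * ε' + 2 * Real.sqrt ε') * ν0 ≤ ε := by
  set a : ℝ := ε / ((7 * M + 2) * (ν0 + 1)) with ha
  have hM : (0 : ℝ) ≤ M := Nat.cast_nonneg _
  have ha0 : 0 < a := by positivity
  have ha1 : a * ((7 * M + 2) * (ν0 + 1)) = ε := by rw [ha]; field_simp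
  have ha2 : a ≤ ε / 2 := by
    nlinarith [mul_nonneg ha0.le (mul_nonneg hM hν), mul_nonneg ha0.le hM, mul_nonneg ha0.le hν]
  have ha3 : a ^ 2 ≤ a := by nlinarith
  refine ⟨a ^ 2, by positivity, ha3.trans ha2, ?_⟩
  rw [Real.sqrt_sq ha0.le]
  have : 7 * M * a ^ 2 ≤ 7 * M * a := by gcongr
  calc _ ≤ (7 * M * a + 2 * a) * (ν0 + 1) := by gcongr; linarith
    _ = ε := by rw [← ha1]; ring

theorem core_R (a b c : ℝ) {ε : ℝ} (hε : 0 < ε) :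
    ∀ᶠ R : ℕ in atTop, (a / R + b * Real.sqrt (1 / ((R : ℝ) - 1))) * c ≤ ε := by
  have h1 : Tendsto (fun R : ℕ => a / (R : ℝ)) atTop (𝓝 0) := tendsto_const_div_atTop_nhds_zero_nat a
  have h2 : Tendsto (fun R : ℕ => 1 / ((R : ℝ) - 1)) atTop (𝓝 0) :=
    tendsto_const_nhds.div_atTop (tendsto_atTop_add_const_right _ (-1) tendsto_natCast_atTop_atTop)
  have h3 := ((h1.add (h2.sqrt.const_mul b)).mul_const c)
  simp only [Real.sqrt_zero, mul_zero, add_zero, zero_mul] at h3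
  exact h3.eventually (ge_mem_nhds hε)

/-- **Core step.**  `δ3 = ε²/36`; `ε' > 0` with `ε' ≤ ε/2`, `(7 M ε' + 2 √ε') √(N (2M+1)) ≤ ε`; `lmin` from
`RL σ k ε'`.  Filters `L, φc` from `exists_filters` with `εf = ε/√(2M+1)`.  `R0` from
`Iz_props` with margin `b + L + s0 J'` and `ε²/2`; `Md = K · M!`; `R1` so large that `R ≥ R0`, `R ≥ 2`,
`2/R ≤ ε`, `(s0 J' + 8) D ≤ δ3 (R-1)` and, with `c = √(N/N') ≤ (R-1)^{-1/2}`,
`6 (2/√D · 7 M K/R + 6 c)/(16 η²) · D √(2M+1) ≤ ε`.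
`G' = Gnew L φc (ych N K R Ds (Iz R D δ3) Ms0 G)`, `Ω m d = {ξ | dist ξ (m K d/D) ≤ η}`,
`η2 = (2/√D (7MK/R + 40 (MK/D)²) + 6c)/(16η²)` from `loc` (`c² R ≤ 2`).
`gf_main`, `gf_marg`; closeness: `transfer` + `n2_vec_le` with `gf_close` at each fibre point `x`
(`s = shf x`, `φ = phs x`, `Θ m θ = Θ m θ x`, `ε2 + εf`; note
`σ'.vec f p - σ'.vec g p = σ'.vec (fun J x => f J x - g J x) p` by `rfl`); flatness: `gf_flat` with `flatP`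
(`R ≡ 1 mod |m| κ⁴` as `|m| ∣ M!`), `√(g + 16 δ3 + ε²/2) ≤ √g + ε`; `gen` and `Gen.mono`. -/
theorem stepCore (σ : St) (M k b : ℕ) {ε : ℝ} (hε : 0 < ε) (hε1 : ε ≤ 1) (D : ℕ) (hD : 0 < D)
    (htD : σ.t0 ∣ D) (Ds : Finset ℕ)
    (hDs : ∀ d ∈ Ds, 1 ≤ d ∧ d + 2 ≤ D ∧ σ.δ ≤ (d : ℝ) / D ∧ (d + 1 : ℝ) / D ≤ 1 - σ.δ)
    (g η : ℝ) (hg : 0 ≤ g) (hη : 0 < η) (hcard : (1 - g) * D ≤ Ds.card) (s0 J' : ℕ) (hJ : 0 < J')
    (α1 : ℝ) (α2 : ℕ → ℝ)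
    (herr : (7 * M * Real.sqrt (σ.N * (2 * M + 1)) + 1) * (σ.K * (6 + (s0 * J' : ℕ) : ℝ) / D) ≤ ε)
    (hloc : 6 * (2 / Real.sqrt D * (40 * (M * σ.K / D) ^ 2) / (16 * η ^ 2)) * D
      * Real.sqrt (2 * M + 1) ≤ ε) :
    ∃ lmin : ℕ, ∀ lam : ℕ → ℤ, (∀ d ∈ Ds, (lmin : ℤ) ≤ |lam d|) →
      ∀ (Ns : Finset ℤ) (A : ℤ → Set Tc) (r : ℝ), 0 < r → Sep Ns A (3 * r) →
      ∀ (κ' : ℕ) (δ' : ℝ), 2 ≤ κ' → Even κ' → 0 < δ' → δ' ≤ 1 / 8 →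
      ∃ σ' : St, σ'.κ = κ' ∧ σ'.δ = δ' ∧ Nat.Coprime σ.N σ'.N ∧
        Close k ε σ.T σ'.T ∧ Close k ε ⇑σ.T⁻¹ ⇑σ'.T⁻¹ ∧ Gen σ σ' (2 * ε) (g + ε) ∧
        ∀ Ns0 ⊆ Ns, ∀ Ms0 ⊆ Finset.Icc (-(M : ℤ)) M,
        ∀ (C0 U : ℤ → Set Tc) (Θ : ℤ → Tc → Tc → ℂ) (η1 ε2 : ℝ) (ν : ℕ), 0 ≤ η1 → 0 ≤ ε2 →
          ν ≤ 2 * M + 1 → FreqH σ.N σ.K D Ds η s0 J' lam α1 α2 Ms0 C0 U Θ Ns0 A η1 ε2 →
          (∀ θ, ∀ S ⊆ Ms0, (∀ m ∈ S, θ ∈ C0 m) → S.card ≤ ν) →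
          ∀ (G : ℤ → ℤ → ℂ) (γ : ℝ), Dom σ.N Ms0 U C0 G γ →
          ∃ G' : ℤ → ℤ → ℂ,
            Main σ'.N Ns0 (fun n => Metric.thickening r (A n)) G' (ε * tn σ.N Ms0 G) ∧
            Marg σ'.N Ns0 G' b ∧
            n2 (fun p => σ.vec (ev Ms0 G) p - σ'.vec (ev Ns0 G') p) ≤
              (Real.sqrt g + ε2 * Real.sqrt ν + η1 * Real.sqrt (D * (2 * M + 1)) + 6 * ε)
                * tn σ.N Ms0 G + 3 * γ ∧
            (0 ∉ Ms0 → Disj Ms0 C0 → Main σ.N Ms0 C0 G γ →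
              n2 (fun θ => sd σ.N Ms0 G θ - sd σ'.N Ns0 G' θ) ≤
                (4 / σ.κ + Real.sqrt g + 6 * ε) * tn σ.N Ms0 G + 3 * γ) := by
  have hDr : (0 : ℝ) < D := by exact_mod_cast hD
  have hNr : (0 : ℝ) < σ.N := by exact_mod_cast σ.hN
  obtain ⟨μ, hμ⟩ : ∃ μ, μ = Real.sqrt (2 * M + 1) := ⟨_, rfl⟩
  obtain ⟨ν0, hν0⟩ : ∃ ν0, ν0 = Real.sqrt (σ.N * (2 * M + 1)) := ⟨_, rfl⟩
  obtain ⟨E0, hE0⟩ : ∃ E0 : ℝ, E0 = σ.K * (6 + (s0 * J' : ℕ) : ℝ) / D := ⟨_, rfl⟩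
  rw [← hν0, ← hE0] at herr
  rw [← hμ] at hloc
  have hμ1 : 1 ≤ μ := by
    rw [hμ]; exact Real.one_le_sqrt.2 (by linarith [Nat.cast_nonneg (α := ℝ) M])
  have hν00 : 0 ≤ ν0 := hν0 ▸ Real.sqrt_nonneg _
  have hE00 : 0 ≤ E0 := by rw [hE0]; positivity
  have hE1 : E0 ≤ ε := by
    have : 0 ≤ 7 * M * ν0 * E0 := by positivity
    linarith
  have hE2 : 7 * M * E0 * ν0 ≤ ε := by linarith
  obtain ⟨δ3, hδ3⟩ : ∃ δ3 : ℝ, δ3 = ε ^ 2 / 36 := ⟨_, rfl⟩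
  have hε2 : ε ^ 2 ≤ ε := by nlinarith
  have hδ30 : 0 < δ3 := by rw [hδ3]; positivity
  have hδ31 : δ3 ≤ 1 / 20 := by rw [hδ3]; linarith
  obtain ⟨ε', hε', hε'1, hε'2⟩ := core_eps M hε hε1 hν00
  obtain ⟨lmin, hRL⟩ := RL σ k hε' D hD htD Ds hDs δ3 hδ30 hδ31 s0 J' hJ α1 α2
  refine ⟨lmin, fun lam hlam Ns A r hr hsep κ' δ' hκ hκe hδ hδ' => ?_⟩
  have hεf : 0 < ε / μ := by positivity
  have hεfμ : ε / μ * μ = ε := by field_simp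
  obtain ⟨L, φc, hφ⟩ := exists_filters Ns A r hr hsep (ε / μ) hεf
  have hDs' : ∀ d ∈ Ds, 1 ≤ d ∧ d + 2 ≤ D := fun d hd => ⟨(hDs d hd).1, (hDs d hd).2.1⟩
  obtain ⟨R0, hR0⟩ := Iz_props σ.N D (b + L + s0 * J') σ.hN hD δ3 hδ30 hδ31 g (ε ^ 2 / 2)
    (by positivity) Ds hDs' hcard
  obtain ⟨R1, hR1⟩ := eventually_atTop.1 ((eventually_ge_atTop R0).and ((eventually_ge_atTop 2).and
    ((core_R 2 0 1 hε).and ((core_R (2 / Real.sqrt D * (7 * M * σ.K)) 6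
      (6 / (16 * η ^ 2) * D * μ) hε).and
      (tendsto_natCast_atTop_atTop.eventually_ge_atTop
        (((s0 * J' : ℕ) + 8 : ℝ) * D / δ3 + 1))))))
  have hK0 : 0 < σ.K := by have := σ.hκ; unfold St.K; positivity
  obtain ⟨R, σ', hR, hmod, e1, e2, hN1, hN2, hcop, c1, c2, hL⟩ :=
    hRL lam hlam κ' δ' hκ hκe hδ hδ' (σ.K * M.factorial) R1 (by positivity)
  rw [← hE0] at hL
  obtain ⟨r0, r2, r3, r4, r5⟩ := hR1 R hR
  obtain ⟨hZ, hI, hcardI, hends⟩ := hR0 R σ'.N r0 hN1 hN2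
  have hR2 : (2 : ℝ) ≤ R := by exact_mod_cast r2
  have hN'r : (0 : ℝ) < σ'.N := by exact_mod_cast σ'.hN
  have hN1r : (σ.N : ℝ) * (R - 1) < σ'.N := by
    have : ((σ.N * (R - 1) : ℕ) : ℝ) < σ'.N := by exact_mod_cast hN1
    rwa [Nat.cast_mul, Nat.cast_sub (by omega), Nat.cast_one] at this
  have hRz : ((s0 * J' : ℕ) + 8 : ℝ) * D ≤ δ3 * (R - 1) := by
    rw [← le_sub_iff_add_le, div_le_iff₀ hδ30] at r5
    linarith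
  have r3' : 2 / (R : ℝ) ≤ ε := by simpa using r3
  have herr0 : 0 ≤ E0 + ε' := by linarith
  have hDc : (Ds.card : ℝ) ≤ D := by
    have : Ds ⊆ Finset.range D := fun d hd => Finset.mem_range.2 (by have := hDs' d hd; omega)
    have := Finset.card_le_card this
    rw [Finset.card_range] at this
    exact_mod_cast this
  -- the localisation constant
  obtain ⟨c, hc⟩ : ∃ c, c = Real.sqrt (σ.N / σ'.N) := ⟨_, rfl⟩
  have hc0 : 0 ≤ c := hc ▸ Real.sqrt_nonneg _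
  have hcR : c ^ 2 * R ≤ 2 := by
    rw [hc, Real.sq_sqrt (by positivity), div_mul_eq_mul_div, div_le_iff₀ hN'r]
    nlinarith
  have hc1 : c ≤ Real.sqrt (1 / ((R : ℝ) - 1)) := by
    rw [hc]
    refine Real.sqrt_le_sqrt ?_
    rw [div_le_div_iff₀ hN'r (by linarith)]
    linarith
  obtain ⟨η2, hη2⟩ : ∃ η2 : ℝ, η2 = (2 / Real.sqrt D * (7 * M * σ.K / R + 40 * (M * σ.K / D) ^ 2)
    + 6 * c) / (16 * η ^ 2) := ⟨_, rfl⟩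
  have hη20 : 0 ≤ η2 := by rw [hη2]; positivity
  have hη21 : 6 * η2 * D * μ ≤ 2 * ε := by
    have h1 : (2 / Real.sqrt D * (7 * M * σ.K) / R + 6 * c) * (6 / (16 * η ^ 2) * D * μ) ≤ ε := by
      refine le_trans ?_ r4
      gcongr
    have h2 : 6 * η2 * D * μ = (2 / Real.sqrt D * (7 * M * σ.K) / R + 6 * c)
        * (6 / (16 * η ^ 2) * D * μ)
        + 6 * (2 / Real.sqrt D * (40 * (M * σ.K / D) ^ 2) / (16 * η ^ 2)) * D * μ := by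
      rw [hη2]; ring
    linarith
  refine ⟨σ', e1, e2, hcop, c1.mono le_rfl (by linarith), c2.mono le_rfl (by linarith),
    (gen hL hε'.le herr0 hN1 hN2 hD hδ30 hδ31 hRz hDs' hZ g hg hcard).mono (by linarith)
      (by rw [hδ3]; linarith), ?_⟩
  intro Ns0 hNs0 Ms0 hMs0 C0 U Θ η1 ε2 ν hη1 hε2' hν hF hcν G γ hG
  obtain ⟨f1, f2, f3, f4⟩ := hφ Ns0 hNs0
  obtain ⟨F1, F2, F3⟩ := hF
  have ht := tn_nonneg σ.N Ms0 G
  have hγ := hG.nonneg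
  have hMc : (Ms0.card : ℝ) ≤ 2 * M + 1 := by
    have := Finset.card_le_card hMs0
    rw [Int.card_Icc] at this
    have h2 : Ms0.card ≤ 2 * M + 1 := by omega
    exact_mod_cast h2
  have hsM : Real.sqrt Ms0.card ≤ μ := hμ ▸ Real.sqrt_le_sqrt hMc
  have hη22 : 6 * η2 * Ds.card * Real.sqrt Ms0.card ≤ 2 * ε := le_trans (by gcongr) hη21
  have hmM : ∀ m ∈ Ms0, |m| ≤ M := fun m hm => abs_le.2 (Finset.mem_Icc.1 (hMs0 hm))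
  have HL : ∀ m ∈ Ms0, ∀ d ∈ Ds, ∃ w : Tc → ℝ, Continuous w ∧ (∀ ξ, 0 ≤ w ξ) ∧ n2 w ≤ η2 ∧
      ∀ ξ, ξ ∉ {ξ | dist ξ ((m * σ.K * d / D : ℝ) : Tc) ≤ η} →
        ‖Pz (Real.sqrt (σ.N / σ'.N)) (Iz R D δ3 d) m σ.K R ξ‖ ≤ w ξ := by
    intro m hm d hd
    obtain ⟨w, w1, w2, w3, w4⟩ := loc σ.K R D d M (by omega) hD m (hmM m hm) c hc0 hcR _ _
      (hends d hd).1 (hends d hd).2 η hη
    exact ⟨w, w1, w2, hη2 ▸ w3, fun ξ hξ => hc ▸ w4 ξ (not_le.1 hξ)⟩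
  refine ⟨Gnew L φc (ych σ.N σ.K R Ds (Iz R D δ3) Ms0 G), ?_,
    gf_marg σ.K R σ.hN (hZ.mono (by omega)) Ms0 Ns0 G φc, ?_, fun h0 hdis hmain => ?_⟩
  · refine (gf_main σ.K R σ.hN σ'.hN (hZ.mono (by omega)) Ms0 Ns0 G φc _ (ε / μ) hεf.le f4).mono ?_
    gcongr
    calc _ ≤ ε / μ * μ := by gcongr
      _ = ε := hεfμ
  · have t1 := transfer hL hε'.le herr0 hN1 hN2 hD hδ30 hδ31 hRz hDs' hZ g hg hcard M Ms0 hMs0 G
    have t2 : n2 (fun p => σ'.vec (fun J x => pbk σ.N σ.K R Ds (Iz R D δ3) Ms0 G (shf s0 J' x)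
        (phs lam α1 α2 J' x) J) p
        - σ'.vec (ev Ns0 (Gnew L φc (ych σ.N σ.K R Ds (Iz R D δ3) Ms0 G))) p)
        ≤ ((ε2 + ε / μ) * Real.sqrt ν + η1 * Real.sqrt (Ds.card * Ms0.card)
          + 6 * η2 * Ds.card * Real.sqrt Ms0.card) * tn σ.N Ms0 G + 3 * γ := by
      refine σ'.n2_vec_le (g := fun J x => pbk σ.N σ.K R Ds (Iz R D δ3) Ms0 G (shf s0 J' x)
        (phs lam α1 α2 J' x) J - ev Ns0 (Gnew L φc (ych σ.N σ.K R Ds (Iz R D δ3) Ms0 G)) J x)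
        (fun J => (measurable_pbk _ _ _ _ _ _ _ _ _ _ _ _ J).sub (cont_ev _ _ J).measurable)
        (by positivity) fun x => ?_
      obtain ⟨s1, s2⟩ := Par.shf_mem s0 J' x
      refine gf_close σ.K R σ.hN σ'.hN hZ (by omega) Ms0 Ns0 G _
        (by rw [abs_of_nonneg s1]; push_cast at s2 ⊢; omega) _ x φc
        (fun m d => {ξ | dist ξ ((m * σ.K * d / D : ℝ) : Tc) ≤ η}) U C0 (fun m θ => Θ m θ x)
        η1 η2 (ε2 + ε / μ) γ ν hη1 hη20 (by positivity) (fun m θ => F1 m θ x)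
        (fun m hm d hd θ hθ => F2 m hm d hd θ x hθ) HL (fun m hm θ hU hC => ?_) f1 hcν hG
      obtain ⟨n, hn, hA, hΘ⟩ := F3 m hm θ hU hC
      exact (norm_sub_le_norm_sub_add_norm_sub _ (fourier n x) _).trans
        (add_le_add (hΘ x) (f2 n hn θ hA x))
    refine (n2_sub_le (σ.memLp_vec_ev Ms0 G)
      (σ'.memLp_vec (BM_pbk σ.N σ.K R σ.hN Ds (Iz R D δ3) Ms0 G s0 J' lam α1 α2))).trans
      ((add_le_add t1 t2).trans ?_)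
    rw [← add_assoc, ← add_mul]
    refine add_le_add_left (mul_le_mul_of_nonneg_right ?_ ht) _
    have a1 : Real.sqrt (g + 18 * δ3) ≤ Real.sqrt g + ε :=
      core_sqrt hg hε.le (by rw [hδ3]; linarith [sq_nonneg ε])
    have a2 : Real.sqrt (σ.N * Ms0.card) ≤ ν0 := hν0 ▸ Real.sqrt_le_sqrt (by gcongr)
    have a3 : (7 * M * (E0 + ε') + 2 * Real.sqrt ε') * Real.sqrt (σ.N * Ms0.card) ≤ 2 * ε := by
      calc _ ≤ (7 * M * (E0 + ε') + 2 * Real.sqrt ε') * ν0 := by gcongr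
        _ = 7 * M * E0 * ν0 + (7 * M * ε' + 2 * Real.sqrt ε') * ν0 := by ring
        _ ≤ _ := by linarith
    have a4 : ε / μ * Real.sqrt ν ≤ ε := by
      calc _ ≤ ε / μ * μ := by
            gcongr
            exact hμ ▸ Real.sqrt_le_sqrt (by exact_mod_cast hν)
        _ = ε := hεfμ
    have a5 : η1 * Real.sqrt (Ds.card * Ms0.card) ≤ η1 * Real.sqrt (D * (2 * M + 1)) := by gcongr
    linarith
  · refine (gf_flat σ.K R σ.hN σ'.hN (hZ.mono (by omega)) Ms0 Ns0 G φc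
      (fun m d => {ξ | dist ξ ((m * σ.K * d / D : ℝ) : Tc) ≤ η}) U C0 η2
      (4 / σ.κ + Real.sqrt (g + 16 * δ3 + ε ^ 2 / 2) + 2 / R) (ε / μ) γ hη20 (by positivity) hεf.le
      (fun m hm d hd θ hθ => (F2 m hm d hd θ 0 hθ).1) HL (fun m hm => ?_)
      (fun m hm θ hU hC => ?_) f1 hdis hmain).trans ?_
    · have hm0 : m ≠ 0 := fun h => h0 (h ▸ hm)
      refine flatP σ.κ σ.hκ m hm0 σ.N σ'.N R σ.hN r2 hN1 hN2 (hmod.of_dvd ?_) _ hI _ hcardI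
      rw [mul_comm]
      exact Nat.mul_dvd_mul_left _ (Nat.dvd_factorial (Int.natAbs_pos.2 hm0)
        (by have := hmM m hm; rw [Int.abs_eq_natAbs] at this; exact_mod_cast this))
    · obtain ⟨n, hn, hA, -⟩ := F3 m hm θ hU hC
      exact f3 n hn θ hA
    · refine add_le_add_left (mul_le_mul_of_nonneg_right ?_ ht) _
      have a1 : Real.sqrt (g + 16 * δ3 + ε ^ 2 / 2) ≤ Real.sqrt g + ε :=
        core_sqrt hg hε.le (by rw [hδ3]; linarith [sq_nonneg ε])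
      have a2 : ε / μ ≤ ε := div_le_self hε.le hμ1
      linarith

end Crest.Agent.R81
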