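import Crest.Agent.R81.FreqA

/-!
# R81: frequency data of step B
-/

set_option autoImplicit false

namespace Crest.Agent.R81

open MeasureTheory

theorem freqB_dist (s t : ℝ) : ∃ j : ℤ, dist ((s : ℝ) : Tc) (t : Tc) = |s - t - j| :=
  ⟨round (s - t), by rw [dist_eq_norm, ← AddCircle.coe_sub, UnitAddCircle.norm_eq]⟩

theorem freqB_round {x : ℝ} {k : ℤ} (h : |x - k| < 1 / 2) : round x = k := by
  have h1 := abs_sub_round x
  have h2 : |((round x - k : ℤ) : ℝ)| < 1 := by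
    push_cast
    rw [abs_lt] at h ⊢
    rw [abs_le] at h1
    constructor <;> linarith [h.1, h.2, h1.1, h1.2]
  rw [← Int.cast_abs] at h2
  have h3 : |round x - k| < 1 := by exact_mod_cast h2
  rw [abs_lt] at h3
  omega

theorem freqB_int_eq {a b : ℤ} (h : |(a : ℝ) - b| < 1) : a = b := by
  have h2 : |((a - b : ℤ) : ℝ)| < 1 := by push_cast; exact h
  rw [← Int.cast_abs] at h2
  have h3 : |a - b| < 1 := by exact_mod_cast h2
  rw [abs_lt] at h3
  omega

/-- `1/g_m` -/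
def freqBq (B : ℕ) (m : ℤ) : ℤ := if m = 0 then 1 else (B : ℤ) / |m|

/-- `B g_m` -/
def freqBw (B : ℕ) (m : ℤ) : ℤ := if m = 0 then (B : ℤ) else |m|

theorem freqB_wq {B : ℕ} (hB : 0 < B) {m : ℤ} (hm : m = 0 ∨ m ∣ (B : ℤ)) :
    freqBw B m * freqBq B m = B ∧ 1 ≤ freqBw B m ∧ 1 ≤ freqBq B m ∧
      ∃ σ : ℤ, |σ| ≤ 1 ∧ m * freqBq B m = σ * B := by
  have hB' : (0 : ℤ) < B := by exact_mod_cast hB
  by_cases h0 : m = 0
  · subst h0
    simp only [freqBw, freqBq, if_true]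
    exact ⟨mul_one _, hB', le_rfl, 0, by simp, by simp⟩
  have hd : |m| ∣ (B : ℤ) := (abs_dvd _ _).2 (hm.resolve_left h0)
  have ha : 0 < |m| := abs_pos.2 h0
  have e : |m| * ((B : ℤ) / |m|) = B := Int.mul_ediv_cancel' hd
  simp only [freqBw, freqBq, if_neg h0]
  refine ⟨e, ha, ?_, ?_⟩
  · by_contra hc
    have : (B : ℤ) / |m| ≤ 0 := by omega
    nlinarith
  · rcases le_total 0 m with h | h
    · refine ⟨1, by simp, ?_⟩
      rw [one_mul]
      nth_rewrite 1 [← abs_of_nonneg h]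
      exact e
    · refine ⟨-1, by simp, ?_⟩
      have : m = -|m| := by rw [abs_of_nonpos h]; ring
      nth_rewrite 1 [this]
      rw [neg_mul, e]; ring

theorem freqB_pi : 2 * Real.pi ≤ 7 := by linarith [Real.pi_lt_d2]

set_option maxHeartbeats 1600000 in
/-- **Step B data.**  `B` is a common multiple of all `|m|`, `J' = N B`, `n' = s0 B` (so
`s0 J' = n' N`), `c_d = (d/D2 - round (d/D2))/B`.  For `m` put `g_m = |m|/B` (`g_0 = 1`), and for real
`t`: `y_m t = g_m round (N t/g_m)`, `r_m t = N t - y_m t`, `I_m t = round (s0 t - m/Q')`,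
`n''_m t = n' y_m t - I_m t J' + m λ0 ∈ ℤ` (`n' g_m ∈ ℤ`); `r_m` and `n''_m` are `1`-periodic in `t`
(`N/g_m ∈ ℤ`).  With `t = rp θ`, `u = rp x`, `η' = ηB/(4B)`:
`U m = {|r_m t| ≤ g_m/2 - η'}`, `Θ m θ x = ee (t s + m λ0 u + m fract(J' u)/Q' - n' r_m t · u)`,
`A n = {θ | ∃ m ∈ insert 0 Ms, θ ∈ C m ∧ θ ∈ U m ∧ n''_m t = n}`,
`Ns = (Icc (-Mx) Mx).erase 0`, `Mx = M λ0 + λ0`.
* H1: `N t = m K d/D + κ + e`, `|e| ≤ η`, `m K d/D = m round(d/D2)/B + m c_d`, and
  `|m c_d + e| ≤ g_m/2 - η'`, so `r_m t = m c_d + e`; the phases differ by `n' e u`.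
* H2: with `C = s0 t - m/Q' - I`, `|C| ≤ εp`: `t s ≡ (m/Q' + C) ⌊J' u⌋` mod 1, and the phase of `Θ`
  is `≡ n'' u - C fract (J' u)`.  `|n'' - m λ0| ≤ J'(M+1) + n'(M+1) < λ0`, so `n'' ≠ 0` for `m ≠ 0`;
  for `m = 0`, `n'' = B (s0 κ - I N) ≠ 0` by the second purity clause.
* Separation: for `3 r' ≤ r`, `3 r' N ≤ η'`, `3 r' s0 ≤ 1/4`: two points at distance `< 3 r'` have the
  same `m`, and for close lifts the same `y_m`, `I_m`. -/
theorem freqB (N K M B D2 s0 Q' lam0 : ℕ) (hN : 0 < N) (hK : 0 < K) (hB : 0 < B) (hD2 : 0 < D2)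
    (hs0 : 0 < s0) (hQ' : 0 < Q') (Ms : Finset ℤ) (hMs : Ms ⊆ Finset.Icc (-(M : ℤ)) M)
    (hBm : ∀ m ∈ Ms, m ∣ (B : ℤ)) (C : ℤ → Set Tc) (r : ℝ) (hr : 0 < r)
    (hsep : Sep (insert 0 Ms) C r) (εp : ℝ) (hεp : εp ≤ 1 / 8)
    (hp1 : ∀ m ∈ insert 0 Ms, ∀ t : ℝ, (t : Tc) ∈ C m →
      ∃ I : ℤ, |s0 * t - (m : ℝ) / Q' - I| ≤ εp)
    (hp2 : ∀ t : ℝ, (t : Tc) ∈ C 0 → ∀ κ I : ℤ, |s0 * t - I| < 1 / 2 → (s0 : ℤ) * κ ≠ I * N)
    (hlam : (N * B + s0 * B) * (M + 1) < lam0)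
    (η ηB : ℝ) (hη : 0 < η) (hηB : ηB ≤ 1) (hηη : η ≤ ηB / (4 * B))
    (Ds : Finset ℕ) (hDs : ∀ d ∈ Ds, |(d : ℝ) / D2 - round ((d : ℝ) / D2)| ≤ (1 - ηB) / 2) :
    ∃ (Ns : Finset ℤ) (A U : ℤ → Set Tc) (r' : ℝ) (Θ : ℤ → Tc → Tc → ℂ),
      0 ∉ Ns ∧ 0 < r' ∧ Sep Ns A (3 * r') ∧
      FreqH N K (K * B * D2) Ds η s0 (N * B) (fun _ => lam0) (1 / Q')
        (fun d => -((s0 * B : ℕ) : ℝ) * (((d : ℝ) / D2 - round ((d : ℝ) / D2)) / B))
        (insert 0 Ms) C U Θ Ns A (7 * (s0 * B : ℕ) * η) (7 * εp) := by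
  classical
  have hBr : (0 : ℝ) < B := by exact_mod_cast hB
  have hNr : (0 : ℝ) < N := by exact_mod_cast hN
  have hKr : (0 : ℝ) < K := by exact_mod_cast hK
  have hDr : (0 : ℝ) < D2 := by exact_mod_cast hD2
  have hsr : (0 : ℝ) < s0 := by exact_mod_cast hs0
  have hQr : (1 : ℝ) ≤ Q' := by exact_mod_cast hQ'
  have hBη : B * η ≤ ηB / 4 := by
    have := mul_le_mul_of_nonneg_left hηη hBr.le
    have e : (B : ℝ) * (ηB / (4 * B)) = ηB / 4 := by field_simp
    linarith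
  have hηB0 : 0 < ηB := by nlinarith
  have hwq : ∀ m ∈ insert 0 Ms, freqBw B m * freqBq B m = B ∧ 1 ≤ freqBw B m ∧ 1 ≤ freqBq B m ∧
      ∃ σ : ℤ, |σ| ≤ 1 ∧ m * freqBq B m = σ * B := fun m hm =>
    freqB_wq hB ((Finset.mem_insert.1 hm).imp id (hBm m))
  have hqB : ∀ m ∈ insert 0 Ms, (freqBq B m : ℝ) ≤ B ∧ (freqBw B m : ℝ) ≤ B := fun m hm => by
    obtain ⟨h1, h2, h3, -⟩ := hwq m hm
    have h4 : freqBq B m ≤ B := by nlinarith
    have h5 : freqBw B m ≤ B := by nlinarith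
    exact ⟨by exact_mod_cast h4, by exact_mod_cast h5⟩
  have hM : ∀ m ∈ insert 0 Ms, |m| ≤ M := fun m hm => by
    rcases Finset.mem_insert.1 hm with rfl | hm
    · simp
    · exact abs_le.2 (Finset.mem_Icc.1 (hMs hm))
  obtain ⟨r', hr0, hr1, hr2, hr3⟩ : ∃ r' : ℝ, 0 < r' ∧ 3 * r' ≤ r ∧ B * N * (3 * r') ≤ ηB / 4 ∧
      s0 * (3 * r') ≤ 1 / 4 := by
    refine ⟨min r (min (ηB / 4 / (B * N)) (1 / 4 / s0)) / 3, by positivity, ?_, ?_, ?_⟩
    · linarith [min_le_left r (min (ηB / 4 / (B * N)) (1 / 4 / s0))]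
    · have h1 : min r (min (ηB / 4 / (B * N)) (1 / 4 / s0)) ≤ ηB / 4 / (B * N) :=
        (min_le_right _ _).trans (min_le_left _ _)
      rw [le_div_iff₀ (by positivity)] at h1
      linarith
    · have h1 : min r (min (ηB / 4 / (B * N)) (1 / 4 / s0)) ≤ 1 / 4 / s0 :=
        (min_le_right _ _).trans (min_le_right _ _)
      rw [le_div_iff₀ hsr] at h1
      linarith
  refine ⟨(Finset.Icc (-((M : ℤ) * lam0 + lam0)) (M * lam0 + lam0)).erase 0,
    fun n => {θ | ∃ m ∈ insert 0 Ms, θ ∈ C m ∧ ∃ k I : ℤ,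
      |freqBq B m * (N * rp θ) - k| ≤ 1 / 2 - ηB / 4 ∧ |s0 * rp θ - (m : ℝ) / Q' - I| ≤ 1 / 8 ∧
      n = s0 * freqBw B m * k - I * (N * B) + m * lam0},
    fun m => {θ | |freqBq B m * (N * rp θ) - round (freqBq B m * (N * rp θ))| ≤ 1 / 2 - ηB / 4},
    r', fun m θ x => ee (shf s0 (N * B) x * rp θ + m * lam0 * rp x +
      m * Int.fract (((N * B : ℕ) : ℝ) * rp x) / Q' -
      s0 * freqBw B m * (freqBq B m * (N * rp θ) - round (freqBq B m * (N * rp θ))) * rp x),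
    by simp, hr0, ?_, fun m θ x => (norm_ee _).le, ?_, ?_⟩
  · rintro n - n' - hne θ ⟨m, hm, hC, k, I, hk, hI, rfl⟩ θ' ⟨m', hm', hC', k', I', hk', hI', rfl⟩
    by_contra hlt
    push Not at hlt
    have hmm : m = m' := by
      by_contra hc
      have := hsep m hm m' hm' hc θ hC θ' hC'
      linarith
    subst hmm
    obtain ⟨j, hj⟩ := freqB_dist (rp θ) (rp θ')
    rw [coe_rp, coe_rp] at hj
    rw [hj] at hlt
    obtain ⟨h1, -, h3, -⟩ := hwq m hm
    have h3r : (1 : ℝ) ≤ freqBq B m := by exact_mod_cast h3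
    have hq := (hqB m hm).1
    have e1 : k = k' + freqBq B m * N * j := by
      refine freqB_int_eq ?_
      push_cast
      have h4 : |freqBq B m * N * (rp θ - rp θ' - j)| ≤ ηB / 4 := by
        rw [abs_mul, abs_of_nonneg (by positivity : (0 : ℝ) ≤ freqBq B m * N)]
        refine le_trans ?_ hr2
        exact mul_le_mul (mul_le_mul_of_nonneg_right hq hNr.le) hlt.le (abs_nonneg _) (by positivity)
      rw [abs_le] at hk hk' h4
      rw [abs_lt]
      constructor <;> linarith [hk.1, hk.2, hk'.1, hk'.2, h4.1, h4.2]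
    have e2 : I = I' + s0 * j := by
      refine freqB_int_eq ?_
      push_cast
      have h4 : |s0 * (rp θ - rp θ' - j)| ≤ 1 / 4 := by
        rw [abs_mul, abs_of_nonneg hsr.le]
        exact le_trans (mul_le_mul_of_nonneg_left hlt.le hsr.le) hr3
      rw [abs_le] at hI hI' h4
      rw [abs_lt]
      constructor <;> linarith [hI.1, hI.2, hI'.1, hI'.2, h4.1, h4.2]
    apply hne
    rw [e1, e2, ← h1]
    ring
  · intro m hm d hd θ x hθ
    obtain ⟨h1, -, h3, σ, hσ, h4⟩ := hwq m hm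
    have h1r : (freqBw B m : ℝ) * freqBq B m = B := by exact_mod_cast h1
    have h3r : (1 : ℝ) ≤ freqBq B m := by exact_mod_cast h3
    have h4r : (m : ℝ) * freqBq B m = σ * B := by exact_mod_cast h4
    have hσr : |(σ : ℝ)| ≤ 1 := by exact_mod_cast hσ
    have hq := (hqB m hm).1
    have hδ := hDs d hd
    obtain ⟨κ, hκ⟩ := freqB_dist (N * rp θ) (m * K * d / ((K * B * D2 : ℕ) : ℝ))
    have e0 : N • θ = ((N * rp θ : ℝ) : Tc) := by
      rw [← nsmul_eq_mul, AddCircle.coe_nsmul, coe_rp]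
    rw [e0, hκ] at hθ
    generalize hR : round ((d : ℝ) / D2) = R at hδ ⊢
    obtain ⟨δ, hδ'⟩ : ∃ δ : ℝ, δ = (d : ℝ) / D2 - R := ⟨_, rfl⟩
    obtain ⟨e, he⟩ : ∃ e : ℝ, e = N * rp θ - m * K * d / ((K * B * D2 : ℕ) : ℝ) - κ := ⟨_, rfl⟩
    rw [← he] at hθ
    rw [← hδ'] at hδ
    have e1 : (m : ℝ) * K * d / ((K * B * D2 : ℕ) : ℝ) = m * (δ + R) / B := by
      rw [hδ']; push_cast; field_simp; ring
    have e2 : freqBq B m * (N * rp θ) - ((σ * R + freqBq B m * κ : ℤ) : ℝ) =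
        σ * δ + freqBq B m * e := by
      have e3 : N * rp θ = m * (δ + R) / B + κ + e := by rw [he, e1]; ring
      have e4 : freqBq B m * (m * (δ + R) / B) = σ * (δ + R) := by
        field_simp
        linear_combination (δ + R) * h4r
      rw [e3]
      push_cast
      linear_combination e4
    have h5 : |σ * δ + freqBq B m * e| ≤ 1 / 2 - ηB / 4 := by
      have a1 : |σ * δ| ≤ (1 - ηB) / 2 := by
        rw [abs_mul]
        nlinarith [abs_nonneg δ, abs_nonneg (σ : ℝ)]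
      have a2 : |freqBq B m * e| ≤ ηB / 4 := by
        rw [abs_mul, abs_of_nonneg (by linarith : (0 : ℝ) ≤ freqBq B m)]
        exact le_trans (mul_le_mul hq hθ (abs_nonneg _) hBr.le) hBη
      linarith [abs_add_le (σ * δ) (freqBq B m * e)]
    have h6 : round (freqBq B m * (N * rp θ)) = σ * R + freqBq B m * κ :=
      freqB_round (by rw [e2]; linarith)
    refine ⟨?_, ?_⟩
    · simp only [Set.mem_ofPred_eq]
      rw [h6, e2]; exact h5
    · dsimp only
      rw [h6, e2]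
      nth_rewrite 1 [← coe_rp θ]
      rw [fourier_coe, ← ee_add]
      refine (norm_ee_sub_le _ _).trans ?_
      have e5 : (freqBw B m : ℝ) * σ = m := by
        have : (freqBw B m : ℝ) * σ * B = m * B := by
          linear_combination (-(freqBw B m : ℝ)) * h4r + m * h1r
        exact mul_right_cancel₀ hBr.ne' this
      have e6 : (shf s0 (N * B) x : ℝ) * rp θ + m * phs (fun _ => (lam0 : ℤ)) (1 / Q')
          (fun d => -((s0 * B : ℕ) : ℝ) * (((d : ℝ) / D2 - round ((d : ℝ) / D2)) / B)) (N * B) x d -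
          (shf s0 (N * B) x * rp θ + m * lam0 * rp x +
            m * Int.fract (((N * B : ℕ) : ℝ) * rp x) / Q' -
            s0 * freqBw B m * (σ * δ + freqBq B m * e) * rp x) = s0 * B * e * rp x := by
        simp only [phs, hR, ← hδ']
        have e7 : -((s0 * B : ℕ) : ℝ) * (δ / B) = -(s0 * δ) := by push_cast; field_simp
        rw [e7]
        push_cast
        linear_combination (s0 * δ * rp x) * e5 + (s0 * e * rp x) * h1r
      rw [e6, abs_mul, abs_mul, abs_of_nonneg (rp_nonneg x),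
        abs_of_nonneg (by positivity : (0 : ℝ) ≤ s0 * B)]
      have a1 : s0 * B * |e| * rp x ≤ s0 * B * η := by
        have a2 : |e| * rp x ≤ η := by
          nlinarith [abs_nonneg e, rp_nonneg x, rp_lt_one x]
        rw [mul_assoc]
        exact mul_le_mul_of_nonneg_left a2 (by positivity)
      have a3 := mul_le_mul freqB_pi a1 (mul_nonneg (by positivity) (rp_nonneg x)) (by norm_num)
      push_cast
      linarith
  · intro m hm θ hU hC
    obtain ⟨h1, h2, h3, -⟩ := hwq m hm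
    have h1r : (freqBw B m : ℝ) * freqBq B m = B := by exact_mod_cast h1
    have h2r : (1 : ℝ) ≤ freqBw B m := by exact_mod_cast h2
    have hw := (hqB m hm).2
    obtain ⟨I, hI⟩ := hp1 m hm (rp θ) (by rwa [coe_rp])
    simp only [Set.mem_ofPred_eq] at hU
    dsimp only
    generalize round (freqBq B m * (N * rp θ)) = k at hU ⊢
    obtain ⟨c, hc⟩ : ∃ c : ℝ, c = s0 * rp θ - (m : ℝ) / Q' - I := ⟨_, rfl⟩
    obtain ⟨ρ, hρ⟩ : ∃ ρ : ℝ, ρ = freqBq B m * (N * rp θ) - k := ⟨_, rfl⟩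
    have hb : |(s0 : ℤ) * freqBw B m * k - I * (N * B)| < lam0 := by
      have e1 : (((s0 : ℤ) * freqBw B m * k - I * (N * B) : ℤ) : ℝ) =
          N * B * (m / Q' + c) - s0 * freqBw B m * ρ := by
        rw [hc, hρ]; push_cast
        linear_combination (s0 * N * rp θ) * h1r
      have a1 : |(m : ℝ) / Q' + c| ≤ M + 1 := by
        have a2 : |(m : ℝ) / Q'| ≤ M := by
          rw [abs_div, abs_of_nonneg (by linarith : (0 : ℝ) ≤ Q')]
          have : |(m : ℝ)| ≤ M := by exact_mod_cast hM m hm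
          exact (div_le_self (abs_nonneg _) hQr).trans this
        rw [← hc] at hI
        linarith [abs_add_le ((m : ℝ) / Q') c]
      have a3 : |ρ| ≤ M + 1 := by
        rw [← hρ] at hU
        have : (0 : ℝ) ≤ M := Nat.cast_nonneg _
        linarith
      have a4 : |N * B * (m / Q' + c)| ≤ N * B * (M + 1) := by
        rw [abs_mul, abs_of_nonneg (by positivity : (0 : ℝ) ≤ N * B)]
        exact mul_le_mul_of_nonneg_left a1 (by positivity)
      have a5 : |s0 * freqBw B m * ρ| ≤ s0 * B * (M + 1) := by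
        rw [abs_mul, abs_of_nonneg (by positivity : (0 : ℝ) ≤ s0 * freqBw B m)]
        exact mul_le_mul (mul_le_mul_of_nonneg_left hw hsr.le) a3 (abs_nonneg _) (by positivity)
      have a6 : ((N : ℝ) * B + s0 * B) * (M + 1) < lam0 := by exact_mod_cast hlam
      have a7 : |(((s0 : ℤ) * freqBw B m * k - I * (N * B) : ℤ) : ℝ)| < lam0 := by
        rw [e1]
        linarith [abs_sub (N * B * (m / Q' + c)) (s0 * freqBw B m * ρ)]
      rw [← Int.cast_abs] at a7
      exact_mod_cast a7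
    refine ⟨s0 * freqBw B m * k - I * (N * B) + m * lam0, ?_,
      ⟨m, hm, hC, k, I, hU, hI.trans hεp, rfl⟩, fun x => ?_⟩
    · have hl : (0 : ℤ) ≤ lam0 := Int.natCast_nonneg _
      have hmM := abs_le.1 (hM m hm)
      rw [abs_lt] at hb
      have b1 := mul_le_mul_of_nonneg_right hmM.1 hl
      have b2 := mul_le_mul_of_nonneg_right hmM.2 hl
      refine Finset.mem_erase.2 ⟨fun h0 => ?_, Finset.mem_Icc.2 ⟨by linarith [hb.1],
        by linarith [hb.2]⟩⟩
      rcases lt_trichotomy m 0 with hm0 | hm0 | hm0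
      · have b3 := mul_le_mul_of_nonneg_right (show m ≤ -1 by omega) hl
        linarith [hb.2]
      · subst hm0
        refine hp2 (rp θ) (by rwa [coe_rp]) k I (by simp at hI; linarith) ?_
        have hB' : (B : ℤ) ≠ 0 := by exact_mod_cast hB.ne'
        simp only [freqBw, if_true, zero_mul, add_zero] at h0
        refine mul_right_cancel₀ hB' ?_
        linear_combination h0
      · have b3 := mul_le_mul_of_nonneg_right (show 1 ≤ m by omega) hl
        linarith [hb.1]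
    · nth_rewrite 5 [← coe_rp x]
      rw [fourier_coe, ← ee_add_int (_ * rp x) (I * ⌊((N * B : ℕ) : ℝ) * rp x⌋)]
      refine (norm_ee_sub_le _ _).trans ?_
      have e6 : (shf s0 (N * B) x : ℝ) * rp θ + m * lam0 * rp x +
          m * Int.fract (((N * B : ℕ) : ℝ) * rp x) / Q' -
          s0 * freqBw B m * (freqBq B m * (N * rp θ) - k) * rp x -
          ((((s0 : ℤ) * freqBw B m * k - I * (N * B) + m * lam0 : ℤ) : ℝ) * rp x +
            ((I * ⌊((N * B : ℕ) : ℝ) * rp x⌋ : ℤ) : ℝ)) =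
          -(c * Int.fract (((N * B : ℕ) : ℝ) * rp x)) := by
        simp only [shf, Int.fract, hc]
        push_cast
        linear_combination (-(s0 * N * rp θ * rp x)) * h1r
      rw [e6, abs_neg, abs_mul, abs_of_nonneg (Int.fract_nonneg (((N * B : ℕ) : ℝ) * rp x))]
      rw [← hc] at hI
      have a1 : |c| * Int.fract (((N * B : ℕ) : ℝ) * rp x) ≤ εp := by
        nlinarith [abs_nonneg c, Int.fract_nonneg (((N * B : ℕ) : ℝ) * rp x),
          Int.fract_lt_one (((N * B : ℕ) : ℝ) * rp x)]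
      exact mul_le_mul freqB_pi a1 (mul_nonneg (abs_nonneg _) (Int.fract_nonneg _)) (by norm_num)

end Crest.Agent.R81
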