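import Crest.Agent.R81.FreqA

/-!
# R81: frequency data; the merging step A
-/

set_option autoImplicit false

namespace Crest.Agent.R81

open MeasureTheory

/-- If `‖θ‖ < 1/(2N)` and `‖N•θ‖ ≤ η`, take the lift `t` with `|t| = ‖θ‖`; then `|N t| ≤ η` and
`‖F₀ θ‖ = ‖F₀ θ - F₀ 0‖ ≤ N^{-1/2} ∑ ‖G 0 i‖ 2π i |t| ≤ 2π η √N sn (G 0)`.  `Y` is the spike
`c √N` at `0`, whose transform is the constant `c`. -/
theorem dom_zero (N M : ℕ) (hN : 0 < N) (η : ℝ) (hη : 0 ≤ η) (U : ℤ → Set Tc)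
    (hU : ∀ θ ∈ U 0, ‖N • θ‖ ≤ η) (G : ℤ → ℤ → ℂ) (hG : ∑ i ∈ Finset.Ico (0 : ℤ) N, G 0 i = 0) :
    Dom N (Finset.Icc (-(M : ℤ)) M) U (Cmer N) G
      ((2 * M + 1) * (7 * η * Real.sqrt N) * tn N (Finset.Icc (-(M : ℤ)) M) G) := by
  classical
  have hNr : (0 : ℝ) < N := by exact_mod_cast hN
  have hsq : 0 < Real.sqrt N := Real.sqrt_pos.2 hNr
  have hss : Real.sqrt N * Real.sqrt N = N := Real.mul_self_sqrt hNr.le
  set T := tn N (Finset.Icc (-(M : ℤ)) M) G with hT
  have hT0 : 0 ≤ T := Real.sqrt_nonneg _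
  set c : ℝ := (2 * M + 1) * (7 * η * Real.sqrt N) * T with hc
  have hc0 : 0 ≤ c := by positivity
  have h0mem : (0 : ℤ) ∈ Finset.Ico (0 : ℤ) N := by
    simp only [Finset.mem_Ico, le_refl, true_and]; exact_mod_cast hN
  refine ⟨fun i => if i = 0 then ((c * Real.sqrt N : ℝ) : ℂ) else 0, ?_, ?_⟩
  · unfold sn
    rw [Finset.sum_eq_single_of_mem (0 : ℤ) h0mem (by intro b _ hb; simp [hb])]
    simp only [if_true, Complex.norm_real, Real.norm_eq_abs, sq_abs]
    have : (c * Real.sqrt N) ^ 2 / N = c ^ 2 := by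
      rw [mul_pow, Real.sq_sqrt hNr.le]; field_simp
    rw [this, Real.sqrt_sq hc0]
  · intro m hm θ hθ hC
    have hm0 : m = 0 := by
      by_contra h
      exact hC (by simp [Cmer, h])
    subst hm0
    have hlt : ‖θ‖ < 1 / (2 * (N : ℝ)) := by
      simpa [Cmer] using hC
    have hFT : ‖FT N (fun i => if i = 0 then ((c * Real.sqrt N : ℝ) : ℂ) else 0) θ‖ = c := by
      unfold FT
      rw [Finset.sum_eq_single_of_mem (0 : ℤ) h0mem (by intro b _ hb; simp [hb])]
      simp only [if_true, neg_zero, fourier_zero, mul_one, norm_mul, Complex.norm_real,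
        Real.norm_eq_abs]
      rw [abs_of_pos (inv_pos.2 hsq), abs_of_nonneg hc0, abs_of_pos hsq]
      field_simp
    rw [hFT]
    have hcard : ((Finset.Icc (-(M : ℤ)) M).card : ℝ) = 2 * M + 1 := by
      rw [Int.card_Icc]
      have : ((M : ℤ) + 1 - -(M : ℤ)).toNat = 2 * M + 1 := by omega
      rw [this]; push_cast; ring
    rw [hcard]
    have hcd : c / (2 * M + 1) = 7 * η * Real.sqrt N * T := by
      rw [hc]; field_simp
    rw [hcd]
    -- the lift
    set t : ℝ := rp θ - round (rp θ) with ht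
    have htθ : ((t : ℝ) : Tc) = θ := by
      have := coe_add_int (rp θ) (-round (rp θ))
      rw [coe_rp] at this
      rw [← this, ht]; congr 1; push_cast; ring
    have hnt : ‖θ‖ = |t| := by
      conv_lhs => rw [← coe_rp θ]
      rw [UnitAddCircle.norm_eq]
    have hNt : |(N : ℝ) * t| ≤ η := by
      have h1 : |(N : ℝ) * t| ≤ |(1 : ℝ)| / 2 := by
        rw [abs_mul, abs_of_pos hNr, abs_one, ← hnt]
        rw [lt_div_iff₀ (by positivity)] at hlt
        linarith
      have h2 := (AddCircle.norm_coe_eq_abs_iff (1 : ℝ) one_ne_zero).2 h1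
      have h3 : (((N : ℝ) * t : ℝ) : Tc) = N • θ := by
        rw [← htθ, ← AddCircle.coe_nsmul, nsmul_eq_mul]
      rw [← h2]
      have h4 := hU θ hθ
      rw [← h3] at h4
      exact h4
    have hsum : ∑ i ∈ Finset.Ico (0 : ℤ) N, G 0 i * fourier (-i) θ =
        ∑ i ∈ Finset.Ico (0 : ℤ) N, G 0 i * (ee ((-i : ℤ) * t) - 1) := by
      simp only [mul_sub, mul_one, Finset.sum_sub_distrib, hG, sub_zero]
      refine Finset.sum_congr rfl fun i _ => ?_
      rw [← htθ, fourier_coe]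
    have hb : ‖∑ i ∈ Finset.Ico (0 : ℤ) N, G 0 i * fourier (-i) θ‖ ≤
        (∑ i ∈ Finset.Ico (0 : ℤ) N, ‖G 0 i‖) * (7 * η) := by
      rw [hsum, Finset.sum_mul]
      refine (norm_sum_le _ _).trans (Finset.sum_le_sum fun i hi => ?_)
      rw [norm_mul]
      refine mul_le_mul_of_nonneg_left ?_ (norm_nonneg _)
      refine (norm_ee_sub_one_le _).trans ?_
      rw [Finset.mem_Ico] at hi
      have hi0 : (0 : ℝ) ≤ i := by exact_mod_cast hi.1
      have hi1 : (i : ℝ) ≤ N := by exact_mod_cast hi.2.le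
      have h1 : |((-i : ℤ) : ℝ) * t| ≤ η := by
        refine le_trans ?_ hNt
        push_cast
        rw [abs_mul, abs_mul, abs_neg, abs_of_nonneg hi0, abs_of_pos hNr]
        exact mul_le_mul_of_nonneg_right hi1 (abs_nonneg _)
      have h2 : 2 * Real.pi ≤ 7 := by linarith [Real.pi_lt_d2]
      exact mul_le_mul h2 h1 (abs_nonneg _) (by norm_num)
    have hcs : ∑ i ∈ Finset.Ico (0 : ℤ) N, ‖G 0 i‖ ≤ N * sn N (G 0) := by
      have h1 := sq_sum_le_card_mul_sum_sq (s := Finset.Ico (0 : ℤ) N) (f := fun i => ‖G 0 i‖)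
      have h2 : ((Finset.Ico (0 : ℤ) N).card : ℝ) = N := by simp
      rw [h2] at h1
      have h3 : 0 ≤ ∑ i ∈ Finset.Ico (0 : ℤ) N, ‖G 0 i‖ ^ 2 :=
        Finset.sum_nonneg fun _ _ => by positivity
      refine abs_le_of_sq_le_sq' ?_ (by unfold sn; positivity) |>.2
      unfold sn
      rw [mul_pow, Real.sq_sqrt (by positivity)]
      refine h1.trans (le_of_eq ?_)
      field_simp
    have hsnT : sn N (G 0) ≤ T := by
      rw [hT]; unfold tn
      refine Real.le_sqrt_of_sq_le ?_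
      exact Finset.single_le_sum (f := fun m => sn N (G m) ^ 2) (fun _ _ => by positivity) hm
    unfold FT
    rw [norm_mul, Complex.norm_real, Real.norm_eq_abs, abs_of_pos (inv_pos.2 hsq)]
    calc (Real.sqrt N)⁻¹ * ‖∑ i ∈ Finset.Ico (0 : ℤ) N, G 0 i * fourier (-i) θ‖
        ≤ (Real.sqrt N)⁻¹ * ((N * T) * (7 * η)) := by
          refine mul_le_mul_of_nonneg_left (hb.trans ?_) (by positivity)
          refine mul_le_mul_of_nonneg_right (hcs.trans ?_) (by positivity)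
          exact mul_le_mul_of_nonneg_left hsnT hNr.le
      _ = 7 * η * Real.sqrt N * T := by
          conv_lhs => rw [← hss]
          rw [Real.sqrt_mul_self hsq.le]
          field_simp

theorem count_A (K q D2 : ℕ) (hq : 0 < q) (hD2 : 0 < D2) (Good : Finset ℕ)
    (hG : Good ⊆ Finset.range q) (η : ℝ) (hc : (1 - η) * q ≤ Good.card) :
    (1 - η) * (K * q * D2 : ℕ) ≤
      ((Finset.range (K * q * D2)).filter fun d => d / D2 % q ∈ Good).card := by
  classical
  have hcard : K * Good.card * D2 ≤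
      ((Finset.range (K * q * D2)).filter fun d => d / D2 % q ∈ Good).card := by
    have h1 : ((Finset.range K ×ˢ Good) ×ˢ Finset.range D2).card = K * Good.card * D2 := by
      simp [Finset.card_product]
    rw [← h1]
    have key : ∀ k r s : ℕ, r < q → s < D2 →
        ((k * q + r) * D2 + s) / D2 = k * q + r ∧ ((k * q + r) * D2 + s) % D2 = s ∧
          (k * q + r) % q = r ∧ (k * q + r) / q = k := by
      intro k r s hr hs
      refine ⟨?_, ?_, ?_, ?_⟩
      · rw [add_comm, Nat.add_mul_div_right _ _ hD2, Nat.div_eq_of_lt hs, zero_add]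
      · rw [add_comm, Nat.add_mul_mod_self_right, Nat.mod_eq_of_lt hs]
      · rw [add_comm, Nat.add_mul_mod_self_right, Nat.mod_eq_of_lt hr]
      · rw [add_comm, Nat.add_mul_div_right _ _ hq, Nat.div_eq_of_lt hr, zero_add]
    refine Finset.card_le_card_of_injOn (fun p => (p.1.1 * q + p.1.2) * D2 + p.2) ?_ ?_
    · rintro ⟨⟨k, r⟩, s⟩ hp
      simp only [Finset.coe_product, Set.mem_prod, Finset.mem_coe, Finset.mem_range] at hp
      obtain ⟨⟨hk, hr⟩, hs⟩ := hp
      have hr' : r < q := Finset.mem_range.1 (hG hr)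
      obtain ⟨e1, -, e3, -⟩ := key k r s hr' hs
      simp only [Finset.coe_filter, Finset.mem_range, Set.mem_ofPred_eq]
      refine ⟨?_, by rw [e1, e3]; exact hr⟩
      have h2 : k * q + r + 1 ≤ K * q := by nlinarith
      have h3 : (k * q + r + 1) * D2 ≤ K * q * D2 := Nat.mul_le_mul_right _ h2
      nlinarith
    · rintro ⟨⟨k, r⟩, s⟩ hp ⟨⟨k', r'⟩, s'⟩ hp' he
      simp only [Finset.coe_product, Set.mem_prod, Finset.mem_coe, Finset.mem_range] at hp hp'
      obtain ⟨⟨hk, hr⟩, hs⟩ := hp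
      obtain ⟨⟨hk', hr'⟩, hs'⟩ := hp'
      obtain ⟨e1, e2, e3, e4⟩ := key k r s (Finset.mem_range.1 (hG hr)) hs
      obtain ⟨f1, f2, f3, f4⟩ := key k' r' s' (Finset.mem_range.1 (hG hr')) hs'
      simp only at he
      have g1 : k * q + r = k' * q + r' := by rw [← e1, ← f1, he]
      have g2 : s = s' := by rw [← e2, ← f2, he]
      have g3 : r = r' := by rw [← e3, ← f3, g1]
      have g4 : k = k' := by rw [← e4, ← f4, g1]
      rw [g2, g3, g4]
  have h2 : ((K * Good.card * D2 : ℕ) : ℝ) ≤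
      (((Finset.range (K * q * D2)).filter fun d => d / D2 % q ∈ Good).card : ℝ) := by
    exact_mod_cast hcard
  refine le_trans ?_ h2
  push_cast
  have h3 : (0 : ℝ) ≤ (K : ℝ) * D2 := by positivity
  have h4 := mul_le_mul_of_nonneg_left hc h3
  linarith

theorem count_zones (D : ℕ) (hD : 0 < D) (Gd : Finset ℕ) (hG : Gd ⊆ Finset.range D) (η δ : ℝ)
    (hδ : 0 ≤ δ) (hc : (1 - η) * D ≤ Gd.card) :
    (1 - (2 * δ + η + 4 / D)) * D ≤ (Gd.filter fun d : ℕ =>
      1 ≤ d ∧ d + 2 ≤ D ∧ δ ≤ (d : ℝ) / D ∧ (d + 1 : ℝ) / D ≤ 1 - δ).card := by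
  classical
  have hDr : (0 : ℝ) < D := by exact_mod_cast hD
  set L : ℕ := ⌈δ * D⌉₊ + 1 with hL
  have hLle : (L : ℝ) ≤ δ * D + 2 := by
    have := Nat.ceil_lt_add_one (show 0 ≤ δ * D by positivity)
    rw [hL]; push_cast; linarith
  have hceil : δ * D ≤ (⌈δ * D⌉₊ : ℝ) := Nat.le_ceil _
  set P : ℕ → Prop := fun d : ℕ =>
      1 ≤ d ∧ d + 2 ≤ D ∧ δ ≤ (d : ℝ) / D ∧ (d + 1 : ℝ) / D ≤ 1 - δ with hP
  have hsub : Gd ⊆ (Gd.filter P ∪ Finset.range L) ∪ (Finset.range L).image (fun j => D - 1 - j) := by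
    intro d hd
    have hdD : d < D := Finset.mem_range.1 (hG hd)
    by_cases h1 : d < L
    · exact Finset.mem_union_left _ (Finset.mem_union_right _ (Finset.mem_range.2 h1))
    by_cases h2 : D - 1 - d < L
    · exact Finset.mem_union_right _ (Finset.mem_image.2 ⟨D - 1 - d, Finset.mem_range.2 h2, by omega⟩)
    refine Finset.mem_union_left _ (Finset.mem_union_left _ (Finset.mem_filter.2 ⟨hd, ?_⟩))
    have h3 : ⌈δ * D⌉₊ ≤ d := by omega
    have h4 : ⌈δ * D⌉₊ + d + 1 ≤ D := by omega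
    have h3' : (⌈δ * D⌉₊ : ℝ) ≤ d := by exact_mod_cast h3
    have h4' : (⌈δ * D⌉₊ : ℝ) + d + 1 ≤ D := by exact_mod_cast h4
    refine ⟨by omega, by omega, ?_, ?_⟩
    · rw [le_div_iff₀ hDr]; linarith
    · rw [div_le_iff₀ hDr]; linarith
  have hcard : Gd.card ≤ (Gd.filter P).card + L + L := by
    refine (Finset.card_le_card hsub).trans ((Finset.card_union_le _ _).trans ?_)
    refine Nat.add_le_add ((Finset.card_union_le _ _).trans (by simp)) ?_
    exact Finset.card_image_le.trans (by simp)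
  have hcard' : (Gd.card : ℝ) ≤ ((Gd.filter P).card : ℝ) + L + L := by exact_mod_cast hcard
  have he : (1 - (2 * δ + η + 4 / D)) * D = (1 - η) * D - 2 * (δ * D) - 4 := by
    field_simp; ring
  rw [he]
  linarith

theorem count_B (n D2 : ℕ) (hD2 : 0 < D2) (ηB : ℝ) (hηB : 0 ≤ ηB) :
    (1 - (ηB + 2 / D2)) * (n * D2 : ℕ) ≤ ((Finset.range (n * D2)).filter fun d : ℕ =>
      |(d : ℝ) / D2 - round ((d : ℝ) / D2)| ≤ (1 - ηB) / 2).card := by
  classical
  have hDr : (0 : ℝ) < D2 := by exact_mod_cast hD2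
  set a : ℝ := (1 - ηB) / 2 * D2 with ha
  set b : ℝ := (1 + ηB) / 2 * D2 with hb
  set Good : Finset ℕ := (Finset.range D2).filter fun s => (s : ℝ) ≤ a ∨ b ≤ s with hGood
  have hb0 : 0 ≤ b := by positivity
  have hsub : Finset.range D2 ⊆ Good ∪ Finset.Ico ⌊a⌋₊ ⌈b⌉₊ := by
    intro s hs
    by_cases h : (s : ℝ) ≤ a ∨ b ≤ s
    · exact Finset.mem_union_left _ (Finset.mem_filter.2 ⟨hs, h⟩)
    · push Not at h
      refine Finset.mem_union_right _ (Finset.mem_Ico.2 ⟨?_, Nat.lt_ceil.2 h.2⟩)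
      exact Nat.floor_le_of_le h.1.le
  have hIco : ((Finset.Ico ⌊a⌋₊ ⌈b⌉₊).card : ℝ) ≤ ηB * D2 + 2 := by
    rw [Nat.card_Ico]
    have h1 := Nat.ceil_lt_add_one hb0
    have h2 := Nat.lt_floor_add_one a
    rcases le_total ⌊a⌋₊ ⌈b⌉₊ with h | h
    · rw [Nat.cast_sub h]
      have : b - a = ηB * D2 := by rw [ha, hb]; ring
      linarith
    · rw [Nat.sub_eq_zero_of_le h]; push_cast; positivity
  have hcard : D2 ≤ Good.card + (Finset.Ico ⌊a⌋₊ ⌈b⌉₊).card := by
    have := (Finset.card_le_card hsub).trans (Finset.card_union_le _ _)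
    simpa using this
  have hcard' : (D2 : ℝ) ≤ (Good.card : ℝ) + ((Finset.Ico ⌊a⌋₊ ⌈b⌉₊).card : ℝ) := by
    exact_mod_cast hcard
  have hc : (1 - (ηB + 2 / D2)) * (D2 : ℝ) ≤ Good.card := by
    have he : (1 - (ηB + 2 / D2)) * (D2 : ℝ) = D2 - (ηB * D2 + 2) := by field_simp
    rw [he]; linarith
  have hA := count_A n D2 1 hD2 one_pos Good (Finset.filter_subset _ _) _ hc
  rw [mul_one] at hA
  refine hA.trans ?_
  have hs : ((Finset.range (n * D2)).filter fun d => d / 1 % D2 ∈ Good) ⊆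
      (Finset.range (n * D2)).filter fun d : ℕ =>
        |(d : ℝ) / D2 - round ((d : ℝ) / D2)| ≤ (1 - ηB) / 2 := by
    intro d hd
    rw [Finset.mem_filter] at hd ⊢
    refine ⟨hd.1, ?_⟩
    have h1 := hd.2
    rw [Nat.div_one, hGood, Finset.mem_filter, Finset.mem_range] at h1
    obtain ⟨hlt, h2⟩ := h1
    have hdm : (d : ℝ) = (D2 : ℝ) * (d / D2 : ℕ) + (d % D2 : ℕ) := by
      exact_mod_cast (Nat.div_add_mod d D2).symm
    have hlt' : ((d % D2 : ℕ) : ℝ) < D2 := by exact_mod_cast hlt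
    have hdiv : (d : ℝ) / D2 = (d / D2 : ℕ) + ((d % D2 : ℕ) : ℝ) / D2 := by
      conv_lhs => rw [hdm]
      field_simp
    rcases h2 with h2 | h2
    · refine (round_le _ ((d / D2 : ℕ) : ℤ)).trans ?_
      rw [hdiv, Int.cast_natCast, add_sub_cancel_left, abs_of_nonneg (by positivity),
        div_le_iff₀ hDr]
      exact h2
    · refine (round_le _ (((d / D2 : ℕ) : ℤ) + 1)).trans ?_
      rw [hdiv, Int.cast_add, Int.cast_natCast, Int.cast_one]
      have h3 : ((d % D2 : ℕ) : ℝ) / D2 ≤ 1 := by rw [div_le_one hDr]; exact hlt'.le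
      have h4 : (1 + ηB) / 2 ≤ ((d % D2 : ℕ) : ℝ) / D2 := by rw [le_div_iff₀ hDr]; exact h2
      rw [abs_of_nonpos (by linarith)]
      linarith
  exact_mod_cast Finset.card_le_card hs

end Crest.Agent.R81
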