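import Crest.Agent.R81.Core
import Crest.Agent.R81.FreqB
import Crest.Agent.R81.FreqC

/-!
# R81: step B (removal of the zero character)
-/

set_option autoImplicit false

namespace Crest.Agent.R81

open MeasureTheory Crest.AnalysisR.Torus3 Filter Topology

theorem sb_loc {D η m s e e0 : ℝ} (hD : 0 < D) (hη : 0 < η) (hs : 0 ≤ s)
    (h1 : 1 ≤ e * (D * Real.sqrt D * η ^ 2)) (h2 : 30 * m ^ 2 * s * e ≤ e0) :
    6 * (2 / Real.sqrt D * (40 * (m / D) ^ 2) / (16 * η ^ 2)) * D * s ≤ e0 := by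
  have hq : 0 < Real.sqrt D := Real.sqrt_pos.2 hD
  have e1 : 6 * (2 / Real.sqrt D * (40 * (m / D) ^ 2) / (16 * η ^ 2)) * D * s =
      30 * m ^ 2 * s * (1 / (D * Real.sqrt D * η ^ 2)) := by
    field_simp
    ring
  rw [e1]
  refine le_trans (mul_le_mul_of_nonneg_left ?_ (by positivity)) h2
  rwa [div_le_iff₀ (by positivity)]

/-- the choice of the parameters -/
theorem sb_par (N K M B t0 s0 : ℕ) (hK : 0 < K) (hB : 0 < B) (ht0 : 0 < t0) {e : ℝ} (he : 0 < e) :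
    ∃ (D2 : ℕ) (η : ℝ), 0 < D2 ∧ t0 ∣ K * B * D2 ∧ 0 < η ∧ η ≤ e ^ 2 / 3 / (4 * B) ∧
      2 / (D2 : ℝ) ≤ e ^ 2 / 3 ∧ 4 / ((K * B * D2 : ℕ) : ℝ) ≤ e ^ 2 / 3 ∧
      (7 * M * Real.sqrt (N * (2 * M + 1)) + 1) *
        (K * (6 + (s0 * (N * B) : ℕ) : ℝ) / (K * B * D2 : ℕ)) ≤ e ∧
      6 * (2 / Real.sqrt (K * B * D2 : ℕ) * (40 * (M * K / (K * B * D2 : ℕ)) ^ 2) / (16 * η ^ 2)) *
        (K * B * D2 : ℕ) * Real.sqrt (2 * M + 1) ≤ e ∧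
      7 * (s0 * B : ℕ) * η * Real.sqrt ((K * B * D2 : ℕ) * (2 * M + 1)) ≤ e := by
  set s := Real.sqrt (2 * M + 1) with hs
  have hs0 : 0 ≤ s := Real.sqrt_nonneg _
  set A := (7 * M * Real.sqrt (N * (2 * M + 1)) + 1) * (K * (6 + (s0 * (N * B) : ℕ) : ℝ)) with hA
  have hA0 : 0 ≤ A := by positivity
  set E := 30 * ((M : ℝ) * K) ^ 2 * s + 7 * (s0 * B : ℕ) * s + 1 with hE
  have hE0 : 0 < E := by positivity
  have hB' : (0 : ℝ) < B := by exact_mod_cast hB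
  obtain ⟨D2, η, h1, h2, h3, h4, h5, h6⟩ := exists_Deta (K * B * t0) (by positivity)
    (A / e + 12 / e ^ 2) (min (e / E) (e ^ 2 / 3 / (4 * B))) (by positivity)
  rw [mul_assoc (K * B)] at h5 h6
  have l1 : (D2 : ℝ) ≤ (t0 * D2 : ℕ) := by exact_mod_cast Nat.le_mul_of_pos_left _ ht0
  have l2 : ((t0 * D2 : ℕ) : ℝ) ≤ (K * B * (t0 * D2) : ℕ) := by
    exact_mod_cast Nat.le_mul_of_pos_left _ (by positivity)
  have p1 : (0 : ℝ) < D2 := by exact_mod_cast h1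
  have p2 : 0 ≤ A / e := by positivity
  have p3 : 0 < 12 / e ^ 2 := by positivity
  have p4 : 12 ≤ D2 * e ^ 2 := (div_le_iff₀ (by positivity)).1 (by linarith)
  have p5 : A ≤ D2 * e := (div_le_iff₀ he).1 (by linarith)
  have p6 : min (e / E) (e ^ 2 / 3 / (4 * B)) * E ≤ e :=
    (le_div_iff₀ hE0).1 (min_le_left _ _)
  have p7 : 0 < min (e / E) (e ^ 2 / 3 / (4 * B)) := by positivity
  have p8 : 0 < e ^ 2 := by positivity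
  refine ⟨t0 * D2, η, by positivity, Dvd.dvd.mul_left (dvd_mul_right _ _) _, h3,
    h4.trans (min_le_right _ _), ?_, ?_, ?_, ?_, ?_⟩
  · rw [div_le_iff₀ (by linarith)]
    linarith [mul_le_mul_of_nonneg_right l1 p8.le]
  · rw [div_le_iff₀ (by linarith)]
    linarith [mul_le_mul_of_nonneg_right (l1.trans l2) p8.le]
  · rw [← mul_div_assoc, div_le_iff₀ (by linarith)]
    linarith [mul_le_mul_of_nonneg_right (l1.trans l2) he.le]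
  · refine sb_loc (by linarith) h3 hs0 h6 (le_trans ?_ p6)
    rw [mul_comm _ E]
    refine mul_le_mul_of_nonneg_right ?_ p7.le
    have : 0 ≤ 7 * ((s0 * B : ℕ) : ℝ) * s := by positivity
    linarith
  · rw [Real.sqrt_mul (Nat.cast_nonneg _), ← hs]
    calc 7 * ((s0 * B : ℕ) : ℝ) * η * (Real.sqrt (K * B * (t0 * D2) : ℕ) * s)
        = 7 * (s0 * B : ℕ) * s * (η * Real.sqrt (K * B * (t0 * D2) : ℕ)) := by ring
      _ ≤ E * min (e / E) (e ^ 2 / 3 / (4 * B)) := by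
        refine mul_le_mul ?_ h5 (by positivity) hE0.le
        have : 0 ≤ 30 * ((M : ℝ) * K) ^ 2 * s := by positivity
        linarith
      _ ≤ e := by rwa [mul_comm]

theorem sb_zones (K B D2 : ℕ) (hK : 0 < K) (hB : 0 < B) (hD2 : 0 < D2) {δ e : ℝ} (hδ : 0 < δ)
    (he : 0 < e) (c1 : 2 / (D2 : ℝ) ≤ e ^ 2 / 3) (c2 : 4 / ((K * B * D2 : ℕ) : ℝ) ≤ e ^ 2 / 3) :
    ∃ (Ds : Finset ℕ) (g : ℝ), 0 ≤ g ∧ Real.sqrt g ≤ Real.sqrt (2 * δ) + e ∧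
      (1 - g) * (K * B * D2 : ℕ) ≤ Ds.card ∧
      (∀ d ∈ Ds, 1 ≤ d ∧ d + 2 ≤ K * B * D2 ∧ δ ≤ (d : ℝ) / (K * B * D2 : ℕ) ∧
        (d + 1 : ℝ) / (K * B * D2 : ℕ) ≤ 1 - δ) ∧
      ∀ d ∈ Ds, |(d : ℝ) / D2 - round ((d : ℝ) / D2)| ≤ (1 - e ^ 2 / 3) / 2 := by
  have hc := count_zones (K * B * D2) (by positivity) _ (Finset.filter_subset _ _) _ δ hδ.le
    (count_B (K * B) D2 hD2 (e ^ 2 / 3) (by positivity))
  refine ⟨_, _, ?_, ?_, hc, fun d hd => ?_, fun d hd => ?_⟩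
  · positivity
  · rw [Real.sqrt_le_left (by positivity), add_sq, Real.sq_sqrt (by positivity)]
    have : 0 ≤ 2 * Real.sqrt (2 * δ) * e := by positivity
    linarith
  · exact (Finset.mem_filter.1 hd).2
  · exact (Finset.mem_filter.1 (Finset.mem_filter.1 hd).1).2

/-- `ε0 = min ε 1 / 10`; `M` with `Ms ⊆ Icc (-M) M`, `B = M!`; `s0, Q'` from `Pure`; `J' = N B`,
`ηB = ε0²/3`.  `exists_Deta (K B t0) C ε''` gives `D2', η`; `D2 = t0 D2'`, `D = K B D2`.  `C`: `herr`,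
`2/D2 ≤ ε0²/3`, `4/D ≤ ε0²/3`; `ε''`: `hloc` (`30 (M K)² √(2M+1) ε'' ≤ ε0`), `ε'' ≤ ηB/(4B)`,
`7 s0 B ε'' √(2M+1) ≤ ε0` (so `η1 √(D (2M+1)) ≤ ε0`).  `Ds` from `count_zones` and `count_B` (`n = K B`),
`g = 2δ + (ηB + 2/D2) + 4/D`.  `lam0 = lmin + (N B + s0 B)(M+1) + 1`; `freqB`, `stepCore` with `Ns0 = Ns`,
`ν = 1` (`Sep.disj`, `Disj.card_le`), `Ms0 = Ms` (`FreqH.mono`) or `insert 0 Ms`. -/
theorem stepB (L : Lv) (k b : ℕ) {ε εp : ℝ} (hε : 0 < ε) (hεp : 0 ≤ εp) (hεp' : εp ≤ 1 / 8)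
    (hL : PostA L εp) (κ' : ℕ) (δ' : ℝ) (hκ : 2 ≤ κ') (hκe : Even κ') (hδ : 0 < δ')
    (hδ' : δ' ≤ 1 / 8) :
    ∃ L' : Lv, L'.κ = κ' ∧ L'.δ = δ' ∧ Close k ε L.T L'.T ∧ Close k ε ⇑L.T⁻¹ ⇑L'.T⁻¹ ∧
      PrpD L.toSt L.Ms L.C L' (L.ql + 7 * εp + ε) 3 b ∧
      ∀ (G : ℤ → ℤ → ℂ) (γ : ℝ), Main L.N (insert 0 L.Ms) L.C G γ →
        ∃ G' : ℤ → ℤ → ℂ, Main L'.N L'.Ms L'.C G' (ε * tn L.N (insert 0 L.Ms) G) ∧
          n2 (fun p => L.vec (ev (insert 0 L.Ms) G) p - L'.vec (ev L'.Ms G') p)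
            ≤ (L.ql + 7 * εp + ε) * tn L.N (insert 0 L.Ms) G + 3 * γ := by
  obtain ⟨hsep, s0, Q', hs0, hQ', hp1, hp2⟩ := hL
  obtain ⟨e, he, he1, heε⟩ : ∃ e : ℝ, 0 < e ∧ e ≤ 1 / 10 ∧ 10 * e ≤ ε :=
    ⟨min ε 1 / 10, by positivity, by linarith [min_le_right ε 1], by linarith [min_le_left ε 1]⟩
  have he2 : e ^ 2 / 3 ≤ 1 := by nlinarith
  have he3 : e ≤ ε := by linarith
  have he4 : e ≤ 1 := by linarith
  obtain ⟨M, hM1⟩ : ∃ M : ℕ, ∀ m ∈ L.Ms, m.natAbs ≤ M :=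
    ⟨L.Ms.sup Int.natAbs, fun m hm => Finset.le_sup (f := Int.natAbs) hm⟩
  have hMs : L.Ms ⊆ Finset.Icc (-(M : ℤ)) M := fun m hm => by
    have := hM1 m hm
    rw [Finset.mem_Icc]; omega
  have hMs' : insert 0 L.Ms ⊆ Finset.Icc (-(M : ℤ)) M :=
    Finset.insert_subset (by simp) hMs
  obtain ⟨B, hB, hBm⟩ : ∃ B : ℕ, 0 < B ∧ ∀ m ∈ L.Ms, m ∣ (B : ℤ) :=
    ⟨M.factorial, M.factorial_pos, fun m hm =>
      Int.natAbs_dvd.1 (Int.natCast_dvd_natCast.2 (Nat.dvd_factorial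
        (Int.natAbs_pos.2 fun h => L.h0 (h ▸ hm)) (hM1 m hm)))⟩
  have hK : 0 < L.K := pow_pos (by have := L.hκ; omega) _
  obtain ⟨D2, η, hD2, htD, hη, hηη, c1, c2, herr, hloc, c3⟩ :=
    sb_par L.N L.K M B L.t0 s0 hK hB L.ht0 he
  have hD : 0 < L.K * B * D2 := by positivity
  obtain ⟨Ds, g, hg, hg1, hc, hDs1, hDs2⟩ := sb_zones L.K B D2 hK hB hD2 L.hδ he c1 c2
  have hq : 0 ≤ 4 / (L.κ : ℝ) := by positivity
  have hql : L.ql = 4 / (L.κ : ℝ) + Real.sqrt (2 * L.δ) := rfl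
  have hsq := Real.sqrt_nonneg (2 * L.δ)
  have b1 : Real.sqrt g + 7 * εp * Real.sqrt (1 : ℕ) + 7 * (s0 * B : ℕ) * η *
      Real.sqrt ((L.K * B * D2 : ℕ) * (2 * M + 1)) + 6 * e ≤ L.ql + 7 * εp + ε := by
    rw [Nat.cast_one, Real.sqrt_one]
    linarith
  have b2 : 4 / (L.κ : ℝ) + Real.sqrt g + 6 * e ≤ L.ql + 7 * εp + ε := by linarith
  have b3 : e ≤ L.ql + 7 * εp + ε := by linarith
  have b4 : 0 ≤ 7 * ((s0 * B : ℕ) : ℝ) * η := by positivity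
  have b5 : 0 ≤ 7 * εp := by positivity
  have b6 : 1 ≤ 2 * M + 1 := by omega
  obtain ⟨lmin, hcore⟩ := stepCore L.toSt M k b he he4 (L.K * B * D2) hD htD Ds
    hDs1 g η hg hη hc s0 (L.N * B) (Nat.mul_pos L.hN hB) (1 / Q')
    (fun d => -((s0 * B : ℕ) : ℝ) * (((d : ℝ) / D2 - round ((d : ℝ) / D2)) / B)) herr hloc
  obtain ⟨lam0, hl1, hl2⟩ : ∃ lam0 : ℕ, lmin ≤ lam0 ∧ (L.N * B + s0 * B) * (M + 1) < lam0 :=
    ⟨lmin + (L.N * B + s0 * B) * (M + 1) + 1, by omega, by omega⟩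
  obtain ⟨Ns, A, U, r', Θ, hN0, hr', hsep', hF⟩ := freqB L.N L.K M B D2 s0 Q' lam0 L.hN hK hB hD2
    hs0 hQ' L.Ms hMs hBm L.C L.r L.hr hsep εp hεp' hp1 hp2 hl2 η (e ^ 2 / 3) hη he2 hηη Ds hDs2
  obtain ⟨σ', h1, h2, -, h3, h4, -, h5⟩ := hcore (fun _ => (lam0 : ℤ))
    (fun d _ => by rw [abs_of_nonneg (Int.natCast_nonneg _)]; exact_mod_cast hl1)
    Ns A r' hr' hsep' κ' δ' hκ hκe hδ hδ'
  have hdis := hsep.disj L.hr
  have hdis' := L.hsep.disj L.hr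
  refine ⟨⟨σ', Ns, fun n => Metric.thickening r' (A n), r', hr', hsep'.thick, hN0⟩, h1, h2,
    h3.mono le_rfl he3, h4.mono le_rfl he3, fun G γ hG => ?_, fun G γ hG => ?_⟩
  · obtain ⟨G', a1, a2, a3, a4⟩ := h5 Ns subset_rfl L.Ms hMs L.C U Θ _ _ 1 b4 b5 b6
      (hF.mono (Finset.subset_insert _ _)) hdis'.card_le G γ (hG.dom U)
    have ht := tn_nonneg L.N L.Ms G
    exact ⟨G', a1.mono (mul_le_mul b3 (le_add_of_nonneg_right hG.nonneg) ht (he.le.trans b3)), a2,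
      a3.trans (add_le_add_left (mul_le_mul_of_nonneg_right b1 ht) _),
      (a4 L.h0 hdis' hG).trans (add_le_add_left (mul_le_mul_of_nonneg_right b2 ht) _)⟩
  · obtain ⟨G', a1, -, a3, -⟩ := h5 Ns subset_rfl _ hMs' L.C U Θ _ _ 1 b4 b5 b6 hF
      hdis.card_le G γ (hG.dom U)
    have ht := tn_nonneg L.N (insert 0 L.Ms) G
    exact ⟨G', a1.mono (mul_le_mul_of_nonneg_right he3 ht),
      a3.trans (add_le_add_left (mul_le_mul_of_nonneg_right b1 ht) _)⟩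

end Crest.Agent.R81
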