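import Crest.Agent.R81.StepA
import Crest.Agent.R81.StepB
import Crest.Agent.R81.Cfil

/-!
# R81: one full cycle (steps A, A, A, B)
-/

set_option autoImplicit false

namespace Crest.Agent.R81

open MeasureTheory Crest.AnalysisR.Torus3 Filter Topology

theorem exists_quality {β : ℝ} (hβ : 0 < β) :
    ∃ (κ : ℕ) (δ : ℝ), 2 ≤ κ ∧ Even κ ∧ 0 < δ ∧ δ ≤ 1 / 8 ∧ 4 / (κ : ℝ) + Real.sqrt (2 * δ) ≤ β := by
  obtain ⟨n, hn⟩ := exists_nat_ge (4 / β)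
  refine ⟨2 * (n + 1), min (1 / 8) (β ^ 2 / 8), by omega, even_two_mul _, by positivity,
    min_le_left _ _, ?_⟩
  have h1 : 4 / ((2 * (n + 1) : ℕ) : ℝ) ≤ β / 2 := by
    rw [div_le_iff₀ (by positivity)]
    rw [div_le_iff₀ hβ] at hn
    push_cast
    nlinarith
  have h2 : Real.sqrt (2 * min (1 / 8) (β ^ 2 / 8)) ≤ β / 2 := by
    rw [Real.sqrt_le_left (by positivity)]
    have := min_le_right (1 / 8) (β ^ 2 / 8)
    nlinarith
  linarith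

theorem exists_Icc (Ms : Finset ℤ) (M0 : ℕ) :
    ∃ M : ℕ, M0 ≤ M ∧ Ms ⊆ Finset.Icc (-(M : ℤ)) M := by
  refine ⟨M0 + Ms.sup Int.natAbs, by omega, fun m hm => ?_⟩
  have := Finset.le_sup (f := Int.natAbs) hm
  rw [Finset.mem_Icc]
  omega

theorem memLp_cm (f : C(T3, ℝ)) : MemLp (fun p => (f p : ℂ)) 2 volume :=
  memLp_cont3 (by fun_prop)

set_option maxHeartbeats 1000000 in
theorem cycle (L : Lv) (hL : L.ql ≤ 1 / 2) (f h : C(T3, ℝ)) (hf : ∫ p, f p = 0)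
    (hh : ∫ p, h p = 0) (k : ℕ) {β : ℝ} (hβ : 0 < β) (hβ' : β ≤ 1 / 2) :
    ∃ (L' : Lv) (c : ℝ) (A : Finset ℤ) (a : ℤ → ℂ), L'.ql ≤ β ∧
      Close k β L.T L'.T ∧ Close k β ⇑L.T⁻¹ ⇑L'.T⁻¹ ∧
      PrpD L.toSt L.Ms L.C L' (100 * (L.ql + β)) 21 k ∧
      (∃ G, Main L'.N L'.Ms L'.C G β ∧ n2 (fun θ => sd L'.N L'.Ms G θ - 1) ≤ β) ∧
      (∃ G, Main L'.N L'.Ms L'.C G β ∧ n2 (fun p => (f p : ℂ) - L'.vec (ev L'.Ms G) p) ≤ β) ∧
      |c| * ‖h‖ ≤ β ∧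
      n2 (fun p => flt L'.T A a (fun q => ((f + c • h) q : ℂ)) p - (h p : ℂ)) ≤ β := by
  obtain ⟨γ0, hγ0, hcf⟩ := cfil f h hβ
  set F : ℝ := ‖f‖ + ‖h‖ + 1 with hF
  have hF1 : 1 ≤ F := by have := norm_nonneg f; have := norm_nonneg h; linarith
  set ρ : ℝ := min β γ0 with hρ
  have hρ0 : 0 < ρ := lt_min hβ hγ0
  have hρβ : ρ ≤ β := min_le_left _ _
  have hργ : ρ ≤ γ0 := min_le_right _ _
  set e : ℝ := ρ / (400 * F) with he
  have he0 : 0 < e := by positivity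
  have heF : e * F = ρ / 400 := by rw [he]; field_simp
  have he1 : e ≤ ρ / 400 := by nlinarith
  clear_value e ρ
  obtain ⟨κ, δ, hκ, hκe, hδ, hδ', hq⟩ := exists_quality he0
  have hql : ∀ σ : St, σ.κ = κ → σ.δ = δ → σ.ql ≤ e := fun σ h1 h2 => by
    unfold St.ql; rw [h1, h2]; exact hq
  -- step 1
  obtain ⟨M0, -, hM0⟩ := exists_Icc L.Ms 0
  obtain ⟨L1, a1, a2, -, a4, a5, -, a7, -⟩ :=
    stepA L.toSt M0 k k he0 (εp := 1 / 4) (by norm_num) le_rfl κ δ hκ hκe hδ hδ'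
  have q1 := hql _ a1 a2
  have P01 := a7 L.Ms hM0 L.h0 L.C (L.hsep.disj L.hr)
  -- step 2
  obtain ⟨ηf, hηf, hmf⟩ := exists_modulus L1.toSt f he0
  obtain ⟨ηh, hηh, hmh⟩ := exists_modulus L1.toSt h he0
  set ε2 : ℝ := min (e ^ 2) (min ηf ηh) with hε2
  have hε20 : 0 < ε2 := by positivity
  have hε2e : ε2 ≤ e ^ 2 := min_le_left _ _
  have hε2e' : ε2 ≤ e := by nlinarith
  obtain ⟨M1, hM1', hM1⟩ := exists_Icc L1.Ms 1
  obtain ⟨L2, b1, b2, -, b4, b5, b6, b7, -⟩ :=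
    stepA L1.toSt M1 k k hε20 (εp := 1 / 4) (by norm_num) le_rfl κ δ hκ hκe hδ hδ'
  have q2 := hql _ b1 b2
  have P12 : PrpD L1.toSt L1.Ms L1.C L2 (2 * e) 3 k :=
    (b7 L1.Ms hM1 L1.h0 L1.C (L1.hsep.disj L1.hr)).mono (by linarith) le_rfl le_rfl
  have Psp : PrpD L1.toSt {1} (fun _ => Set.univ) L2 (2 * e) 3 k :=
    (b7 {1} (by intro m hm; rw [Finset.mem_singleton] at hm; rw [Finset.mem_Icc]; omega)
      (by simp) _ (by
        intro m hm m' hm' _ _ _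
        rw [Finset.mem_singleton] at hm hm'; rw [hm, hm'])).mono (by linarith) le_rfl le_rfl
  have hsq : Real.sqrt (2 * L1.δ + ε2) ≤ 2 * e := by
    have h1 : Real.sqrt (2 * L1.δ) ≤ e := by
      have : 0 ≤ 4 / (L1.κ : ℝ) := by positivity
      unfold St.ql at q1; linarith
    have h2 := L1.hδ
    rw [Real.sqrt_le_left he0.le] at h1
    rw [Real.sqrt_le_left (by positivity)]
    nlinarith
  obtain ⟨Mf, hMf⟩ := approx_ev b6 f hf e
    (fun q q' hq => hmf q q' (hq.trans ((min_le_right _ _).trans (min_le_left _ _)))) he0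
  obtain ⟨Mh, hMh⟩ := approx_ev b6 h hh e
    (fun q q' hq => hmh q q' (hq.trans ((min_le_right _ _).trans (min_le_right _ _)))) he0
  -- step 3
  obtain ⟨M2, hM2', hM2⟩ := exists_Icc L2.Ms (Mf + Mh)
  obtain ⟨L3, c1, c2, c3, c4, c5, -, c7, c8⟩ :=
    stepA L2.toSt M2 k k he0 he0 (by linarith) κ δ hκ hκe hδ hδ'
  have q3 := hql _ c1 c2
  have P23 : PrpD L2.toSt L2.Ms L2.C L3 (2 * e) 3 k :=
    (c7 L2.Ms hM2 L2.h0 L2.C (L2.hsep.disj L2.hr)).mono (by linarith) le_rfl le_rfl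
  -- step 4
  obtain ⟨L4, d1, d2, d4, d5, d6, d7⟩ :=
    stepB L3 k k he0 he0.le (by linarith) c3 κ δ hκ hκe hδ hδ'
  have q4 := hql _ d1 d2
  have P34 : PrpD L3.toSt L3.Ms L3.C L4 (9 * e) 3 k := d6.mono (by linarith) le_rfl le_rfl
  have P24 : PrpD L2.toSt L2.Ms L2.C L4 (62 * e) 9 k :=
    (P23.trans P34 (by positivity) (by linarith) (by positivity) (by linarith) (by norm_num)
      (by norm_num)).mono (by linarith) (by norm_num) le_rfl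
  have P14 : ∀ {Ms : Finset ℤ} {C : ℤ → Set Tc}, PrpD L1.toSt Ms C L2 (2 * e) 3 k →
      PrpD L1.toSt Ms C L4 (392 * e) 15 k := fun H =>
    (H.trans P24 (by positivity) (by linarith) (by positivity) (by linarith) (by norm_num)
      (by norm_num)).mono (by linarith) (by norm_num) le_rfl
  have hql0 := L.toSt.ql_pos
  have P04 : PrpD L.toSt L.Ms L.C L4 (100 * (L.ql + β)) 21 k :=
    (P01.trans (P14 P12) (by positivity) (by linarith) (by positivity) (by linarith) (by norm_num)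
      (by norm_num)).mono (by linarith) (by norm_num) le_rfl
  -- approximation of continuous functions
  have key : ∀ u : C(T3, ℝ), ‖u‖ + 1 ≤ F → ∀ G2 : ℤ → ℤ → ℂ,
      ∑ i ∈ Finset.Ico (0 : ℤ) L2.N, G2 0 i = 0 →
      n2 (fun p => (u p : ℂ) - L2.vec (ev (Finset.Icc (-(M2 : ℤ)) M2) G2) p)
        ≤ 2 * (e + 2 * ‖u‖ * Real.sqrt (2 * L1.δ + ε2)) + e →
      ∃ G4, Main L4.N L4.Ms L4.C G4 ρ ∧
        n2 (fun p => (u p : ℂ) - L4.vec (ev L4.Ms G4) p) ≤ ρ := by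
    intro u hu G2 hG2 h2
    have hu0 := norm_nonneg u
    have h2' : n2 (fun p => (u p : ℂ) - L2.vec (ev (Finset.Icc (-(M2 : ℤ)) M2) G2) p)
        ≤ 8 * (e * F) := by
      have : ‖u‖ * Real.sqrt (2 * L1.δ + ε2) ≤ ‖u‖ * (2 * e) := by gcongr
      have : e * (‖u‖ + 1) ≤ e * F := by gcongr
      nlinarith
    have t2 := tn_le_of_approx L2.toSt _ G2 u h2'
    have t2' : tn L2.N (Finset.Icc (-(M2 : ℤ)) M2) G2 ≤ 2 * F := by linarith
    have t20 := tn_nonneg L2.N (Finset.Icc (-(M2 : ℤ)) M2) G2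
    obtain ⟨G3, m3, n3⟩ := c8 G2 hG2
    have m3' : Main L3.N (insert 0 L3.Ms) L3.C G3 (2 * (e * F)) :=
      m3.mono ((mul_le_mul_of_nonneg_left t2' he0.le).trans (by linarith))
    have n3' : n2 (fun p => (u p : ℂ) - L3.vec (ev (insert 0 L3.Ms) G3) p) ≤ 12 * (e * F) := by
      refine (n2_sub_le (memLp_cm u) (L2.memLp_vec_ev (Finset.Icc (-(M2 : ℤ)) M2) G2)).trans ?_
      have : (L2.ql + e) * tn L2.N (Finset.Icc (-(M2 : ℤ)) M2) G2 ≤ (2 * e) * (2 * F) := by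
        gcongr; linarith
      linarith
    have t3 := tn_le_of_approx L3.toSt _ G3 u n3'
    have t3' : tn L3.N (insert 0 L3.Ms) G3 ≤ 2 * F := by linarith
    have t30 := tn_nonneg L3.N (insert 0 L3.Ms) G3
    obtain ⟨G4, m4, n4⟩ := d7 G3 _ m3'
    refine ⟨G4, m4.mono ((mul_le_mul_of_nonneg_left t3' he0.le).trans (by linarith)), ?_⟩
    refine (n2_sub_le (memLp_cm u) (L3.memLp_vec_ev (insert 0 L3.Ms) G3)).trans ?_
    have : (L3.ql + 7 * e + e) * tn L3.N (insert 0 L3.Ms) G3 ≤ (9 * e) * (2 * F) := by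
      gcongr; linarith
    linarith
  obtain ⟨Gf2, f1, f2⟩ := hMf M2 (by omega)
  obtain ⟨Gh2, g1, g2⟩ := hMh M2 (by omega)
  obtain ⟨Gf, f3, f4⟩ := key f (by have := norm_nonneg h; linarith) Gf2 f1 f2
  obtain ⟨Gh, g3, g4⟩ := key h (by have := norm_nonneg f; linarith) Gh2 g1 g2
  obtain ⟨c, A, a, hc, hA⟩ := hcf L4 (by linarith) Gf Gh (f3.mono hργ) (g3.mono hργ)
    (f4.trans hργ) (g4.trans hργ)
  refine ⟨L4, c, A, a, by linarith, (((a4.trans b4).trans c4).trans d4).mono le_rfl (by linarith),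
    (((a5.trans b5).trans c5).trans d5).mono le_rfl (by linarith), P04, ?_,
    ⟨Gf, f3.mono hρβ, f4.trans hρβ⟩, hc, hA⟩
  obtain ⟨G, s1, -, -, s4⟩ := P14 Psp _ _ (main_spike L1.N)
  rw [tn_spike L1.hN] at s1 s4
  refine ⟨G, s1.mono (by linarith), ?_⟩
  rw [n2_sub_comm]
  simp only [sd_spike L1.hN] at s4
  linarith

end Crest.Agent.R81
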