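import Crest.Agent.R81.Bump

/-!
# R81: `C^k` bounds for differences and difference quotients
-/

set_option autoImplicit false

namespace Crest.Agent.R81

open scoped ContDiff

theorem dq_le_top (j : ℕ) : (j : WithTop ℕ∞) ≤ ∞ := by exact_mod_cast le_top

theorem dq_lt_top (j : ℕ) : (j : WithTop ℕ∞) < ∞ := by exact_mod_cast ENat.natCast_lt_top j

theorem dq_at {E F : Type} [NormedAddCommGroup E] [NormedSpace ℝ E] [NormedAddCommGroup F]
    [NormedSpace ℝ F] {f : E → F} (hf : ContDiff ℝ ∞ f) (j : ℕ) (x : E) : ContDiffAt ℝ j f x :=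
  (hf.of_le (dq_le_top j)).contDiffAt

theorem dq_shift {E F : Type} [NormedAddCommGroup E] [NormedSpace ℝ E] [NormedAddCommGroup F]
    [NormedSpace ℝ F] {f : E → F} (hf : ContDiff ℝ ∞ f) {j : ℕ} {C : ℝ}
    (hC : ∀ x, ‖iteratedFDeriv ℝ (j + 1) f x‖ ≤ C) (a x : E) :
    ‖iteratedFDeriv ℝ j (fun z => f (z + a) - f z) x‖ ≤ C * ‖a‖ := by
  have h1 : ContDiff ℝ ∞ fun z => f (z + a) := hf.comp (contDiff_id.add contDiff_const)
  rw [fun_iteratedFDeriv_sub_apply (dq_at h1 j x) (dq_at hf j x), iteratedFDeriv_comp_add_right]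
  have := (convex_univ (𝕜 := ℝ) (E := E)).norm_image_sub_le_of_norm_fderiv_le (𝕜 := ℝ)
    (f := iteratedFDeriv ℝ j f) (C := C)
    (fun y _ => hf.differentiable_iteratedFDeriv (dq_lt_top j) y)
    (fun y _ => by rw [norm_fderiv_iteratedFDeriv]; exact hC y) (Set.mem_univ x) (Set.mem_univ (x + a))
  rwa [add_sub_cancel_left] at this

theorem dq_comp {E F G : Type} [NormedAddCommGroup E] [NormedSpace ℝ E] [NormedAddCommGroup F]
    [NormedSpace ℝ F] [NormedAddCommGroup G] [NormedSpace ℝ G] {f : E → F} (hf : ContDiff ℝ ∞ f)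
    (A : G →L[ℝ] E) (j : ℕ) (p : G) :
    ‖iteratedFDeriv ℝ j (fun p => f (A p)) p‖ ≤ ‖iteratedFDeriv ℝ j f (A p)‖ * ‖A‖ ^ j := by
  have := A.iteratedFDeriv_comp_right hf p (dq_le_top j)
  rw [show (fun p => f (A p)) = f ∘ A from rfl, this]
  simpa using ContinuousMultilinearMap.norm_compContinuousLinearMap_le
    (iteratedFDeriv ℝ j f (A p)) fun _ => A

theorem dq_comp_one {f : ℝ → ℝ} (hf : ContDiff ℝ ∞ f) (j : ℕ) (p : V3) :
    ‖iteratedFDeriv ℝ j (fun p : V3 => f (p 1)) p‖ ≤ ‖iteratedFDeriv ℝ j f (p 1)‖ := by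
  have hA : ‖(ContinuousLinearMap.proj 1 : V3 →L[ℝ] ℝ)‖ ≤ 1 :=
    ContinuousLinearMap.opNorm_le_bound _ zero_le_one fun x => by
      simpa using norm_le_pi_norm x 1
  refine (dq_comp hf (ContinuousLinearMap.proj 1 : V3 →L[ℝ] ℝ) j p).trans ?_
  exact mul_le_of_le_one_right (norm_nonneg _) (pow_le_one₀ (norm_nonneg _) hA)

theorem dq_unif {E : Type} [NormedAddCommGroup E] [NormedSpace ℝ E] {f : E → ℝ} (hf : BD0 f) (k : ℕ) :
    ∃ C : ℝ, 0 ≤ C ∧ ∀ j ≤ k, ∀ p, ‖iteratedFDeriv ℝ j f p‖ ≤ C := by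
  choose C hC using hf.2
  have h0 : ∀ j, 0 ≤ C j := fun j => (norm_nonneg _).trans (hC j 0)
  refine ⟨∑ j ∈ Finset.range (k + 1), C j, Finset.sum_nonneg fun j _ => h0 j, fun j hj p => ?_⟩
  exact (hC j p).trans (Finset.single_le_sum (fun j _ => h0 j) (Finset.mem_range.2 (by omega)))

theorem dq_small {D ε e : ℝ} (hD : 0 ≤ D) (_hε : 0 < ε) (he : |e| ≤ ε / (D + 1)) : D * |e| ≤ ε := by
  rw [le_div_iff₀ (by linarith)] at he
  nlinarith [abs_nonneg e]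

theorem dq_taylor {g : ℝ → ℝ} (hg : Differentiable ℝ g) (hg' : Differentiable ℝ (deriv g)) {C : ℝ}
    (hC : ∀ t, ‖deriv (deriv g) t‖ ≤ C) (y : ℝ) {e : ℝ} (he : e ≠ 0) :
    ‖(g (y + e) - g y) / e - deriv g y‖ ≤ C * |e| := by
  have hC0 : 0 ≤ C := (norm_nonneg _).trans (hC 0)
  have h1 : ∀ t ∈ Set.uIcc y (y + e), ‖deriv g t - deriv g y‖ ≤ C * |e| := fun t ht => by
    refine ((convex_univ (𝕜 := ℝ) (E := ℝ)).norm_image_sub_le_of_norm_deriv_le (fun x _ => hg' x)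
      (fun x _ => hC x) (Set.mem_univ y) (Set.mem_univ t)).trans (mul_le_mul_of_nonneg_left ?_ hC0)
    have := Set.abs_sub_left_of_mem_uIcc ht
    rwa [add_sub_cancel_left] at this
  have h2 := (convex_uIcc y (y + e)).norm_image_sub_le_of_norm_hasDerivWithin_le
    (f := fun t => g t - deriv g y * t) (f' := fun t => deriv g t - deriv g y) (C := C * |e|)
    (fun t _ => ((hg t).hasDerivAt.sub
      (by simpa using (hasDerivAt_id t).const_mul (deriv g y))).hasDerivWithinAt)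
    h1 Set.left_mem_uIcc Set.right_mem_uIcc
  have h3 : (g (y + e) - g y) / e - deriv g y =
      (g (y + e) - deriv g y * (y + e) - (g y - deriv g y * y)) / e := by
    field_simp
    ring
  rw [h3, norm_div, div_le_iff₀ (norm_pos_iff.2 he)]
  rwa [add_sub_cancel_left] at h2

/-- `Δ z = e G z + F (z + (e,0)) - F z` has `‖D^j Δ‖ ≤ |e| (C_j + C'_{j+1})` (mean value inequality for
`iteratedFDeriv j F`, `norm_fderiv_iteratedFDeriv`, `iteratedFDeriv_comp_add_right`); compose with the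
affine map `p ↦ A p + (0,c)`, `A p = (p 1, low p)`
(`ContinuousLinearMap.iteratedFDeriv_comp_right`, `ContinuousMultilinearMap.norm_compContinuousLinearMap_le`). -/
theorem small_diff {F G : ℝ × ℝ → ℝ} (hF : BD0 F) (hG : BD0 G) (low : V3 →L[ℝ] ℝ) (k : ℕ) {ε : ℝ}
    (hε : 0 < ε) : ∃ e0 > 0, ∀ e : ℝ, |e| ≤ e0 → ∀ c : ℝ, ∀ j ≤ k, ∀ p : V3,
      ‖iteratedFDeriv ℝ j (fun p : V3 =>
        G (p 1, low p + c) * e + F (p 1 + e, low p + c) - F (p 1, low p + c)) p‖ ≤ ε := by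
  obtain ⟨C, hC0, hC⟩ := dq_unif hG k
  obtain ⟨C', hC0', hC'⟩ := dq_unif hF (k + 1)
  set A : V3 →L[ℝ] ℝ × ℝ := (ContinuousLinearMap.proj 1 : V3 →L[ℝ] ℝ).prod low with hA
  have hM : (1 : ℝ) ≤ max 1 ‖A‖ := le_max_left _ _
  have hD : 0 ≤ (C + C') * max 1 ‖A‖ ^ k := by positivity
  refine ⟨ε / ((C + C') * max 1 ‖A‖ ^ k + 1), by positivity, fun e he c j hj p => ?_⟩
  have hF' : ContDiff ℝ ∞ fun z : ℝ × ℝ => F (z + (e, 0)) - F z :=
    (hF.1.comp (contDiff_id.add contDiff_const)).sub hF.1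
  have hG' : ContDiff ℝ ∞ fun z : ℝ × ℝ => e • G z := hG.1.const_smul e
  set Δ : ℝ × ℝ → ℝ := fun z => e • G z + (F (z + (e, 0)) - F z) with hΔ
  have hΔc : ContDiff ℝ ∞ Δ := hG'.add hF'
  have hΔb : ∀ z, ‖iteratedFDeriv ℝ j Δ z‖ ≤ (C + C') * |e| := fun z => by
    rw [hΔ, fun_iteratedFDeriv_add_apply (dq_at hG' j z) (dq_at hF' j z),
      iteratedFDeriv_const_smul_apply' (dq_at hG.1 j z)]
    refine (norm_add_le _ _).trans ?_
    have h1 := dq_shift hF.1 (hC' (j + 1) (by omega)) ((e, 0) : ℝ × ℝ) z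
    have h2 : ‖((e, 0) : ℝ × ℝ)‖ = |e| := by simp [Prod.norm_def]
    have h3 := mul_le_mul_of_nonneg_left (hC j hj z) (abs_nonneg e)
    rw [h2] at h1
    rw [norm_smul, Real.norm_eq_abs]
    linarith
  have hfun : (fun p : V3 => G (p 1, low p + c) * e + F (p 1 + e, low p + c) - F (p 1, low p + c)) =
      fun p : V3 => (fun z => Δ (z + (0, c))) (A p) := by
    funext q
    simp only [hΔ, hA, ContinuousLinearMap.prod_apply, ContinuousLinearMap.proj_apply, Prod.mk_add_mk,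
      add_zero, smul_eq_mul]
    ring
  rw [hfun]
  refine (dq_comp (f := fun z => Δ (z + (0, c))) (hΔc.comp (contDiff_id.add contDiff_const))
    A j p).trans ?_
  rw [iteratedFDeriv_comp_add_right]
  have h4 : ‖A‖ ^ j ≤ max 1 ‖A‖ ^ k :=
    (pow_le_pow_left₀ (norm_nonneg _) (le_max_right _ _) j).trans (pow_le_pow_right₀ hM hj)
  refine (mul_le_mul (hΔb _) h4 (by positivity) (by positivity)).trans ?_
  have := dq_small hD hε he
  linarith

/-- the `j`-th derivative of `y ↦ (Ψ (y+e) - Ψ y)/e - Ψ' y` is `(Ψ^{(j)}(y+e) - Ψ^{(j)} y)/e - Ψ^{(j+1)} y`,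
bounded by `|e| sup |Ψ^{(j+2)}|` (use `iteratedDeriv`, `norm_iteratedFDeriv_eq_norm_iteratedDeriv`);
the projection `p ↦ p 1` has norm `≤ 1`. -/
theorem small_dq {Ψ : ℝ → ℝ} (hΨ : BD0 Ψ) (k : ℕ) {ε : ℝ} (hε : 0 < ε) :
    ∃ e0 > 0, ∀ e : ℝ, e ≠ 0 → |e| ≤ e0 → ∀ j ≤ k, ∀ p : V3,
      ‖iteratedFDeriv ℝ j (fun p : V3 => (Ψ (p 1 + e) - Ψ (p 1)) / e - deriv Ψ (p 1)) p‖ ≤ ε := by
  obtain ⟨C, hC0, hC⟩ := dq_unif hΨ (k + 2)
  refine ⟨ε / (C + 1), by positivity, fun e he0 he j hj p => ?_⟩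
  have h1 : ContDiff ℝ ∞ fun y => Ψ (y + e) := hΨ.1.comp (contDiff_id.add contDiff_const)
  have h2 : ContDiff ℝ ∞ fun y => (Ψ (y + e) - Ψ y) / e := (h1.sub hΨ.1).div_const e
  have h3 : ContDiff ℝ ∞ (deriv Ψ) := (contDiff_infty_iff_deriv.1 hΨ.1).2
  refine (dq_comp_one (f := fun y => (Ψ (y + e) - Ψ y) / e - deriv Ψ y) (h2.sub h3) j p).trans ?_
  rw [norm_iteratedFDeriv_eq_norm_iteratedDeriv, iteratedDeriv_fun_sub (dq_at h2 j _) (dq_at h3 j _),
    iteratedDeriv_div_const, iteratedDeriv_fun_sub (dq_at h1 j _) (dq_at hΨ.1 j _),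
    iteratedDeriv_comp_add_const, ← iteratedDeriv_succ', iteratedDeriv_succ]
  refine (dq_taylor (C := C) (hΨ.1.differentiable_iteratedDeriv j (dq_lt_top j)) ?_ (fun t => ?_)
    (p 1) he0).trans (dq_small hC0 hε he)
  · rw [← iteratedDeriv_succ]
    exact hΨ.1.differentiable_iteratedDeriv (j + 1) (dq_lt_top _)
  · rw [← iteratedDeriv_succ, ← iteratedDeriv_succ, ← norm_iteratedFDeriv_eq_norm_iteratedDeriv]
    exact hC _ (by omega) t

theorem dq_bound {Y : ℝ → ℝ} (hY : ContDiff ℝ ∞ Y) (k : ℕ) {η : ℝ}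
    (h : ∀ j ≤ k + 1, ∀ y, ‖iteratedFDeriv ℝ j Y y‖ ≤ η) (e : ℝ) (he : e ≠ 0) :
    ∀ j ≤ k, ∀ p : V3, ‖iteratedFDeriv ℝ j (fun p : V3 => (Y (p 1 + e) - Y (p 1)) / e) p‖ ≤ η := by
  intro j hj p
  have h1 : ContDiff ℝ ∞ fun y => Y (y + e) - Y y := (hY.comp (contDiff_id.add contDiff_const)).sub hY
  refine (dq_comp_one (f := fun y => (Y (y + e) - Y y) / e) (h1.div_const e) j p).trans ?_
  rw [norm_iteratedFDeriv_eq_norm_iteratedDeriv, iteratedDeriv_div_const, norm_div,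
    div_le_iff₀ (norm_pos_iff.2 he), ← norm_iteratedFDeriv_eq_norm_iteratedDeriv]
  exact dq_shift hY (h (j + 1) (by omega)) e (p 1)

/-- scalar function times constant vector -/
theorem norm_iteratedFDeriv_smul_vec {f : V3 → ℝ} (hf : ContDiff ℝ ∞ f) (v : V3) (j : ℕ) (p : V3) :
    ‖iteratedFDeriv ℝ j (fun p => f p • v) p‖ ≤ ‖iteratedFDeriv ℝ j f p‖ * ‖v‖ := by
  have := (ContinuousLinearMap.toSpanSingleton ℝ v).norm_iteratedFDeriv_comp_left (dq_at hf j p) le_rfl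
  rw [ContinuousLinearMap.norm_toSpanSingleton, mul_comm] at this
  exact this

theorem norm_iteratedFDeriv_sum_le {ι : Type} (S : Finset ι) {f : ι → V3 → V3}
    (hf : ∀ i ∈ S, ContDiff ℝ ∞ (f i)) (j : ℕ) (p : V3) :
    ‖iteratedFDeriv ℝ j (fun p => ∑ i ∈ S, f i p) p‖ ≤ ∑ i ∈ S, ‖iteratedFDeriv ℝ j (f i) p‖ := by
  rw [iteratedFDeriv_fun_sum_apply fun i hi => dq_at (hf i hi) j p]
  exact norm_sum_le _ _

end Crest.Agent.R81
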