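import Crest.Agent.R81.Four

/-!
# R81: trigonometric filters
-/

set_option autoImplicit false

namespace Crest.Agent.R81

open MeasureTheory

/-- Uniform approximation by trigonometric polynomials (`span_fourier_closure_eq_top`,
`Submodule.mem_span_range_iff_exists_fun`/`Finsupp.mem_span_range_iff_exists_finsupp`). -/
theorem exists_tp_approx {f : Tc → ℂ} (hf : Continuous f) {ε : ℝ} (hε : 0 < ε) :
    ∃ L0 : ℕ, ∃ c : ℤ → ℂ, (∀ k : ℤ, (L0 : ℤ) < |k| → c k = 0) ∧
      ∀ θ, ‖tp (Finset.Icc (-(L0 : ℤ)) L0) c θ - f θ‖ ≤ ε := by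
  have hmem : (⟨f, hf⟩ : C(Tc, ℂ)) ∈
      (Submodule.span ℂ (Set.range (@fourier (1 : ℝ)))).topologicalClosure := by
    rw [span_fourier_closure_eq_top]; trivial
  have hmem' : (⟨f, hf⟩ : C(Tc, ℂ)) ∈
      closure ((Submodule.span ℂ (Set.range (@fourier (1 : ℝ))) : Submodule ℂ C(Tc, ℂ)) :
        Set C(Tc, ℂ)) := hmem
  obtain ⟨p, hp, hd⟩ := Metric.mem_closure_iff.1 hmem' ε hε
  obtain ⟨c, rfl⟩ := Finsupp.mem_span_range_iff_exists_finsupp.1 hp
  refine ⟨c.support.sup Int.natAbs, c, ?_, ?_⟩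
  · intro k hk
    by_contra hne
    have h1 : k.natAbs ≤ c.support.sup Int.natAbs :=
      Finset.le_sup (f := Int.natAbs) (Finsupp.mem_support_iff.2 hne)
    have h2 : ((k.natAbs : ℕ) : ℤ) = |k| := Int.natCast_natAbs k
    omega
  · intro θ
    have hsub : c.support ⊆ Finset.Icc (-((c.support.sup Int.natAbs : ℕ) : ℤ))
        ((c.support.sup Int.natAbs : ℕ) : ℤ) := by
      intro k hk
      have h1 : k.natAbs ≤ c.support.sup Int.natAbs := Finset.le_sup (f := Int.natAbs) hk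
      rw [Finset.mem_Icc]
      omega
    have h1 : tp (Finset.Icc (-((c.support.sup Int.natAbs : ℕ) : ℤ))
        ((c.support.sup Int.natAbs : ℕ) : ℤ)) c θ =
        (c.sum fun i a => a • (fourier i : C(Tc, ℂ))) θ := by
      unfold tp
      rw [← Finset.sum_subset hsub]
      · simp [Finsupp.sum, ContinuousMap.sum_apply]
      · intro k _ hk
        rw [Finsupp.notMem_support_iff.1 hk, zero_mul]
    rw [h1, ← dist_eq_norm, dist_comm]
    exact (ContinuousMap.dist_apply_le_dist (f := (⟨f, hf⟩ : C(Tc, ℂ))) θ).trans hd.le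

theorem tp_Icc_mono {L0 L : ℕ} (h : L0 ≤ L) {c : ℤ → ℂ} (hc : ∀ k : ℤ, (L0 : ℤ) < |k| → c k = 0)
    (θ : Tc) : tp (Finset.Icc (-(L : ℤ)) L) c θ = tp (Finset.Icc (-(L0 : ℤ)) L0) c θ := by
  unfold tp
  symm
  refine Finset.sum_subset ?_ ?_
  · intro k hk
    rw [Finset.mem_Icc] at hk ⊢
    omega
  · intro k _ hk
    rw [Finset.mem_Icc] at hk
    rw [hc k, zero_mul]
    rw [lt_abs]
    omega

theorem filt0_one {g : Tc → ℂ} (hm : Measurable g) {B : ℝ} (hB : ∀ x, ‖g x‖ ≤ B) {ε : ℝ}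
    (hε : 0 < ε) :
    ∃ L0 : ℕ, ∃ c : ℤ → ℂ, (∀ k : ℤ, (L0 : ℤ) < |k| → c k = 0) ∧
      ∫ x, ‖g x - tp (Finset.Icc (-(L0 : ℤ)) L0) c x‖ ^ 2 ≤ ε ^ 2 := by
  have hg2 : MemLp g (ENNReal.ofReal 2) (volume : Measure Tc) :=
    MemLp.of_bound hm.aestronglyMeasurable B (Filter.Eventually.of_forall hB)
  obtain ⟨h, hh, hh2⟩ := hg2.exists_boundedContinuous_integral_rpow_sub_le (p := 2) (by norm_num)
    (ε := ε ^ 2 / 4) (by positivity)
  obtain ⟨L0, c, hc, hθ⟩ := exists_tp_approx (f := h) h.continuous (half_pos hε)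
  refine ⟨L0, c, hc, ?_⟩
  simp only [Real.rpow_two] at hh
  have hint : Integrable (fun x => ‖g x - h x‖ ^ 2) (volume : Measure Tc) := by
    refine Integrable.of_bound (C := (B + ‖h‖) ^ 2) ?_ (Filter.Eventually.of_forall fun x => ?_)
    · exact ((hm.sub h.continuous.measurable).norm.pow_const 2).aestronglyMeasurable
    · rw [Real.norm_eq_abs, abs_of_nonneg (by positivity)]
      have h1 : ‖g x - h x‖ ≤ B + ‖h‖ :=
        (norm_sub_le _ _).trans (add_le_add (hB x) (h.norm_coe_le_norm x))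
      exact pow_le_pow_left₀ (norm_nonneg _) h1 2
  calc ∫ x, ‖g x - tp (Finset.Icc (-(L0 : ℤ)) L0) c x‖ ^ 2
      ≤ ∫ x, (2 * ‖g x - h x‖ ^ 2 + ε ^ 2 / 2) := by
        refine integral_mono_of_nonneg (Filter.Eventually.of_forall fun x => by positivity)
          ((hint.const_mul 2).add (integrable_const _)) (Filter.Eventually.of_forall fun x => ?_)
        have h1 : ‖g x - tp (Finset.Icc (-(L0 : ℤ)) L0) c x‖ ≤ ‖g x - h x‖ + ε / 2 := by
          have h2 := hθ x
          rw [norm_sub_rev] at h2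
          exact (norm_sub_le_norm_sub_add_norm_sub _ (h x) _).trans (by linarith)
        have h3 := pow_le_pow_left₀ (norm_nonneg _) h1 2
        show _ ≤ 2 * ‖g x - h x‖ ^ 2 + ε ^ 2 / 2
        nlinarith [sq_nonneg (‖g x - h x‖ - ε / 2)]
    _ = 2 * (∫ x, ‖g x - h x‖ ^ 2) + ε ^ 2 / 2 := by
        rw [integral_add (hint.const_mul 2) (integrable_const _), integral_const_mul]
        simp
    _ ≤ ε ^ 2 := by linarith

/-- `L²` approximation of the floors of a bounded measurable tower function by trigonometric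
polynomials (`span_fourierLp_closure_eq_top`, or density of continuous functions in `L²`
followed by `exists_tp_approx`).  The conclusion is the tower `L²` distance. -/
theorem exists_ev_approx (N : ℕ) (g : ℤ → Tc → ℂ) (hg : BM g) {ε : ℝ} (hε : 0 < ε) :
    ∃ (M : ℕ) (G : ℤ → ℤ → ℂ), ∀ i ∈ Finset.Ico (0 : ℤ) N,
      ∫ x, ‖g i x - ev (Finset.Icc (-(M : ℤ)) M) G i x‖ ^ 2 ≤ ε ^ 2 := by
  obtain ⟨hm, B, hB⟩ := hg
  choose L c hc hI using fun i : ℤ => filt0_one (hm i) (hB i) hε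
  refine ⟨(Finset.Ico (0 : ℤ) N).sup L, fun m i => c i m, fun i hi => ?_⟩
  have h1 : L i ≤ (Finset.Ico (0 : ℤ) N).sup L := Finset.le_sup hi
  have h2 : ∀ x, ev (Finset.Icc (-(((Finset.Ico (0 : ℤ) N).sup L : ℕ) : ℤ))
      (((Finset.Ico (0 : ℤ) N).sup L : ℕ) : ℤ)) (fun m i => c i m) i x =
      tp (Finset.Icc (-(L i : ℤ)) (L i)) (c i) x := fun x => tp_Icc_mono h1 (hc i) x
  simp only [h2]
  exact hI i

end Crest.Agent.R81
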