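import Crest.Agent.R81.Basic

/-!
# R81: soft end game, part A: von Neumann's inequality, uniqueness of Fourier coefficients
-/

set_option autoImplicit false

namespace Crest.Agent.R81

open MeasureTheory Filter Topology
open scoped InnerProductSpace ComplexConjugate

theorem opB_abs {E : Type*} [NormedAddCommGroup E] [InnerProductSpace ℂ E] [CompleteSpace E]
    (U : E ≃ₗᵢ[ℂ] E) (A : Finset ℤ) (a : ℤ → ℂ) (B : ℝ) (hB : ∀ θ, ‖tp A a θ‖ ≤ B) (v : E) :
    ‖∑ k ∈ A, a k • (U ^ k) v‖ ≤ B * ‖v‖ := by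
  have hB0 : 0 ≤ B := (norm_nonneg _).trans (hB 0)
  set u : unitary (E →L[ℂ] E) := Unitary.linearIsometryEquiv.symm U with hu
  have hsp : ∀ z ∈ spectrum ℂ (u : E →L[ℂ] E), ‖z‖ = 1 := fun z hz =>
    spectrum.norm_eq_one_of_unitary u.2 hz
  have hcont : ∀ k : ℤ, ContinuousOn (fun z : ℂ => z ^ k) (spectrum ℂ (u : E →L[ℂ] E)) := by
    intro k
    refine continuousOn_id.zpow₀ k ?_
    intro z hz
    left
    intro h0
    have := hsp z hz
    simp only [id] at h0
    rw [h0] at this
    simp at this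
  have hpow : ∀ k : ℤ, cfc (fun z : ℂ => z ^ k) (u : E →L[ℂ] E) = ((U ^ k : E ≃ₗᵢ[ℂ] E) : E →L[ℂ] E) := by
    intro k
    have h1 := cfc_zpow (R := ℂ) (Unitary.toUnits u) k
      (by simpa using (inferInstance : IsStarNormal (u : E →L[ℂ] E)))
    rw [Unitary.val_toUnits_apply] at h1
    rw [h1, ← map_zpow, Unitary.val_toUnits_apply, hu, ← map_zpow]
    rfl
  have hsum : cfc (fun z : ℂ => ∑ k ∈ A, a k * z ^ k) (u : E →L[ℂ] E)
      = ∑ k ∈ A, a k • ((U ^ k : E ≃ₗᵢ[ℂ] E) : E →L[ℂ] E) := by
    have h1 := cfc_sum (fun k (z : ℂ) => a k * z ^ k) (u : E →L[ℂ] E) A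
      (fun k _ => continuousOn_const.mul (hcont k))
    have h2 : (∑ k ∈ A, fun z : ℂ => a k * z ^ k) = fun z : ℂ => ∑ k ∈ A, a k * z ^ k := by
      funext z; simp
    rw [h2] at h1
    rw [h1]
    refine Finset.sum_congr rfl fun k _ => ?_
    rw [← hpow k]
    exact cfc_const_mul (a k) (fun z : ℂ => z ^ k) _ (hcont k)
  have hn : ‖cfc (fun z : ℂ => ∑ k ∈ A, a k * z ^ k) (u : E →L[ℂ] E)‖ ≤ B := by
    refine norm_cfc_le hB0 fun z hz => ?_
    have hz1 := hsp z hz
    set θ : Tc := ((Complex.arg z / (2 * Real.pi) : ℝ) : Tc)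
    have hθ : ∀ k : ℤ, fourier k θ = z ^ k := by
      intro k
      have hz2 : z = Complex.exp (Complex.arg z * Complex.I) := by
        have := Complex.norm_mul_exp_arg_mul_I z
        rw [hz1] at this
        simpa using this.symm
      rw [fourier_coe_apply]
      conv_rhs => rw [hz2, ← Complex.exp_int_mul]
      congr 1
      have : (Real.pi : ℂ) ≠ 0 := by exact_mod_cast Real.pi_ne_zero
      push_cast
      field_simp
    have := hB θ
    unfold tp at this
    simpa only [hθ] using this
  rw [hsum] at hn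
  have := (ContinuousLinearMap.le_opNorm _ v).trans (mul_le_mul_of_nonneg_right hn (norm_nonneg v))
  simpa using this

/-- An integrable function on the circle whose Fourier coefficients vanish is zero. -/
theorem ae_zero_of_fourier {φ : Tc → ℂ} (hφ : Integrable φ volume)
    (h : ∀ k : ℤ, ∫ θ, fourier k θ * φ θ = 0) : φ =ᵐ[volume] 0 := by
  have hint : ∀ c : C(Tc, ℂ), Integrable (fun θ => c θ * φ θ) volume := fun c =>
    hφ.bdd_mul c.continuous.aestronglyMeasurable
      (Eventually.of_forall fun θ => c.norm_coe_le_norm θ)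
  let L : C(Tc, ℂ) →ₗ[ℂ] ℂ :=
    { toFun := fun c => ∫ θ, c θ * φ θ
      map_add' := fun c d => by
        simp only [ContinuousMap.add_apply, add_mul]
        exact integral_add (hint c) (hint d)
      map_smul' := fun r c => by
        simp only [ContinuousMap.smul_apply, smul_eq_mul, mul_assoc, RingHom.id_apply]
        exact integral_const_mul _ _ }
  have hL : ∀ c, ‖L c‖ ≤ (∫ θ, ‖φ θ‖) * ‖c‖ := by
    intro c
    refine (norm_integral_le_integral_norm _).trans ?_
    rw [← integral_mul_const]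
    refine integral_mono (hint c).norm (hφ.norm.mul_const _) fun θ => ?_
    simp only [norm_mul]
    rw [mul_comm]
    exact mul_le_mul_of_nonneg_left (c.norm_coe_le_norm θ) (norm_nonneg _)
  let L' : C(Tc, ℂ) →L[ℂ] ℂ := L.mkContinuous _ hL
  have hall : ∀ c : C(Tc, ℂ), ∫ θ, c θ * φ θ = 0 := by
    intro c
    have hc : c ∈ (Submodule.span ℂ (Set.range (@fourier 1))).topologicalClosure := by
      rw [span_fourier_closure_eq_top]; trivial
    have hle : (Submodule.span ℂ (Set.range (@fourier 1))).topologicalClosure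
        ≤ LinearMap.ker (L' : C(Tc, ℂ) →ₗ[ℂ] ℂ) := by
      refine Submodule.topologicalClosure_minimal _ ?_ L'.isClosed_ker
      rw [Submodule.span_le]
      rintro _ ⟨k, rfl⟩
      exact h k
    exact hle hc
  refine ae_eq_zero_of_forall_setIntegral_isClosed_eq_zero hφ fun F hF => ?_
  have hpos : ∀ n : ℕ, (0 : ℝ) < 1 / ((n : ℝ) + 1) := fun n => by positivity
  have hlim := thickenedIndicator_tendsto_indicator_closure hpos
    tendsto_one_div_add_atTop_nhds_zero_nat F
  rw [hF.closure_eq, tendsto_pi_nhds] at hlim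
  let c : ℕ → C(Tc, ℂ) := fun n =>
    ⟨fun θ => ((thickenedIndicator (hpos n) F θ : ℝ) : ℂ), by fun_prop⟩
  have h1 : Tendsto (fun n => ∫ θ, c n θ * φ θ) atTop (𝓝 (∫ θ, F.indicator φ θ)) := by
    refine tendsto_integral_of_dominated_convergence (fun θ => ‖φ θ‖)
      (fun n => (hint (c n)).aestronglyMeasurable) hφ.norm (fun n => Eventually.of_forall fun θ => ?_)
      (Eventually.of_forall fun θ => ?_)
    · rw [norm_mul]
      refine mul_le_of_le_one_left (norm_nonneg _) ?_
      have := thickenedIndicator_le_one (hpos n) F θ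
      simp only [c, ContinuousMap.coe_mk, Complex.norm_real, Real.norm_eq_abs, NNReal.abs_eq]
      exact_mod_cast this
    · have h2 : Tendsto (fun n => c n θ) atTop
          (𝓝 (((F.indicator (fun _ => (1 : NNReal)) θ : NNReal) : ℝ) : ℂ)) :=
        (Complex.continuous_ofReal.tendsto _).comp
          ((NNReal.continuous_coe.tendsto _).comp (hlim θ))
      have h3 := h2.mul_const (φ θ)
      convert h3 using 2
      by_cases hθ : θ ∈ F <;> simp [hθ]
  rw [integral_indicator hF.measurableSet] at h1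
  simp only [hall] at h1
  exact tendsto_nhds_unique h1 tendsto_const_nhds

end Crest.Agent.R81
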