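import Crest.Agent.R81.FinA

/-!
# R81: soft end game, part B: the graph of the spectral isometry
-/

set_option autoImplicit false

namespace Crest.Agent.R81

open MeasureTheory Filter Topology
open scoped InnerProductSpace ComplexConjugate

section graph
variable {X Y ι : Type*} [NormedAddCommGroup X] [InnerProductSpace ℂ X]
  [NormedAddCommGroup Y] [InnerProductSpace ℂ Y]

/-- closed span of a family -/
def csp (x : ι → X) : Submodule ℂ X := (Submodule.span ℂ (Set.range x)).topologicalClosure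

theorem csp_closed (x : ι → X) : IsClosed (csp x : Set X) := Submodule.isClosed_topologicalClosure _

theorem mem_csp (x : ι → X) (i : ι) : x i ∈ csp x :=
  Submodule.le_topologicalClosure _ (Submodule.subset_span ⟨i, rfl⟩)

theorem csp_le {x : ι → X} {S : Submodule ℂ X} (hS : IsClosed (S : Set X)) (h : ∀ i, x i ∈ S) :
    csp x ≤ S := by
  refine Submodule.topologicalClosure_minimal _ ?_ hS
  rw [Submodule.span_le]
  rintro _ ⟨i, rfl⟩
  exact h i

theorem csp_inner_zero {x : ι → X} {u v : X} (h : ∀ i, ⟪u, x i⟫_ℂ = 0) (hv : v ∈ csp x) :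
    ⟪u, v⟫_ℂ = 0 :=
  csp_le (S := LinearMap.ker ((innerSL ℂ u : X →L[ℂ] ℂ) : X →ₗ[ℂ] ℂ)) (innerSL ℂ u).isClosed_ker h hv

/-- closed span of the pairs -/
def Gr (x : ι → X) (y : ι → Y) : Submodule ℂ (X × Y) :=
  (Submodule.span ℂ (Set.range fun i => (x i, y i))).topologicalClosure

theorem Gr_closed (x : ι → X) (y : ι → Y) : IsClosed (Gr x y : Set (X × Y)) :=
  Submodule.isClosed_topologicalClosure _

theorem mem_Gr (x : ι → X) (y : ι → Y) (i : ι) : (x i, y i) ∈ Gr x y :=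
  Submodule.le_topologicalClosure _ (Submodule.subset_span ⟨i, rfl⟩)

theorem Gr_le {x : ι → X} {y : ι → Y} {S : Submodule ℂ (X × Y)} (hS : IsClosed (S : Set (X × Y)))
    (h : ∀ i, (x i, y i) ∈ S) : Gr x y ≤ S := by
  refine Submodule.topologicalClosure_minimal _ ?_ hS
  rw [Submodule.span_le]
  rintro _ ⟨i, rfl⟩
  exact h i

theorem Gr_map {x : ι → X} {y : ι → Y} (A : X →L[ℂ] X) (B : Y →L[ℂ] Y)
    (h : ∀ i, (A (x i), B (y i)) ∈ Gr x y) {p : X × Y} (hp : p ∈ Gr x y) :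
    (A p.1, B p.2) ∈ Gr x y :=
  Gr_le (S := (Gr x y).comap ((A.prodMap B : X × Y →L[ℂ] X × Y) : X × Y →ₗ[ℂ] X × Y))
    ((Gr_closed x y).preimage (A.prodMap B).continuous) h hp

theorem Gr_fst_mem {x : ι → X} {y : ι → Y} {p : X × Y} (hp : p ∈ Gr x y) : p.1 ∈ csp x :=
  Gr_le (S := (csp x).comap (LinearMap.fst ℂ X Y))
    ((csp_closed x).preimage continuous_fst) (fun i => mem_csp x i) hp

theorem Gr_snd_mem {x : ι → X} {y : ι → Y} {p : X × Y} (hp : p ∈ Gr x y) : p.2 ∈ csp y :=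
  Gr_le (S := (csp y).comap (LinearMap.snd ℂ X Y))
    ((csp_closed y).preimage continuous_snd) (fun i => mem_csp y i) hp

theorem Gr_inner {x : ι → X} {y : ι → Y} (hxy : ∀ i j, ⟪x i, x j⟫_ℂ = ⟪y i, y j⟫_ℂ)
    {p q : X × Y} (hp : p ∈ Gr x y) (hq : q ∈ Gr x y) : ⟪p.1, q.1⟫_ℂ = ⟪p.2, q.2⟫_ℂ := by
  have key : ∀ p : X × Y, (∀ j, ⟪p.1, x j⟫_ℂ = ⟪p.2, y j⟫_ℂ) → ∀ q ∈ Gr x y,
      ⟪p.1, q.1⟫_ℂ = ⟪p.2, q.2⟫_ℂ := by
    intro p h q hq
    let L : X × Y →L[ℂ] ℂ := (innerSL ℂ p.1).comp (ContinuousLinearMap.fst ℂ X Y)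
      - (innerSL ℂ p.2).comp (ContinuousLinearMap.snd ℂ X Y)
    have : q ∈ LinearMap.ker (L : X × Y →ₗ[ℂ] ℂ) :=
      Gr_le L.isClosed_ker (fun j => by simp [L, h j]) hq
    simpa [L, sub_eq_zero] using this
  refine key p (fun j => ?_) q hq
  have := key (x j, y j) (fun i => hxy j i) p hp
  rw [← inner_conj_symm, this, inner_conj_symm]

theorem Gr_norm {x : ι → X} {y : ι → Y} (hxy : ∀ i j, ⟪x i, x j⟫_ℂ = ⟪y i, y j⟫_ℂ)
    {p : X × Y} (hp : p ∈ Gr x y) : ‖p.1‖ = ‖p.2‖ := by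
  rw [@norm_eq_sqrt_re_inner ℂ, @norm_eq_sqrt_re_inner ℂ, Gr_inner hxy hp hp]

theorem isClosed_map_of_le {Z W : Type*} [NormedAddCommGroup Z] [NormedSpace ℂ Z] [CompleteSpace Z]
    [NormedAddCommGroup W] [NormedSpace ℂ W] (S : Submodule ℂ Z) (hS : IsClosed (S : Set Z))
    (F : Z →L[ℂ] W) (h : ∀ p ∈ S, ‖p‖ ≤ ‖F p‖) :
    IsClosed (S.map (F : Z →ₗ[ℂ] W) : Set W) := by
  have : CompleteSpace S := hS.completeSpace_coe
  have h1 : AntilipschitzWith 1 (F.comp S.subtypeL) :=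
    (F.comp S.subtypeL).antilipschitz_of_bound fun p => by simpa using h p p.2
  have h2 := h1.isClosed_range (F.comp S.subtypeL).uniformContinuous
  convert h2 using 1
  ext w
  simp

variable [CompleteSpace X] [CompleteSpace Y]

theorem Gr_fst {x : ι → X} {y : ι → Y} (hxy : ∀ i j, ⟪x i, x j⟫_ℂ = ⟪y i, y j⟫_ℂ)
    {u : X} (hu : u ∈ csp x) : ∃ w, (u, w) ∈ Gr x y := by
  have hc := isClosed_map_of_le (Gr x y) (Gr_closed x y) (ContinuousLinearMap.fst ℂ X Y)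
    (fun p hp => by
      rw [Prod.norm_def, ← Gr_norm hxy hp]; simp)
  obtain ⟨p, hp, rfl⟩ := csp_le hc (fun i => ⟨(x i, y i), mem_Gr x y i, rfl⟩) hu
  exact ⟨p.2, hp⟩

theorem Gr_snd {x : ι → X} {y : ι → Y} (hxy : ∀ i j, ⟪x i, x j⟫_ℂ = ⟪y i, y j⟫_ℂ)
    {w : Y} (hw : w ∈ csp y) : ∃ u, (u, w) ∈ Gr x y := by
  have hc := isClosed_map_of_le (Gr x y) (Gr_closed x y) (ContinuousLinearMap.snd ℂ X Y)
    (fun p hp => by
      rw [Prod.norm_def, Gr_norm hxy hp]; simp)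
  obtain ⟨p, hp, rfl⟩ := csp_le hc (fun i => ⟨(x i, y i), mem_Gr x y i, rfl⟩) hw
  exact ⟨p.1, hp⟩

end graph

/-- `L²` of the circle -/
abbrev H2 : Type := Lp ℂ 2 (volume : Measure Tc)

/-- multiplication by a character on `L²` of the circle -/
noncomputable def mulF (k : ℤ) : H2 →L[ℂ] H2 :=
  (ContinuousLinearMap.mul ℂ ℂ).holderL volume ⊤ 2 2
    (ContinuousMap.toLp ⊤ (volume : Measure Tc) ℂ (fourier k))

theorem coeFn_mulF (k : ℤ) (w : H2) : mulF k w =ᵐ[volume] fun θ => fourier k θ * w θ := by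
  have h1 := (ContinuousLinearMap.mul ℂ ℂ).coeFn_holder (r := 2)
    (ContinuousMap.toLp ⊤ (volume : Measure Tc) ℂ (fourier k)) w
  have h2 := ContinuousMap.coeFn_toLp (p := ⊤) (μ := (volume : Measure Tc)) (𝕜 := ℂ) (fourier k)
  filter_upwards [h1, h2] with θ e1 e2
  have : mulF k w = (ContinuousLinearMap.mul ℂ ℂ).holder 2
    (ContinuousMap.toLp ⊤ (volume : Measure Tc) ℂ (fourier k)) w := rfl
  rw [this, e1, e2]
  rfl

theorem inner_mulF (k : ℤ) (u w : H2) :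
    ⟪u, mulF k w⟫_ℂ = ∫ θ, fourier k θ * (conj (u θ) * w θ) := by
  rw [L2.inner_def]
  refine integral_congr_ae ?_
  filter_upwards [coeFn_mulF k w] with θ e
  rw [e]
  simp only [RCLike.inner_apply]
  ring

theorem mulF_mulF (j k : ℤ) (w : H2) : mulF j (mulF k w) = mulF (j + k) w := by
  refine Lp.ext ?_
  filter_upwards [coeFn_mulF j (mulF k w), coeFn_mulF k w, coeFn_mulF (j + k) w] with θ e1 e2 e3
  rw [e1, e2, e3, fourier_add]
  ring

theorem inner_mulF_mulF (j k : ℤ) (u w : H2) :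
    ⟪mulF j u, mulF k w⟫_ℂ = ⟪u, mulF (k - j) w⟫_ℂ := by
  rw [inner_mulF, inner_mulF]
  refine integral_congr_ae ?_
  filter_upwards [coeFn_mulF j u] with θ e
  rw [e, sub_eq_add_neg, fourier_add, fourier_neg, map_mul]
  ring

theorem integrable_conj_mul (u w : H2) : Integrable (fun θ => conj (u θ) * w θ) volume := by
  have := L2.integrable_inner (𝕜 := ℂ) u w
  simpa only [RCLike.inner_apply, mul_comm] using this

theorem ae_zero_of_inner_mulF {u w : H2} (h : ∀ k, ⟪u, mulF k w⟫_ℂ = 0) :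
    (fun θ => conj (u θ) * w θ) =ᵐ[volume] 0 :=
  ae_zero_of_fourier (integrable_conj_mul u w) fun k => by rw [← inner_mulF, h k]

end Crest.Agent.R81
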