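import Crest.Agent.R81.FinB

/-!
# R81: soft end game, part C: the abstract theorem
-/

set_option autoImplicit false

namespace Crest.Agent.R81

open MeasureTheory Filter Topology
open scoped InnerProductSpace ComplexConjugate

theorem mulF_zero (w : H2) : mulF 0 w = w := by
  refine Lp.ext ?_
  filter_upwards [coeFn_mulF 0 w] with θ e
  rw [e]; simp

theorem norm_mulF (k : ℤ) (w : H2) : ‖mulF k w‖ = ‖w‖ := by
  rw [@norm_eq_sqrt_re_inner ℂ, @norm_eq_sqrt_re_inner ℂ, inner_mulF_mulF, sub_self, mulF_zero]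

/-- the constant function one -/
noncomputable def one2 : H2 := (memLp_const (1 : ℂ)).toLp fun _ => (1 : ℂ)

theorem coeFn_one2 : one2 =ᵐ[volume] fun _ => (1 : ℂ) := MemLp.coeFn_toLp _

theorem integral_fourier' (k : ℤ) : ∫ θ : Tc, fourier k θ = if k = 0 then 1 else 0 := by
  split_ifs with h
  · subst h; simp
  · exact integral_eq_zero_of_add_right_eq_neg (μ := (volume : Measure Tc))
      (fourier_add_half_inv_index h one_pos)

theorem inner_mulF_one2 (m n : ℤ) : ⟪mulF m one2, mulF n one2⟫_ℂ = if m = n then 1 else 0 := by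
  rw [inner_mulF_mulF, inner_mulF]
  have : ∫ θ, fourier (n - m) θ * (conj (one2 θ) * one2 θ) = ∫ θ : Tc, fourier (n - m) θ := by
    refine integral_congr_ae ?_
    filter_upwards [coeFn_one2] with θ e
    rw [e]; simp
  rw [this, integral_fourier']
  by_cases h : m = n
  · simp [h]
  · simp [h, sub_eq_zero, Ne.symm h]

theorem eq_zero_of_inner_mulF_one2 {u : H2} (h : ∀ k, ⟪u, mulF k one2⟫_ℂ = 0) : u = 0 := by
  refine Lp.ext ?_
  filter_upwards [ae_zero_of_inner_mulF h, coeFn_one2, Lp.coeFn_zero ℂ 2 (volume : Measure Tc)]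
    with θ e1 e2 e3
  rw [e2] at e1
  rw [e3]
  simpa using e1

variable {E : Type*} [NormedAddCommGroup E] [InnerProductSpace ℂ E] [CompleteSpace E]

omit [CompleteSpace E] in
theorem inner_zpow (U : E ≃ₗᵢ[ℂ] E) (j k : ℤ) (u v : E) :
    ⟪(U ^ j) u, (U ^ k) v⟫_ℂ = ⟪u, (U ^ (k - j)) v⟫_ℂ := by
  have : U ^ k = U ^ j * U ^ (k - j) := by rw [← zpow_add]; congr 1; ring
  rw [this, LinearIsometryEquiv.coe_mul, Function.comp_apply, LinearIsometryEquiv.inner_map_map]

theorem soft_abs (U : E ≃ₗᵢ[ℂ] E) (f : E) (s : Tc → ℝ) (hs : MemLp s 2 volume)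
    (hD : ∀ k : ℤ, ⟪f, (U ^ k) f⟫_ℂ = ∫ θ, fourier k θ * ((s θ : ℝ) : ℂ) ^ 2)
    (hfull : ∀ ε > 0, ∃ v ∈ csp (fun k : ℤ => (U ^ k) f), ∃ t : Tc → ℝ, MemLp t 2 volume ∧
      (∀ k : ℤ, ⟪v, (U ^ k) v⟫_ℂ = ∫ θ, fourier k θ * ((t θ : ℝ) : ℂ) ^ 2) ∧
      n2 (fun θ => t θ - 1) ≤ ε) :
    ∃ g ∈ csp (fun k : ℤ => (U ^ k) f),
      (∀ m n : ℤ, ⟪(U ^ m) g, (U ^ n) g⟫_ℂ = if m = n then 1 else 0) ∧
      (∀ h ∈ csp (fun k : ℤ => (U ^ k) f), (∀ n : ℤ, ⟪(U ^ n) g, h⟫_ℂ = 0) → h = 0) ∧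
      ∀ k : ℤ, ⟪g, (U ^ k) f⟫_ℂ = ∫ θ, fourier k θ * ((|s θ| : ℝ) : ℂ) := by
  have hs' : MemLp (fun θ => ((|s θ| : ℝ) : ℂ)) 2 volume := hs.abs.ofReal
  set σ : H2 := hs'.toLp _ with hσ
  have hσe : σ =ᵐ[volume] fun θ => ((|s θ| : ℝ) : ℂ) := hs'.coeFn_toLp
  set x : ℤ → E := fun k => (U ^ k) f with hx
  set y : ℤ → H2 := fun k => mulF k σ with hy
  have hxy : ∀ i j, ⟪x i, x j⟫_ℂ = ⟪y i, y j⟫_ℂ := by
    intro i j
    simp only [hx, hy]
    rw [inner_zpow, inner_mulF_mulF, hD, inner_mulF]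
    refine integral_congr_ae ?_
    filter_upwards [hσe] with θ e
    rw [e, Complex.conj_ofReal, ← Complex.ofReal_mul, abs_mul_abs_self]
    push_cast; ring
  have hshift : ∀ (k : ℤ) {p : E × H2}, p ∈ Gr x y → ((U ^ k) p.1, mulF k p.2) ∈ Gr x y := by
    intro k p hp
    refine Gr_map ((U ^ k : E ≃ₗᵢ[ℂ] E) : E →L[ℂ] E) (mulF k) (fun i => ?_) hp
    have h1 := mem_Gr x y (k + i)
    simp only [hx, hy] at h1 ⊢
    rw [mulF_mulF]
    rw [zpow_add] at h1
    exact h1
  have htop : csp y = ⊤ := by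
    unfold csp
    rw [Submodule.topologicalClosure_eq_top_iff, Submodule.eq_bot_iff]
    intro u hu
    have hu1 : ∀ i, ⟪u, y i⟫_ℂ = 0 := fun i =>
      (Submodule.mem_orthogonal' _ _).1 hu _ (Submodule.subset_span ⟨i, rfl⟩)
    refine eq_zero_of_inner_mulF_one2 fun k => ?_
    refine norm_le_zero_iff.1 (le_of_forall_pos_le_add fun ε hε => ?_)
    obtain ⟨v, hv, t, ht, hvt, htn⟩ := hfull (ε / (‖u‖ + 1)) (by positivity)
    obtain ⟨w, hw⟩ := Gr_fst hxy hv
    have h1 : (fun θ => conj (u θ) * w θ) =ᵐ[volume] 0 :=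
      ae_zero_of_inner_mulF fun j => csp_inner_zero hu1 (Gr_snd_mem (hshift j hw))
    have hti : Integrable (fun θ => ((t θ : ℝ) : ℂ) ^ 2) volume := by
      have := ht.integrable_sq.ofReal (𝕜 := ℂ)
      simpa using this
    have h2 : (fun θ => conj (w θ) * w θ - ((t θ : ℝ) : ℂ) ^ 2) =ᵐ[volume] 0 := by
      refine ae_zero_of_fourier ((integrable_conj_mul w w).sub hti) fun j => ?_
      simp only [mul_sub]
      have hb : ∀ {φ : Tc → ℂ}, Integrable φ volume →
          Integrable (fun θ => fourier j θ * φ θ) volume := fun hφ =>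
        hφ.bdd_mul (fourier j).continuous.aestronglyMeasurable
          (Eventually.of_forall fun θ => (norm_fourier' j θ).le)
      rw [integral_sub (hb (integrable_conj_mul w w)) (hb hti), ← inner_mulF, ← hvt,
        ← Gr_inner hxy hw (hshift j hw), sub_self]
    have ht1 : MemLp (fun θ => t θ - 1) 2 volume := ht.sub (memLp_const 1)
    have hτ : MemLp (fun θ => ((t θ - 1 : ℝ) : ℂ)) 2 volume := ht1.ofReal
    have hτn : ‖hτ.toLp _‖ ≤ ε / (‖u‖ + 1) := by
      refine le_trans (le_of_eq ?_) htn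
      rw [Lp.norm_toLp, n2, ← toReal_eLpNorm ht1.1]
      congr 1
      exact eLpNorm_congr_norm_ae (Eventually.of_forall fun θ => by simp only [Complex.norm_real])
    have h3 : ⟪u, mulF k one2⟫_ℂ = -⟪u, mulF k (hτ.toLp _)⟫_ℂ := by
      rw [inner_mulF, inner_mulF, ← integral_neg]
      refine integral_congr_ae ?_
      filter_upwards [h1, h2, coeFn_one2, hτ.coeFn_toLp] with θ e1 e2 e3 e4
      rw [e3, e4]
      simp only [Pi.zero_apply] at e1 e2
      have h4 : conj (u θ) * (t θ : ℂ) = 0 := by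
        rcases mul_eq_zero.1 e1 with h | h
        · rw [h, zero_mul]
        · rw [h, mul_zero, zero_sub, neg_eq_zero, pow_eq_zero_iff two_ne_zero] at e2
          rw [e2, mul_zero]
      push_cast
      linear_combination (fourier k θ) * h4
    rw [h3, norm_neg, zero_add]
    refine (norm_inner_le_norm _ _).trans ?_
    rw [norm_mulF]
    calc ‖u‖ * ‖hτ.toLp _‖ ≤ (‖u‖ + 1) * (ε / (‖u‖ + 1)) := by gcongr; linarith
      _ = ε := by field_simp
  obtain ⟨g, hg⟩ := Gr_snd hxy (w := one2) (by rw [htop]; trivial)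
  refine ⟨g, Gr_fst_mem hg, fun m n => ?_, fun h hh hn => ?_, fun k => ?_⟩
  · rw [← inner_mulF_one2]
    exact Gr_inner hxy (hshift m hg) (hshift n hg)
  · obtain ⟨w, hw⟩ := Gr_fst hxy hh
    have hw0 : w = 0 := eq_zero_of_inner_mulF_one2 fun k => by
      rw [inner_eq_zero_symm, ← hn k]
      exact (Gr_inner hxy (hshift k hg) hw).symm
    have := Gr_norm hxy hw
    simpa [hw0] using this
  · have := Gr_inner hxy hg (mem_Gr x y k)
    simp only [hx, hy] at this
    rw [this, inner_mulF]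
    refine integral_congr_ae ?_
    filter_upwards [hσe, coeFn_one2] with θ e1 e2
    rw [e1, e2]; simp

/-- If the moments of `s²` are real then the moments of `|s|` are real. -/
theorem moments_abs_real (s : Tc → ℝ) (hs : MemLp s 2 volume)
    (h : ∀ k : ℤ, (∫ θ, fourier k θ * ((s θ : ℝ) : ℂ) ^ 2).im = 0) (k : ℤ) :
    (∫ θ, fourier k θ * ((|s θ| : ℝ) : ℂ)).im = 0 := by
  have key : ∀ (r : Tc → ℝ) (j : ℤ), ∫ θ, fourier j θ * ((r (-θ) : ℝ) : ℂ)
      = conj (∫ θ, fourier j θ * ((r θ : ℝ) : ℂ)) := by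
    intro r j
    rw [← integral_conj, ← integral_neg_eq_self]
    refine integral_congr_ae (Eventually.of_forall fun θ => ?_)
    simp only [neg_neg, map_mul, Complex.conj_ofReal]
    congr 1
    rw [← fourier_neg, fourier_apply, fourier_apply, smul_neg, neg_smul]
  have hsi : Integrable (fun θ => ((s θ ^ 2 : ℝ) : ℂ)) volume := hs.integrable_sq.ofReal
  have hsi' : Integrable (fun θ => ((s (-θ) ^ 2 : ℝ) : ℂ)) volume := hsi.comp_neg
  have h2 : (fun θ => ((s (-θ) ^ 2 : ℝ) : ℂ) - ((s θ ^ 2 : ℝ) : ℂ)) =ᵐ[volume] 0 := by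
    refine ae_zero_of_fourier (hsi'.sub hsi) fun j => ?_
    simp only [mul_sub]
    have hb : ∀ {φ : Tc → ℂ}, Integrable φ volume →
        Integrable (fun θ => fourier j θ * φ θ) volume := fun hφ =>
      hφ.bdd_mul (fourier j).continuous.aestronglyMeasurable
        (Eventually.of_forall fun θ => (norm_fourier' j θ).le)
    rw [integral_sub (hb hsi') (hb hsi), key (fun θ => s θ ^ 2) j, sub_eq_zero,
      Complex.conj_eq_iff_im]
    simpa using h j
  rw [← Complex.conj_eq_iff_im, ← key (fun θ => |s θ|) k]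
  refine integral_congr_ae ?_
  filter_upwards [h2] with θ e
  simp only [Pi.zero_apply, sub_eq_zero, Complex.ofReal_inj] at e
  rw [(sq_eq_sq_iff_abs_eq_abs _ _).1 e]

end Crest.Agent.R81
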