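import Mathlib

/-!
# R81: a multiplicative Følner labelling of `ℤ/q`
-/

set_option autoImplicit false

namespace Crest.Agent.R81


/-- `#divisors (c^(k+1)) = ∏_{p ∣ c} ((k+1) v_p + 1)` (`Nat.card_divisors`), so
`#divisors (c^k) ≥ (k/(k+1))^d #divisors (c^(k+1)) ≥ (1 - d/(k+1)) …`, `d = #primeFactors c`; and for
`c ≥ 2` the number of divisors of `c^k` is `≥ k+1`. -/
theorem divisors_ratio (c : ℕ) (hc : 2 ≤ c) (η : ℝ) (hη : 0 < η) (n0 : ℕ) :
    ∃ k : ℕ, n0 ≤ (c ^ (k + 1)).divisors.card ∧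
      ((c ^ (k + 1)).divisors.card : ℝ) - (c ^ k).divisors.card
        ≤ η * (c ^ (k + 1)).divisors.card := by
  have hc0 : c ≠ 0 := by omega
  have hcard : ∀ k : ℕ, k ≠ 0 → (c ^ k).divisors.card =
      ∏ x ∈ c.primeFactors, (k * c.factorization x + 1) := fun k hk => by
    rw [Nat.card_divisors (pow_ne_zero _ hc0), Nat.primeFactors_pow _ hk, Nat.factorization_pow]
    simp
  have hlow : ∀ k : ℕ, k + 1 ≤ (c ^ k).divisors.card := fun k => by
    rw [← Finset.card_range (k + 1)]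
    refine Finset.card_le_card_of_injOn (fun j => c ^ j) (fun j hj => ?_) fun i _ j _ hij =>
      Nat.pow_right_injective hc hij
    have hj' : j ≤ k := Nat.lt_succ_iff.1 (Finset.mem_range.1 (Finset.mem_coe.1 hj))
    exact Finset.mem_coe.2 (Nat.mem_divisors.2 ⟨pow_dvd_pow c hj', pow_ne_zero _ hc0⟩)
  have ht : Filter.Tendsto (fun k : ℕ => ((k : ℝ) / (k + 1)) ^ c.primeFactors.card) Filter.atTop
      (nhds 1) := by
    simpa using (tendsto_natCast_div_add_atTop (1 : ℝ)).pow c.primeFactors.card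
  obtain ⟨k, hk1, hk2⟩ := ((ht.eventually (lt_mem_nhds (show 1 - η < 1 by linarith))).and
    (Filter.eventually_ge_atTop (n0 + 1))).exists
  refine ⟨k, by have := hlow (k + 1); omega, ?_⟩
  have hk0 : k ≠ 0 := by omega
  have hmain : ((k : ℝ) / (k + 1)) ^ c.primeFactors.card * (c ^ (k + 1)).divisors.card ≤
      (c ^ k).divisors.card := by
    rw [hcard k hk0, hcard (k + 1) (by omega), ← Finset.prod_const]
    push_cast
    rw [← Finset.prod_mul_distrib]
    refine Finset.prod_le_prod (fun x _ => by positivity) fun x _ => ?_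
    rw [div_mul_eq_mul_div, div_le_iff₀ (by positivity)]
    have : (0 : ℝ) ≤ c.factorization x := by positivity
    nlinarith
  have h0 : (0 : ℝ) ≤ (c ^ (k + 1)).divisors.card := by positivity
  nlinarith [mul_le_mul_of_nonneg_right hk1.le h0]

/-- indicator of the window `[0, ℓ)` -/
def fol0chi {q : ℕ} (ℓ : ℕ) (x : ZMod q) : ℝ := if x.val < ℓ then 1 else 0

theorem fol0_sum_chi (q : ℕ) [NeZero q] {ℓ : ℕ} (hℓq : ℓ ≤ q) :
    ∑ x : ZMod q, fol0chi ℓ x = ℓ := by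
  simp only [fol0chi, Finset.sum_boole, Nat.cast_inj]
  rw [← Finset.card_range ℓ]
  refine Finset.card_nbij' ZMod.val (fun j => (j : ZMod q)) (fun x hx => ?_) (fun j hj => ?_)
    (fun x _ => ZMod.natCast_zmod_val x) fun j hj => ?_
  · simpa using hx
  · have hj' : j < ℓ := by simpa using hj
    simp [ZMod.val_cast_of_lt (hj'.trans_le hℓq), hj']
  · have hj' : j < ℓ := by simpa using hj
    exact ZMod.val_cast_of_lt (hj'.trans_le hℓq)

theorem fol0_sum_one (q : ℕ) [Fact q.Prime] {ℓ : ℕ} (hℓq : ℓ ≤ q) (f : ZMod q) :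
    ∑ z : ZMod q × ZMod q, fol0chi ℓ (f * z.2 - z.1) = q * ℓ := by
  rw [Fintype.sum_prod_type_right]
  have : ∀ r : ZMod q, ∑ b : ZMod q, fol0chi ℓ (f * r - b) = ℓ := fun r => by
    rw [← fol0_sum_chi q hℓq]
    exact (Equiv.subLeft (f * r)).sum_comp (fol0chi ℓ)
  simp [this, ZMod.card]

theorem fol0_sum_two (q : ℕ) [Fact q.Prime] {ℓ : ℕ} (hℓq : ℓ ≤ q) {f f' : ZMod q} (h : f ≠ f') :
    ∑ z : ZMod q × ZMod q, fol0chi ℓ (f * z.2 - z.1) * fol0chi ℓ (f' * z.2 - z.1) = ℓ ^ 2 := by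
  have hb : Function.Bijective fun z : ZMod q × ZMod q => (f * z.2 - z.1, f' * z.2 - z.1) := by
    refine Finite.injective_iff_bijective.1 fun z w hzw => ?_
    obtain ⟨h1, h2⟩ := Prod.mk.inj hzw
    have h3 : (f - f') * (z.2 - w.2) = 0 := by linear_combination h1 - h2
    have h4 : z.2 = w.2 := sub_eq_zero.1 ((mul_eq_zero.1 h3).resolve_left (sub_ne_zero.2 h))
    refine Prod.ext ?_ h4
    rw [h4] at h1
    linear_combination -h1
  rw [hb.sum_comp fun w : ZMod q × ZMod q => fol0chi ℓ w.1 * fol0chi ℓ w.2, Fintype.sum_prod_type]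
  simp only [← Finset.mul_sum, ← Finset.sum_mul, fol0_sum_chi q hℓq]
  ring

theorem fol0_var (q : ℕ) [Fact q.Prime] {ℓ : ℕ} (hℓq : ℓ ≤ q) (F : Finset (ZMod q)) :
    ∑ z : ZMod q × ZMod q, (∑ f ∈ F, fol0chi ℓ (f * z.2 - z.1) - F.card * ℓ / q) ^ 2 ≤
      F.card * (q * ℓ) := by
  have hq : (0 : ℝ) < q := by exact_mod_cast (Fact.out : q.Prime).pos
  have h1 : ∑ z : ZMod q × ZMod q, ∑ f ∈ F, fol0chi ℓ (f * z.2 - z.1) = F.card * (q * ℓ) := by
    rw [Finset.sum_comm]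
    simp [fol0_sum_one q hℓq]
  have h2 : ∑ z : ZMod q × ZMod q, (∑ f ∈ F, fol0chi ℓ (f * z.2 - z.1)) ^ 2 ≤
      F.card * (q * ℓ) + F.card ^ 2 * ℓ ^ 2 := by
    simp only [sq (∑ f ∈ F, _), Finset.sum_mul_sum]
    rw [Finset.sum_comm]
    have h3 : ∀ f ∈ F, ∑ z : ZMod q × ZMod q, ∑ f' ∈ F,
        fol0chi ℓ (f * z.2 - z.1) * fol0chi ℓ (f' * z.2 - z.1) ≤ q * ℓ + F.card * ℓ ^ 2 := by
      intro f hf
      rw [Finset.sum_comm, ← Finset.add_sum_erase _ _ hf]
      refine add_le_add ?_ ?_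
      · rw [← fol0_sum_one q hℓq f]
        refine Finset.sum_le_sum fun z _ => ?_
        unfold fol0chi
        split_ifs <;> norm_num
      · rw [Finset.sum_congr rfl fun f' hf' => fol0_sum_two q hℓq (Finset.ne_of_mem_erase hf').symm,
          Finset.sum_const, nsmul_eq_mul]
        gcongr
        exact Finset.erase_subset _ _
    refine (Finset.sum_le_sum h3).trans (le_of_eq ?_)
    rw [Finset.sum_const, nsmul_eq_mul]
    ring
  simp only [sub_sq, Finset.sum_add_distrib, Finset.sum_sub_distrib, ← Finset.sum_mul,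
    ← Finset.mul_sum, h1, Finset.sum_const, Finset.card_univ, Fintype.card_prod, ZMod.card,
    nsmul_eq_mul]
  have h4 : 2 * ((F.card : ℝ) * (q * ℓ)) * (F.card * ℓ / q) = 2 * (F.card ^ 2 * ℓ ^ 2) := by
    field_simp
  have h5 : ((q * q : ℕ) : ℝ) * (F.card * ℓ / q) ^ 2 = F.card ^ 2 * ℓ ^ 2 := by
    push_cast
    field_simp
  linarith

/-- Second moment bound.  `F` is a set of residues mod the prime `q`; `ℓ ≤ q`.  For the pair
`(r,b)` uniform on `(ZMod q)²` the events `(f r - b).val < ℓ` (`f ∈ F`) have probability `ℓ/q` and are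
pairwise independent (`(r,b) ↦ (f r - b, f' r - b)` is a bijection for `f ≠ f'`).  Chebyshev:
the proportion of pairs with no event is at most `q/(ℓ #F)`.  Averaging over `b` together with the
proportion of pairs with `(f r - b).val < ℓ ∧ (-f r - b).val < ℓ` for some `f ∈ F` (`≤ #F ℓ²/q²`
when `f ≠ -f`) gives a good `b`. -/
theorem exists_marker (q : ℕ) [Fact q.Prime] (F : Finset (ZMod q)) (hF : F.Nonempty)
    (hF2 : ∀ f ∈ F, f ≠ -f) (ℓ : ℕ) (hℓ : 0 < ℓ) (hℓq : ℓ ≤ q) :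
    ∃ b : ZMod q,
      ((Finset.univ.filter fun r : ZMod q =>
        (∀ f ∈ F, ¬ (f * r - b).val < ℓ) ∨
        (∃ f ∈ F, (f * r - b).val < ℓ ∧ (-f * r - b).val < ℓ)).card : ℝ)
      ≤ q * ((q : ℝ) / (ℓ * F.card) + F.card * ((ℓ : ℝ) / q) ^ 2) := by
  have hq : (0 : ℝ) < q := by exact_mod_cast (Fact.out : q.Prime).pos
  have hℓ' : (0 : ℝ) < ℓ := by exact_mod_cast hℓ
  have hF' : (0 : ℝ) < F.card := by exact_mod_cast hF.card_pos
  have hμ : (0 : ℝ) < F.card * ℓ / q := by positivity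
  have hχ : ∀ x : ZMod q, 0 ≤ fol0chi ℓ x := fun x => by
    unfold fol0chi
    split_ifs <;> norm_num
  let G : ZMod q × ZMod q → ℝ := fun z =>
    (∑ f ∈ F, fol0chi ℓ (f * z.2 - z.1) - F.card * ℓ / q) ^ 2 / (F.card * ℓ / q) ^ 2 +
      ∑ f ∈ F, fol0chi ℓ (f * z.2 - z.1) * fol0chi ℓ (-f * z.2 - z.1)
  have hG : ∑ z, G z ≤ q * (q * ((q : ℝ) / (ℓ * F.card) + F.card * ((ℓ : ℝ) / q) ^ 2)) := by
    simp only [G, Finset.sum_add_distrib, ← Finset.sum_div]
    rw [Finset.sum_comm, Finset.sum_congr rfl fun f hf => fol0_sum_two q hℓq (hF2 f hf),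
      Finset.sum_const, nsmul_eq_mul]
    have h1 := div_le_div_of_nonneg_right (fol0_var q hℓq F) (sq_nonneg ((F.card : ℝ) * ℓ / q))
    have h2 : (F.card : ℝ) * (q * ℓ) / (F.card * ℓ / q) ^ 2 + F.card * ℓ ^ 2 =
        q * (q * ((q : ℝ) / (ℓ * F.card) + F.card * ((ℓ : ℝ) / q) ^ 2)) := by
      field_simp
    linarith
  obtain ⟨b, -, hb⟩ := Finset.exists_le_of_sum_le (s := Finset.univ) Finset.univ_nonempty
    (f := fun b : ZMod q => ∑ r : ZMod q, G (b, r))
    (g := fun _ => q * ((q : ℝ) / (ℓ * F.card) + F.card * ((ℓ : ℝ) / q) ^ 2)) (by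
      rw [← Fintype.sum_prod_type]
      simpa [ZMod.card] using hG)
  refine ⟨b, le_trans ?_ hb⟩
  rw [Finset.card_filter]
  push_cast
  refine Finset.sum_le_sum fun r _ => ?_
  have h1 : 0 ≤ (∑ f ∈ F, fol0chi ℓ (f * r - b) - F.card * ℓ / q) ^ 2 / (F.card * ℓ / q) ^ 2 := by
    positivity
  have h2 : 0 ≤ ∑ f ∈ F, fol0chi ℓ (f * r - b) * fol0chi ℓ (-f * r - b) :=
    Finset.sum_nonneg fun f _ => mul_nonneg (hχ _) (hχ _)
  simp only [G]
  split_ifs with h
  · rcases h with h | ⟨f, hf, h3, h4⟩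
    · have h3 : ∑ f ∈ F, fol0chi ℓ (f * r - b) = 0 :=
        Finset.sum_eq_zero fun f hf => if_neg (h f hf)
      rw [h3, zero_sub, neg_sq, div_self (by positivity)]
      linarith
    · have h5 := Finset.single_le_sum (f := fun f => fol0chi ℓ (f * r - b) * fol0chi ℓ (-f * r - b))
        (fun f _ => mul_nonneg (hχ _) (hχ _)) hf
      simp only [fol0chi, if_pos h3, if_pos h4, mul_one] at h5
      simp only [fol0chi] at h1 ⊢
      linarith
  · linarith

end Crest.Agent.R81
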