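import Crest.Agent.R81.Fol0

/-!
# R81: a multiplicative Følner labelling of `ℤ/q`
-/

set_option autoImplicit false

namespace Crest.Agent.R81

section aux
open Finset
open scoped Classical

variable {q : ℕ}

lemma fol_card_divisors (N : ℕ) : (Int.divisors (N : ℤ)).card = 2 * N.divisors.card := by
  rw [Int.divisors, card_disjUnion, card_map, card_map, Int.natAbs_natCast, two_mul]

lemma fol_count {X ι : Type*} [Fintype X] (A : Finset ι) (e : ι → X → X)
    (he : ∀ i ∈ A, Function.Injective (e i)) (S : Finset X) :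
    (univ.filter fun r => ∃ i ∈ A, e i r ∈ S).card ≤ A.card * S.card :=
  calc _ ≤ (A.biUnion fun i => univ.filter fun r => e i r ∈ S).card :=
        card_le_card (by intro r; simp)
    _ ≤ A.card * S.card := card_biUnion_le_card_mul _ _ _ fun i hi =>
        card_le_card_of_injOn (e i) (by intro r; simp) (he i hi).injOn

lemma fol_marked [NeZero q] (b : ZMod q) (ℓ : ℕ) :
    (univ.filter fun x : ZMod q => (x - b).val < ℓ).card ≤ ℓ := by
  conv_rhs => rw [← card_range ℓ]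
  exact card_le_card_of_injOn (fun x => (x - b).val) (by intro x; simp)
    fun x _ y _ h => sub_left_injective (ZMod.val_injective q h)

/-- a monotone function bounded by `K` has at most `K + 2` jumps around the circle -/
lemma fol_jumps [NeZero q] (φ : ℕ → ℕ) (hφ : Monotone φ) (K : ℕ) (hK : ∀ v < q, φ v ≤ K)
    (b : ZMod q) :
    (univ.filter fun x : ZMod q => φ (x + 1 - b).val ≠ φ (x - b).val).card ≤ K + 2 := by
  have hv : ∀ x : ZMod q, (x - b).val + 1 < q → (x + 1 - b).val = (x - b).val + 1 := fun x hx => by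
    rw [show x + 1 - b = (((x - b).val + 1 : ℕ) : ZMod q) by
      push_cast; rw [ZMod.natCast_zmod_val]; ring, ZMod.val_natCast_of_lt hx]
  let j : ZMod q → ℕ := fun x => if (x - b).val + 1 < q then φ (x - b).val else K + 1
  have key : ∀ x y : ZMod q, φ (x + 1 - b).val ≠ φ (x - b).val → (x - b).val < (y - b).val →
      j x < j y := fun x y hx hxy => by
    have h1 := ZMod.val_lt (y - b)
    have h2 : (x - b).val + 1 < q := by omega
    rw [hv x h2] at hx
    have h3 := hφ (Nat.le_succ (x - b).val)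
    have h4 := hφ (Nat.succ_le_of_lt hxy)
    have h5 := hK _ h1
    simp only [j, if_pos h2]
    simp only [Nat.succ_eq_add_one] at h3 h4
    split_ifs <;> omega
  rw [← card_range (K + 2)]
  refine card_le_card_of_injOn j (fun x _ => ?_) fun x hx y hy h => ?_
  · have := hK _ (ZMod.val_lt (x - b))
    simp only [j, coe_range, Set.mem_Iio]
    split_ifs <;> omega
  · simp only [coe_filter, mem_univ, true_and, Set.mem_ofPred_eq] at hx hy
    rcases lt_trichotomy (x - b).val (y - b).val with h1 | h1 | h1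
    · exact absurd h (key x y hx h1).ne
    · exact sub_left_injective (ZMod.val_injective q h1)
    · exact absurd h (key y x hy h1).ne'

lemma fol_unstable [NeZero q] {α : Type*} [DecidableEq α] (g : ZMod q → α) (L : ℕ) :
    (univ.filter fun x => ∃ s : ℤ, |s| ≤ L ∧ g (x + s) ≠ g x).card ≤
      (2 * L + 1) * (univ.filter fun x => g (x + 1) ≠ g x).card := by
  have h := fol_count (Icc (-L : ℤ) L) (fun s (x : ZMod q) => x + s)
    (fun s _ => add_left_injective _) (univ.filter fun x => g (x + 1) ≠ g x)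
  rw [Int.card_Icc, show ((L : ℤ) + 1 - -L).toNat = 2 * L + 1 by omega] at h
  refine (card_le_card fun x hx => ?_).trans h
  simp only [mem_filter, mem_univ, true_and, mem_Icc] at hx ⊢
  obtain ⟨s, hs, hx⟩ := hx
  by_contra hne
  push Not at hne
  have key : ∀ n : ℕ, n ≤ 2 * L → g (x + ((-L + n : ℤ) : ZMod q)) = g (x + ((-L : ℤ) : ZMod q)) := by
    intro n hn
    induction n with
    | zero => simp
    | succ n ih =>
      rw [← ih (by omega), ← hne (-L + n) ⟨by omega, by omega⟩]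
      congr 1
      push_cast
      ring
  have key' : ∀ s : ℤ, |s| ≤ L → g (x + s) = g (x + ((-L : ℤ) : ZMod q)) := fun s hs => by
    have := abs_le.1 hs
    rw [← key (s + L).toNat (by omega), show -(L : ℤ) + ((s + L).toNat : ℕ) = s by omega]
  have h0 := key' 0 (by simp)
  rw [Int.cast_zero, add_zero] at h0
  exact hx ((key' s hs).trans h0.symm)

/-- `f` is the unique minimal marker of `x` -/
def FolMin (F0 : ℕ) (mk : ZMod q → Prop) (x : ZMod q) (f : ℤ) : Prop :=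
  f ∣ F0 ∧ mk (f * x) ∧ ∀ f' : ℤ, f' ∣ F0 → mk (f' * x) → f' ≠ f → |f| < |f'|

/-- the label -/
noncomputable def folLab (F0 : ℕ) (mk : ZMod q → Prop) (cell : ZMod q → ℤ) (x : ZMod q) : ℤ :=
  if h : ∃ f, FolMin F0 mk x f then cell (h.choose * x) * (F0 / h.choose) else 0

variable {F0 : ℕ} {mk : ZMod q → Prop} {cell : ZMod q → ℤ} {x : ZMod q}

lemma folLab_eq {f : ℤ} (h : FolMin F0 mk x f) : folLab F0 mk cell x = cell (f * x) * (F0 / f) := by
  have h' : ∃ f, FolMin F0 mk x f := ⟨f, h⟩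
  have e : h'.choose = f := by
    by_contra hne
    exact lt_asymm (h.2.2 _ h'.choose_spec.1 h'.choose_spec.2.1 hne)
      (h'.choose_spec.2.2 _ h.1 h.2.1 (Ne.symm hne))
  rw [folLab, dif_pos h', e]

lemma folLab_ne (h : folLab F0 mk cell x ≠ 0) : ∃ f, FolMin F0 mk x f := by
  by_contra hne
  exact h (dif_neg hne)

lemma folLab_zero (hF0 : 0 < F0) : folLab F0 mk cell 0 = 0 := by
  by_contra h
  obtain ⟨f, h1, h2, h3⟩ := folLab_ne h
  have hf : f ≠ 0 := ne_zero_of_dvd_ne_zero (by omega) h1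
  have := h3 (-f) (neg_dvd.2 h1) (by simpa using h2) (by omega)
  simp at this

lemma fol_good {c M : ℕ} (hF0 : 0 < F0) (hc : ∀ m : ℤ, m ≠ 0 → |m| ≤ M → m ∣ c)
    (hcell : ∀ x, cell x ≠ 0) (h1 : ∃ f : ℤ, f ∣ F0 ∧ mk (f * x))
    (h2 : ∀ f : ℤ, f ∣ F0 → mk (f * x) → ¬ mk (-f * x))
    (h3 : ∀ f : ℤ, f ∣ F0 → mk (f * x) → (c : ℤ) ∣ f)
    (h4 : ∀ m f : ℤ, m ≠ 0 → |m| ≤ M → f ∣ F0 → mk ((f * m : ℤ) * x) → c * f ∣ F0)
    (h5 : ∀ m f s : ℤ, m ≠ 0 → |m| ≤ M → f ∣ F0 → |s| ≤ (F0 * (M + 4) : ℕ) →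
      (mk ((f * m : ℤ) * x + s) ↔ mk ((f * m : ℤ) * x)) ∧
        cell ((f * m : ℤ) * x + s) = cell ((f * m : ℤ) * x)) :
    folLab F0 mk cell x ≠ 0 ∧ ∀ m t : ℤ, m ≠ 0 → |m| ≤ M → |t| ≤ M + 4 →
      folLab F0 mk cell (m * x + t) = m * folLab F0 mk cell x := by
  have hF : (F0 : ℤ) ≠ 0 := by omega
  obtain ⟨f, ⟨hf1, hf2⟩, hf3⟩ := exists_minimalFor_of_wellFoundedLT
    (fun f : ℤ => f ∣ F0 ∧ mk (f * x)) Int.natAbs h1
  have hf : FolMin F0 mk x f := ⟨hf1, hf2, fun f' h h' hne => by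
    by_contra hlt
    have h6 : f'.natAbs ≤ f.natAbs := by
      rw [not_lt, ← Int.natCast_natAbs, ← Int.natCast_natAbs] at hlt
      exact_mod_cast hlt
    have h7 := hf3 ⟨h, h'⟩ h6
    have h8 : f' = -f := by omega
    exact h2 f hf1 hf2 (by simpa [h8] using h')⟩
  have hf0 : f ≠ 0 := ne_zero_of_dvd_ne_zero hF hf1
  obtain ⟨h, hh⟩ := hf1
  have hh0 : h ≠ 0 := by rintro rfl; exact hF (by simpa using hh)
  have e1 : folLab F0 mk cell x = cell (f * x) * h := by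
    rw [folLab_eq hf, hh, Int.mul_ediv_cancel_left _ hf0]
  refine ⟨e1 ▸ mul_ne_zero (hcell _) hh0, fun m t hm hmM ht => ?_⟩
  obtain ⟨g, rfl⟩ := (hc m hm hmM).trans (h3 f hf.1 hf2)
  have hg0 : g ≠ 0 := right_ne_zero_of_mul hf0
  have h6 : ∀ f' : ℤ, f' ∣ F0 → (mk (f' * (m * x + t)) ↔ mk ((f' * m : ℤ) * x)) ∧
      cell (f' * (m * x + t)) = cell ((f' * m : ℤ) * x) := fun f' hf' => by
    have := h5 m f' (f' * t) hm hmM hf' (by
      rw [abs_mul]
      push_cast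
      exact mul_le_mul (Int.le_of_dvd (by omega) ((abs_dvd _ _).2 hf')) ht (abs_nonneg _)
        (by positivity))
    rwa [show ((f' * m : ℤ) : ZMod q) * x + (f' * t : ℤ) = f' * (m * x + t) by
      push_cast; ring] at this
  have hg : g ∣ F0 := (dvd_mul_left g m).trans hf.1
  have hmin : FolMin F0 mk (m * x + t) g := by
    refine ⟨hg, (h6 g hg).1.2 (mul_comm m g ▸ hf2), fun f' h7 h8 hne => ?_⟩
    rw [(h6 f' h7).1] at h8
    have h9 : f' * m ∣ F0 := by
      rw [mul_comm]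
      exact (mul_dvd_mul_right (hc m hm hmM) f').trans (h4 m f' hm hmM h7 h8)
    have h10 := hf.2.2 _ h9 h8 fun h => hne (mul_right_cancel₀ hm (h.trans (mul_comm _ _)))
    rw [abs_mul, abs_mul, mul_comm] at h10
    exact lt_of_mul_lt_mul_right h10 (abs_nonneg m)
  rw [folLab_eq hmin, (h6 g hg).2, e1, hh, show m * g * h = g * (m * h) by ring,
    Int.mul_ediv_cancel_left _ hg0, mul_comm g m]
  ring

lemma fol_pure [NeZero q] (hF0 : 0 < F0) {Q : ℕ} (hQ : 0 < Q) (r : ℤ)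
    (h : folLab F0 mk (fun x : ZMod q => (Q * x.val / q + 1 : ℕ)) r ≠ 0) :
    ∃ I : ℤ, |(F0 : ℝ) * r / q -
      (folLab F0 mk (fun x : ZMod q => (Q * x.val / q + 1 : ℕ)) r : ℝ) / Q - I| ≤ 3 * F0 / Q := by
  obtain ⟨f, hf⟩ := folLab_ne h
  have hf0 : f ≠ 0 := ne_zero_of_dvd_ne_zero (by omega) hf.1
  have hq : 0 < q := NeZero.pos q
  have hq' : (0 : ℝ) < q := by exact_mod_cast hq
  have hQ' : (0 : ℝ) < Q := by exact_mod_cast hQ
  rw [folLab_eq hf]
  obtain ⟨g, hg⟩ := hf.1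
  have hgF : |(g : ℝ)| ≤ F0 := by
    have : |g| ≤ F0 := Int.le_of_dvd (by omega) ((abs_dvd _ _).2 ⟨f, hg.trans (mul_comm _ _)⟩)
    exact_mod_cast this
  rw [hg, Int.mul_ediv_cancel_left _ hf0, ← Int.cast_mul]
  have hv := ZMod.val_intCast (n := q) (f * r)
  generalize ((f * r : ℤ) : ZMod q).val = v at hv ⊢
  have e1 : (f * r : ℝ) = v + q * (f * r / q : ℤ) := by
    have := Int.emod_add_mul_ediv (f * r) q
    rw [← hv] at this
    exact_mod_cast this.symm
  have e2 : (F0 : ℝ) = f * g := by exact_mod_cast hg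
  have h1 : ((Q * v / q : ℕ) : ℝ) * q ≤ Q * v := by exact_mod_cast Nat.div_mul_le_self _ _
  have h2 : (Q * v : ℝ) < ((Q * v / q : ℕ) + 1) * q := by
    have := Nat.lt_div_mul_add (a := Q * v) hq
    have h3 : Q * v < (Q * v / q + 1) * q := by rw [add_mul, one_mul]; exact this
    exact_mod_cast h3
  generalize Q * v / q = w at h1 h2
  refine ⟨g * (f * r / q), ?_⟩
  have e3 : (F0 : ℝ) * r / q - (((w + 1 : ℕ) * g : ℤ) : ℝ) / Q - (g * (f * r / q) : ℤ) =
      g * ((Q * v - (w + 1) * q) / (q * Q)) := by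
    rw [e2, mul_comm (f : ℝ), mul_assoc, e1]
    push_cast
    field_simp
    ring
  have h4 : |(Q * v - (w + 1) * q : ℝ) / (q * Q)| ≤ 1 / Q := by
    rw [abs_div, abs_of_pos (mul_pos hq' hQ'), div_le_div_iff₀ (mul_pos hq' hQ') hQ', one_mul]
    exact mul_le_mul_of_nonneg_right (abs_le.2 ⟨by linarith, by linarith⟩) hQ'.le
  rw [e3, abs_mul]
  calc _ ≤ F0 * (1 / Q : ℝ) := mul_le_mul hgF h4 (abs_nonneg _) (by positivity)
    _ = F0 / Q := by ring
    _ ≤ 3 * F0 / Q := by gcongr; linarith [Nat.cast_nonneg (α := ℝ) F0]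

lemma fol_bad [Fact q.Prime] {c k M : ℕ} (hc0 : 0 < c) (hc : ∀ m : ℤ, m ≠ 0 → |m| ≤ M → m ∣ c)
    (hq : c ^ (k + 1) * (M + 2) < q) {ℓ : ℕ} (hℓ : 0 < ℓ) (hℓq : ℓ ≤ q) (Q : ℕ) {n d : ℕ}
    (hn : (c ^ (k + 1)).divisors.card = n) (hd : (c ^ k).divisors.card + d = n) :
    ∃ (mk : ZMod q → Prop) (G : Finset (ZMod q)),
      (q : ℝ) ≤ G.card + q * (q / (ℓ * (2 * n)) + 2 * n * ((ℓ : ℝ) / q) ^ 2) +
        (2 * M + 2) * (2 * d) * ℓ +
        (2 * M + 1) * (2 * n) * ((2 * (c ^ (k + 1) * (M + 4)) + 1) * (Q + 5)) ∧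
      ∀ x ∈ G, folLab (c ^ (k + 1)) mk (fun x : ZMod q => (Q * x.val / q + 1 : ℕ)) x ≠ 0 ∧
        ∀ m t : ℤ, m ≠ 0 → |m| ≤ M → |t| ≤ M + 4 →
          folLab (c ^ (k + 1)) mk (fun x : ZMod q => (Q * x.val / q + 1 : ℕ)) (m * x + t) =
            m * folLab (c ^ (k + 1)) mk (fun x : ZMod q => (Q * x.val / q + 1 : ℕ)) x := by
  obtain ⟨F0, hF⟩ : ∃ F0, F0 = c ^ (k + 1) := ⟨_, rfl⟩
  have hF0 : 0 < F0 := hF ▸ pow_pos hc0 _
  have hF' : (F0 : ℤ) = c * (c ^ k : ℕ) := by rw [hF]; push_cast; ring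
  rw [show (c : ℝ) ^ (k + 1) = F0 by rw [hF]; push_cast; rfl]
  rw [← hF] at hq hn ⊢
  have hq0 : 0 < q := NeZero.pos q
  have hc' : (c : ℤ) ≠ 0 := by omega
  have hck : ((c ^ k : ℕ) : ℤ) ≠ 0 := by positivity
  have hmem : ∀ {f : ℤ}, f ∈ Int.divisors F0 ↔ f ∣ F0 := by
    intro f; rw [Int.mem_divisors]; exact and_iff_left (by omega)
  have hz : ∀ f ∈ Int.divisors F0, ∀ m : ℤ, m ≠ 0 → |m| ≤ M + 2 → ((f * m : ℤ) : ZMod q) ≠ 0 := by
    intro f hf m hm hmM h
    rw [ZMod.intCast_zmod_eq_zero_iff_dvd] at h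
    have h1 : |f| ≤ F0 := Int.le_of_dvd (by omega) ((abs_dvd _ _).2 (hmem.1 hf))
    refine mul_ne_zero (ne_zero_of_dvd_ne_zero (by omega) (hmem.1 hf)) hm
      (Int.eq_zero_of_abs_lt_dvd h ?_)
    rw [abs_mul]
    exact (mul_le_mul h1 hmM (abs_nonneg _) (by positivity)).trans_lt (by exact_mod_cast hq)
  have hcard : (Int.divisors F0).card = 2 * n := by rw [fol_card_divisors, hn]
  have hcardF : ((Int.divisors F0).image (Int.cast : ℤ → ZMod q)).card = 2 * n := by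
    rw [card_image_of_injOn, hcard]
    intro f hf f' hf' h
    have h1 : |f| ≤ F0 := Int.le_of_dvd (by omega) ((abs_dvd _ _).2 (hmem.1 hf))
    have h2 : |f'| ≤ F0 := Int.le_of_dvd (by omega) ((abs_dvd _ _).2 (hmem.1 hf'))
    have h3 : F0 * 2 < q := (Nat.mul_le_mul_left _ (by omega)).trans_lt hq
    have := Int.eq_zero_of_abs_lt_dvd ((ZMod.intCast_eq_intCast_iff_dvd_sub _ _ _).1 h)
      ((abs_sub _ _).trans_lt (by omega))
    omega
  obtain ⟨b, hb⟩ := exists_marker q ((Int.divisors F0).image (Int.cast : ℤ → ZMod q))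
    (Nonempty.image ⟨1, hmem.2 (one_dvd _)⟩ _) (fun f hf h => by
      obtain ⟨f', hf', rfl⟩ := mem_image.1 hf
      refine hz f' hf' 2 two_ne_zero (by simp) ?_
      push_cast
      linear_combination h) ℓ hℓ hℓq
  rw [hcardF] at hb
  let Ms : Finset ℤ := (Icc (-M : ℤ) M).erase 0
  have hMs : Ms.card ≤ 2 * M + 1 := card_erase_le.trans (by rw [Int.card_Icc]; omega)
  have hMm : ∀ {m : ℤ}, m ∈ Ms ↔ m ≠ 0 ∧ |m| ≤ M := by
    intro m; simp only [Ms, mem_erase, mem_Icc, abs_le]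
  have hinj : ∀ {A : Finset ℤ}, A ⊆ Int.divisors F0 → ∀ p ∈ Ms ×ˢ A,
      Function.Injective fun r : ZMod q => ((p.2 * p.1 : ℤ) : ZMod q) * r := fun hA p hp =>
    mul_right_injective₀ (hz _ (hA (mem_product.1 hp).2) _ (hMm.1 (mem_product.1 hp).1).1
      (by linarith [(hMm.1 (mem_product.1 hp).1).2]))
  let g : ZMod q → ℕ × ℕ := fun x => (if (x - b).val < ℓ then 0 else 1, Q * x.val / q)
  have hg : (univ.filter fun x => g (x + 1) ≠ g x).card ≤ Q + 5 := by
    have h1 := fol_jumps (q := q) (fun v => if v < ℓ then 0 else 1)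
      (fun v w h => by dsimp only; split_ifs <;> omega) 1
      (fun v _ => by split_ifs <;> omega) b
    have h2 := fol_jumps (q := q) (fun v => Q * v / q)
      (fun v w h => Nat.div_le_div_right (Nat.mul_le_mul_left _ h)) Q
      (fun v hv => Nat.div_le_of_le_mul (by rw [mul_comm]; exact Nat.mul_le_mul_right _ hv.le)) 0
    refine (card_le_card fun x hx => ?_).trans ((card_union_le _ _).trans
      ((add_le_add h1 h2).trans (by omega)))
    simpa only [g, mem_union, mem_filter, mem_univ, true_and, ne_eq, Prod.mk.injEq, not_and_or,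
      sub_zero] using hx
  have h2 := fol_count (Int.divisors F0 \ (Int.divisors (c ^ k : ℕ)).image ((c : ℤ) * ·))
    (fun f (r : ZMod q) => f * r) (fun f hf => mul_right_injective₀ (by
      simpa using hz f (mem_sdiff.1 hf).1 1 one_ne_zero (by simp; omega)))
    (univ.filter fun x : ZMod q => (x - b).val < ℓ)
  have h3 := fol_count _ _ (hinj (sdiff_subset (t := Int.divisors (c ^ k : ℕ))))
    (univ.filter fun x : ZMod q => (x - b).val < ℓ)
  have h4 := fol_count _ _ (hinj Subset.rfl)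
    (univ.filter fun x => ∃ s : ℤ, |s| ≤ (F0 * (M + 4) : ℕ) ∧ g (x + s) ≠ g x)
  have c2 : (Int.divisors F0 \ (Int.divisors (c ^ k : ℕ)).image ((c : ℤ) * ·)).card = 2 * d := by
    rw [card_sdiff_of_subset, card_image_of_injective _ (mul_right_injective₀ hc'), hcard,
      fol_card_divisors]
    · omega
    · intro f hf
      obtain ⟨f', hf', rfl⟩ := mem_image.1 hf
      exact hmem.2 (hF' ▸ mul_dvd_mul_left _ (Int.dvd_of_mem_divisors hf'))
  have c3 : (Int.divisors F0 \ Int.divisors (c ^ k : ℕ)).card = 2 * d := by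
    rw [card_sdiff_of_subset, hcard, fol_card_divisors]
    · omega
    · exact fun f hf => hmem.2 (hF' ▸ (Int.dvd_of_mem_divisors hf).mul_left _)
  rw [c2] at h2
  rw [card_product, c3] at h3
  rw [card_product, hcard] at h4
  replace h2 := h2.trans (Nat.mul_le_mul_left _ (fol_marked b ℓ))
  replace h3 := h3.trans (Nat.mul_le_mul (Nat.mul_le_mul_right _ hMs) (fol_marked b ℓ))
  replace h4 := h4.trans (Nat.mul_le_mul (Nat.mul_le_mul_right _ hMs)
    ((fol_unstable g _).trans (Nat.mul_le_mul_left _ hg)))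
  have key : ∀ A B C D : Finset (ZMod q),
      (q : ℝ) ≤ (A ∪ B ∪ C ∪ D)ᶜ.card + A.card + (B.card + C.card) + D.card := fun A B C D => by
    have e1 := card_add_card_compl (A ∪ B ∪ C ∪ D)
    have e2 := card_union_le (A ∪ B ∪ C) D
    have e3 := card_union_le (A ∪ B) C
    have e4 := card_union_le A B
    rw [ZMod.card] at e1
    exact_mod_cast (by omega :
      q ≤ (A ∪ B ∪ C ∪ D)ᶜ.card + A.card + (B.card + C.card) + D.card)
  refine ⟨fun x => (x - b).val < ℓ, _, (key _ _ _ _).trans (add_le_add (add_le_add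
    (add_le_add le_rfl (hb.trans (by push_cast; rfl)))
    ((add_le_add (Nat.cast_le.2 h2) (Nat.cast_le.2 h3)).trans (le_of_eq (by push_cast; ring))))
    ((Nat.cast_le.2 h4).trans (by push_cast; rfl))), fun x hx => ?_⟩
  simp only [mem_compl, mem_union, mem_filter, mem_univ, true_and, not_or, not_exists, not_and,
    not_forall, not_not, exists_prop, mem_image, mem_sdiff, mem_product,
    Prod.forall, and_imp, forall_exists_index, forall_apply_eq_imp_iff₂] at hx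
  obtain ⟨⟨⟨⟨⟨f, hf, hf'⟩, x1⟩, x2⟩, x3⟩, x4⟩ := hx
  refine fol_good hF0 hc (fun x => by positivity) ⟨f, hmem.1 hf, hf'⟩
    (fun f hf => x1 f (hmem.2 hf)) (fun f hf h => ?_) (fun m f hm hmM hf h => ?_)
    fun m f s hm hmM hf hs => ?_
  · by_contra hn
    exact x2 f (hmem.2 hf) (fun y _ hy => hn ⟨y, hy.symm⟩) h
  · by_contra hn
    refine x3 m f (hMm.2 ⟨hm, hmM⟩) (hmem.2 hf) (fun h => hn ?_) h
    exact hF' ▸ mul_dvd_mul_left _ (Int.dvd_of_mem_divisors h)
  · have h := x4 m f (hMm.2 ⟨hm, hmM⟩) (hmem.2 hf) s hs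
    simp only [g, Prod.mk.injEq] at h
    refine ⟨?_, by rw [h.2]⟩
    have := h.1
    split_ifs at this with h1 h2
    exacts [iff_of_true h1 h2, iff_of_false h1 ‹_›]

end aux

/-- **Følner labelling.**  Let `c = (M+2)!`, `F0 = c^(k+1)` from `divisors_ratio` (ratio `η'²`,
`n = #divisors` large), `𝓕 = ± divisors F0`.  Given `Q1` take `Q ≥ Q1` with `β := Qβ/Q ≈ 1/(η' n)`
(`Qβ` a positive integer) and a large prime `q`.  Cells of `ZMod q` relative to `b`:
`cell t = ⌊Q (t-b).val / q⌋ ∈ [0,Q)`; `t` is *marked* if `cell t < Qβ` (i.e. `(t-b).val < ℓ`,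
`ℓ = ⌈Qβ q/Q⌉`).  For `r`, let `f` be a marker (`f ∈ 𝓕`, `f r` marked) of minimal `|f|`; if it exists and
is unique put `Λ r = (cell (f r) + ⌊Q b.val/q⌋ + 1) · (F0 / f)`, else `Λ r = 0`.  (`Λ 0 = 0`: either no
marker, or both `±1`.)  Purity: `F0 r/q = (F0/f)(f r/q)` and `(f r).val/q` is within `3/Q` of
`(cell + ⌊Qb/q⌋ + 1)/Q` mod 1.  `r` is good if: some marker exists and no pair `±f` of markers
(`exists_marker`); no marker `f` with `c ∤ f` (`≤ 2(n - n') ℓ` values of `r`); for `0<|m|≤M` no marker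
`f'` of `m r` with `c f' ∤ F0`; and for all `f' ∈ 𝓕`, `0<|m|≤M`, `(f' m r - b).val` is at distance
`> F0 (M+4)` from all cell boundaries `⌈i q/Q⌉`, `0 ≤ i ≤ Q` (so that `f'(m r + t)` and `f' m r` lie
in the same cell).  For good `r` with minimal marker `f` the unique minimal marker of `m r + t` is
`f/m`: markers `f'` of `m r+t` are those of `m r`, they satisfy `c f' ∣ F0`, so `f' m ∈ 𝓕` is a marker
of `r`. -/
theorem folner (M : ℕ) (η : ℝ) (hη : 0 < η) :
    ∃ F0 : ℕ, 0 < F0 ∧ ∀ Q1 : ℕ, ∃ Q q : ℕ, Q1 ≤ Q ∧ Q1 ≤ q ∧ 0 < Q ∧ 0 < q ∧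
      ∃ (Λ : ℤ → ℤ) (Good : Finset ℕ), (∀ r, Λ (r + q) = Λ r) ∧ Λ 0 = 0 ∧
        Good ⊆ Finset.range q ∧ (1 - η) * q ≤ Good.card ∧
        (∀ r ∈ Good, Λ r ≠ 0 ∧
          ∀ m t : ℤ, m ≠ 0 → |m| ≤ M → |t| ≤ M + 4 → Λ (m * r + t) = m * Λ r) ∧
        (∀ r : ℤ, Λ r ≠ 0 → ∃ I : ℤ, |(F0 : ℝ) * r / q - (Λ r : ℝ) / Q - I| ≤ 3 * F0 / Q) := by
  obtain ⟨e, he, he'⟩ : ∃ e : ℝ, 0 < e ∧ η = (8 * M + 11) * e :=
    ⟨η / (8 * M + 11), by positivity, by field_simp⟩
  have hc2 : 2 ≤ (M + 2).factorial := le_trans (by omega) (Nat.self_le_factorial _)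
  have hc : ∀ m : ℤ, m ≠ 0 → |m| ≤ M → m ∣ (M + 2).factorial := fun m hm hmM =>
    Int.natAbs_dvd.1 (Int.natCast_dvd_natCast.2 (Nat.dvd_factorial (by omega) (by
      rw [← Int.natCast_natAbs] at hmM; omega)))
  generalize (M + 2).factorial = c at hc2 hc
  obtain ⟨k, hk1, hk2⟩ := divisors_ratio c hc2 (e ^ 2) (by positivity) ⌈8 / e ^ 3 + 1 / e⌉₊
  obtain ⟨d, hd⟩ := Nat.exists_eq_add_of_le (Finset.card_le_card (Nat.divisors_subset_of_dvd
    (pow_ne_zero (k + 1) (by omega : c ≠ 0)) (pow_dvd_pow c k.le_succ)))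
  obtain ⟨n, hn⟩ : ∃ n, (c ^ (k + 1)).divisors.card = n := ⟨_, rfl⟩
  rw [hn] at hk1 hk2 hd
  have hdn : (d : ℝ) ≤ e ^ 2 * n := by
    have : (n : ℝ) = (c ^ k).divisors.card + d := by exact_mod_cast hd
    linarith
  rw [Nat.ceil_le] at hk1
  have h8 : 0 < 8 / e ^ 3 := by positivity
  have h1 : 0 < 1 / e := by positivity
  have hn0 : (0 : ℝ) < n := by linarith
  have hn1 : 1 ≤ n * e := (div_le_iff₀ he).1 (by linarith)
  have hn2 : 8 ≤ n * e ^ 3 := (div_le_iff₀ (by positivity)).1 (by linarith)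
  refine ⟨c ^ (k + 1), by positivity, fun Q1 => ?_⟩
  obtain ⟨A, hA⟩ : ∃ A : ℝ, A = (2 * M + 1) * (2 * n) * ((2 * (c ^ (k + 1) * (M + 4)) + 1) *
    ((Q1 + 1 : ℕ) + 5)) := ⟨_, rfl⟩
  obtain ⟨q, hq, hp⟩ := Nat.exists_infinite_primes
    (Q1 + c ^ (k + 1) * (M + 2) + ⌈n * e⌉₊ + ⌈A / e⌉₊ + 1)
  have := Fact.mk hp
  have hq0 : (0 : ℝ) < q := by exact_mod_cast hp.pos
  have hq1 : n * e ≤ q := Nat.ceil_le.1 (by omega)
  have hq2 : A ≤ q * e := (div_le_iff₀ he).1 (Nat.ceil_le.1 (by omega))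
  have hx1 : 1 ≤ q / (n * e) := (one_le_div (by positivity)).2 hq1
  have hl1 := Nat.le_ceil (q / (n * e))
  have hl2 : (⌈q / (n * e)⌉₊ : ℝ) ≤ 2 * (q / (n * e)) := by
    linarith [Nat.ceil_lt_add_one (a := q / (n * e)) (by positivity)]
  have hl3 : ⌈q / (n * e)⌉₊ ≤ q := Nat.ceil_le.2 (div_le_self hq0.le hn1)
  generalize ⌈q / (n * e)⌉₊ = ℓ at hl1 hl2 hl3
  have hl0 : (0 : ℝ) < ℓ := by linarith
  obtain ⟨mk, G, hG, hG'⟩ := fol_bad (q := q) (k := k) (by omega) hc (by omega)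
    (by exact_mod_cast hl0) hl3 (Q1 + 1) hn hd.symm
  refine ⟨Q1 + 1, q, by omega, by omega, by omega, hp.pos, fun r =>
    folLab (c ^ (k + 1)) mk (fun x : ZMod q => ((Q1 + 1) * x.val / q + 1 : ℕ)) r,
    G.image ZMod.val, fun r => by simp, by simpa using folLab_zero (by positivity),
    fun r hr => ?_, ?_, fun r hr => ?_, fun r hr => fol_pure (by positivity) (by omega) r hr⟩
  · obtain ⟨x, -, rfl⟩ := Finset.mem_image.1 hr
    exact Finset.mem_range.2 (ZMod.val_lt x)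
  · rw [Finset.card_image_of_injective _ (ZMod.val_injective q)]
    rw [div_le_iff₀ (by positivity)] at hl1
    have t1 : q / (ℓ * (2 * n) : ℝ) ≤ e / 2 := by
      rw [div_le_iff₀ (by positivity)]; linarith
    have t2 : 2 * n * ((ℓ : ℝ) / q) ^ 2 ≤ e := by
      have : (ℓ : ℝ) / q ≤ 2 / (n * e) := by
        rw [div_le_iff₀ hq0]; exact hl2.trans (le_of_eq (by ring))
      calc _ ≤ 2 * n * (2 / (n * e)) ^ 2 := by gcongr
        _ = 8 / (n * e ^ 2) := by field_simp; norm_num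
        _ ≤ e := by rw [div_le_iff₀ (by positivity)]; linarith
    have t3 : (d : ℝ) * ℓ ≤ 2 * e * q :=
      (mul_le_mul hdn hl2 hl0.le (by positivity)).trans (le_of_eq (by field_simp))
    have t4 := mul_le_mul_of_nonneg_left (add_le_add t1 t2) hq0.le
    have t5 := mul_le_mul_of_nonneg_left t3 (by positivity : (0 : ℝ) ≤ 4 * M + 4)
    rw [← hA] at hG
    rw [he']
    linarith [mul_pos hq0 he]
  · obtain ⟨x, hx, rfl⟩ := Finset.mem_image.1 hr
    simpa using hG' x hx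

end Crest.Agent.R81
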