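import Crest.Agent.R81.Four1

/-!
# R81: `L²` norms, Parseval, independence of scales
-/

set_option autoImplicit false

namespace Crest.Agent.R81

open MeasureTheory Crest.AnalysisR.Torus3

theorem four_sd_eq (N : ℕ) (Ms : Finset ℤ) (G : ℤ → ℤ → ℂ) (θ : Tc) :
    sd N Ms G θ = ‖(WithLp.toLp 2 fun m : Ms => FT N (G m) θ : EuclideanSpace ℂ Ms)‖ := by
  rw [EuclideanSpace.norm_eq, sd, ← Finset.sum_coe_sort]

theorem four_lift (x : Tc) : ∃ t : ℝ, (t : Tc) = x ∧ |t| = ‖x‖ := by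
  refine ⟨rp x - round (rp x), ?_, ?_⟩
  · rw [AddCircle.coe_sub, coe_intCast, sub_zero, coe_rp]
  · conv_rhs => rw [← coe_rp x, AddCircle.norm_eq]
    simp

/-- pointwise `|sd G - sd G'| ≤ sd (G - G')` (triangle inequality in `ℓ²(Ms)`), then `n2_sd`. -/
theorem n2_sd_sub (N : ℕ) (Ms : Finset ℤ) (G G' : ℤ → ℤ → ℂ) :
    n2 (fun θ => sd N Ms G θ - sd N Ms G' θ) ≤ tn N Ms (fun m i => G m i - G' m i) := by
  rw [← n2_sd]
  refine n2_mono (memLp_cont (cont_sd _ _ _)) fun θ => ?_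
  rw [four_sd_eq, four_sd_eq, four_sd_eq, Real.norm_eq_abs]
  refine (abs_norm_sub_norm_le _ _).trans (le_of_eq ?_)
  congr 1
  ext m
  simp [FT_sub]

theorem sum_sn_le (N : ℕ) (Ms : Finset ℤ) (G : ℤ → ℤ → ℂ) :
    ∑ m ∈ Ms, sn N (G m) ≤ Real.sqrt Ms.card * tn N Ms G := by
  rw [tn, ← Real.sqrt_mul (Nat.cast_nonneg _)]
  exact Real.le_sqrt_of_sq_le sq_sum_le_card_mul_sum_sq

theorem sn_le_tn (N : ℕ) (Ms : Finset ℤ) (G : ℤ → ℤ → ℂ) {m : ℤ} (hm : m ∈ Ms) :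
    sn N (G m) ≤ tn N Ms G := by
  exact Real.le_sqrt_of_sq_le
    (Finset.single_le_sum (f := fun m => sn N (G m) ^ 2) (fun _ _ => sq_nonneg _) hm)

theorem integral_ev_sq (Ms : Finset ℤ) (G : ℤ → ℤ → ℂ) (i : ℤ) :
    ∫ x, ‖ev Ms G i x‖ ^ 2 = ∑ m ∈ Ms, ‖G m i‖ ^ 2 := by
  exact parseval_inj Ms id (Set.injOn_id _) fun m => G m i

theorem tn_sq (N : ℕ) (Ms : Finset ℤ) (G : ℤ → ℤ → ℂ) :
    tn N Ms G ^ 2 = (∑ i ∈ Finset.Ico (0 : ℤ) N, ∑ m ∈ Ms, ‖G m i‖ ^ 2) / N := by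
  rw [tn, Real.sq_sqrt (Finset.sum_nonneg fun _ _ => sq_nonneg _), Finset.sum_comm, Finset.sum_div]
  refine Finset.sum_congr rfl fun m _ => ?_
  rw [sn, Real.sq_sqrt (by positivity)]

theorem four_sum_le (N : ℕ) (Ms : Finset ℤ) (G : ℤ → ℤ → ℂ) {i : ℤ}
    (hi : i ∈ Finset.Ico (0 : ℤ) N) :
    ∑ m ∈ Ms, ‖G m i‖ ≤ Real.sqrt (N * Ms.card) * tn N Ms G := by
  have hN : (0 : ℝ) < N := by
    have := Finset.mem_Ico.1 hi
    exact_mod_cast (show (0 : ℤ) < N by omega)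
  have h1 : ∑ m ∈ Ms, ‖G m i‖ ^ 2 ≤ N * tn N Ms G ^ 2 := by
    rw [tn_sq, mul_div_cancel₀ _ hN.ne']
    exact Finset.single_le_sum (f := fun i => ∑ m ∈ Ms, ‖G m i‖ ^ 2)
      (fun _ _ => Finset.sum_nonneg fun _ _ => sq_nonneg _) hi
  refine le_of_sq_le_sq ?_ (mul_nonneg (Real.sqrt_nonneg _) (tn_nonneg _ _ _))
  rw [mul_pow, Real.sq_sqrt (by positivity)]
  refine sq_sum_le_card_mul_sum_sq.trans ?_
  nlinarith [mul_le_mul_of_nonneg_left h1 (Nat.cast_nonneg (α := ℝ) Ms.card)]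

theorem norm_ev_le (N : ℕ) (Ms : Finset ℤ) (G : ℤ → ℤ → ℂ) {i : ℤ} (hi : i ∈ Finset.Ico (0 : ℤ) N)
    (x : Tc) : ‖ev Ms G i x‖ ≤ Real.sqrt (N * Ms.card) * tn N Ms G := by
  refine (norm_sum_le _ _).trans (le_trans (le_of_eq ?_) (four_sum_le N Ms G hi))
  exact Finset.sum_congr rfl fun m _ => by rw [norm_mul, norm_fourier', mul_one]

/-- `‖fourier m x - fourier m y‖ ≤ 2 π |m| dist x y`: choose a lift `t` of `x - y` with
`|t| = ‖x - y‖` (`AddCircle.norm_eq`, `t - round t`). -/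
theorem norm_fourier_sub_le (m : ℤ) (x y : Tc) :
    ‖fourier m x - fourier m y‖ ≤ 7 * |(m : ℝ)| * dist x y := by
  obtain ⟨t, ht, ht'⟩ := four_lift (x - y)
  have hx : x = y + (t : Tc) := by rw [ht]; abel
  have h1 : fourier m x - fourier m y = fourier m y * (ee (m * t) - 1) := by
    rw [hx, fourier_add_pt, fourier_coe]; ring
  rw [h1, norm_mul, norm_fourier', one_mul, dist_eq_norm, ← ht']
  refine (norm_ee_sub_one_le _).trans ?_
  rw [abs_mul, mul_assoc 7]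
  exact mul_le_mul_of_nonneg_right (by linarith [Real.pi_lt_d2]) (by positivity)

theorem norm_ev_sub_le (N M : ℕ) (Ms : Finset ℤ) (hMs : Ms ⊆ Finset.Icc (-(M : ℤ)) M)
    (G : ℤ → ℤ → ℂ) {i : ℤ} (hi : i ∈ Finset.Ico (0 : ℤ) N) (x y : Tc) :
    ‖ev Ms G i x - ev Ms G i y‖ ≤ 7 * M * dist x y * (Real.sqrt (N * Ms.card) * tn N Ms G) := by
  rw [ev, ev, ← Finset.sum_sub_distrib]
  refine (norm_sum_le _ _).trans (le_trans ?_
    (mul_le_mul_of_nonneg_left (four_sum_le N Ms G hi) (by positivity)))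
  rw [Finset.mul_sum]
  refine Finset.sum_le_sum fun m hm => ?_
  rw [← mul_sub, norm_mul, mul_comm]
  refine mul_le_mul_of_nonneg_right ((norm_fourier_sub_le m x y).trans ?_) (norm_nonneg _)
  have h : |(m : ℝ)| ≤ M := by
    have := Finset.mem_Icc.1 (hMs hm)
    exact_mod_cast abs_le.2 this
  gcongr

theorem BM_ev (Ms : Finset ℤ) (G : ℤ → ℤ → ℂ) (N : ℕ) :
    BM (fun i x => if i ∈ Finset.Ico (0 : ℤ) N then ev Ms G i x else 0) := by
  refine ⟨fun i => ?_, Real.sqrt (N * Ms.card) * tn N Ms G, fun i x => ?_⟩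
  · by_cases hi : i ∈ Finset.Ico (0 : ℤ) N
    · simp only [hi, if_true]
      exact (cont_ev Ms G i).measurable
    · simp only [hi, if_false]
      exact measurable_const
  · by_cases hi : i ∈ Finset.Ico (0 : ℤ) N
    · simp only [hi, if_true]
      exact norm_ev_le N Ms G hi x
    · simp only [hi, if_false, norm_zero]
      exact mul_nonneg (Real.sqrt_nonneg _) (tn_nonneg _ _ _)

/-- every point of the circle has a lift realising its norm -/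
theorem exists_lift_norm (x : Tc) : ∃ t : ℝ, (t : Tc) = x ∧ |t| = ‖x‖ := by
  exact four_lift x

theorem norm_coe_le (t : ℝ) : ‖(t : Tc)‖ ≤ |t| := by
  exact QuotientAddGroup.norm_mk_le_norm

theorem dist_coe_le (s t : ℝ) : dist (s : Tc) (t : Tc) ≤ |s - t| := by
  rw [dist_eq_norm, ← AddCircle.coe_sub]
  exact norm_coe_le _

/-- `‖1 - e(ξ)‖ = 2 |sin π ξ| ≥ 4 ‖ξ‖`. -/
theorem four_norm_le (x : Tc) : 4 * ‖x‖ ≤ ‖1 - fourier (-1) x‖ := by
  obtain ⟨t, rfl, ht⟩ := four_lift x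
  have h1 : ‖(t : Tc)‖ ≤ |(1 : ℝ)| / 2 := AddCircle.norm_le_half_period 1 one_ne_zero
  rw [← ht, abs_one] at h1
  have h : (2 * Real.pi * Complex.I * (((-1 : ℤ) * t : ℝ) : ℂ) : ℂ) =
      Complex.I * ((2 * (Real.pi * -t) : ℝ) : ℂ) := by
    push_cast; ring
  rw [← ht, fourier_coe, norm_sub_rev, ee_eq, h, Complex.norm_exp_I_mul_ofReal_sub_one,
    mul_div_cancel_left₀ _ two_ne_zero, Real.norm_eq_abs, abs_mul, abs_two]
  have h2 : |Real.pi * -t| = Real.pi * |t| := by rw [abs_mul, abs_neg, abs_of_pos Real.pi_pos]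
  have h3 := Real.mul_abs_le_abs_sin (x := Real.pi * -t) (by
    rw [h2]; nlinarith [Real.pi_pos])
  rw [h2, ← mul_assoc, div_mul_cancel₀ _ Real.pi_ne_zero] at h3
  linarith

end Crest.Agent.R81
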