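import Crest.Agent.R81.N2

/-!
# R81: `L²` norms, Parseval, independence of scales
-/

set_option autoImplicit false

namespace Crest.Agent.R81

open MeasureTheory Crest.AnalysisR.Torus3

/-- orthogonality of characters.  For `n ≠ 0` use e.g. `orthonormal_fourier` with
`AddCircle.volume_eq_smul_haarAddCircle`, or translation invariance (`fourier_add_half_inv_index`,
`integral_eq_zero_of_add_right_eq_neg`). -/
theorem integral_fourier (n : ℤ) : ∫ θ : Tc, fourier n θ = if n = 0 then 1 else 0 := by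
  split_ifs with hn
  · subst hn; simp
  · exact integral_eq_zero_of_add_right_eq_neg (μ := (volume : Measure Tc))
      (fourier_add_half_inv_index hn one_pos)

theorem f1_integrable_cont {E : Type} [NormedAddCommGroup E] {f : Tc → E} (hf : Continuous f) :
    Integrable f volume :=
  hf.integrable_of_hasCompactSupport (HasCompactSupport.of_compactSpace f)

/-- weighted Parseval identity -/
theorem f1_parseval_w {ι : Type} (S : Finset ι) (e : ι → ℤ) (c : ι → ℂ) {w : Tc → ℝ}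
    (hw : Continuous w)
    (h0 : ∀ i ∈ S, ∀ j ∈ S, i ≠ j → ∫ θ : Tc, fourier (e i - e j) θ * (w θ : ℂ) = 0) :
    ∫ θ : Tc, ‖∑ i ∈ S, c i * fourier (e i) θ‖ ^ 2 * w θ = (∑ i ∈ S, ‖c i‖ ^ 2) * ∫ θ, w θ := by
  classical
  have key : ∀ θ : Tc, ((‖∑ i ∈ S, c i * fourier (e i) θ‖ ^ 2 * w θ : ℝ) : ℂ) =
      ∑ i ∈ S, ∑ j ∈ S, c i * (starRingEnd ℂ) (c j) * (fourier (e i - e j) θ * (w θ : ℂ)) := by
    intro θ
    rw [Complex.ofReal_mul, Complex.ofReal_pow, ← Complex.mul_conj', map_sum, Finset.sum_mul_sum,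
      Finset.sum_mul]
    refine Finset.sum_congr rfl fun i _ => ?_
    rw [Finset.sum_mul]
    refine Finset.sum_congr rfl fun j _ => ?_
    rw [sub_eq_add_neg, fourier_add, fourier_neg, map_mul]
    ring
  apply Complex.ofReal_injective
  rw [← integral_complex_ofReal]
  simp_rw [key]
  rw [integral_finsetSum _ fun i _ => integrable_finsetSum _ fun j _ =>
    f1_integrable_cont (by fun_prop)]
  rw [Complex.ofReal_mul, Complex.ofReal_sum, Finset.sum_mul]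
  refine Finset.sum_congr rfl fun i hi => ?_
  rw [integral_finsetSum _ fun j _ => f1_integrable_cont (by fun_prop)]
  rw [Finset.sum_eq_single_of_mem i hi]
  · rw [integral_const_mul, sub_self]
    simp only [fourier_zero, one_mul]
    rw [integral_complex_ofReal, Complex.mul_conj', Complex.ofReal_pow]
  · intro j hj hji
    rw [integral_const_mul, h0 i hi j hj hji.symm, mul_zero]

/-- Parseval for a finite family with distinct exponents. -/
theorem parseval_inj {ι : Type} (S : Finset ι) (e : ι → ℤ) (he : Set.InjOn e S) (c : ι → ℂ) :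
    ∫ θ : Tc, ‖∑ i ∈ S, c i * fourier (e i) θ‖ ^ 2 = ∑ i ∈ S, ‖c i‖ ^ 2 := by
  have h := f1_parseval_w S e c (w := fun _ => 1) continuous_const (by
    intro i hi j hj hij
    have hne : e i - e j ≠ 0 := fun h => hij (he hi hj (sub_eq_zero.1 h))
    simp only [Complex.ofReal_one, mul_one]
    rw [integral_fourier, if_neg hne])
  simpa using h

theorem sn_nonneg (N : ℕ) (g : ℤ → ℂ) : 0 ≤ sn N g := Real.sqrt_nonneg _
theorem tn_nonneg (N : ℕ) (Ms : Finset ℤ) (G : ℤ → ℤ → ℂ) : 0 ≤ tn N Ms G := Real.sqrt_nonneg _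
theorem sd_nonneg (N : ℕ) (Ms : Finset ℤ) (G : ℤ → ℤ → ℂ) (θ : Tc) : 0 ≤ sd N Ms G θ :=
  Real.sqrt_nonneg _

theorem f1_sn_sq (N : ℕ) (g : ℤ → ℂ) :
    sn N g ^ 2 = (∑ i ∈ Finset.Ico (0 : ℤ) N, ‖g i‖ ^ 2) / N := by
  unfold sn
  rw [Real.sq_sqrt (by positivity)]

theorem f1_norm_FT_sq (N : ℕ) (g : ℤ → ℂ) (θ : Tc) :
    ‖FT N g θ‖ ^ 2 = (N : ℝ)⁻¹ * ‖∑ i ∈ Finset.Ico (0 : ℤ) N, g i * fourier (-i) θ‖ ^ 2 := by
  unfold FT
  rw [norm_mul, mul_pow, Complex.norm_real, Real.norm_eq_abs, sq_abs, inv_pow,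
    Real.sq_sqrt (Nat.cast_nonneg N)]

theorem f1_integral_FT_sq (N : ℕ) (g : ℤ → ℂ) : ∫ θ, ‖FT N g θ‖ ^ 2 = sn N g ^ 2 := by
  simp_rw [f1_norm_FT_sq]
  rw [integral_const_mul, parseval_inj _ (fun i : ℤ => -i) (fun a _ b _ h => neg_injective h),
    f1_sn_sq, div_eq_inv_mul]

theorem n2_FT (N : ℕ) (g : ℤ → ℂ) : n2 (FT N g) = sn N g := by
  rw [n2_eq_sqrt (cont_FT N g).aestronglyMeasurable, f1_integral_FT_sq, Real.sqrt_sq (sn_nonneg N g)]

theorem n2_sd (N : ℕ) (Ms : Finset ℤ) (G : ℤ → ℤ → ℂ) : n2 (sd N Ms G) = tn N Ms G := by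
  rw [n2_eq_sqrt (cont_sd N Ms G).aestronglyMeasurable]
  have e : ∀ θ, ‖sd N Ms G θ‖ ^ 2 = ∑ m ∈ Ms, ‖FT N (G m) θ‖ ^ 2 := by
    intro θ
    rw [Real.norm_eq_abs, sq_abs]
    unfold sd
    rw [Real.sq_sqrt (by positivity)]
  simp_rw [e]
  rw [integral_finsetSum _ fun m _ => f1_integrable_cont (by fun_prop)]
  simp_rw [f1_integral_FT_sq]
  rfl

theorem FT_add (N : ℕ) (g h : ℤ → ℂ) (θ : Tc) :
    FT N (fun i => g i + h i) θ = FT N g θ + FT N h θ := by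
  unfold FT
  simp_rw [add_mul]
  rw [Finset.sum_add_distrib, mul_add]

theorem FT_sub (N : ℕ) (g h : ℤ → ℂ) (θ : Tc) :
    FT N (fun i => g i - h i) θ = FT N g θ - FT N h θ := by
  unfold FT
  simp_rw [sub_mul]
  rw [Finset.sum_sub_distrib, mul_sub]

theorem FT_const_mul (N : ℕ) (c : ℂ) (g : ℤ → ℂ) (θ : Tc) :
    FT N (fun i => c * g i) θ = c * FT N g θ := by
  unfold FT
  simp_rw [mul_assoc]
  rw [← Finset.mul_sum]
  ring

theorem FT_sum {ι : Type} (N : ℕ) (S : Finset ι) (g : ι → ℤ → ℂ) (θ : Tc) :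
    FT N (fun i => ∑ k ∈ S, g k i) θ = ∑ k ∈ S, FT N (g k) θ := by
  unfold FT
  simp_rw [Finset.sum_mul]
  rw [Finset.sum_comm, Finset.mul_sum]

theorem sn_const_mul (N : ℕ) (c : ℂ) (g : ℤ → ℂ) : sn N (fun i => c * g i) = ‖c‖ * sn N g := by
  unfold sn
  simp_rw [norm_mul, mul_pow]
  rw [← Finset.mul_sum, mul_div_assoc, Real.sqrt_mul (sq_nonneg _), Real.sqrt_sq (norm_nonneg _)]

theorem f1_integral_comp_nsmul (N : ℕ) (hN : 0 < N) {Ψ : Tc → ℝ} (hΨ : Continuous Ψ) :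
    ∫ θ : Tc, Ψ (N • θ) = ∫ ξ, Ψ ξ := by
  have hmp : MeasurePreserving (fun θ : Tc => (N : ℤ) • θ) volume volume :=
    Measure.measurePreserving_zsmul volume (by exact_mod_cast hN.ne')
  have h := integral_map (μ := (volume : Measure Tc)) hmp.measurable.aemeasurable
    (f := Ψ) hΨ.aestronglyMeasurable
  rw [hmp.map_eq] at h
  rw [h]
  simp only [natCast_zsmul]

theorem f1_integral_fourier_nsmul (N : ℕ) (hN : 0 < N) {k : ℤ} (hk : ¬ (N : ℤ) ∣ k) (Ψ : Tc → ℝ) :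
    ∫ θ : Tc, fourier k θ * (Ψ (N • θ) : ℂ) = 0 := by
  have hN' : (N : ℝ) ≠ 0 := by exact_mod_cast hN.ne'
  set a : Tc := (((N : ℝ)⁻¹ : ℝ) : Tc) with ha
  have hNa : N • a = 0 := by
    rw [ha, ← AddCircle.coe_nsmul, nsmul_eq_mul, mul_inv_cancel₀ hN']
    exact_mod_cast coe_intCast 1
  have h1 := integral_add_right_eq_self (μ := (volume : Measure Tc))
    (fun θ : Tc => fourier k θ * (Ψ (N • θ) : ℂ)) a
  have h2 : ∀ θ : Tc, fourier k (θ + a) * (Ψ (N • (θ + a)) : ℂ) =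
      fourier k a * (fourier k θ * (Ψ (N • θ) : ℂ)) := by
    intro θ
    rw [smul_add, hNa, add_zero, fourier_add_pt]; ring
  simp_rw [h2] at h1
  rw [integral_const_mul] at h1
  have h3 : fourier k a ≠ 1 := by
    intro h
    rw [ha, fourier_coe, ee_eq, Complex.exp_eq_one_iff] at h
    obtain ⟨n, hn⟩ := h
    apply hk
    refine ⟨n, ?_⟩
    have hpi : (2 * Real.pi * Complex.I : ℂ) ≠ 0 := Complex.two_pi_I_ne_zero
    have h4 : (((k : ℝ) * (N : ℝ)⁻¹ : ℝ) : ℂ) = (n : ℂ) := by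
      apply mul_left_cancel₀ hpi
      rw [hn]; ring
    have h5 : (k : ℝ) * (N : ℝ)⁻¹ = (n : ℝ) := by exact_mod_cast h4
    have h6 : (k : ℝ) = (N : ℝ) * n := by
      rw [← h5]; field_simp
    exact_mod_cast h6
  have h4 : (fourier k a - 1) * ∫ θ : Tc, fourier k θ * (Ψ (N • θ) : ℂ) = 0 := by
    rw [sub_mul, h1]; ring
  rcases mul_eq_zero.1 h4 with h | h
  · exact absurd (sub_eq_zero.1 h) h3
  · exact h

/-- Independence of scales.  Expand `‖FT‖² = N⁻¹ ∑ g i conj (g i') fourier (i'-i)`.  For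
`0 < |k| < N`, `∫ fourier k θ * Ψ (N • θ) = 0` by invariance under `θ ↦ θ + 1/N`
(the integral is multiplied by `e(k/N) ≠ 1`); for `k = 0` use that `θ ↦ N • θ` preserves the
measure (`AddMonoidHom.measurePreserving`, or `MeasureTheory.measurePreserving_zsmul`-type lemma). -/
theorem indep (N : ℕ) (hN : 0 < N) (g : ℤ → ℂ) {Ψ : Tc → ℝ} (hΨ : Continuous Ψ) :
    ∫ θ, ‖FT N g θ‖ ^ 2 * Ψ (N • θ) = sn N g ^ 2 * ∫ ξ, Ψ ξ := by
  simp_rw [f1_norm_FT_sq, mul_assoc]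
  rw [integral_const_mul, f1_parseval_w _ (fun i : ℤ => -i) g (w := fun θ => Ψ (N • θ))
    (by fun_prop), f1_integral_comp_nsmul N hN hΨ, f1_sn_sq, div_eq_inv_mul, mul_assoc]
  intro i hi j hj hij
  apply f1_integral_fourier_nsmul N hN
  rw [Finset.mem_Ico] at hi hj
  intro hd
  have := Int.eq_zero_of_abs_lt_dvd hd (by rw [abs_lt]; constructor <;> omega)
  omega

theorem n2_indep (N : ℕ) (hN : 0 < N) (g : ℤ → ℂ) {w : Tc → ℝ} (hw : Continuous w) :
    n2 (fun θ => ‖FT N g θ‖ * w (N • θ)) = sn N g * n2 w := by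
  rw [n2_eq_sqrt (Continuous.aestronglyMeasurable (by fun_prop)),
    n2_eq_sqrt hw.aestronglyMeasurable]
  have e : ∀ θ : Tc, ‖‖FT N g θ‖ * w (N • θ)‖ ^ 2 = ‖FT N g θ‖ ^ 2 * ‖w (N • θ)‖ ^ 2 := by
    intro θ; rw [norm_mul, mul_pow, norm_norm]
  simp_rw [e]
  rw [indep N hN g (Ψ := fun ξ => ‖w ξ‖ ^ 2) (by fun_prop), Real.sqrt_mul (sq_nonneg _),
    Real.sqrt_sq (sn_nonneg N g)]

end Crest.Agent.R81
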