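import Crest.Agent.R81.Filt

/-!
# R81: frequency data; the merging step A
-/

set_option autoImplicit false

namespace Crest.Agent.R81

open MeasureTheory

/-- time shift -/
noncomputable def shf (s0 J' : ℕ) (x : Tc) : ℤ := (s0 : ℤ) * ⌊(J' : ℝ) * rp x⌋

/-- phase on zone `d` -/
noncomputable def phs (lam : ℕ → ℤ) (α1 : ℝ) (α2 : ℕ → ℝ) (J' : ℕ) (x : Tc) (d : ℕ) : ℝ :=
  lam d * rp x + α1 * Int.fract ((J' : ℝ) * rp x) + α2 d * rp x

/-- the frequency side hypotheses of a step -/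
def FreqH (N K D : ℕ) (Ds : Finset ℕ) (η : ℝ) (s0 J' : ℕ) (lam : ℕ → ℤ) (α1 : ℝ) (α2 : ℕ → ℝ)
    (Ms0 : Finset ℤ) (C0 U : ℤ → Set Tc) (Θ : ℤ → Tc → Tc → ℂ) (Ns0 : Finset ℤ) (A : ℤ → Set Tc)
    (η1 ε2 : ℝ) : Prop :=
  (∀ m θ x, ‖Θ m θ x‖ ≤ 1) ∧
  (∀ m ∈ Ms0, ∀ d ∈ Ds, ∀ θ x : Tc, dist (N • θ) ((m * K * d / D : ℝ) : Tc) ≤ η →
    θ ∈ U m ∧ ‖fourier (shf s0 J' x) θ * ee (m * phs lam α1 α2 J' x d) - Θ m θ x‖ ≤ η1) ∧
  (∀ m ∈ Ms0, ∀ θ ∈ U m, θ ∈ C0 m → ∃ n ∈ Ns0, θ ∈ A n ∧ ∀ x, ‖Θ m θ x - fourier n x‖ ≤ ε2)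

theorem FreqH.mono {N K D : ℕ} {Ds : Finset ℕ} {η : ℝ} {s0 J' : ℕ} {lam : ℕ → ℤ} {α1 : ℝ}
    {α2 : ℕ → ℝ} {Ms0 Ms1 : Finset ℤ} {C0 U : ℤ → Set Tc} {Θ : ℤ → Tc → Tc → ℂ} {Ns0 : Finset ℤ}
    {A : ℤ → Set Tc} {η1 ε2 : ℝ} (h : FreqH N K D Ds η s0 J' lam α1 α2 Ms0 C0 U Θ Ns0 A η1 ε2)
    (hs : Ms1 ⊆ Ms0) : FreqH N K D Ds η s0 J' lam α1 α2 Ms1 C0 U Θ Ns0 A η1 ε2 :=
  ⟨h.1, fun m hm => h.2.1 m (hs hm), fun m hm => h.2.2 m (hs hm)⟩

/-- on the core `C m` the time shift by `s0` is almost the fibre rotation by `1/Q'`; and the core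
`C 0` avoids the frequencies at which the new character of step B would vanish -/
def Pure (N : ℕ) (Ms : Finset ℤ) (C : ℤ → Set Tc) (εp : ℝ) : Prop :=
  ∃ s0 Q' : ℕ, 0 < s0 ∧ 0 < Q' ∧
    (∀ m ∈ insert 0 Ms, ∀ t : ℝ, (t : Tc) ∈ C m → ∃ I : ℤ, |s0 * t - (m : ℝ) / Q' - I| ≤ εp) ∧
    (∀ t : ℝ, (t : Tc) ∈ C 0 → ∀ κ I : ℤ, |s0 * t - I| < 1 / 2 → (s0 : ℤ) * κ ≠ I * N)

/-- cores used when merging an arbitrary function -/
def Cmer (N : ℕ) (m : ℤ) : Set Tc := if m = 0 then {θ | 1 / (2 * (N : ℝ)) ≤ ‖θ‖} else Set.univ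

theorem fq_lift_near (t : ℝ) (θ' : Tc) : ∃ t' : ℝ, (t' : Tc) = θ' ∧ |t - t'| = dist (t : Tc) θ' := by
  obtain ⟨u, hu, hn⟩ := exists_lift_norm ((t : Tc) - θ')
  refine ⟨t - u, ?_, ?_⟩
  · rw [AddCircle.coe_sub, hu]; abel
  · rw [dist_eq_norm, ← hn]; congr 1; ring

theorem fq_int_near (t : ℝ) : ∃ κ : ℤ, |t - κ| = ‖(t : Tc)‖ := by
  obtain ⟨u, hu, hn⟩ := exists_lift_norm (t : Tc)
  obtain ⟨n, hn'⟩ := (coe_eq_coe_iff _ _).1 hu
  refine ⟨-n, ?_⟩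
  rw [← hn, hn']; congr 1; push_cast; ring

theorem fq_nsmul (N : ℕ) (t : ℝ) : N • (t : Tc) = (((N : ℝ) * t : ℝ) : Tc) := by
  rw [← AddCircle.coe_nsmul, nsmul_eq_mul]

theorem fq_per {q : ℕ} {Λ : ℤ → ℤ} (hper : ∀ r, Λ (r + q) = Λ r) (r k : ℤ) :
    Λ (r + q * k) = Λ r := by
  have := (Function.Periodic.int_mul (f := Λ) (c := (q : ℤ)) hper k) r
  rwa [Int.cast_id, mul_comm] at this

theorem fq_floor_sub {a b : ℝ} (h : |a - b| ≤ 1) : |⌊a⌋ - ⌊b⌋| ≤ 1 := by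
  rw [abs_le] at h ⊢
  have h1 : ⌊a⌋ ≤ ⌊b + 1⌋ := Int.floor_le_floor (by linarith)
  have h2 : ⌊b⌋ ≤ ⌊a + 1⌋ := Int.floor_le_floor (by linarith)
  rw [Int.floor_add_one] at h1 h2
  constructor <;> linarith

/-- all cells near `t` carry the label `n` -/
def fqP (N q Λ0 : ℕ) (Λ : ℤ → ℤ) (n : ℤ) (t : ℝ) : Prop :=
  ∀ j : ℤ, |j| ≤ 2 → Λ0 * Λ (⌊(q : ℝ) * N * t⌋ + j) = n

theorem fqP_rp {N q Λ0 : ℕ} {Λ : ℤ → ℤ} (hper : ∀ r, Λ (r + q) = Λ r) (n : ℤ) (t : ℝ) :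
    fqP N q Λ0 Λ n (rp (t : Tc)) ↔ fqP N q Λ0 Λ n t := by
  obtain ⟨k, hk⟩ := (coe_eq_coe_iff _ _).1 (coe_rp (t : Tc))
  unfold fqP
  have : (q : ℝ) * N * rp (t : Tc) = q * N * t + ((q * (N * k) : ℤ) : ℝ) := by
    rw [hk]; push_cast; ring
  rw [this, Int.floor_add_intCast]
  refine forall₂_congr fun j _ => ?_
  rw [add_right_comm, fq_per hper]

/-- **Step A data.**  Put `cell θ = ⌊q · rp (N•θ)⌋`, `lab θ = Λ0 Λ(cell θ)`;
`A n = {θ | ∀ |t| ≤ 2, Λ0 Λ(cell θ + t) = n}` for `n ≠ 0`, `A 0 = {‖N•θ‖ ≤ η ∧ 1/(2N) ≤ ‖θ‖}`,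
`Ns = insert 0 (image of range q under Λ0 Λ)`, `U m = ⋃_{n ∈ Ns.erase 0} A n` (`m ≠ 0`),
`U 0 = {‖N•θ‖ ≤ η}`, `Θ m θ x = fourier (lab θ) x` (`m ≠ 0`), `Θ 0 = 1`; `r` small:
`3 r N q ≤ 1/2`, `F0 N r ≤ εp/4`.
* If `dist (N•θ) (m K d/D) ≤ η ≤ 1/(2q)`, `ρ = (d/D2) % q`: `K d/D = (d/D2 : ℝ)/q`, so
  `cell θ ≡ m ρ + t (mod q)` with `|t| ≤ M+2`; hence all `Λ(cell θ + t') = m Λ ρ`.  `shf 0 1 x = 0`,
  `phs = lam d · rp x`, `ee (m · lam d · rp x) = fourier (m lam d) x`.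
* Separation: points at distance `< 3r` have cells differing by at most one mod `q`; `Λ 0 = 0` forces
  `cell θ ∉ {-2,…,2}` mod `q`, i.e. `‖N•θ‖ ≥ 2/q`, on `A n`, `n ≠ 0`.
* Purity with `s0 = F0 N`, `Q' = Λ0 Q`.  For the last clause: `θ₁ ∈ A 0` near `t`, `κ₀ = round (N t₁)`,
  `N ∤ κ₀` (else `‖θ₁‖ ≤ η/N < 1/(2N)`), `I = F0 κ₀`, and `F0 N κ = F0 κ₀ N'` would give `N ∣ κ₀`. -/
theorem freqA (N K M F0 Q q D2 Λ0 : ℕ) (hN : 0 < N) (hK : 0 < K) (hF0 : 0 < F0) (hQ : 0 < Q)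
    (hq : 0 < q) (hD2 : 0 < D2) (hΛ0 : 0 < Λ0) (Λ : ℤ → ℤ) (Good : Finset ℕ)
    (hper : ∀ r, Λ (r + q) = Λ r) (h0 : Λ 0 = 0)
    (hGood : ∀ r ∈ Good, Λ r ≠ 0 ∧
      ∀ m t : ℤ, m ≠ 0 → |m| ≤ M → |t| ≤ M + 4 → Λ (m * r + t) = m * Λ r)
    (hpur : ∀ r : ℤ, Λ r ≠ 0 → ∃ I : ℤ, |(F0 : ℝ) * r / q - (Λ r : ℝ) / Q - I| ≤ 3 * F0 / Q)
    (η εp : ℝ) (hη : 0 < η) (hηq : η ≤ 1 / (2 * q)) (hη4 : η ≤ 1 / 4) (hεp : εp ≤ 1 / 4)
    (h1 : 3 * (F0 : ℝ) / Q + F0 / q ≤ εp / 2) (h2 : F0 * η ≤ εp / 2)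
    (Ds : Finset ℕ) (hDs : ∀ d ∈ Ds, d / D2 % q ∈ Good) :
    ∃ (Ns : Finset ℤ) (A U : ℤ → Set Tc) (r : ℝ) (Θ : ℤ → Tc → Tc → ℂ),
      0 ∈ Ns ∧ 0 < r ∧ Sep Ns A (3 * r) ∧ (∀ θ ∈ U 0, ‖N • θ‖ ≤ η) ∧
      FreqH N K (K * q * D2) Ds η 0 1 (fun d => Λ0 * Λ (d / D2 % q : ℕ)) 0 (fun _ => 0)
        (Finset.Icc (-(M : ℤ)) M) (Cmer N) U Θ Ns A 0 0 ∧
      (∀ C0 : ℤ → Set Tc,
        FreqH N K (K * q * D2) Ds η 0 1 (fun d => Λ0 * Λ (d / D2 % q : ℕ)) 0 (fun _ => 0)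
          ((Finset.Icc (-(M : ℤ)) M).erase 0) C0 U Θ (Ns.erase 0) A 0 0) ∧
      ∀ N' : ℕ, Nat.Coprime N N' →
        Pure N' (Ns.erase 0) (fun n => Metric.thickening r (A n)) εp := by
  classical
  have hNr : (0 : ℝ) < N := by exact_mod_cast hN
  have hKr : (0 : ℝ) < K := by exact_mod_cast hK
  have hqr : (0 : ℝ) < q := by exact_mod_cast hq
  have hQr : (0 : ℝ) < Q := by exact_mod_cast hQ
  have hDr : (0 : ℝ) < D2 := by exact_mod_cast hD2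
  have hFr : (0 : ℝ) < F0 := by exact_mod_cast hF0
  have hΛr : (0 : ℝ) < Λ0 := by exact_mod_cast hΛ0
  have hΛz : (Λ0 : ℤ) ≠ 0 := by exact_mod_cast hΛ0.ne'
  have hεp0 : 0 < εp := by
    have : 0 < 3 * (F0 : ℝ) / Q + F0 / q := by positivity
    linarith
  set Ns : Finset ℤ := insert 0 ((Finset.range q).image fun ρ : ℕ => (Λ0 : ℤ) * Λ ρ) with hNs
  set A : ℤ → Set Tc := fun n => if n = 0 then {θ | ‖N • θ‖ ≤ η ∧ 1 / (2 * (N : ℝ)) ≤ ‖θ‖}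
    else {θ | fqP N q Λ0 Λ n (rp θ)} with hA
  set U : ℤ → Set Tc := fun m => if m = 0 then {θ | ‖N • θ‖ ≤ η}
    else {θ | ∃ n ≠ 0, fqP N q Λ0 Λ n (rp θ)} with hU
  set Θ : ℤ → Tc → Tc → ℂ := fun m θ x =>
    if m = 0 then 1 else fourier ((Λ0 : ℤ) * Λ ⌊(q : ℝ) * N * rp θ⌋) x with hΘ
  set r : ℝ := min (1 / (6 * q * N)) (εp / (4 * F0 * N)) with hr
  have hr0 : 0 < r := lt_min (by positivity) (by positivity)
  have hr1 : 3 * r * (q * N) ≤ 1 / 2 := by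
    have : r ≤ 1 / (6 * q * N) := min_le_left _ _
    rw [le_div_iff₀ (by positivity)] at this
    linarith
  have hr2 : F0 * N * r ≤ εp / 4 := by
    have : r ≤ εp / (4 * F0 * N) := min_le_right _ _
    rw [le_div_iff₀ (by positivity)] at this
    linarith
  have hA0 : ∀ θ, θ ∈ A 0 ↔ ‖N • θ‖ ≤ η ∧ 1 / (2 * (N : ℝ)) ≤ ‖θ‖ := fun θ => by simp [hA]
  have hA1 : ∀ n, n ≠ 0 → ∀ t : ℝ, (t : Tc) ∈ A n ↔ fqP N q Λ0 Λ n t := fun n hn t => by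
    simp only [hA, if_neg hn, Set.mem_ofPred_eq]
    exact fqP_rp hper n t
  have hηq' : q * η ≤ 1 / 2 := by
    rw [le_div_iff₀ (by positivity)] at hηq
    linarith
  have hΘ1 : ∀ m θ x, ‖Θ m θ x‖ ≤ 1 := by
    intro m θ x
    simp only [hΘ]
    split_ifs
    · simp
    · exact (norm_fourier' _ _).le
  have hH1 : ∀ m ∈ Finset.Icc (-(M : ℤ)) M, ∀ d ∈ Ds, ∀ θ x : Tc,
      dist (N • θ) ((m * K * d / (K * q * D2 : ℕ) : ℝ) : Tc) ≤ η →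
      θ ∈ U m ∧ ‖fourier (shf 0 1 x) θ *
        ee (m * phs (fun d => Λ0 * Λ (d / D2 % q : ℕ)) 0 (fun _ => 0) 1 x d) - Θ m θ x‖ ≤ 0 := by
    intro m hm d hd θ x hθ
    have hs : fourier (shf 0 1 x) θ = 1 := by simp [shf]
    rw [hs, one_mul]
    by_cases hm0 : m = 0
    · subst hm0
      simp only [hU, hΘ, if_true, Set.mem_ofPred_eq]
      simp only [Int.cast_zero, zero_mul, zero_div, QuotientAddGroup.mk_zero, dist_zero_right] at hθ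
      simp [hθ, ee_zero]
    · set t := rp θ with ht
      have hθt : θ = (t : Tc) := (coe_rp θ).symm
      rw [hθt, fq_nsmul, dist_eq_norm, ← AddCircle.coe_sub] at hθ
      obtain ⟨κ, hκ⟩ := fq_int_near ((N : ℝ) * t - m * K * d / (K * q * D2 : ℕ))
      rw [← hκ] at hθ
      set ρ : ℕ := d / D2 % q with hρ
      set c : ℕ := d / D2 / q with hc
      set b : ℕ := d % D2 with hb
      have hd1 : (d : ℝ) = D2 * (q * c + ρ) + b := by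
        have e1 : D2 * (d / D2) + d % D2 = d := Nat.div_add_mod d D2
        have e2 : q * (d / D2 / q) + d / D2 % q = d / D2 := Nat.div_add_mod _ q
        rw [← e2] at e1
        exact_mod_cast e1.symm
      have hb1 : (b : ℝ) / D2 < 1 := by
        rw [div_lt_one hDr]; exact_mod_cast Nat.mod_lt _ hD2
      have hb0 : (0 : ℝ) ≤ (b : ℝ) / D2 := by positivity
      set e : ℝ := (N : ℝ) * t - m * K * d / (K * q * D2 : ℕ) - κ with he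
      have hmM : |(m : ℝ)| ≤ M := by
        rw [Finset.mem_Icc] at hm
        exact_mod_cast abs_le.2 hm
      have hmM' : |m| ≤ M := by exact_mod_cast hmM
      have e3 : (q : ℝ) * N * t = (m * (b / D2) + q * e) + ((m * ρ + q * (κ + m * c) : ℤ) : ℝ) := by
        rw [he, hd1]; push_cast; field_simp; ring
      have e4 : |m * ((b : ℝ) / D2) + q * e| ≤ M + 1 / 2 := by
        refine (abs_add_le _ _).trans (add_le_add ?_ ?_)
        · rw [abs_mul, abs_of_nonneg hb0]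
          nlinarith [abs_nonneg (m : ℝ)]
        · rw [abs_mul, abs_of_pos hqr]
          nlinarith
      have e5 : |⌊m * ((b : ℝ) / D2) + q * e⌋| ≤ M + 1 := by
        rw [abs_le] at e4 ⊢
        constructor
        · rw [Int.le_floor]; push_cast; linarith
        · have := Int.floor_le (m * ((b : ℝ) / D2) + q * e)
          have h : ((⌊m * ((b : ℝ) / D2) + q * e⌋ : ℤ) : ℝ) ≤ ((M + 1 : ℤ) : ℝ) := by
            push_cast; linarith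
          exact_mod_cast h
      obtain ⟨hg1, hg2⟩ := hGood ρ (hDs d hd)
      have hP : fqP N q Λ0 Λ (Λ0 * (m * Λ ρ)) t := by
        intro j hj
        rw [e3, Int.floor_add_intCast]
        have : ⌊m * ((b : ℝ) / D2) + q * e⌋ + (m * ρ + q * (κ + m * c)) + j
            = (m * ρ + (⌊m * ((b : ℝ) / D2) + q * e⌋ + j)) + q * (κ + m * c) := by ring
        rw [this, fq_per hper, hg2 m _ hm0 hmM' ((abs_add_le _ _).trans (by linarith))]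
      refine ⟨?_, ?_⟩
      · simp only [hU, if_neg hm0, Set.mem_ofPred_eq]
        exact ⟨_, mul_ne_zero hΛz (mul_ne_zero hm0 hg1), hP⟩
      · have h0 := hP 0 (by simp)
        rw [add_zero] at h0
        simp only [hΘ, if_neg hm0, ← ht, h0]
        rw [← coe_rp x, fourier_coe, coe_rp x, norm_le_zero_iff, sub_eq_zero]
        congr 1
        simp only [phs, ← hρ]
        push_cast; ring
  have hH2 : ∀ m : ℤ, m ≠ 0 → ∀ θ ∈ U m,
      ∃ n ∈ Ns.erase 0, θ ∈ A n ∧ ∀ x, ‖Θ m θ x - fourier n x‖ ≤ 0 := by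
    intro m hm0 θ hθ
    simp only [hU, if_neg hm0, Set.mem_ofPred_eq] at hθ
    obtain ⟨n, hn, hP⟩ := hθ
    have h0 := hP 0 (by simp)
    rw [add_zero] at h0
    refine ⟨n, Finset.mem_erase.2 ⟨hn, Finset.mem_insert_of_mem (Finset.mem_image.2 ?_)⟩, ?_, ?_⟩
    · set c := ⌊(q : ℝ) * N * rp θ⌋
      have hqz : (0 : ℤ) < q := by exact_mod_cast hq
      have c0 := Int.emod_nonneg c hqz.ne'
      have c1 := Int.emod_lt_of_pos c hqz
      refine ⟨(c % q).toNat, Finset.mem_range.2 (by omega), ?_⟩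
      rw [Int.toNat_of_nonneg c0, ← h0, ← fq_per hper (c % q) (c / q), Int.emod_add_mul_ediv]
    · simpa only [hA, if_neg hn, Set.mem_ofPred_eq] using hP
    · intro x
      simp only [hΘ, if_neg hm0, h0, sub_self, norm_zero, le_refl]
  have hsep0 : ∀ n', n' ≠ 0 → ∀ θ ∈ A 0, ∀ θ' ∈ A n', 3 * r ≤ dist θ θ' := by
    intro n' hn' θ hθ θ' hθ'
    by_contra hlt
    push Not at hlt
    rw [← coe_rp θ] at hθ hlt
    obtain ⟨t', rfl, ht'⟩ := fq_lift_near (rp θ) θ'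
    rw [← ht'] at hlt
    rw [hA1 n' hn'] at hθ'
    obtain ⟨h1, -⟩ := (hA0 _).1 hθ
    rw [fq_nsmul] at h1
    obtain ⟨κ, hκ⟩ := fq_int_near ((N : ℝ) * rp θ)
    rw [← hκ] at h1
    have h3 : |(q : ℝ) * N * t' - ((q * κ : ℤ) : ℝ)| ≤ 1 := by
      have : (q : ℝ) * N * t' - ((q * κ : ℤ) : ℝ)
          = q * (N * rp θ - κ) - (q * N) * (rp θ - t') := by push_cast; ring
      rw [this]
      refine (abs_sub _ _).trans ?_
      rw [abs_mul, abs_mul _ (rp θ - t'), abs_of_pos hqr, abs_of_pos (mul_pos hqr hNr)]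
      nlinarith [mul_pos hqr hNr]
    have h4 := fq_floor_sub h3
    rw [Int.floor_intCast] at h4
    have h5 := hθ' (q * κ - ⌊(q : ℝ) * N * t'⌋) (by rw [abs_sub_comm]; linarith)
    rw [add_sub_cancel, ← zero_add ((q : ℤ) * κ), fq_per hper, h0, mul_zero] at h5
    exact hn' h5.symm
  refine ⟨Ns, A, U, r, Θ, Finset.mem_insert_self _ _, hr0, ?_, ?_, ⟨hΘ1, hH1, ?_⟩,
    fun C0 => ⟨hΘ1, fun m hm => hH1 m (Finset.mem_of_mem_erase hm), ?_⟩, ?_⟩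
  · intro n _ n' _ hne θ hθ θ' hθ'
    by_cases hn : n = 0
    · subst hn
      exact hsep0 n' (Ne.symm hne) θ hθ θ' hθ'
    by_cases hn' : n' = 0
    · subst hn'
      rw [dist_comm]
      exact hsep0 n hn θ' hθ' θ hθ
    by_contra hlt
    push Not at hlt
    rw [← coe_rp θ] at hθ hlt
    obtain ⟨t', rfl, ht'⟩ := fq_lift_near (rp θ) θ'
    rw [← ht'] at hlt
    rw [hA1 n' hn'] at hθ'
    rw [hA1 n hn] at hθ
    have h3 : |(q : ℝ) * N * t' - q * N * rp θ| ≤ 1 := by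
      rw [← mul_sub, abs_mul, abs_of_pos (mul_pos hqr hNr), abs_sub_comm]
      nlinarith [mul_pos hqr hNr]
    have h4 := fq_floor_sub h3
    have h5 := hθ (⌊(q : ℝ) * N * t'⌋ - ⌊(q : ℝ) * N * rp θ⌋) (by linarith)
    have h6 := hθ' 0 (by simp)
    rw [add_sub_cancel] at h5
    rw [add_zero] at h6
    exact hne (h5.symm.trans h6)
  · intro θ hθ
    simpa [hU] using hθ
  · intro m _ θ hθ hC
    by_cases hm0 : m = 0
    · subst hm0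
      refine ⟨0, Finset.mem_insert_self _ _, (hA0 θ).2 ⟨by simpa [hU] using hθ,
        by simpa [Cmer] using hC⟩, fun x => by simp [hΘ]⟩
    · obtain ⟨n, hn, h⟩ := hH2 m hm0 θ hθ
      exact ⟨n, Finset.mem_of_mem_erase hn, h⟩
  · intro m hm θ hθ _
    exact hH2 m (Finset.ne_of_mem_erase hm) θ hθ
  · intro N' hcop
    have hz : ∀ t : ℝ, (t : Tc) ∈ Metric.thickening r (A 0) → ∃ κ0 : ℤ,
        |((F0 * N : ℕ) : ℝ) * t - ((F0 * κ0 : ℤ) : ℝ)| ≤ 3 * εp / 4 ∧ ¬ (N : ℤ) ∣ κ0 := by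
      intro t ht
      obtain ⟨θ1, hθ1, hd⟩ := Metric.mem_thickening_iff.1 ht
      obtain ⟨t1, rfl, ht1⟩ := fq_lift_near t θ1
      rw [← ht1] at hd
      obtain ⟨a1, a2⟩ := (hA0 _).1 hθ1
      rw [fq_nsmul] at a1
      obtain ⟨κ, hκ⟩ := fq_int_near ((N : ℝ) * t1)
      rw [← hκ] at a1
      refine ⟨κ, ?_, ?_⟩
      · have : ((F0 * N : ℕ) : ℝ) * t - ((F0 * κ : ℤ) : ℝ)
            = (F0 * N) * (t - t1) + F0 * (N * t1 - κ) := by push_cast; ring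
        rw [this]
        refine (abs_add_le _ _).trans ?_
        rw [abs_mul, abs_mul _ (N * t1 - κ), abs_of_pos hFr, abs_of_pos (mul_pos hFr hNr)]
        nlinarith [mul_pos hFr hNr]
      · rintro ⟨l, rfl⟩
        have b1 : ((t1 : ℝ) : Tc) = ((t1 - l : ℝ) : Tc) := by
          rw [coe_eq_coe_iff]; exact ⟨l, by ring⟩
        have b2 := norm_coe_le (t1 - l)
        rw [← b1] at b2
        have b3 : (N : ℝ) * t1 - ((N * l : ℤ) : ℝ) = N * (t1 - l) := by push_cast; ring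
        rw [b3, abs_mul, abs_of_pos hNr] at a1
        rw [div_le_iff₀ (by positivity)] at a2
        nlinarith
    refine ⟨F0 * N, Λ0 * Q, by positivity, by positivity, ?_, ?_⟩
    · intro m _ t ht
      by_cases hm0 : m = 0
      · subst hm0
        obtain ⟨κ0, h, -⟩ := hz t ht
        exact ⟨F0 * κ0, by simp only [Int.cast_zero, zero_div, sub_zero]; linarith⟩
      · obtain ⟨θ1, hθ1, hd⟩ := Metric.mem_thickening_iff.1 ht
        obtain ⟨t1, rfl, ht1⟩ := fq_lift_near t θ1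
        rw [← ht1] at hd
        rw [hA1 m hm0] at hθ1
        have a1 := hθ1 0 (by simp)
        rw [add_zero] at a1
        set c := ⌊(q : ℝ) * N * t1⌋ with hc
        obtain ⟨I, hI⟩ := hpur c (fun h => hm0 (by rw [← a1, h, mul_zero]))
        refine ⟨I, ?_⟩
        have c1 : (c : ℝ) ≤ q * N * t1 := Int.floor_le _
        have c2 : (q : ℝ) * N * t1 < c + 1 := Int.lt_floor_add_one _
        have : ((F0 * N : ℕ) : ℝ) * t - (m : ℝ) / ((Λ0 * Q : ℕ) : ℝ) - I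
            = (F0 * N) * (t - t1) + (F0 / q) * (q * N * t1 - c)
              + ((F0 : ℝ) * c / q - (Λ c : ℝ) / Q - I) := by
          rw [← a1]; push_cast; field_simp; ring
        rw [this]
        refine (abs_add_le _ _).trans ((add_le_add_left (abs_add_le _ _) _).trans ?_)
        have hFq : (0 : ℝ) < F0 / q := by positivity
        rw [abs_mul, abs_mul _ (q * N * t1 - c), abs_of_pos hFq, abs_of_pos (mul_pos hFr hNr),
          abs_of_nonneg (sub_nonneg.2 c1)]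
        nlinarith [mul_pos hFr hNr]
    · intro t ht κ I hI heq
      obtain ⟨κ0, h, hnd⟩ := hz t ht
      have a1 : |((I - F0 * κ0 : ℤ) : ℝ)| < 1 := by
        have : ((I - F0 * κ0 : ℤ) : ℝ) = (((F0 * N : ℕ) : ℝ) * t - ((F0 * κ0 : ℤ) : ℝ))
            - (((F0 * N : ℕ) : ℝ) * t - I) := by push_cast; ring
        rw [this]
        refine (abs_sub _ _).trans_lt ?_
        linarith
      have a2 : I = F0 * κ0 := by
        have : |I - F0 * κ0| < 1 := by exact_mod_cast a1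
        rw [abs_lt] at this
        omega
      rw [a2] at heq
      have hFz : (F0 : ℤ) ≠ 0 := by exact_mod_cast hF0.ne'
      have a3 : (N : ℤ) * κ = κ0 * N' := by
        apply mul_left_cancel₀ hFz
        push_cast at heq
        linear_combination heq
      exact hnd ((Nat.isCoprime_iff_coprime.2 hcop).dvd_of_dvd_mul_right ⟨κ, a3.symm⟩)

end Crest.Agent.R81
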