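import Crest.Agent.R81.GF0

/-!
# R81: the pulled back tower function and its filtered version; Fourier transforms
-/

set_option autoImplicit false

namespace Crest.Agent.R81

open MeasureTheory

theorem gf1_hI {N N' b : ℕ} {Ds : Finset ℕ} {I : ℕ → Finset ℤ} (hZ : Zon N N' Ds I b) {s : ℤ}
    (hs : |s| ≤ b) {d : ℕ} (hd : d ∈ Ds) :
    ∀ j ∈ I d, |s| ≤ j * N ∧ (j + 1) * N + |s| ≤ N' := by
  intro j hj
  obtain ⟨h1, h2⟩ := hZ.2 d hd j hj
  constructor <;> linarith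

theorem gf1_shift (N' L : ℕ) (y : ℤ → ℂ)
    (hy : ∀ J : ℤ, (J < L ∨ (N' : ℤ) - L ≤ J) → y J = 0) (k : ℤ) (hk : k ∈ Finset.Icc (-(L : ℤ)) L)
    (θ : Tc) : FT N' (fun J => y (J + k)) θ = fourier k θ * FT N' y θ := by
  obtain ⟨hk1, hk2⟩ := Finset.mem_Icc.1 hk
  have h1 : ∑ J ∈ Finset.Ico (0 : ℤ) N', y (J + k) * fourier (-J) θ
      = ∑ J ∈ Finset.Ico (0 + k : ℤ) (N' + k), y J * fourier (-(J - k)) θ := by
    rw [← Finset.map_add_right_Ico, Finset.sum_map]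
    refine Finset.sum_congr rfl fun J _ => ?_
    simp
  have h2 : ∑ J ∈ Finset.Ico (L : ℤ) (N' - L), y J * fourier (-(J - k)) θ
      = ∑ J ∈ Finset.Ico (0 + k : ℤ) (N' + k), y J * fourier (-(J - k)) θ := by
    refine Finset.sum_subset (Finset.Ico_subset_Ico (by omega) (by omega)) fun J _ hJ => ?_
    rw [hy J (by rw [Finset.mem_Ico] at hJ; omega), zero_mul]
  have h3 : ∑ J ∈ Finset.Ico (L : ℤ) (N' - L), y J * fourier (-(J - k)) θ
      = ∑ J ∈ Finset.Ico (0 : ℤ) N', y J * fourier (-(J - k)) θ := by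
    refine Finset.sum_subset (Finset.Ico_subset_Ico (by omega) (by omega)) fun J _ hJ => ?_
    rw [hy J (by rw [Finset.mem_Ico] at hJ; omega), zero_mul]
  unfold FT
  rw [h1, ← h2, h3, mul_left_comm, Finset.mul_sum (a := fourier k θ)]
  congr 1
  refine Finset.sum_congr rfl fun J _ => ?_
  rw [show -(J - k) = k + -J by ring, fourier_add]
  ring

theorem FT_ych {N N' b : ℕ} (K R : ℕ) (hN : 0 < N) (hN' : 0 < N') {Ds : Finset ℕ}
    {I : ℕ → Finset ℤ} (hZ : Zon N N' Ds I b) (Ms : Finset ℤ) (G : ℤ → ℤ → ℂ) (θ : Tc) :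
    FT N' (ych N K R Ds I Ms G) θ
      = ∑ m ∈ Ms, FT N (G m) θ * Pz (Real.sqrt (N / N')) (Ds.biUnion I) m K R (N • θ) := by
  have h : ych N K R Ds I Ms G = fun J : ℤ => ∑ m ∈ Ms, ∑ d ∈ Ds,
      if (J + 0) / N ∈ I d then
        ee (m * K * (((J + 0) / N : ℤ) : ℝ) ^ 2 / (2 * R)) * G m ((J + 0) % N) else 0 := by
    funext J
    simp only [ych, add_zero]
  rw [h, FT_sum]
  refine Finset.sum_congr rfl fun m _ => ?_
  rw [FT_sum, Pz_biUnion _ hZ, Finset.mul_sum]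
  refine Finset.sum_congr rfl fun d hd => ?_
  rw [FT_block N N' K R hN hN' (I d) m 0 (G m) (gf1_hI hZ (by simp) hd) θ]
  simp

/-- `ych` vanishes outside `[b, N'-b)` -/
theorem ych_eq_zero {N N' b : ℕ} (K R : ℕ) (hN : 0 < N) {Ds : Finset ℕ}
    {I : ℕ → Finset ℤ} (hZ : Zon N N' Ds I b) (Ms : Finset ℤ) (G : ℤ → ℤ → ℂ) (J : ℤ)
    (hJ : J < b ∨ (N' : ℤ) - b ≤ J) : ych N K R Ds I Ms G J = 0 := by
  unfold ych
  refine Finset.sum_eq_zero fun m _ => Finset.sum_eq_zero fun d hd => ?_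
  rw [if_neg]
  intro hj
  obtain ⟨h1, h2⟩ := hZ.2 d hd _ hj
  have hN0 : (0 : ℤ) < N := by exact_mod_cast hN
  have h3 : J / N * N ≤ J := Int.ediv_mul_le J hN0.ne'
  have h4 : J < (J / N + 1) * N := Int.lt_ediv_add_one_mul_self J hN0
  rcases hJ with hJ | hJ <;> linarith

/-- a filter multiplies the Fourier transform when the sequence vanishes near the ends -/
theorem FT_Gnew (N' L : ℕ) (φc : ℤ → ℤ → ℂ) (y : ℤ → ℂ)
    (hy : ∀ J : ℤ, (J < L ∨ (N' : ℤ) - L ≤ J) → y J = 0) (n : ℤ) (θ : Tc) :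
    FT N' (Gnew L φc y n) θ = tp (Finset.Icc (-(L : ℤ)) L) (φc n) θ * FT N' y θ := by
  have h : Gnew L φc y n = fun J => ∑ k ∈ Finset.Icc (-(L : ℤ)) L, φc n k * y (J + k) := rfl
  rw [h, FT_sum, tp, Finset.sum_mul]
  refine Finset.sum_congr rfl fun k hk => ?_
  rw [FT_const_mul, gf1_shift N' L y hy k hk θ, mul_assoc]

theorem FT_pbk {N N' b : ℕ} (K R : ℕ) (hN : 0 < N) (hN' : 0 < N') {Ds : Finset ℕ}
    {I : ℕ → Finset ℤ} (hZ : Zon N N' Ds I b) (Ms : Finset ℤ) (G : ℤ → ℤ → ℂ) (s : ℤ)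
    (hs : |s| ≤ b) (φ : ℕ → ℝ) (θ : Tc) :
    FT N' (pbk N K R Ds I Ms G s φ) θ = ∑ m ∈ Ms, ∑ d ∈ Ds,
      fourier s θ * ee (m * φ d) * FT N (G m) θ * Pz (Real.sqrt (N / N')) (I d) m K R (N • θ) := by
  have h : pbk N K R Ds I Ms G s φ = fun J => ∑ m ∈ Ms, ∑ d ∈ Ds, ee (m * φ d) *
      if (J + s) / N ∈ I d then
        ee (m * K * (((J + s) / N : ℤ) : ℝ) ^ 2 / (2 * R)) * G m ((J + s) % N) else 0 := by
    funext J
    rw [Finset.sum_comm]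
    unfold pbk
    refine Finset.sum_congr rfl fun d _ => ?_
    by_cases hj : (J + s) / N ∈ I d
    · simp only [hj, if_true]
      unfold ev
      refine Finset.sum_congr rfl fun m _ => ?_
      rw [fourier_coe, mul_add, ee_add, ← mul_div_assoc, ← mul_assoc (m : ℝ)]
      ring
    · simp only [hj, if_false, mul_zero, Finset.sum_const_zero]
  rw [h, FT_sum]
  refine Finset.sum_congr rfl fun m _ => ?_
  rw [FT_sum]
  refine Finset.sum_congr rfl fun d hd => ?_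
  rw [FT_const_mul, FT_block N N' K R hN hN' (I d) m s (G m) (gf1_hI hZ hs hd) θ]
  ring

theorem FT_ev (N' : ℕ) (Ns : Finset ℤ) (G : ℤ → ℤ → ℂ) (x θ : Tc) :
    FT N' (fun J => ev Ns G J x) θ = ∑ n ∈ Ns, FT N' (G n) θ * fourier n x := by
  have h : (fun J => ev Ns G J x) = fun J => ∑ n ∈ Ns, fourier n x * G n J := by
    funext J
    unfold ev
    exact Finset.sum_congr rfl fun n _ => mul_comm _ _
  rw [h, FT_sum]
  refine Finset.sum_congr rfl fun n _ => ?_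
  rw [FT_const_mul, mul_comm]

theorem gf_marg {N N' b L : ℕ} (K R : ℕ) (hN : 0 < N) {Ds : Finset ℕ}
    {I : ℕ → Finset ℤ} (hZ : Zon N N' Ds I (b + L)) (Ms Ns : Finset ℤ) (G : ℤ → ℤ → ℂ)
    (φc : ℤ → ℤ → ℂ) : Marg N' Ns (Gnew L φc (ych N K R Ds I Ms G)) b := by
  intro n _ J hJ
  unfold Gnew
  refine Finset.sum_eq_zero fun k hk => ?_
  obtain ⟨hk1, hk2⟩ := Finset.mem_Icc.1 hk
  rw [ych_eq_zero K R hN hZ Ms G (J + k) (by push_cast; omega), mul_zero]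

/-- `sn N' ych = n2 (FT ..) ≤ ∑_m sn (G m) · n2 Pz ≤ √#Ms · tn` (`n2_indep`). -/
theorem sn_ych_le {N N' b : ℕ} (K R : ℕ) (hN : 0 < N) (hN' : 0 < N') {Ds : Finset ℕ}
    {I : ℕ → Finset ℤ} (hZ : Zon N N' Ds I b) (Ms : Finset ℤ) (G : ℤ → ℤ → ℂ) :
    sn N' (ych N K R Ds I Ms G) ≤ Real.sqrt Ms.card * tn N Ms G := by
  have hsm : Continuous fun θ : Tc => N • θ := continuous_nsmul N
  have hc : ∀ m : ℤ, Continuous fun θ : Tc =>
      FT N (G m) θ * Pz (Real.sqrt (N / N')) (Ds.biUnion I) m K R (N • θ) := fun m =>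
    (cont_FT _ _).mul ((cont_Pz _ _ _ _ _).comp hsm)
  have h : FT N' (ych N K R Ds I Ms G) = fun θ =>
      ∑ m ∈ Ms, FT N (G m) θ * Pz (Real.sqrt (N / N')) (Ds.biUnion I) m K R (N • θ) :=
    funext fun θ => FT_ych K R hN hN' hZ Ms G θ
  rw [← n2_FT, h]
  refine (n2_sum_le Ms fun m _ => memLp_cont (hc m)).trans ?_
  refine le_trans (Finset.sum_le_sum fun m _ => ?_) (sum_sn_le N Ms G)
  rw [← n2_norm (hc m).aestronglyMeasurable]
  simp only [norm_mul]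
  rw [n2_indep N hN (G m) (w := fun ξ => ‖Pz (Real.sqrt (N / N')) (Ds.biUnion I) m K R ξ‖)
    (cont_Pz _ _ _ _ _).norm, n2_norm (cont_Pz _ _ _ _ _).aestronglyMeasurable]
  exact mul_le_of_le_one_right (sn_nonneg _ _) (n2_Pz_le_one hZ m K R)

/-- take `Y = η · ych` -/
theorem gf_main {N N' L : ℕ} (K R : ℕ) (hN : 0 < N) (hN' : 0 < N') {Ds : Finset ℕ}
    {I : ℕ → Finset ℤ} (hZ : Zon N N' Ds I L) (Ms Ns : Finset ℤ) (G : ℤ → ℤ → ℂ)
    (φc : ℤ → ℤ → ℂ) (C' : ℤ → Set Tc) (η : ℝ) (hη : 0 ≤ η)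
    (hφ : ∀ n ∈ Ns, ∀ θ, θ ∉ C' n →
      ‖tp (Finset.Icc (-(L : ℤ)) L) (φc n) θ‖ * Ns.card ≤ η) :
    Main N' Ns C' (Gnew L φc (ych N K R Ds I Ms G)) (η * Real.sqrt Ms.card * tn N Ms G) := by
  refine ⟨fun J => (η : ℂ) * ych N K R Ds I Ms G J, ?_, fun n hn θ _ hθ => ?_⟩
  · rw [sn_const_mul, Complex.norm_real, Real.norm_of_nonneg hη, mul_assoc]
    exact mul_le_mul_of_nonneg_left (sn_ych_le K R hN hN' hZ Ms G) hη
  · have hc : (0 : ℝ) < Ns.card := by exact_mod_cast Finset.card_pos.2 ⟨n, hn⟩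
    rw [FT_Gnew N' L φc _ (ych_eq_zero K R hN hZ Ms G) n θ, FT_const_mul, norm_mul, norm_mul,
      Complex.norm_real, Real.norm_of_nonneg hη, le_div_iff₀ hc, mul_right_comm]
    exact mul_le_mul_of_nonneg_right (hφ n hn θ hθ) (norm_nonneg _)

end Crest.Agent.R81
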