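import Crest.Agent.R81.Law1

/-!
# R81: the tower of a state: law and dynamics
-/

set_option autoImplicit false

namespace Crest.Agent.R81

open MeasureTheory Crest.AnalysisR.Torus3

theorem law_orth {ι κ : Type} (A : Finset ι) (B : Finset κ) (e : ι → ℤ) (e' : κ → ℤ) (c : ι → ℂ)
    (d : κ → ℂ) :
    ∫ x : Tc, (starRingEnd ℂ) (∑ a ∈ A, c a * fourier (e a) x) * ∑ b ∈ B, d b * fourier (e' b) x
      = ∑ a ∈ A, ∑ b ∈ B, if e a = e' b then (starRingEnd ℂ) (c a) * d b else 0 := by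
  have h1 : ∀ x : Tc, (starRingEnd ℂ) (∑ a ∈ A, c a * fourier (e a) x) *
      ∑ b ∈ B, d b * fourier (e' b) x =
      ∑ a ∈ A, ∑ b ∈ B, (starRingEnd ℂ) (c a) * d b * fourier (- e a + e' b) x := by
    intro x
    rw [map_sum, Finset.sum_mul_sum]
    refine Finset.sum_congr rfl fun a _ => Finset.sum_congr rfl fun b _ => ?_
    rw [map_mul, fourier_add, fourier_neg]
    ring
  have hi : ∀ (z : ℂ) (n : ℤ), Integrable (fun x : Tc => z * fourier n x) volume := fun z n =>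
    (memLp_cont (f := fun x : Tc => z * fourier n x) (by fun_prop)).integrable (by norm_num)
  simp only [h1]
  rw [integral_finsetSum _ fun a _ => integrable_finsetSum _ fun b _ => hi _ _]
  refine Finset.sum_congr rfl fun a _ => ?_
  rw [integral_finsetSum _ fun b _ => hi _ _]
  refine Finset.sum_congr rfl fun b _ => ?_
  rw [integral_const_mul, integral_fourier]
  by_cases h : e a = e' b
  · rw [if_pos h, if_pos (by omega), mul_one]
  · rw [if_neg h, if_neg (by omega), mul_zero]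

theorem law_bdd {f : Tc → ℂ} (hf : Continuous f) : ∃ B : ℝ, ∀ x, ‖f x‖ ≤ B := by
  obtain ⟨B, hB⟩ := (isCompact_univ.image hf.norm).bddAbove
  exact ⟨B, fun x => hB ⟨x, Set.mem_univ _, rfl⟩⟩

namespace St
variable (σ : St)

/-- the law on the manifold, with floorwise bounds -/
theorem lawH {E : Type} [NormedAddCommGroup E] [NormedSpace ℝ E] [CompleteSpace E]
    (f : ℤ → Tc × Tc → E) (hm : ∀ i, StronglyMeasurable (f i)) (hb : ∀ i, ∃ B, ∀ z, ‖f i z‖ ≤ B) :
    ∫ p, f (σ.pos (σ.H⁻¹ p)) (σ.xc (σ.H⁻¹ p), (σ.H⁻¹ p) 1) =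
      ((σ.N : ℝ)⁻¹) • ∑ i ∈ Finset.Ico (0 : ℤ) σ.N, ∫ z, f i z := by
  choose B hB using hb
  let Hh : T3 ≃ₜ T3 :=
    { toEquiv := σ.H⁻¹
      continuous_toFun := σ.hH.inv.continuous
      continuous_invFun := σ.hH.continuous }
  have h1 := σ.hH.inv.2.integral_comp Hh.measurableEmbedding
    (fun q => f (σ.pos q) (σ.xc q, q 1))
  rw [h1]
  have h2 := σ.law (fun i z => if i ∈ Finset.Ico (0 : ℤ) σ.N then f i z else 0)
    (fun i => by
      by_cases hi : i ∈ Finset.Ico (0 : ℤ) σ.N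
      · simp only [if_pos hi]
        exact hm i
      · simp only [if_neg hi]
        exact stronglyMeasurable_const)
    (∑ i ∈ Finset.Ico (0 : ℤ) σ.N, |B i|)
    (fun i z => by
      by_cases hi : i ∈ Finset.Ico (0 : ℤ) σ.N
      · simp only [if_pos hi]
        exact ((hB i z).trans (le_abs_self _)).trans
          (Finset.single_le_sum (f := fun i => |B i|) (fun _ _ => abs_nonneg _) hi)
      · simp only [if_neg hi, norm_zero]
        exact Finset.sum_nonneg fun _ _ => abs_nonneg _)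
  simp only [if_pos (σ.pos_mem _)] at h2
  rw [h2]
  congr 1
  refine Finset.sum_congr rfl fun i hi => ?_
  simp only [if_pos hi]

/-- the law for functions of the tower coordinates only -/
theorem lawH1 (f : ℤ → Tc → ℂ) (hf : ∀ i, Continuous (f i)) :
    ∫ p, f (σ.pos (σ.H⁻¹ p)) (σ.xc (σ.H⁻¹ p)) =
      (∑ i ∈ Finset.Ico (0 : ℤ) σ.N, ∫ x, f i x) / σ.N := by
  have h := σ.lawH (fun i z => f i z.1)
    (fun i => ((hf i).comp continuous_fst).stronglyMeasurable)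
    (fun i => by
      obtain ⟨B, hB⟩ := law_bdd (hf i)
      exact ⟨B, fun z => hB _⟩)
  rw [h]
  have h2 : ∀ i, ∫ z : Tc × Tc, f i z.1 = ∫ x, f i x := fun i => by
    rw [Measure.volume_eq_prod, integral_fun_fst]
    simp
  simp only [h2]
  rw [Complex.real_smul, div_eq_inv_mul]
  push_cast
  rfl

theorem integral_vec_ev (Ms : Finset ℤ) (G : ℤ → ℤ → ℂ) :
    ∫ p, σ.vec (ev Ms G) p =
      if 0 ∈ Ms then (∑ i ∈ Finset.Ico (0 : ℤ) σ.N, G 0 i) / σ.N else 0 := by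
  have h := σ.lawH1 (ev Ms G) (cont_ev Ms G)
  unfold vec
  rw [h]
  have h2 : ∀ i, ∫ x, ev Ms G i x = if 0 ∈ Ms then G 0 i else 0 := fun i => by
    have h3 := law_orth ({0} : Finset ℤ) Ms id id (fun _ => 1) (fun m => G m i)
    simp only [Finset.sum_singleton, id, fourier_zero, map_one, one_mul] at h3
    unfold ev
    rw [h3, Finset.sum_ite_eq]
  simp only [h2]
  split_ifs
  · rfl
  · simp

/-- the second coordinate is independent of the tower coordinates -/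
theorem n2_vec_indicator (Ms : Finset ℤ) (G : ℤ → ℤ → ℂ) {Z : Set Tc} (hZ : MeasurableSet Z)
    {g : ℝ} (hg : 0 ≤ g) (hv : volume Z ≤ ENNReal.ofReal g) :
    n2 (fun p => Z.indicator (fun _ => σ.vec (ev Ms G) p) ((σ.H⁻¹ p) 1))
      ≤ Real.sqrt g * tn σ.N Ms G := by
  have hmH : Measurable ⇑σ.H⁻¹ := σ.hH.inv.2.measurable
  have hmv : Measurable (σ.vec (ev Ms G)) := σ.measurable_vec fun i => (cont_ev Ms G i).measurable
  have hm : Measurable fun p => Z.indicator (fun _ => σ.vec (ev Ms G) p) ((σ.H⁻¹ p) 1) := by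
    have e : (fun p => Z.indicator (fun _ => σ.vec (ev Ms G) p) ((σ.H⁻¹ p) 1)) =
        ((fun p => (σ.H⁻¹ p) 1) ⁻¹' Z).indicator (σ.vec (ev Ms G)) := by
      funext p
      rfl
    rw [e]
    exact hmv.indicator (((measurable_pi_apply 1).comp hmH) hZ)
  have h := σ.lawH (fun i z => ‖ev Ms G i z.1‖ ^ 2 * Z.indicator (fun _ => (1 : ℝ)) z.2)
    (fun i => by
      refine Measurable.stronglyMeasurable ?_
      refine Measurable.mul ?_ ((measurable_const.indicator hZ).comp measurable_snd)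
      exact (((cont_ev Ms G i).comp continuous_fst).norm.pow 2).measurable)
    (fun i => by
      obtain ⟨B, hB⟩ := law_bdd (cont_ev Ms G i)
      refine ⟨B ^ 2, fun z => ?_⟩
      have h1 := pow_le_pow_left₀ (norm_nonneg _) (hB z.1) 2
      by_cases hz : z.2 ∈ Z
      · simpa [Set.indicator_of_mem hz] using h1
      · simpa [Set.indicator_of_notMem hz] using sq_nonneg B)
  have h2 : ∀ i, ∫ z : Tc × Tc, ‖ev Ms G i z.1‖ ^ 2 * Z.indicator (fun _ => (1 : ℝ)) z.2 =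
      (∑ m ∈ Ms, ‖G m i‖ ^ 2) * volume.real Z := fun i => by
    rw [Measure.volume_eq_prod, integral_prod_mul (fun x => ‖ev Ms G i x‖ ^ 2)
      (fun y => Z.indicator (fun _ => (1 : ℝ)) y), integral_ev_sq, integral_indicator hZ]
    simp
  simp only [h2] at h
  have h3 : ∀ p, ‖Z.indicator (fun _ => σ.vec (ev Ms G) p) ((σ.H⁻¹ p) 1)‖ ^ 2 =
      ‖ev Ms G (σ.pos (σ.H⁻¹ p)) (σ.xc (σ.H⁻¹ p))‖ ^ 2 *
        Z.indicator (fun _ => (1 : ℝ)) ((σ.H⁻¹ p) 1) := fun p => by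
    by_cases hz : (σ.H⁻¹ p) 1 ∈ Z
    · simp only [Set.indicator_of_mem hz, mul_one, vec]
    · simp only [Set.indicator_of_notMem hz, norm_zero, mul_zero]
      norm_num
  rw [n2_eq_sqrt hm.aestronglyMeasurable]
  simp only [h3]
  rw [h, ← Finset.sum_mul, smul_eq_mul, ← mul_assoc, ← div_eq_inv_mul, ← tn_sq,
    Real.sqrt_mul (sq_nonneg _), Real.sqrt_sq (tn_nonneg _ _ _), mul_comm]
  refine mul_le_mul_of_nonneg_right (Real.sqrt_le_sqrt ?_) (tn_nonneg _ _ _)
  exact ENNReal.toReal_le_of_le_ofReal hg hv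

/-- With margins there is no wrap-around: if `G m i ≠ 0` or `G m ((i+k) % N) ≠ 0` matter, then
`0 ≤ i + k < N`.  Both sides equal `N⁻¹ ∑_m ∑_{i} conj (G m i) G m (i+k)` (sum over `i, i+k ∈ [0,N)`). -/
theorem corr (Ms : Finset ℤ) (G : ℤ → ℤ → ℂ) (b : ℕ) (hG : Marg σ.N Ms G b) (k : ℤ)
    (hk : |k| ≤ b) :
    ∫ p, (starRingEnd ℂ) (σ.vec (ev Ms G) p) * σ.vec (ev Ms G) ((σ.T ^ k) p)
      = ∫ θ, fourier k θ * ((sd σ.N Ms G θ : ℝ) : ℂ) ^ 2 := by
  have hz : ∀ i ∈ Finset.Ico (0 : ℤ) σ.N, i + k ∉ Finset.Ico (0 : ℤ) σ.N → ∀ m ∈ Ms, G m i = 0 := by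
    intro i hi hik m hm
    rw [Finset.mem_Ico] at hi hik
    obtain ⟨k1, k2⟩ := abs_le.1 hk
    exact hG m hm i (by omega)
  have h1 : ∀ p, (starRingEnd ℂ) (σ.vec (ev Ms G) p) * σ.vec (ev Ms G) ((σ.T ^ k) p) =
      (fun i x => (starRingEnd ℂ) (ev Ms G i x) * ev Ms G (i + k) x)
        (σ.pos (σ.H⁻¹ p)) (σ.xc (σ.H⁻¹ p)) := by
    intro p
    unfold vec
    rw [σ.T_zpow]
    obtain ⟨d1, -, d3⟩ := σ.dyn k (σ.H⁻¹ p)
    rw [d1, d3]
    have hi := σ.pos_mem (σ.H⁻¹ p)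
    by_cases hik : σ.pos (σ.H⁻¹ p) + k ∈ Finset.Ico (0 : ℤ) σ.N
    · obtain ⟨a1, a2⟩ := Finset.mem_Ico.1 hik
      rw [Int.emod_eq_of_lt a1 a2, Int.ediv_eq_zero_of_lt a1 a2]
      simp
    · have e : ev Ms G (σ.pos (σ.H⁻¹ p)) (σ.xc (σ.H⁻¹ p)) = 0 := by
        unfold ev
        exact Finset.sum_eq_zero fun m hm => by rw [hz _ hi hik m hm, zero_mul]
      simp only [e, map_zero, zero_mul]
  rw [integral_congr_ae (Filter.Eventually.of_forall h1),
    σ.lawH1 (fun i x => (starRingEnd ℂ) (ev Ms G i x) * ev Ms G (i + k) x)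
      (fun i => (Complex.continuous_conj.comp (cont_ev Ms G i)).mul (cont_ev Ms G (i + k)))]
  have h2 : ∀ i, ∫ x, (starRingEnd ℂ) (ev Ms G i x) * ev Ms G (i + k) x =
      ∑ m ∈ Ms, (starRingEnd ℂ) (G m i) * G m (i + k) := fun i => by
    have h3 := law_orth Ms Ms id id (fun m => G m i) (fun m => G m (i + k))
    simp only [id] at h3
    unfold ev
    rw [h3]
    refine Finset.sum_congr rfl fun m hm => ?_
    rw [Finset.sum_ite_eq, if_pos hm]
  simp only [h2]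
  have hN : (0 : ℝ) < σ.N := by exact_mod_cast σ.hN
  have h4 : ∀ θ, fourier k θ * ((sd σ.N Ms G θ : ℝ) : ℂ) ^ 2 = ∑ m ∈ Ms, ((σ.N : ℂ))⁻¹ *
      ((starRingEnd ℂ) (∑ i ∈ Finset.Ico (0 : ℤ) σ.N, G m i * fourier (-i) θ) *
        ∑ j ∈ Finset.Ico (0 : ℤ) σ.N, G m j * fourier (k + -j) θ) := fun θ => by
    unfold sd
    rw [← Complex.ofReal_pow, Real.sq_sqrt (Finset.sum_nonneg fun _ _ => sq_nonneg _),
      Complex.ofReal_sum, Finset.mul_sum]
    refine Finset.sum_congr rfl fun m _ => ?_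
    have e1 : ∑ j ∈ Finset.Ico (0 : ℤ) σ.N, G m j * fourier (k + -j) θ =
        fourier k θ * ∑ j ∈ Finset.Ico (0 : ℤ) σ.N, G m j * fourier (-j) θ := by
      rw [Finset.mul_sum]
      refine Finset.sum_congr rfl fun j _ => ?_
      rw [fourier_add]
      ring
    have e2 : ((((Real.sqrt σ.N)⁻¹ : ℝ) : ℂ)) * (((Real.sqrt σ.N)⁻¹ : ℝ) : ℂ) = ((σ.N : ℂ))⁻¹ := by
      rw [← Complex.ofReal_mul, ← mul_inv, Real.mul_self_sqrt hN.le]
      push_cast
      rfl
    rw [e1, Complex.ofReal_pow, ← Complex.conj_mul', FT, map_mul, Complex.conj_ofReal, ← e2]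
    ring
  simp only [h4]
  rw [integral_finsetSum _ fun m _ =>
    (memLp_cont (by fun_prop)).integrable (by norm_num), Finset.sum_comm, Finset.sum_div]
  refine Finset.sum_congr rfl fun m hm => ?_
  rw [integral_const_mul, law_orth _ _ (fun i => -i) (fun j => k + -j), div_eq_inv_mul]
  congr 1
  refine Finset.sum_congr rfl fun i hi => ?_
  have e3 : ∀ j : ℤ, (-i = k + -j) ↔ (i + k = j) := fun j => by omega
  simp only [e3]
  rw [Finset.sum_ite_eq]
  split_ifs with hik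
  · rfl
  · rw [hz i hi hik m hm, map_zero, zero_mul]

end St

end Crest.Agent.R81
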