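import Crest.Agent.R81.TD
import Crest.Agent.R81.Four

/-!
# R81: the tower of a state: law and dynamics
-/

set_option autoImplicit false

namespace Crest.Agent.R81

open MeasureTheory Crest.AnalysisR.Torus3

theorem law0_int {α β E : Type} [MeasurableSpace α] [MeasurableSpace β] [NormedAddCommGroup E]
    [NormedSpace ℝ E] {μ : Measure α} {ν : Measure β} {M : α → β} (hM : MeasurePreserving M μ ν)
    {F : β → E} (hF : StronglyMeasurable F) : ∫ x, F (M x) ∂μ = ∫ y, F y ∂ν := by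
  rw [← hM.map_eq, integral_map hM.measurable.aemeasurable hF.aestronglyMeasurable]

theorem law0_skew {φ : (Fin 2 → Tc) → Tc} (hφ : Measurable φ) :
    MeasurePreserving (fun q : T3 => (![q 0 - φ ![q 1, q 2], q 1, q 2] : T3)) volume volume := by
  have h1 := volume_preserving_piFinSuccAbove (fun _ : Fin 3 => Tc) 0
  have h2 : MeasurePreserving (fun p : (Fin 2 → Tc) × Tc => (id p.1, p.2 - φ p.1))
      ((volume : Measure (Fin 2 → Tc)).prod (volume : Measure Tc))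
      ((volume : Measure (Fin 2 → Tc)).prod (volume : Measure Tc)) :=
    (MeasurePreserving.id _).skew_product (g := fun r x => x - φ r)
      (measurable_snd.sub (hφ.comp measurable_fst))
      (Filter.Eventually.of_forall fun r => (measurePreserving_sub_right volume (φ r)).map_eq)
  have h3 := (h1.symm _).comp (Measure.measurePreserving_swap.comp
    (h2.comp (Measure.measurePreserving_swap.comp h1)))
  suffices hh : (fun q : T3 => (![q 0 - φ ![q 1, q 2], q 1, q 2] : T3)) =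
      (⇑(MeasurableEquiv.piFinSuccAbove (fun _ : Fin 3 => Tc) 0).symm ∘ Prod.swap ∘
        (fun p : (Fin 2 → Tc) × Tc => (id p.1, p.2 - φ p.1)) ∘ Prod.swap ∘
        ⇑(MeasurableEquiv.piFinSuccAbove (fun _ : Fin 3 => Tc) 0)) by
    rw [hh]
    exact h3
  funext q
  have e : (fun j : Fin 2 => q (Fin.succ j)) = ![q 1, q 2] := by
    funext j
    fin_cases j <;> rfl
  funext i
  fin_cases i
  · simp [MeasurableEquiv.piFinSuccAbove, Fin.insertNthEquiv, ← e]
    rfl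
  · simp [MeasurableEquiv.piFinSuccAbove, Fin.insertNthEquiv, Fin.tail]
  · simp [MeasurableEquiv.piFinSuccAbove, Fin.insertNthEquiv]
    rfl

theorem law0_pair : MeasurePreserving (fun q : T3 => (q 0, q 1)) volume volume := by
  have h1 := volume_preserving_piFinSuccAbove (fun _ : Fin 3 => Tc) 2
  have h2 : MeasurePreserving (Prod.snd : Tc × (Fin 2 → Tc) → (Fin 2 → Tc))
      ((volume : Measure Tc).prod volume) volume := measurePreserving_snd
  exact (volume_preserving_finTwoArrow Tc).comp (h2.comp h1)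

theorem law0_nf (N : ℕ) (P : ℤ) (Ψ : ℝ → ℝ) (s t : ℝ) (p : V3) :
    nfL N P Ψ s (nfL N P Ψ t p) = nfL N P Ψ (t + s) p := by
  funext i
  fin_cases i
  · simp [nfL]
    ring
  · simp [nfL]
  · simp [nfL]
    ring

namespace St
variable (σ : St)

theorem pos_mem (q : T3) : σ.pos q ∈ Finset.Ico (0 : ℤ) σ.N := by
  have hN : (0 : ℤ) < σ.N := by exact_mod_cast σ.hN
  exact Finset.mem_Ico.2 ⟨Int.emod_nonneg _ hN.ne', Int.emod_lt_of_pos _ hN⟩

/-- `rp (p 2 : Tc) = p 2 - ⌊p 2⌋` changes the first floor by a multiple of `N`. -/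
theorem pos_proj (p : V3) (h0 : 0 ≤ p 1) (h1 : p 1 < 1) :
    σ.pos (proj p) =
      ((σ.ns : ℤ) * (⌊(σ.N : ℝ) * p 2 - σ.a * p 1⌋ + ⌊(σ.t0 : ℝ) * p 1⌋)) % σ.N := by
  unfold pos
  have e1 : rp (proj p 1) = p 1 := by
    unfold proj
    rw [rp_coe, Int.fract_eq_self.2 ⟨h0, h1⟩]
  have e2 : (σ.N : ℝ) * rp (proj p 2) - σ.a * p 1 =
      (σ.N : ℝ) * p 2 - σ.a * p 1 + ((- (σ.N * ⌊p 2⌋) : ℤ) : ℝ) := by
    unfold proj
    rw [rp_coe, Int.fract]
    push_cast
    ring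
  rw [e1, e2, Int.floor_add_intCast]
  have e3 : (σ.ns : ℤ) * (⌊(σ.N : ℝ) * p 2 - σ.a * p 1⌋ + - (σ.N * ⌊p 2⌋) + ⌊(σ.t0 : ℝ) * p 1⌋) =
      (σ.ns : ℤ) * (⌊(σ.N : ℝ) * p 2 - σ.a * p 1⌋ + ⌊(σ.t0 : ℝ) * p 1⌋) +
        σ.N * (- (σ.ns * ⌊p 2⌋)) := by ring
  rw [e3, Int.add_mul_emod_self_left]

theorem pos_shift (k : ℤ) (p p' : V3) (h0 : 0 ≤ p 1) (h1 : p 1 < 1) (e1 : p' 1 = p 1)
    (e2 : p' 2 = p 2 + k * σ.P / σ.N) : σ.pos (proj p') = (σ.pos (proj p) + k) % σ.N := by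
  have hN : (σ.N : ℝ) ≠ 0 := by exact_mod_cast σ.hN.ne'
  rw [σ.pos_proj p h0 h1, σ.pos_proj p' (e1 ▸ h0) (e1 ▸ h1), e1, e2]
  have e3 : (σ.N : ℝ) * (p 2 + k * σ.P / σ.N) - σ.a * p 1 =
      (σ.N : ℝ) * p 2 - σ.a * p 1 + ((k * σ.P : ℤ) : ℝ) := by
    push_cast
    field_simp
    ring
  rw [e3, Int.floor_add_intCast, Int.emod_add_emod]
  have e4 : (σ.ns : ℤ) * (⌊(σ.N : ℝ) * p 2 - σ.a * p 1⌋ + k * σ.P + ⌊(σ.t0 : ℝ) * p 1⌋) =
      (σ.ns : ℤ) * (⌊(σ.N : ℝ) * p 2 - σ.a * p 1⌋ + ⌊(σ.t0 : ℝ) * p 1⌋) + k * (σ.ns * σ.P) := by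
    ring
  rw [e4]
  have h := ((σ.hns.mul_left k).add_left
    ((σ.ns : ℤ) * (⌊(σ.N : ℝ) * p 2 - σ.a * p 1⌋ + ⌊(σ.t0 : ℝ) * p 1⌋)))
  rw [mul_one] at h
  exact h

theorem measurable_pos : Measurable σ.pos := by
  have h1 : Measurable fun q : T3 => rp (q 1) := measurable_rp.comp (measurable_pi_apply 1)
  have h2 : Measurable fun q : T3 => rp (q 2) := measurable_rp.comp (measurable_pi_apply 2)
  have h3 : Measurable fun q : T3 =>
      (⌊(σ.N : ℝ) * rp (q 2) - σ.a * rp (q 1)⌋, ⌊(σ.t0 : ℝ) * rp (q 1)⌋) :=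
    ((h2.const_mul _).sub (h1.const_mul _)).floor.prodMk (h1.const_mul _).floor
  exact (measurable_of_countable fun z : ℤ × ℤ => ((σ.ns : ℤ) * (z.1 + z.2)) % σ.N).comp h3

theorem measurable_hol : Measurable fun q : T3 =>
    ((deriv σ.Ψ (rp (q 1)) * σ.pos q / σ.N : ℝ) : Tc) := by
  have h1 : Measurable fun q : T3 => deriv σ.Ψ (rp (q 1)) :=
    (measurable_deriv σ.Ψ).comp (measurable_rp.comp (measurable_pi_apply 1))
  have h2 : Measurable fun q : T3 => (σ.pos q : ℝ) :=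
    (measurable_of_countable fun z : ℤ => (z : ℝ)).comp σ.measurable_pos
  exact AddCircle.measurable_mk'.comp ((h1.mul h2).div_const _)

theorem measurable_xc : Measurable σ.xc := by
  exact (measurable_pi_apply 0).sub σ.measurable_hol

/-- skew translation of the first coordinate by a measurable function of the other two
(e.g. `MeasurableEquiv.piFinSuccAbove`/`volume_preserving_piFinSuccAbove` and
`MeasurePreserving.skew_product`). -/
theorem mp_xc : MeasurePreserving (fun q : T3 => (![σ.xc q, q 1, q 2] : T3)) volume volume := by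
  have hc : Measurable fun r : Fin 2 → Tc => (![0, r 0, r 1] : T3) := by
    refine measurable_pi_lambda _ fun i => ?_
    fin_cases i
    · exact measurable_const
    · exact measurable_pi_apply 0
    · exact measurable_pi_apply 1
  exact law0_skew (σ.measurable_hol.comp hc)

theorem pos_add (k : ℤ) (q : T3) :
    σ.pos (q + proj ![0, 0, k * σ.P / σ.N]) = (σ.pos q + k) % σ.N := by
  have h := σ.pos_shift k (fun i => rp (q i)) ((fun i => rp (q i)) + (![0, 0, (k : ℝ) * σ.P / σ.N] : V3))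
    (rp_nonneg _) (rp_lt_one _) (by simp) (by simp)
  rwa [proj_add, proj_surj] at h

theorem law_floor {E : Type} [NormedAddCommGroup E] [NormedSpace ℝ E] [CompleteSpace E]
    (g : Tc × Tc → E) (hm : StronglyMeasurable g) (B : ℝ) (hb : ∀ z, ‖g z‖ ≤ B) {i : ℤ}
    (hi : i ∈ Finset.Ico (0 : ℤ) σ.N) :
    ∫ q, (σ.pos ⁻¹' {i}).indicator (fun q : T3 => g (q 0, q 1)) q = ((σ.N : ℝ)⁻¹) • ∫ z, g z := by
  have hN : (0 : ℤ) < σ.N := by exact_mod_cast σ.hN
  have hg : StronglyMeasurable fun q : T3 => g (q 0, q 1) :=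
    hm.comp_measurable law0_pair.measurable
  have hint : Integrable (fun q : T3 => g (q 0, q 1)) volume :=
    Integrable.of_bound hg.aestronglyMeasurable B (Filter.Eventually.of_forall fun q => hb _)
  have hs : ∀ j : ℤ, MeasurableSet (σ.pos ⁻¹' {j}) := fun j =>
    σ.measurable_pos (measurableSet_singleton j)
  have h1 : ∀ j ∈ Finset.Ico (0 : ℤ) σ.N,
      ∫ q, (σ.pos ⁻¹' {j}).indicator (fun q : T3 => g (q 0, q 1)) q =
        ∫ q, (σ.pos ⁻¹' {i}).indicator (fun q : T3 => g (q 0, q 1)) q := by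
    intro j hj
    rw [← integral_add_right_eq_self
      ((σ.pos ⁻¹' {i}).indicator (fun q : T3 => g (q 0, q 1)))
      (proj ![0, 0, ((i - j : ℤ) : ℝ) * σ.P / σ.N])]
    refine integral_congr_ae (Filter.Eventually.of_forall fun q => ?_)
    have e0 : (q + proj ![0, 0, ((i - j : ℤ) : ℝ) * σ.P / σ.N]) 0 = q 0 := by simp [proj]
    have e1 : (q + proj ![0, 0, ((i - j : ℤ) : ℝ) * σ.P / σ.N]) 1 = q 1 := by simp [proj]
    have hq := Finset.mem_Ico.1 (σ.pos_mem q)
    rw [Finset.mem_Ico] at hi hj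
    have e2 : (σ.pos q + (i - j)) % σ.N = i ↔ σ.pos q = j := by
      constructor
      · intro h
        have h2 : (σ.N : ℤ) ∣ σ.pos q + (i - j) - i := by
          have := Int.dvd_self_sub_emod (x := σ.pos q + (i - j)) (m := σ.N)
          rwa [h] at this
        have h3 : σ.pos q + (i - j) - i = 0 :=
          Int.eq_zero_of_abs_lt_dvd h2 (abs_lt.2 ⟨by omega, by omega⟩)
        omega
      · intro h
        rw [h, add_sub_cancel, Int.emod_eq_of_lt hi.1 hi.2]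
    simp only [Set.indicator, Set.mem_preimage, Set.mem_singleton_iff, σ.pos_add, e0, e1, e2]
  have h2 : ∑ j ∈ Finset.Ico (0 : ℤ) σ.N,
      ∫ q, (σ.pos ⁻¹' {j}).indicator (fun q : T3 => g (q 0, q 1)) q = ∫ z, g z := by
    rw [← integral_finsetSum _ fun j _ => hint.indicator (hs j), ← law0_int law0_pair hm]
    refine integral_congr_ae (Filter.Eventually.of_forall fun q => ?_)
    simp only [Set.indicator, Set.mem_preimage, Set.mem_singleton_iff]
    rw [Finset.sum_ite_eq, if_pos (σ.pos_mem q)]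
  rw [Finset.sum_congr rfl h1, Finset.sum_const] at h2
  rw [← h2, ← Nat.cast_smul_eq_nsmul ℝ, smul_smul]
  have : (σ.N : ℝ) ≠ 0 := by exact_mod_cast σ.hN.ne'
  simp [inv_mul_cancel₀ this]

/-- **Law.**  By `mp_xc` (note `pos` depends only on `q 1, q 2`) reduce to
`∫ f (pos q) (q 0, q 1)`.  The translation `τ : q ↦ q + (0,0,P/N)` preserves volume, fixes `q 0, q 1`
and sends `pos` to `(pos + 1) % N`; averaging over `τ^k`, `k < N`, the integrand becomes
`N⁻¹ ∑_i f i (q 0, q 1)`; finally `q ↦ (q 0, q 1)` preserves volume. -/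
theorem law {E : Type} [NormedAddCommGroup E] [NormedSpace ℝ E] [CompleteSpace E]
    (f : ℤ → Tc × Tc → E) (hm : ∀ i, StronglyMeasurable (f i)) (B : ℝ) (hb : ∀ i z, ‖f i z‖ ≤ B) :
    ∫ q, f (σ.pos q) (σ.xc q, q 1) = ((σ.N : ℝ)⁻¹) • ∑ i ∈ Finset.Ico (0 : ℤ) σ.N, ∫ z, f i z := by
  have hg : ∀ i, StronglyMeasurable fun q : T3 => f i (q 0, q 1) := fun i =>
    (hm i).comp_measurable law0_pair.measurable
  have hs : ∀ j : ℤ, MeasurableSet (σ.pos ⁻¹' {j}) := fun j =>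
    σ.measurable_pos (measurableSet_singleton j)
  have hF : StronglyMeasurable fun q : T3 => ∑ i ∈ Finset.Ico (0 : ℤ) σ.N,
      (σ.pos ⁻¹' {i}).indicator (fun q : T3 => f i (q 0, q 1)) q :=
    Finset.stronglyMeasurable_fun_sum _ fun i _ => (hg i).indicator (hs i)
  have h1 := law0_int σ.mp_xc hF
  have h2 : ∀ q : T3, ∑ i ∈ Finset.Ico (0 : ℤ) σ.N,
      (σ.pos ⁻¹' {i}).indicator (fun q : T3 => f i (q 0, q 1)) (![σ.xc q, q 1, q 2] : T3) =
      f (σ.pos q) (σ.xc q, q 1) := fun q => by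
    have e : σ.pos (![σ.xc q, q 1, q 2] : T3) = σ.pos q := rfl
    simp only [Set.indicator, Set.mem_preimage, Set.mem_singleton_iff, e]
    rw [Finset.sum_ite_eq, if_pos (σ.pos_mem q)]
    rfl
  simp only [h2] at h1
  rw [h1, integral_finsetSum _ fun i _ => (Integrable.of_bound (hg i).aestronglyMeasurable B
    (Filter.Eventually.of_forall fun q => hb _ _)).indicator (hs i), Finset.smul_sum]
  exact Finset.sum_congr rfl fun i hi => σ.law_floor (f i) (hm i) B (hb i) hi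

/-- `S^k (proj p) = proj (nfL N P Ψ k p)`. -/
theorem S_zpow (k : ℤ) (p : V3) : (σ.S ^ k) (proj p) = proj (nfL σ.N σ.P σ.Ψ k p) := by
  induction k using Int.induction_on with
  | zero =>
    have e : nfL σ.N σ.P σ.Ψ ((0 : ℤ) : ℝ) p = p := by
      funext i
      fin_cases i <;> simp [nfL]
    rw [e]
    rfl
  | succ n ih =>
    rw [add_comm, zpow_add, zpow_one, Equiv.Perm.mul_apply, ih, σ.hSl, law0_nf]
    push_cast
    rw [add_comm]
  | pred n ih =>
    rw [sub_eq_neg_add, zpow_add, zpow_neg_one, Equiv.Perm.mul_apply, ih, σ.S_inv, law0_nf]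
    push_cast
    rw [add_comm]

theorem dyn (k : ℤ) (q : T3) :
    σ.pos ((σ.S ^ k) q) = (σ.pos q + k) % σ.N ∧ ((σ.S ^ k) q) 1 = q 1 ∧
      σ.xc ((σ.S ^ k) q) =
        σ.xc q + ((deriv σ.Ψ (rp (q 1)) * ((σ.pos q + k) / σ.N : ℤ) : ℝ) : Tc) := by
  have hN : (σ.N : ℝ) ≠ 0 := by exact_mod_cast σ.hN.ne'
  have h := σ.S_zpow k fun i => rp (q i)
  rw [proj_surj] at h
  have h1 : σ.pos ((σ.S ^ k) q) = (σ.pos q + k) % σ.N := by
    have := σ.pos_shift k (fun i => rp (q i)) (nfL σ.N σ.P σ.Ψ k fun i => rp (q i))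
      (rp_nonneg _) (rp_lt_one _) (by simp [nfL]) (by simp [nfL])
    rwa [proj_surj, ← h] at this
  have h2 : ((σ.S ^ k) q) 1 = q 1 := by
    rw [h]
    simp [proj, nfL, coe_rp]
  refine ⟨h1, h2, ?_⟩
  have h3 : ((σ.S ^ k) q) 0 = q 0 + ((k * deriv σ.Ψ (rp (q 1)) / σ.N : ℝ) : Tc) := by
    rw [h]
    simp [proj, nfL, coe_rp]
  unfold xc
  rw [h1, h2, h3, add_sub_assoc, sub_add, ← AddCircle.coe_sub, ← AddCircle.coe_sub,
    sub_eq_add_neg (q 0), ← AddCircle.coe_neg]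
  congr 2
  rw [Int.emod_def]
  push_cast
  field_simp
  ring

theorem T_zpow (k : ℤ) (p : T3) : σ.H⁻¹ ((σ.T ^ k) p) = (σ.S ^ k) (σ.H⁻¹ p) := by
  unfold T
  rw [conj_zpow]
  simp

end St

end Crest.Agent.R81
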