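import Crest.Agent.R81.Law0

/-!
# R81: the tower of a state: law and dynamics
-/

set_option autoImplicit false

namespace Crest.Agent.R81

open MeasureTheory Crest.AnalysisR.Torus3

namespace St
variable (σ : St)

/-- only the floors in `[0,N)` matter -/
theorem vec_trunc (g : ℤ → Tc → ℂ) :
    σ.vec g = σ.vec fun i x => if i ∈ Finset.Ico (0 : ℤ) σ.N then g i x else 0 := by
  funext p
  simp only [vec, σ.pos_mem, if_true]

theorem measurable_vec {g : ℤ → Tc → ℂ} (hg : ∀ i, Measurable (g i)) : Measurable (σ.vec g) := by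
  have h1 : Measurable fun z : Tc × ℤ => g z.2 z.1 := measurable_from_prod_countable_left hg
  have h2 : Measurable fun p => σ.H⁻¹ p := σ.hH.inv.2.measurable
  exact h1.comp ((σ.measurable_xc.comp h2).prodMk (σ.measurable_pos.comp h2))

theorem memLp_vec {g : ℤ → Tc → ℂ} (hg : BM g) : MemLp (σ.vec g) 2 volume := by
  obtain ⟨hm, B, hB⟩ := hg
  exact MemLp.of_bound (σ.measurable_vec hm).aestronglyMeasurable B (ae_of_all _ fun _ => hB _ _)

theorem memLp_vec_ev (Ms : Finset ℤ) (G : ℤ → ℤ → ℂ) : MemLp (σ.vec (ev Ms G)) 2 volume := by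
  rw [σ.vec_trunc]
  exact σ.memLp_vec (BM_ev Ms G σ.N)

theorem n2_vec_sq {g : ℤ → Tc → ℂ} (hg : BM g) :
    n2 (σ.vec g) ^ 2 = (∑ i ∈ Finset.Ico (0 : ℤ) σ.N, ∫ x, ‖g i x‖ ^ 2) / σ.N := by
  obtain ⟨hm, B, hB⟩ := hg
  have hH := σ.hH.inv.2
  have h1 : Measurable fun z : Tc × ℤ => g z.2 z.1 := measurable_from_prod_countable_left hm
  have h2 : Measurable fun q => ‖g (σ.pos q) (σ.xc q)‖ ^ 2 :=
    (h1.comp (σ.measurable_xc.prodMk σ.measurable_pos)).norm.pow_const 2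
  have h3 : ∫ p, ‖σ.vec g p‖ ^ 2 = ∫ q, ‖g (σ.pos q) (σ.xc q)‖ ^ 2 := by
    have := integral_map (μ := (volume : Measure T3)) hH.measurable.aemeasurable
      (f := fun q => ‖g (σ.pos q) (σ.xc q)‖ ^ 2) h2.aestronglyMeasurable
    rw [hH.map_eq] at this
    rw [this]; rfl
  have h4 := σ.law (fun i (z : Tc × Tc) => ‖g i z.1‖ ^ 2)
    (fun i => (((hm i).comp measurable_fst).norm.pow_const 2).stronglyMeasurable) (B ^ 2)
    (fun i z => by
      rw [Real.norm_of_nonneg (sq_nonneg _)]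
      exact pow_le_pow_left₀ (norm_nonneg _) (hB _ _) 2)
  rw [n2_sq (σ.measurable_vec hm).aestronglyMeasurable, h3, h4, smul_eq_mul, mul_comm,
    div_eq_mul_inv]
  congr 1
  refine Finset.sum_congr rfl fun i _ => ?_
  rw [Measure.volume_eq_prod, integral_fun_fst (fun x => ‖g i x‖ ^ 2)]
  simp

/-- only the floors in `[0,N)` matter (`pos_mem`, `BM_ev`) -/
theorem n2_vec_ev (Ms : Finset ℤ) (G : ℤ → ℤ → ℂ) : n2 (σ.vec (ev Ms G)) = tn σ.N Ms G := by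
  have h1 := σ.n2_vec_sq (BM_ev Ms G σ.N)
  rw [← σ.vec_trunc] at h1
  have h2 : n2 (σ.vec (ev Ms G)) ^ 2 = tn σ.N Ms G ^ 2 := by
    rw [h1, tn_sq]
    congr 1
    refine Finset.sum_congr rfl fun i hi => ?_
    simp only [hi, if_true]
    exact integral_ev_sq Ms G i
  exact (sq_eq_sq₀ (n2_nonneg _) (tn_nonneg _ _ _)).1 h2

/-- fibrewise bound -/
theorem n2_vec_le {g : ℤ → Tc → ℂ} (hm : ∀ i, Measurable (g i)) {B : ℝ} (hB : 0 ≤ B)
    (h : ∀ x, sn σ.N (fun i => g i x) ≤ B) : n2 (σ.vec g) ≤ B := by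
  have hN : (0 : ℝ) < σ.N := by exact_mod_cast σ.hN
  have h0 : ∀ x, (∑ i ∈ Finset.Ico (0 : ℤ) σ.N, ‖g i x‖ ^ 2) / σ.N ≤ B ^ 2 := fun x =>
    (Real.sqrt_le_left hB).1 (h x)
  have h1 : ∀ i ∈ Finset.Ico (0 : ℤ) σ.N, ∀ x, ‖g i x‖ ^ 2 ≤ B ^ 2 * σ.N := fun i hi x => by
    have := Finset.single_le_sum (f := fun i => ‖g i x‖ ^ 2) (fun _ _ => sq_nonneg _) hi
    have h2 := (div_le_iff₀ hN).1 (h0 x)
    linarith
  have hBM : BM fun i x => if i ∈ Finset.Ico (0 : ℤ) σ.N then g i x else 0 := by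
    refine ⟨fun i => ?_, Real.sqrt (B ^ 2 * σ.N), fun i x => ?_⟩
    · by_cases hi : i ∈ Finset.Ico (0 : ℤ) σ.N
      · simpa only [hi, if_true] using hm i
      · simp only [hi, if_false]; exact measurable_const
    · by_cases hi : i ∈ Finset.Ico (0 : ℤ) σ.N
      · simp only [hi, if_true]; exact Real.le_sqrt_of_sq_le (h1 i hi x)
      · simp only [hi, if_false, norm_zero]; exact Real.sqrt_nonneg _
  have h2 := σ.n2_vec_sq hBM
  rw [← σ.vec_trunc] at h2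
  have hint : ∀ i ∈ Finset.Ico (0 : ℤ) σ.N, Integrable (fun x => ‖g i x‖ ^ 2) volume :=
    fun i hi => Integrable.of_bound ((hm i).norm.pow_const 2).aestronglyMeasurable (B ^ 2 * σ.N)
      (ae_of_all _ fun x => by rw [Real.norm_of_nonneg (sq_nonneg _)]; exact h1 i hi x)
  have h3 : n2 (σ.vec g) ^ 2 ≤ B ^ 2 := by
    rw [h2, Finset.sum_congr rfl (g := fun i => ∫ x, ‖g i x‖ ^ 2)
      (fun i hi => by simp only [hi, if_true]), ← integral_finsetSum _ hint, ← integral_div]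
    calc ∫ x, (∑ i ∈ Finset.Ico (0 : ℤ) σ.N, ‖g i x‖ ^ 2) / (σ.N : ℝ) ≤ ∫ _ : Tc, B ^ 2 :=
          integral_mono ((integrable_finsetSum _ hint).div_const _) (integrable_const _) h0
      _ = B ^ 2 := by simp
  exact (pow_le_pow_iff_left₀ (n2_nonneg _) hB two_ne_zero).1 h3

/-- floorwise bound -/
theorem n2_vec_le' {g : ℤ → Tc → ℂ} (hg : BM g) {B : ℝ} (hB : 0 ≤ B)
    (h : ∀ i ∈ Finset.Ico (0 : ℤ) σ.N, ∫ x, ‖g i x‖ ^ 2 ≤ B ^ 2) : n2 (σ.vec g) ≤ B := by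
  have hN : (0 : ℝ) < σ.N := by exact_mod_cast σ.hN
  have h3 : n2 (σ.vec g) ^ 2 ≤ B ^ 2 := by
    rw [σ.n2_vec_sq hg, div_le_iff₀ hN]
    refine (Finset.sum_le_card_nsmul _ _ _ h).trans (le_of_eq ?_)
    simp [mul_comm]
  exact (pow_le_pow_iff_left₀ (n2_nonneg _) hB two_ne_zero).1 h3

end St

end Crest.Agent.R81
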