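import Crest.Agent.R81.Shear

/-!
# R81: volume preserving smooth diffeomorphisms of the torus: group operations, shears, linear maps,
limits
-/

set_option autoImplicit false

namespace Crest.Agent.R81

open MeasureTheory Crest.AnalysisR.Torus3
open scoped ContDiff

/-- new coordinates -/
def linL (N a α β : ℤ) (p : V3) : V3 := ![p 0, N * p 2 - a * p 1, α * p 1 + β * p 2]
/-- inverse of `linL` -/
def linI (N a α β : ℤ) (p : V3) : V3 := ![p 0, N * p 2 - β * p 1, a * p 2 + α * p 1]

theorem linL_linI {N a α β : ℤ} (h : α * N + β * a = 1) (p : V3) :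
    linL N a α β (linI N a α β p) = p := by
  have h' : (α : ℝ) * N + β * a = 1 := by exact_mod_cast h
  funext i
  fin_cases i
  · simp [linL, linI]
  · simp [linL, linI]
    linear_combination (p 1) * h'
  · simp [linL, linI]
    linear_combination (p 2) * h'

theorem linI_linL {N a α β : ℤ} (h : α * N + β * a = 1) (p : V3) :
    linI N a α β (linL N a α β p) = p := by
  have h' : (α : ℝ) * N + β * a = 1 := by exact_mod_cast h
  funext i
  fin_cases i
  · simp [linL, linI]
  · simp [linL, linI]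
    linear_combination (p 1) * h'
  · simp [linL, linI]
    linear_combination (p 2) * h'

theorem linL_add (N a α β : ℤ) (p q : V3) :
    linL N a α β (p + q) = linL N a α β p + linL N a α β q := by
  funext i
  fin_cases i
  · simp [linL]
  · simp [linL]
    ring
  · simp [linL]
    ring

theorem linI_add (N a α β : ℤ) (p q : V3) :
    linI N a α β (p + q) = linI N a α β p + linI N a α β q := by
  funext i
  fin_cases i
  · simp [linI]
  · simp [linI]
    ring
  · simp [linI]
    ring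

theorem linL_iv (N a α β : ℤ) (z : Fin 3 → ℤ) :
    linL N a α β (iv z) = iv ![z 0, N * z 2 - a * z 1, α * z 1 + β * z 2] := by
  funext i
  fin_cases i <;> simp [linL, iv]

theorem linI_iv (N a α β : ℤ) (z : Fin 3 → ℤ) :
    linI N a α β (iv z) = iv ![z 0, N * z 2 - β * z 1, a * z 2 + α * z 1] := by
  funext i
  fin_cases i <;> simp [linI, iv]

theorem contDiff_linL (N a α β : ℤ) : ContDiff ℝ ∞ (linL N a α β) := by
  refine contDiff_pi.2 fun i => ?_
  fin_cases i
  · exact contDiff_apply ℝ ℝ 0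
  · exact (contDiff_const.mul (contDiff_apply ℝ ℝ 2)).sub (contDiff_const.mul (contDiff_apply ℝ ℝ 1))
  · exact (contDiff_const.mul (contDiff_apply ℝ ℝ 1)).add (contDiff_const.mul (contDiff_apply ℝ ℝ 2))

theorem contDiff_linI (N a α β : ℤ) : ContDiff ℝ ∞ (linI N a α β) := by
  refine contDiff_pi.2 fun i => ?_
  fin_cases i
  · exact contDiff_apply ℝ ℝ 0
  · exact (contDiff_const.mul (contDiff_apply ℝ ℝ 2)).sub (contDiff_const.mul (contDiff_apply ℝ ℝ 1))
  · exact (contDiff_const.mul (contDiff_apply ℝ ℝ 2)).add (contDiff_const.mul (contDiff_apply ℝ ℝ 1))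

/-- a continuous surjective additive endomorphism preserves Haar probability
(`AddMonoidHom.measurePreserving`). -/
theorem exists_lin (N a α β : ℤ) (h : α * N + β * a = 1) :
    ∃ A : Equiv.Perm T3, IsTD A ∧ (∀ p, A (proj p) = proj (linL N a α β p)) ∧
      ∀ p, A⁻¹ (proj p) = proj (linI N a α β p) := by
  obtain ⟨A, h1, h2⟩ := exists_perm_of_lift (linL N a α β) (linI N a α β) (linL_linI h) (linI_linL h)
    (fun p z => by rw [linL_add, linL_iv, proj_add, proj_iv, add_zero])
    (fun p z => by rw [linI_add, linI_iv, proj_add, proj_iv, add_zero])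
  have l1 : IsSmoothLift A (linL N a α β) := ⟨contDiff_linL N a α β, h1⟩
  refine ⟨A, ⟨⟨⟨_, l1⟩, ⟨_, contDiff_linI N a α β, h2⟩⟩, ?_⟩, h1, h2⟩
  let f : T3 →+ T3 := AddMonoidHom.mk' A fun q q' => by
    rw [← proj_surj q, ← proj_surj q', ← proj_add, h1, h1, h1, linL_add, proj_add]
  exact AddMonoidHom.measurePreserving (f := f) (lift_continuous l1) A.surjective rfl

/-- composition of two shears (directions `e₀` and `e₂`) -/
theorem exists_nf (N : ℕ) (P : ℤ) (Ψ : ℝ → ℝ) (h1 : ContDiff ℝ ∞ Ψ) (h2 : Function.Periodic Ψ 1) :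
    ∃ S : Equiv.Perm T3, IsTD S ∧ ∀ p, S (proj p) = proj (nfL N P Ψ 1 p) := by
  have hd : ContDiff ℝ ∞ (deriv Ψ) := (contDiff_infty_iff_deriv.1 h1).2
  have hp : ∀ (y : ℝ) (n : ℤ), deriv Ψ (y + n) = deriv Ψ y := fun y n => by
    have e : (fun x => Ψ (x + n)) = Ψ := funext fun x => by
      have := h2.int_mul n x
      rwa [mul_one] at this
    rw [← deriv_comp_add_const, e]
  obtain ⟨T₁, t1, t1', -⟩ := exists_shear ![1, 0, 0] 1 one_pos ⟨![1, 0, 0], by
      funext i
      fin_cases i <;> simp [iv]⟩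
    (fun p => deriv Ψ (p 1) / N) ((hd.comp (contDiff_apply ℝ ℝ 1)).div_const _)
    (fun p z => by simp [iv, hp]) (fun p t => by simp)
  obtain ⟨T₂, t2, t2', -⟩ := exists_shear ![0, 0, 1] 1 one_pos ⟨![0, 0, 1], by
      funext i
      fin_cases i <;> simp [iv]⟩
    (fun _ => (P : ℝ) / N) contDiff_const (fun _ _ => rfl) (fun _ _ => rfl)
  refine ⟨T₂ * T₁, t2.mul t1, fun p => ?_⟩
  rw [Equiv.Perm.mul_apply, t1', t2']
  congr 1
  funext i
  fin_cases i <;> simp [nfL] <;> rfl

theorem St.S_inv (σ : St) (p : V3) : σ.S⁻¹ (proj p) = proj (nfL σ.N σ.P σ.Ψ (-1) p) := by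
  rw [Equiv.Perm.inv_eq_iff_eq, σ.hSl]
  congr 1
  funext i
  fin_cases i
  · simp [nfL]
    ring
  · simp [nfL]
  · simp [nfL]
    ring

theorem contDiff_nfL (N : ℕ) (P : ℤ) {Ψ : ℝ → ℝ} (h1 : ContDiff ℝ ∞ Ψ) (sg : ℝ) :
    ContDiff ℝ ∞ (nfL N P Ψ sg) := by
  have hd : ContDiff ℝ ∞ (deriv Ψ) := (contDiff_infty_iff_deriv.1 h1).2
  refine contDiff_pi.2 fun i => ?_
  fin_cases i
  · exact (contDiff_apply ℝ ℝ 0).add
      ((contDiff_const.mul (hd.comp (contDiff_apply ℝ ℝ 1))).div_const _)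
  · exact contDiff_apply ℝ ℝ 1
  · exact (contDiff_apply ℝ ℝ 2).add contDiff_const

theorem mp_char (c : Fin 3 → ℤ) (hc : c ≠ 0) :
    MeasurePreserving (fun q : T3 => ∑ i, c i • q i) volume volume := by
  let f : T3 →+ Tc := AddMonoidHom.mk' (fun q : T3 => ∑ i, c i • q i) fun q q' => by
    simp [smul_add, Finset.sum_add_distrib]
  obtain ⟨i, hi⟩ := Function.ne_iff.1 hc
  have hi' : (c i : ℝ) ≠ 0 := by exact_mod_cast hi
  refine AddMonoidHom.measurePreserving (f := f) ?_ (fun x => ?_) (by simp)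
  · change Continuous fun q : T3 => ∑ i, c i • q i
    fun_prop
  · refine ⟨Pi.single i ((rp x / c i : ℝ) : Tc), ?_⟩
    change ∑ j, c j • (Pi.single i ((rp x / c i : ℝ) : Tc) : T3) j = x
    rw [Finset.sum_eq_single i (fun j _ hj => by simp [Pi.single_eq_of_ne hj]) (by simp),
      Pi.single_eq_same, ← AddCircle.coe_zsmul, zsmul_eq_mul, mul_div_cancel₀ _ hi', coe_rp]

theorem vol_ball (μ : ℝ) : volume {x : Tc | ‖x‖ < μ} ≤ ENNReal.ofReal (2 * μ) := by
  have h : {x : Tc | ‖x‖ < μ} ⊆ Metric.closedBall 0 μ := fun x hx => by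
    rw [mem_closedBall_zero_iff]
    exact le_of_lt hx
  refine (measure_mono h).trans ?_
  rw [AddCircle.volume_closedBall]
  exact ENNReal.ofReal_le_ofReal (min_le_right _ _)

end Crest.Agent.R81
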