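import Crest.Agent.R81.Chu

/-!
# R81: localisation of partial chirps; choice of parameters
-/

set_option autoImplicit false

namespace Crest.Agent.R81

open MeasureTheory

/-- `D = D1 t⁸`, `η = t⁻⁵` with `t` large. -/
theorem exists_Deta (D1 : ℕ) (hD1 : 0 < D1) (C ε : ℝ) (hε : 0 < ε) :
    ∃ (D2 : ℕ) (η : ℝ), 0 < D2 ∧ C ≤ D2 ∧ 0 < η ∧ η ≤ ε ∧ η * Real.sqrt (D1 * D2 : ℕ) ≤ ε ∧
      1 ≤ ε * ((D1 * D2 : ℕ) * Real.sqrt (D1 * D2 : ℕ) * η ^ 2) := by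
  obtain ⟨t, ht⟩ := exists_nat_ge (|C| + 1 + Real.sqrt D1 / ε)
  have hD : (1 : ℝ) ≤ D1 := by exact_mod_cast hD1
  have hs : 1 ≤ Real.sqrt D1 := Real.one_le_sqrt.2 hD
  have h0 : 0 ≤ Real.sqrt D1 / ε := by positivity
  have hC := le_abs_self C
  have hC0 := abs_nonneg C
  have ht1 : (1 : ℝ) ≤ t := by linarith
  have ht0 : (0 : ℝ) < t := by linarith
  have h1 : Real.sqrt D1 ≤ ε * t := by
    have : Real.sqrt D1 / ε ≤ t := by linarith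
    rwa [div_le_iff₀' hε] at this
  have h2 : Real.sqrt (D1 * t ^ 8 : ℕ) = Real.sqrt D1 * t ^ 4 := by
    push_cast
    rw [Real.sqrt_mul (by positivity), show (t : ℝ) ^ 8 = (t ^ 4) ^ 2 by ring,
      Real.sqrt_sq (by positivity)]
  refine ⟨t ^ 8, ((t : ℝ) ^ 5)⁻¹, pow_pos (by exact_mod_cast ht0) _, ?_, by positivity, ?_, ?_, ?_⟩
  · have : (t : ℝ) ≤ t ^ 8 := le_self_pow₀ ht1 (by norm_num)
    push_cast
    linarith
  · have h3 : (t : ℝ) ≤ t ^ 5 := le_self_pow₀ ht1 (by norm_num)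
    rw [inv_le_iff_one_le_mul₀ (by positivity)]
    nlinarith
  · rw [h2, show ((t : ℝ) ^ 5)⁻¹ * (Real.sqrt D1 * t ^ 4) = Real.sqrt D1 / t by field_simp,
      div_le_iff₀ ht0]
    exact h1
  · rw [h2]
    push_cast
    rw [show ε * ((D1 : ℝ) * t ^ 8 * (Real.sqrt D1 * t ^ 4) * ((t : ℝ) ^ 5)⁻¹ ^ 2) =
      (ε * t) * (D1 * Real.sqrt D1 * t) by field_simp]
    exact one_le_mul_of_one_le_of_one_le (hs.trans h1)
      (one_le_mul_of_one_le_of_one_le (one_le_mul_of_one_le_of_one_le hD hs) ht1)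

/-- name indices of zone `d` -/
noncomputable def Iz (R D : ℕ) (δ3 : ℝ) (d : ℕ) : Finset ℤ :=
  Finset.Ico ⌈(R : ℝ) * (d + 8 * δ3) / D⌉ ⌈(R : ℝ) * (d + 1 - 8 * δ3) / D⌉

theorem mem_Iz (R D : ℕ) (δ3 : ℝ) (d : ℕ) (j : ℤ) :
    j ∈ Iz R D δ3 d ↔ (R : ℝ) * (d + 8 * δ3) / D ≤ j ∧ (j : ℝ) < R * (d + 1 - 8 * δ3) / D := by
  unfold Iz; rw [Finset.mem_Ico, Int.ceil_le, Int.lt_ceil]

/-- zones are disjoint and stay at distance `b` from the ends of `[0,N')` -/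
def Zon (N N' : ℕ) (Ds : Finset ℕ) (I : ℕ → Finset ℤ) (b : ℕ) : Prop :=
  (∀ d ∈ Ds, ∀ d' ∈ Ds, ∀ j, j ∈ I d → j ∈ I d' → d = d') ∧
    ∀ d ∈ Ds, ∀ j ∈ I d, (b : ℤ) ≤ j * N ∧ (j + 1) * N + b ≤ N'

theorem Zon.mono {N N' : ℕ} {Ds : Finset ℕ} {I : ℕ → Finset ℤ} {b b' : ℕ} (h : Zon N N' Ds I b)
    (hb : b' ≤ b) : Zon N N' Ds I b' := by
  refine ⟨h.1, fun d hd j hj => ?_⟩
  have := h.2 d hd j hj
  have hb' : (b' : ℤ) ≤ b := by exact_mod_cast hb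
  constructor <;> omega

/-- elementary properties of the zones for large `R` -/
theorem Iz_props (N D b : ℕ) (hN : 0 < N) (hD : 0 < D) (δ3 : ℝ) (hδ : 0 < δ3) (hδ' : δ3 ≤ 1 / 20)
    (g ε : ℝ) (hε : 0 < ε) (Ds : Finset ℕ) (hDs : ∀ d ∈ Ds, 1 ≤ d ∧ d + 2 ≤ D)
    (hcard : (1 - g) * D ≤ Ds.card) :
    ∃ R0 : ℕ, ∀ R N' : ℕ, R0 ≤ R → N * (R - 1) < N' → N' ≤ N * R →
      Zon N N' Ds (Iz R D δ3) b ∧ Ds.biUnion (Iz R D δ3) ⊆ Finset.Ico (0 : ℤ) R ∧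
      (1 - (g + 16 * δ3 + ε)) * R ≤ (Ds.biUnion (Iz R D δ3)).card ∧
      ∀ d ∈ Ds, (d : ℝ) / D ≤ (⌈(R : ℝ) * (d + 8 * δ3) / D⌉ : ℝ) / R ∧
        (⌈(R : ℝ) * (d + 1 - 8 * δ3) / D⌉ : ℝ) / R ≤ (d + 1 : ℝ) / D := by
  have hD0 : (0 : ℝ) < D := by exact_mod_cast hD
  obtain ⟨R0, hR0⟩ := exists_nat_ge ((D : ℝ) * (b + 2 + 1 / ε + 1 / (8 * δ3)))
  refine ⟨R0, fun R N' hR hN1 hN2 => ?_⟩
  obtain ⟨ρ, hρ⟩ : ∃ ρ : ℝ, (R : ℝ) = ρ * D := ⟨R / D, by field_simp⟩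
  have hρ0 : b + 2 + 1 / ε + 1 / (8 * δ3) ≤ ρ := by
    have : (R0 : ℝ) ≤ R := by exact_mod_cast hR
    exact le_of_mul_le_mul_left (by linarith) hD0
  have hb0 : (0 : ℝ) ≤ b := Nat.cast_nonneg b
  have e1 : 0 < 1 / ε := by positivity
  have e2 : 0 < 1 / (8 * δ3) := by positivity
  have hρ1 : (b : ℝ) + 2 ≤ ρ := by linarith
  have hρp : 0 < ρ := by linarith
  have hρ2 : 1 ≤ ε * ρ := by
    have : 1 / ε ≤ ρ := by linarith
    rwa [div_le_iff₀' hε] at this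
  have hρ3 : 1 ≤ 8 * δ3 * ρ := by
    have : 1 / (8 * δ3) ≤ ρ := by linarith
    rwa [div_le_iff₀' (by positivity)] at this
  have hRp : (0 : ℝ) < R := by rw [hρ]; positivity
  have hx : ∀ x : ℝ, (R : ℝ) * x / D = ρ * x := fun x => by rw [hρ]; field_simp
  have hmem : ∀ (d : ℕ) (j : ℤ), j ∈ Iz R D δ3 d ↔
      ρ * (d + 8 * δ3) ≤ j ∧ (j : ℝ) < ρ * (d + 1 - 8 * δ3) := fun d j => by
    rw [mem_Iz, hx, hx]
  have hle : ∀ (d d' : ℕ) (j : ℤ), j ∈ Iz R D δ3 d → j ∈ Iz R D δ3 d' → d ≤ d' := by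
    intro d d' j h h'
    have h1 := lt_of_mul_lt_mul_left (((hmem d j).1 h).1.trans_lt ((hmem d' j).1 h').2) hρp.le
    have h2 : (d : ℝ) < d' + 1 := by linarith
    have h3 : d < d' + 1 := by exact_mod_cast h2
    omega
  have hbd : ∀ d ∈ Ds, ∀ j ∈ Iz R D δ3 d, (b : ℤ) ≤ j ∧ j + b + 2 ≤ R := by
    intro d hd j hj
    obtain ⟨h1, h2⟩ := (hmem d j).1 hj
    have h3 : (1 : ℝ) ≤ d := by exact_mod_cast (hDs d hd).1
    have h4 : (d : ℝ) + 2 ≤ D := by exact_mod_cast (hDs d hd).2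
    have h5 : (b : ℝ) ≤ j := by nlinarith
    have h6 : (j : ℝ) + b + 2 ≤ R := by rw [hρ]; nlinarith
    exact ⟨by exact_mod_cast h5, by exact_mod_cast h6⟩
  refine ⟨⟨fun d _ d' _ j h h' => le_antisymm (hle d d' j h h') (hle d' d j h' h),
    fun d hd j hj => ?_⟩, fun j hj => ?_, ?_, fun d _ => ⟨?_, ?_⟩⟩
  · obtain ⟨h1, h2⟩ := hbd d hd j hj
    have h3 : (1 : ℤ) ≤ N := by exact_mod_cast hN
    have h4 : (0 : ℤ) ≤ b := Int.natCast_nonneg b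
    have h5 : (N : ℤ) * (R - 1) < N' := by
      have : ((N * (R - 1) : ℕ) : ℤ) < N' := by exact_mod_cast hN1
      rwa [Nat.cast_mul, Nat.cast_sub (by omega), Nat.cast_one] at this
    constructor <;> nlinarith
  · obtain ⟨d, hd, hj⟩ := Finset.mem_biUnion.1 hj
    obtain ⟨h1, h2⟩ := hbd d hd j hj
    rw [Finset.mem_Ico]
    omega
  · rw [Finset.card_biUnion fun d _ d' _ hne => Finset.disjoint_left.2 fun j h h' =>
      hne (le_antisymm (hle d d' j h h') (hle d' d j h' h))]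
    have h1 : ∀ d ∈ Ds, ρ * (1 - 16 * δ3) - 1 ≤ ((Iz R D δ3 d).card : ℝ) := by
      intro d _
      have h2 : ⌈(R : ℝ) * (d + 1 - 8 * δ3) / D⌉ - ⌈(R : ℝ) * (d + 8 * δ3) / D⌉ ≤
          ((Iz R D δ3 d).card : ℤ) := by
        rw [Iz, Int.card_Ico]
        exact Int.self_le_toNat _
      have h3 : (⌈(R : ℝ) * (d + 1 - 8 * δ3) / D⌉ : ℝ) - (⌈(R : ℝ) * (d + 8 * δ3) / D⌉ : ℝ) ≤
          ((Iz R D δ3 d).card : ℝ) := by exact_mod_cast h2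
      rw [hx, hx] at h3
      have h4 := Int.le_ceil (ρ * (d + 1 - 8 * δ3))
      have h5 := Int.ceil_lt_add_one (ρ * (d + 8 * δ3))
      linarith
    have h2 := Finset.card_nsmul_le_sum Ds _ _ h1
    rw [nsmul_eq_mul] at h2
    have h3 : (Ds.card : ℝ) ≤ D := by
      have : Ds.card ≤ (Finset.range D).card :=
        Finset.card_le_card fun d hd => Finset.mem_range.2 (by have := hDs d hd; omega)
      rw [Finset.card_range] at this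
      exact_mod_cast this
    have h4 : 0 ≤ g := by nlinarith
    have h5 : (1 - g) * D * (ρ * (1 - 16 * δ3)) ≤ Ds.card * (ρ * (1 - 16 * δ3)) :=
      mul_le_mul_of_nonneg_right hcard (mul_nonneg hρp.le (by linarith))
    have h6 : (D : ℝ) * 1 ≤ D * (ε * ρ) := mul_le_mul_of_nonneg_left hρ2 hD0.le
    have h7 : 0 ≤ g * δ3 * (ρ * D) := by positivity
    push_cast
    rw [hρ]
    nlinarith
  · rw [le_div_iff₀ hRp, hx]
    have h1 := Int.le_ceil (ρ * (d + 8 * δ3))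
    have h2 : (d : ℝ) / D * R = ρ * d := by rw [hρ]; field_simp
    nlinarith
  · rw [div_le_iff₀ hRp, hx]
    have h1 := Int.ceil_lt_add_one (ρ * (d + 1 - 8 * δ3))
    have h2 : ((d : ℝ) + 1) / D * R = ρ * (d + 1) := by rw [hρ]; field_simp
    nlinarith

end Crest.Agent.R81
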