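import Crest.Agent.R81.Law
import Crest.Agent.R81.Law1
import Crest.Agent.R81.Zon
import Crest.Agent.R81.FreqA

/-!
# R81: the link between two consecutive states; levels (definitions)
-/

set_option autoImplicit false

namespace Crest.Agent.R81

open MeasureTheory Crest.AnalysisR.Torus3 Filter Topology

/-- Off a small set, the tower coordinates of the old state `σ` are given by an explicit formula in
terms of the tower coordinates of the new state `σ'`. -/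
def Link (σ σ' : St) (R D : ℕ) (Ds : Finset ℕ) (δ3 : ℝ) (s0 J' : ℕ) (lam : ℕ → ℤ) (α1 : ℝ)
    (α2 : ℕ → ℝ) (ε err : ℝ) : Prop :=
  ∃ (bad : Set T3) (Ξ : ℕ → ℤ → Tc → T3), MeasurableSet bad ∧ volume bad ≤ ENNReal.ofReal ε ∧
    (∀ d J, Measurable (Ξ d J)) ∧
    (∀ p, ∃ y0 : ℝ, 0 ≤ y0 ∧ y0 ≤ 3 * σ.N / σ'.N ∧
      (σ.H⁻¹ p) 1 = ((y0 + (σ'.pos (σ'.H⁻¹ p) : ℝ) / σ'.N : ℝ) : Tc)) ∧
    ∀ p, p ∉ bad → ∀ d ∈ Ds,
      (σ'.pos (σ'.H⁻¹ p) + shf s0 J' (σ'.xc (σ'.H⁻¹ p))) / σ.N ∈ Iz R D δ3 d →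
      σ.pos (σ.H⁻¹ p) = (σ'.pos (σ'.H⁻¹ p) + shf s0 J' (σ'.xc (σ'.H⁻¹ p))) % σ.N ∧
      dist (σ.xc (σ.H⁻¹ p))
        ((phs lam α1 α2 J' (σ'.xc (σ'.H⁻¹ p)) d + σ.K *
          (((σ'.pos (σ'.H⁻¹ p) + shf s0 J' (σ'.xc (σ'.H⁻¹ p))) / σ.N : ℤ) : ℝ) ^ 2 / (2 * R) : ℝ) : Tc)
        ≤ err ∧
      dist (σ.H⁻¹ p) (Ξ d (σ'.pos (σ'.H⁻¹ p)) (σ'.xc (σ'.H⁻¹ p))) ≤ err

/-- the tower of `σ'` generates up to scale `η` (in the coordinates of `σ`) off a set of measure `g` -/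
def Gen (σ σ' : St) (η g : ℝ) : Prop :=
  ∀ (h : C(T3, ℂ)) (ω : ℝ), (∀ q q', dist q q' ≤ η → ‖h (σ.H q) - h (σ.H q')‖ ≤ ω) →
    ∃ G : ℤ → Tc → ℂ, BM G ∧ n2 (fun p => h p - σ'.vec G p) ≤ ω + 2 * ‖h‖ * Real.sqrt g

theorem Gen.mono {σ σ' : St} {η η' g g' : ℝ} (h : Gen σ σ' η g) (hη : η ≤ η') (hg : g ≤ g') :
    Gen σ σ' η' g' := by
  intro f ω hω
  obtain ⟨G, h1, h2⟩ := h f ω fun q q' hq => hω q q' (hq.trans hη)
  refine ⟨G, h1, h2.trans ?_⟩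
  gcongr

/-- a state with separated cores -/
structure Lv extends St where
  Ms : Finset ℤ
  C : ℤ → Set Tc
  r : ℝ
  hr : 0 < r
  hsep : Sep Ms C r
  h0 : 0 ∉ Ms

/-- what step A provides for step B -/
def PostA (L : Lv) (εp : ℝ) : Prop := Sep (insert 0 L.Ms) L.C L.r ∧ Pure L.N L.Ms L.C εp

/-- main vectors propagate, together with their spectral densities -/
def PrpD (σ : St) (Ms : Finset ℤ) (C : ℤ → Set Tc) (L' : Lv) (e c : ℝ) (b : ℕ) : Prop :=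
  ∀ (G : ℤ → ℤ → ℂ) (γ : ℝ), Main σ.N Ms C G γ →
    ∃ G' : ℤ → ℤ → ℂ, Main L'.N L'.Ms L'.C G' (e * (tn σ.N Ms G + γ)) ∧ Marg L'.N L'.Ms G' b ∧
      n2 (fun p => σ.vec (ev Ms G) p - L'.vec (ev L'.Ms G') p) ≤ e * tn σ.N Ms G + c * γ ∧
      n2 (fun θ => sd σ.N Ms G θ - sd L'.N L'.Ms G' θ) ≤ e * tn σ.N Ms G + c * γ

/-- `v` is a limit of tower vectors, with limit density `s²` -/
def Lim (L : ℕ → Lv) (Ti : Equiv.Perm T3) (v : T3 → ℂ) (s : Tc → ℝ) : Prop :=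
  MemLp v 2 volume ∧ MemLp s 2 volume ∧ ∫ p, v p = 0 ∧ HasD Ti v s ∧
    ∃ Gs : ℕ → ℤ → ℤ → ℂ,
      Tendsto (fun n => n2 fun p => (L n).vec (ev (L n).Ms (Gs n)) p - v p) atTop (𝓝 0) ∧
      Tendsto (fun n => n2 fun θ => sd (L n).N (L n).Ms (Gs n) θ - s θ) atTop (𝓝 0)

theorem Dom.nonneg {N : ℕ} {Ms : Finset ℤ} {U C : ℤ → Set Tc} {G : ℤ → ℤ → ℂ} {γ : ℝ}
    (h : Dom N Ms U C G γ) : 0 ≤ γ := by
  obtain ⟨Y, h1, -⟩ := h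
  exact (sn_nonneg _ _).trans h1

theorem Dom.mono {N : ℕ} {Ms : Finset ℤ} {U C : ℤ → Set Tc} {G : ℤ → ℤ → ℂ} {γ γ' : ℝ}
    (h : Dom N Ms U C G γ) (hγ : γ ≤ γ') : Dom N Ms U C G γ' := by
  obtain ⟨Y, h1, h2⟩ := h
  exact ⟨Y, h1.trans hγ, h2⟩

theorem Main.nonneg {N : ℕ} {Ms : Finset ℤ} {C : ℤ → Set Tc} {G : ℤ → ℤ → ℂ} {γ : ℝ}
    (h : Main N Ms C G γ) : 0 ≤ γ := Dom.nonneg h

theorem Main.mono {N : ℕ} {Ms : Finset ℤ} {C : ℤ → Set Tc} {G : ℤ → ℤ → ℂ} {γ γ' : ℝ}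
    (h : Main N Ms C G γ) (hγ : γ ≤ γ') : Main N Ms C G γ' := Dom.mono h hγ

theorem Main.dom {N : ℕ} {Ms : Finset ℤ} {C : ℤ → Set Tc} {G : ℤ → ℤ → ℂ} {γ : ℝ}
    (h : Main N Ms C G γ) (U : ℤ → Set Tc) : Dom N Ms U C G γ := by
  obtain ⟨Y, h1, h2⟩ := h
  exact ⟨Y, h1, fun m hm θ _ hθ => h2 m hm θ trivial hθ⟩

theorem Marg.mono {N : ℕ} {Ms : Finset ℤ} {G : ℤ → ℤ → ℂ} {b b' : ℕ} (h : Marg N Ms G b)
    (hb : b' ≤ b) : Marg N Ms G b' := fun m hm i hi => h m hm i (by omega)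

theorem Disj.card_le {Ms : Finset ℤ} {C : ℤ → Set Tc} (h : Disj Ms C) (θ : Tc) (S : Finset ℤ)
    (hS : S ⊆ Ms) (hθ : ∀ m ∈ S, θ ∈ C m) : S.card ≤ 1 :=
  Finset.card_le_one.2 fun a ha b hb => h a (hS ha) b (hS hb) θ (hθ a ha) (hθ b hb)

theorem St.ql_pos (σ : St) : 0 < σ.ql := by
  unfold St.ql
  have : (0 : ℝ) < σ.κ := by have := σ.hκ; exact_mod_cast (by omega : 0 < σ.κ)
  positivity

theorem PrpD.mono {σ : St} {Ms : Finset ℤ} {C : ℤ → Set Tc} {L' : Lv} {e e' c c' : ℝ} {b b' : ℕ}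
    (h : PrpD σ Ms C L' e c b) (he : e ≤ e') (hc : c ≤ c') (hb : b' ≤ b) :
    PrpD σ Ms C L' e' c' b' := by
  intro G γ hG
  obtain ⟨G', h1, h2, h3, h4⟩ := h G γ hG
  have hγ := hG.nonneg
  have ht := tn_nonneg σ.N Ms G
  refine ⟨G', h1.mono (by gcongr), h2.mono hb, h3.trans (by gcongr), h4.trans (by gcongr)⟩

theorem tn_le_of_sd {N N' : ℕ} {Ms Ms' : Finset ℤ} {G G' : ℤ → ℤ → ℂ} {d : ℝ}
    (h : n2 (fun θ => sd N Ms G θ - sd N' Ms' G' θ) ≤ d) : tn N' Ms' G' ≤ tn N Ms G + d := by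
  rw [← n2_sd, ← n2_sd]
  have h1 := n2_sub_le (f := sd N' Ms' G') (g := sd N Ms G) (h := fun _ => 0)
    (memLp_cont (cont_sd _ _ _)) (memLp_cont (cont_sd _ _ _))
  rw [n2_sub_comm (sd N' Ms' G') (sd N Ms G)] at h1
  simp only [sub_zero] at h1
  have e1 : (fun x => sd N' Ms' G' x) = sd N' Ms' G' := rfl
  have e2 : (fun x => sd N Ms G x) = sd N Ms G := rfl
  rw [e1, e2] at h1
  linarith

theorem PrpD.trans {σ : St} {Ms : Finset ℤ} {C : ℤ → Set Tc} {L' L'' : Lv} {e1 e2 c1 c2 : ℝ}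
    {b1 b2 : ℕ} (h1 : PrpD σ Ms C L' e1 c1 b1) (h2 : PrpD L'.toSt L'.Ms L'.C L'' e2 c2 b2)
    (he1 : 0 ≤ e1) (he1' : e1 ≤ 1) (he2 : 0 ≤ e2) (he2' : e2 ≤ 1) (hc1 : 0 ≤ c1) (hc2 : 0 ≤ c2) :
    PrpD σ Ms C L'' ((c2 + 1) * e1 + (c1 + 3) * e2) (2 * c1 + c2) b2 := by
  intro G γ hG
  obtain ⟨G1, a1, -, a3, a4⟩ := h1 G γ hG
  obtain ⟨G2, b1, b2, b3, b4⟩ := h2 G1 _ a1
  have hγ := hG.nonneg
  have ht := tn_nonneg σ.N Ms G
  have ht1 := tn_le_of_sd a4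
  have ht1' := tn_nonneg L'.N L'.Ms G1
  set t := tn σ.N Ms G
  set t1 := tn L'.N L'.Ms G1
  have k1 : e1 * t ≤ t := by nlinarith
  have k2 : e1 * γ ≤ γ := by nlinarith
  have k3 : t1 ≤ 2 * t + c1 * γ := by linarith
  have k4 : e2 * t1 ≤ 2 * e2 * t + c1 * γ := by
    have : e2 * (c1 * γ) ≤ c1 * γ := by nlinarith [mul_nonneg hc1 hγ]
    nlinarith
  have k5 : e1 * t + c1 * γ + (e2 * t1 + c2 * (e1 * (t + γ))) ≤
      ((c2 + 1) * e1 + (c1 + 3) * e2) * t + (2 * c1 + c2) * γ := by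
    have : c2 * (e1 * γ) ≤ c2 * γ := by gcongr
    have : 0 ≤ (c1 + 1) * e2 * t := by positivity
    nlinarith
  refine ⟨G2, b1.mono ?_, b2, ?_, ?_⟩
  · have : t1 + e1 * (t + γ) ≤ (c1 + 3) * (t + γ) := by nlinarith [mul_nonneg hc1 ht]
    have h' : e2 * (t1 + e1 * (t + γ)) ≤ e2 * ((c1 + 3) * (t + γ)) := by gcongr
    have : 0 ≤ (c2 + 1) * e1 * (t + γ) := by positivity
    nlinarith
  · refine (n2_sub_le (σ.memLp_vec_ev Ms G) (L'.memLp_vec_ev L'.Ms G1)).trans ?_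
    linarith
  · refine (n2_sub_le (g := sd L'.N L'.Ms G1) (memLp_cont (cont_sd _ _ _))
      (memLp_cont (cont_sd _ _ _))).trans ?_
    linarith

/-- the spike: character `1`, concentrated on floor `0` -/
noncomputable def spike (N : ℕ) (_m i : ℤ) : ℂ := if i = 0 then (Real.sqrt N : ℂ) else 0

theorem sd_spike {N : ℕ} (hN : 0 < N) (θ : Tc) : sd N {1} (spike N) θ = 1 := by
  have h : FT N (spike N 1) θ = 1 := by
    unfold FT spike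
    rw [Finset.sum_eq_single 0]
    · have : (Real.sqrt N : ℂ) ≠ 0 := by
        have : 0 < Real.sqrt N := Real.sqrt_pos.2 (by exact_mod_cast hN)
        exact_mod_cast this.ne'
      simp [this]
    · intro i _ hi; simp [hi]
    · intro h; exfalso; apply h; simp; omega
  unfold sd
  simp [h]

theorem tn_spike {N : ℕ} (hN : 0 < N) : tn N {1} (spike N) = 1 := by
  rw [← n2_sd]
  have : sd N {1} (spike N) = fun _ => 1 := funext (sd_spike hN)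
  rw [this, n2_eq_sqrt (by fun_prop)]
  simp

theorem main_spike (N : ℕ) : Main N {1} (fun _ => Set.univ) (spike N) 0 :=
  ⟨fun _ => 0, by simp [sn], fun _ _ _ _ h => (h trivial).elim⟩

end Crest.Agent.R81
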