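import Crest.Agent.R81.Zon

/-!
# R81: localisation of partial chirps; choice of parameters
-/

set_option autoImplicit false

namespace Crest.Agent.R81

open MeasureTheory

lemma loc_diff (a : ℤ → ℂ) (j0 j1 : ℤ) (ha : ∀ j, j ∉ Finset.Ico j0 j1 → a j = 0) (x : Tc) :
    (∑ j ∈ Finset.Ico j0 j1, a j * fourier (-j) x) * (1 - fourier (-1) x) =
      ∑ j ∈ Finset.Ico j0 (j1 + 1), (a j - a (j - 1)) * fourier (-j) x := by
  have h1 : ∑ j ∈ Finset.Ico j0 j1, a j * fourier (-j) x =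
      ∑ j ∈ Finset.Ico j0 (j1 + 1), a j * fourier (-j) x :=
    Finset.sum_subset (Finset.Ico_subset_Ico_right (by omega)) fun j _ hj => by rw [ha j hj, zero_mul]
  have h2 : ∑ j ∈ Finset.Ico j0 j1, a j * fourier (-j) x * fourier (-1) x =
      ∑ j ∈ Finset.Ico j0 (j1 + 1), a (j - 1) * fourier (-j) x := by
    rw [Finset.sum_subset (Finset.Ico_subset_Ico_left (by omega : j0 - 1 ≤ j0))
      fun j _ hj => by rw [ha j hj, zero_mul, zero_mul]]
    refine Finset.sum_bij' (fun j _ => j + 1) (fun j _ => j - 1) ?_ ?_ ?_ ?_ ?_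
    · intro j hj; simp only [Finset.mem_Ico] at hj ⊢; omega
    · intro j hj; simp only [Finset.mem_Ico] at hj ⊢; omega
    · intro j _; simp
    · intro j _; simp
    · intro j _
      rw [add_sub_cancel_right, neg_add, fourier_add, mul_assoc]
  rw [mul_sub, mul_one, Finset.sum_mul, h2, h1, ← Finset.sum_sub_distrib]
  exact Finset.sum_congr rfl fun j _ => by ring

lemma loc_second (s α β : ℝ) :
    ‖ee (s + α) - ee s - (ee s - ee (s - β))‖ ≤ 7 * |α - β| + 40 * α ^ 2 := by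
  have hpi := Real.pi_pos
  have hpi' := Real.pi_lt_d2
  have h0 : ee α * ee (-α) = 1 := by rw [← ee_add, add_neg_cancel, ee_zero]
  have e : ee (s + α) - ee s - (ee s - ee (s - β)) =
      ee s * (-((ee α - 1) * (ee (-α) - 1)) + (ee (-β) - ee (-α))) := by
    rw [sub_eq_add_neg s β, ee_add, ee_add]
    linear_combination (ee s) * h0
  rw [e, norm_mul, norm_ee, one_mul]
  refine (norm_add_le _ _).trans ?_
  rw [norm_neg, norm_mul]
  have h1 := norm_ee_sub_one_le α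
  have h2 := norm_ee_sub_one_le (-α)
  have h3 := norm_ee_sub_le (-β) (-α)
  rw [abs_neg] at h2
  rw [show -β - -α = α - β by ring] at h3
  have h4 : ‖ee α - 1‖ * ‖ee (-α) - 1‖ ≤ (2 * Real.pi * |α|) * (2 * Real.pi * |α|) := by
    gcongr
  have h5 : (2 * Real.pi * |α|) * (2 * Real.pi * |α|) ≤ 40 * α ^ 2 := by
    have : (2 * Real.pi * |α|) * (2 * Real.pi * |α|) = 4 * Real.pi ^ 2 * α ^ 2 := by
      rw [← sq_abs α]; ring
    rw [this]
    have : 4 * Real.pi ^ 2 ≤ 40 := by nlinarith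
    gcongr
  have h6 : 2 * Real.pi * |α - β| ≤ 7 * |α - β| := by
    have : 2 * Real.pi ≤ 7 := by linarith
    gcongr
  linarith

lemma loc_sum (b : ℤ → ℝ) (j0 j1 : ℤ) (A : ℝ)
    (h1 : ∀ j ∈ Finset.Ico (j0 + 2) j1, b j ≤ A) (h2 : ∀ j ∉ Finset.Ico (j0 + 2) j1, b j ≤ 9) :
    ∑ j ∈ Finset.Ico j0 (j1 + 1 + 1), b j ≤ (Finset.Ico (j0 + 2) j1).card * A + 36 := by
  have hs : Finset.Ico (j0 + 2) j1 ⊆ Finset.Ico j0 (j1 + 1 + 1) :=
    Finset.Ico_subset_Ico (by omega) (by omega)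
  rw [← Finset.sum_sdiff hs, add_comm]
  have a1 := Finset.sum_le_card_nsmul _ _ _ h1
  have a2 := Finset.sum_le_card_nsmul (Finset.Ico j0 (j1 + 1 + 1) \ Finset.Ico (j0 + 2) j1) b 9
    fun j hj => h2 j (Finset.mem_sdiff.1 hj).2
  have a3 : (Finset.Ico j0 (j1 + 1 + 1) \ Finset.Ico (j0 + 2) j1).card ≤ 4 := by
    refine le_trans (Finset.card_le_card (t := {j0, j0 + 1, j1, j1 + 1}) fun j hj => ?_)
      Finset.card_le_four
    simp only [Finset.mem_sdiff, Finset.mem_Ico, Finset.mem_insert, Finset.mem_singleton] at hj ⊢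
    omega
  have a4 : ((Finset.Ico j0 (j1 + 1 + 1) \ Finset.Ico (j0 + 2) j1).card : ℝ) ≤ 4 := by
    exact_mod_cast a3
  rw [nsmul_eq_mul] at a1 a2
  linarith

/-- **Localisation.**  Let `ξ₀ = m K d/D`, `z = fourier (-1) (ξ - ξ₀)`, `b_j = e(m K j²/(2R) - j ξ₀)`
for `j ∈ [j0,j1)` and `0` otherwise, so `Pz = c ∑ b_j z^j`.  Then `Pz (1-z)² = c ∑ (b_j - 2b_{j-1}
+ b_{j-2}) z^j` (sum over `[j0, j1+2)`).  For `j0+2 ≤ j < j1` the coefficient is
`b_{j-1}(e(α_j) - 2 + e(-α_{j-1}))`, `α_j = m K((2j-1)/(2R) - d/D)`, `|α| ≤ M K/D`,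
`α_j - α_{j-1} = m K/R`, so its norm is `≤ 2π M K/R + (2π M K/D)²`; the (at most four) other
coefficients have `ℓ²` norm `≤ 6`.  `c² (j1-j0) ≤ 2/D`.  Finally `‖1-z‖ ≥ 4 dist > 4η`
(`four_norm_le`); take `w = ‖Pz (1-z)²‖/(16 η²)`. -/
theorem loc (K R D d M : ℕ) (hR : 0 < R) (hD : 0 < D) (m : ℤ) (hm : |m| ≤ M) (c : ℝ) (hc : 0 ≤ c)
    (hcR : c ^ 2 * R ≤ 2) (j0 j1 : ℤ) (h0 : (d : ℝ) / D ≤ (j0 : ℝ) / R)
    (h1 : (j1 : ℝ) / R ≤ (d + 1 : ℝ) / D) (η : ℝ) (hη : 0 < η) :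
    ∃ w : Tc → ℝ, Continuous w ∧ (∀ ξ, 0 ≤ w ξ) ∧
      n2 w ≤ (2 / Real.sqrt D * (7 * M * K / R + 40 * (M * K / D) ^ 2) + 6 * c) / (16 * η ^ 2) ∧
      ∀ ξ, η < dist ξ ((m * K * d / D : ℝ) : Tc) → ‖Pz c (Finset.Ico j0 j1) m K R ξ‖ ≤ w ξ := by
  have hR' : (0 : ℝ) < R := by exact_mod_cast hR
  have hD' : (0 : ℝ) < D := by exact_mod_cast hD
  have hm' : |(m : ℝ)| ≤ M := by exact_mod_cast hm
  set x0 : ℝ := m * K * d / D with hx0
  set φ : ℤ → ℝ := fun j => m * K * (j : ℝ) ^ 2 / (2 * R) - j * x0 with hφ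
  set β : ℤ → ℂ := fun j => if j ∈ Finset.Ico j0 j1 then ee (φ j) else 0 with hβ
  set β1 : ℤ → ℂ := fun j => β j - β (j - 1) with hβ1
  set β2 : ℤ → ℂ := fun j => β1 j - β1 (j - 1) with hβ2
  set A : ℝ := 7 * M * K / R + 40 * (M * K / D) ^ 2 with hA
  have hA0 : 0 ≤ A := by positivity
  have z0 : ∀ j, j ∉ Finset.Ico j0 j1 → β j = 0 := fun j hj => by simp only [hβ, hj, if_false]
  have z1 : ∀ j, j ∉ Finset.Ico j0 (j1 + 1) → β1 j = 0 := fun j hj => by
    simp only [Finset.mem_Ico] at hj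
    by_cases h : j0 ≤ j1
    · simp only [hβ1]
      rw [z0 j (by simp only [Finset.mem_Ico]; omega),
        z0 (j - 1) (by simp only [Finset.mem_Ico]; omega), sub_zero]
    · simp only [hβ1]
      rw [z0 j (by simp only [Finset.mem_Ico]; omega),
        z0 (j - 1) (by simp only [Finset.mem_Ico]; omega), sub_zero]
  have nβ : ∀ j, ‖β j‖ ≤ 1 := fun j => by
    simp only [hβ]
    split_ifs
    · rw [norm_ee]
    · simp
  set Q : Tc → ℂ := fun ξ =>
    ∑ j ∈ Finset.Ico j0 (j1 + 1 + 1), (c * β2 j * fourier (-j) (-(x0 : Tc))) * fourier (-j) ξ with hQ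
  have hQc : Continuous Q := by simp only [hQ]; fun_prop
  have hPQ : ∀ ξ, Pz c (Finset.Ico j0 j1) m K R ξ * (1 - fourier (-1) (ξ - (x0 : Tc))) *
      (1 - fourier (-1) (ξ - (x0 : Tc))) = Q ξ := by
    intro ξ
    have e1 : Pz c (Finset.Ico j0 j1) m K R ξ =
        c * ∑ j ∈ Finset.Ico j0 j1, β j * fourier (-j) (ξ - (x0 : Tc)) := by
      unfold Pz
      congr 1
      refine Finset.sum_congr rfl fun j hj => ?_
      simp only [hβ, hj, if_true, hφ]
      have : fourier (-j) ξ = fourier (-j) (x0 : Tc) * fourier (-j) (ξ - (x0 : Tc)) := by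
        rw [← fourier_add_pt, add_sub_cancel]
      rw [this, fourier_coe, ← mul_assoc, ← ee_add]
      congr 2
      push_cast; ring
    rw [e1, mul_assoc, mul_assoc, ← mul_assoc (∑ j ∈ _, _), loc_diff β j0 j1 z0,
      loc_diff β1 j0 (j1 + 1) z1, Finset.mul_sum]
    refine Finset.sum_congr rfl fun j _ => ?_
    rw [sub_eq_add_neg ξ, fourier_add_pt]
    simp only [hβ2]
    ring
  have hin : ∀ j ∈ Finset.Ico (j0 + 2) j1, ‖β2 j‖ ^ 2 ≤ A ^ 2 := by
    intro j hj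
    simp only [Finset.mem_Ico] at hj
    refine pow_le_pow_left₀ (norm_nonneg _) ?_ 2
    have m0 : j ∈ Finset.Ico j0 j1 := by simp only [Finset.mem_Ico]; omega
    have m1 : j - 1 ∈ Finset.Ico j0 j1 := by simp only [Finset.mem_Ico]; omega
    have m2 : j - 1 - 1 ∈ Finset.Ico j0 j1 := by simp only [Finset.mem_Ico]; omega
    simp only [hβ2, hβ1, hβ, m0, m1, m2, if_true]
    set y : ℝ := (2 * j - 1) / (2 * R) - d / D with hy
    have e0 : φ j = φ (j - 1) + m * K * y := by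
      simp only [hφ, hy, hx0]; push_cast; field_simp; ring
    have e2 : φ (j - 1 - 1) = φ (j - 1) - (m * K * y - m * K / R) := by
      simp only [hφ, hy, hx0]; push_cast; field_simp; ring
    rw [e0, e2]
    refine (loc_second _ _ _).trans ?_
    have j1' : (j0 : ℝ) + 2 ≤ j := by exact_mod_cast hj.1
    have j2' : (j : ℝ) ≤ j1 := by exact_mod_cast hj.2.le
    have y0 : 0 ≤ y := by
      have : (j0 : ℝ) / R ≤ (2 * j - 1) / (2 * R) := by
        rw [div_le_div_iff₀ hR' (by positivity)]; nlinarith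
      linarith
    have y1 : y ≤ 1 / D := by
      have : (2 * j - 1) / (2 * R) ≤ (j1 : ℝ) / R := by
        rw [div_le_div_iff₀ (by positivity) hR']; nlinarith
      rw [add_div] at h1
      linarith
    have b1 : |(m : ℝ) * K * y - (m * K * y - m * K / R)| ≤ M * K / R := by
      rw [sub_sub_cancel, abs_div, abs_mul, abs_of_pos hR', Nat.abs_cast]
      gcongr
    have b2 : ((m : ℝ) * K * y) ^ 2 ≤ (M * K / D) ^ 2 := by
      rw [← sq_abs, abs_mul, abs_mul, Nat.abs_cast, abs_of_nonneg y0, div_eq_mul_one_div]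
      gcongr
    rw [hA, mul_assoc 7, mul_div_assoc 7]
    linarith
  have hout : ∀ j ∉ Finset.Ico (j0 + 2) j1, ‖β2 j‖ ^ 2 ≤ 9 := by
    intro j hj
    simp only [Finset.mem_Ico] at hj
    have : ‖β2 j‖ ≤ 3 := by
      have a0 := nβ j
      have a1 := nβ (j - 1)
      have a2 := nβ (j - 1 - 1)
      simp only [hβ2, hβ1]
      by_cases h : j < j1
      · rw [z0 (j - 1 - 1) (by simp only [Finset.mem_Ico]; omega), sub_zero]
        have b1 := norm_sub_le (β j - β (j - 1)) (β (j - 1))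
        have b2 := norm_sub_le (β j) (β (j - 1))
        linarith
      · rw [z0 j (by simp only [Finset.mem_Ico]; omega), zero_sub]
        have b1 := norm_sub_le (-β (j - 1)) (β (j - 1) - β (j - 1 - 1))
        have b2 := norm_sub_le (β (j - 1)) (β (j - 1 - 1))
        rw [norm_neg] at b1
        linarith
    nlinarith [norm_nonneg (β2 j)]
  have hcard : c ^ 2 * (Finset.Ico (j0 + 2) j1).card ≤ 4 / D := by
    have a1 : ((Finset.Ico (j0 + 2) j1).card : ℝ) ≤ R / D := by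
      rw [Int.card_Ico]
      rcases le_total (j1 - (j0 + 2)) 0 with h | h
      · rw [Int.toNat_eq_zero.2 h, Nat.cast_zero]; positivity
      · have a2 : (((j1 - (j0 + 2)).toNat : ℤ) : ℝ) = ((j1 - (j0 + 2) : ℤ) : ℝ) := by
          rw [Int.toNat_of_nonneg h]
        rw [Int.cast_natCast] at a2
        rw [a2]
        push_cast
        rw [add_div] at h1
        have a3 : ((j1 : ℝ) - j0) / R ≤ 1 / D := by rw [sub_div]; linarith
        rw [div_le_iff₀ hR'] at a3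
        have : 1 / (D : ℝ) * R = R / D := by ring
        linarith
    calc c ^ 2 * (Finset.Ico (j0 + 2) j1).card ≤ c ^ 2 * (R / D) := by gcongr
      _ = c ^ 2 * R / D := by ring
      _ ≤ 4 / D := by gcongr; linarith
  have hQn : n2 Q ≤ 2 / Real.sqrt D * A + 6 * c := by
    have hsD : 0 < Real.sqrt D := Real.sqrt_pos.2 hD'
    refine (pow_le_pow_iff_left₀ (n2_nonneg _) (by positivity) two_ne_zero).1 ?_
    rw [n2_sq hQc.aestronglyMeasurable]
    simp only [hQ]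
    rw [parseval_inj _ (fun j => -j) (fun _ _ _ _ h => neg_injective h)]
    have e1 : ∀ j, ‖(c : ℂ) * β2 j * fourier (-j) (-(x0 : Tc))‖ ^ 2 = c ^ 2 * ‖β2 j‖ ^ 2 := fun j => by
      rw [norm_mul, norm_mul, norm_fourier', Complex.norm_real, Real.norm_of_nonneg hc]; ring
    simp only [e1]
    rw [← Finset.mul_sum]
    have a1 := loc_sum (fun j => ‖β2 j‖ ^ 2) j0 j1 (A ^ 2) hin hout
    have a2 : (2 / Real.sqrt D * A) ^ 2 = 4 / D * A ^ 2 := by
      rw [mul_pow, div_pow, Real.sq_sqrt hD'.le]; norm_num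
    have a3 : 0 ≤ 2 / Real.sqrt D * A * c := by positivity
    calc c ^ 2 * ∑ j ∈ Finset.Ico j0 (j1 + 1 + 1), ‖β2 j‖ ^ 2
        ≤ c ^ 2 * ((Finset.Ico (j0 + 2) j1).card * A ^ 2 + 36) := by gcongr
      _ = c ^ 2 * (Finset.Ico (j0 + 2) j1).card * A ^ 2 + 36 * c ^ 2 := by ring
      _ ≤ 4 / D * A ^ 2 + 36 * c ^ 2 := by gcongr
      _ ≤ _ := by rw [add_sq (2 / Real.sqrt D * A), a2]; nlinarith
  have h16 : 0 < 16 * η ^ 2 := by positivity
  refine ⟨fun ξ => (16 * η ^ 2)⁻¹ * ‖Q ξ‖, by fun_prop, fun ξ => by positivity, ?_, fun ξ hξ => ?_⟩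
  · rw [n2_const_mul, n2_norm hQc.aestronglyMeasurable, abs_of_pos (inv_pos.2 h16),
      ← div_eq_inv_mul]
    gcongr
  · beta_reduce
    rw [← div_eq_inv_mul, le_div_iff₀ h16, ← hPQ, norm_mul, norm_mul, mul_assoc]
    have a1 := four_norm_le (ξ - (x0 : Tc))
    rw [dist_eq_norm] at hξ
    have a2 : 4 * η ≤ ‖1 - fourier (-1) (ξ - (x0 : Tc))‖ := by linarith
    have a3 : 16 * η ^ 2 = (4 * η) * (4 * η) := by ring
    rw [a3]
    gcongr

end Crest.Agent.R81
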