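import Crest.Agent.R81.Stab

/-!
# R81: propagation of main vectors to the limit
-/

set_option autoImplicit false

namespace Crest.Agent.R81

open MeasureTheory Crest.AnalysisR.Torus3 Filter Topology

/-- the numerical part of the propagation -/
theorem prop_num (e t g : ℕ → ℝ) (c E : ℝ) (he : ∀ n, 0 ≤ e n) (hc : 0 ≤ c)
    (hE : ∀ n, ∑ i ∈ Finset.range n, e i ≤ E) (hcE : (c + 2) * E ≤ 1 / 2) (ht0 : ∀ n, 0 ≤ t n)
    (hg0 : ∀ n, 0 ≤ g n) (ht : ∀ n, t (n + 1) ≤ t n + (e n * t n + c * g n))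
    (hg : ∀ n, g (n + 1) = e n * (t n + g n)) (n : ℕ) :
    ∑ i ∈ Finset.range n, (e i * t i + c * g i) ≤ 2 * (1 + c) * E * (t 0 + (c + 1) * g 0) + c * g 0 := by
  set u0 := t 0 + (c + 1) * g 0 with hu0
  have hu0' : 0 ≤ u0 := add_nonneg (ht0 0) (mul_nonneg (by linarith) (hg0 0))
  have h2 : ∀ j, t j + (c + 1) * g j ≤ u0 * (1 + 2 * (c + 2) * ∑ i ∈ Finset.range j, e i) →
      t j + (c + 1) * g j ≤ 2 * u0 := by
    intro j h
    have h3 : (c + 2) * ∑ i ∈ Finset.range j, e i ≤ (c + 2) * E :=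
      mul_le_mul_of_nonneg_left (hE j) (by linarith)
    have h4 : u0 * (1 + 2 * (c + 2) * ∑ i ∈ Finset.range j, e i) ≤ u0 * 2 :=
      mul_le_mul_of_nonneg_left (by linarith) hu0'
    linarith
  have h1 : ∀ j, t j + (c + 1) * g j ≤ u0 * (1 + 2 * (c + 2) * ∑ i ∈ Finset.range j, e i) := by
    intro j
    induction j with
    | zero => simp [hu0]
    | succ j ih =>
      have h3 := h2 j ih
      have h4 : (c + 2) * t j + (c + 1) * g j ≤ (c + 2) * (2 * u0) := by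
        have h5 : (c + 2) * (t j + (c + 1) * g j) ≤ (c + 2) * (2 * u0) :=
          mul_le_mul_of_nonneg_left h3 (by linarith)
        have h6 : 0 ≤ (c + 1) * ((c + 1) * g j) :=
          mul_nonneg (by linarith) (mul_nonneg (by linarith) (hg0 j))
        linarith
      have h5 := mul_le_mul_of_nonneg_left h4 (he j)
      have h6 := ht j
      have h7 := hg0 j
      rw [Finset.sum_range_succ, hg j]
      linarith
  have h3 : ∀ j, ∑ i ∈ Finset.range j, (e i * t i + c * g i) + c * g j ≤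
      2 * (1 + c) * (∑ i ∈ Finset.range j, e i) * u0 + c * g 0 := by
    intro j
    induction j with
    | zero => simp
    | succ j ih =>
      have h4 := h2 j (h1 j)
      have h5 : 0 ≤ c * g j := mul_nonneg hc (hg0 j)
      have h6 := hg0 j
      have h7 : e j * t j ≤ e j * (2 * u0) := mul_le_mul_of_nonneg_left (by linarith) (he j)
      have h8 : c * (e j * (t j + g j)) ≤ c * (e j * (2 * u0)) :=
        mul_le_mul_of_nonneg_left (mul_le_mul_of_nonneg_left (by linarith) (he j)) hc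
      rw [Finset.sum_range_succ, Finset.sum_range_succ, hg j]
      linarith
  have h4 : 2 * (1 + c) * (∑ i ∈ Finset.range n, e i) * u0 ≤ 2 * (1 + c) * E * u0 :=
    mul_le_mul_of_nonneg_right (mul_le_mul_of_nonneg_left (hE n) (by linarith)) hu0'
  have h5 : 0 ≤ c * g n := mul_nonneg hc (hg0 n)
  linarith [h3 n]

/-- the mean passes to the `L²` limit -/
theorem prop_mean {v : ℕ → T3 → ℂ} {vi : T3 → ℂ} (hv : ∀ n, MemLp (v n) 2 volume)
    (hvi : MemLp vi 2 volume) (h0 : ∀ n, ∫ p, v n p = 0)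
    (h : Tendsto (fun n => n2 fun p => v n p - vi p) atTop (𝓝 0)) : ∫ p, vi p = 0 := by
  refine norm_le_zero_iff.1 (ge_of_tendsto' h fun n => ?_)
  have h1 := norm_integral_mul_le (u := fun _ : T3 => (1 : ℂ)) (v := fun p => v n p - vi p)
    (memLp_const 1) ((hv n).sub hvi)
  have h2 : n2 (fun _ : T3 => (1 : ℂ)) ≤ 1 := n2_le_bound (fun _ => by simp) zero_le_one
  simp only [one_mul] at h1
  rw [integral_sub ((hv n).integrable one_le_two) (hvi.integrable one_le_two), h0 n, zero_sub,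
    norm_neg] at h1
  exact h1.trans (mul_le_of_le_one_left (n2_nonneg _) h2)

theorem prop_lim_shift {L : ℕ → Lv} {Ti : Equiv.Perm T3} {v : T3 → ℂ} {s : Tc → ℝ} (n0 : ℕ)
    (h : Lim (fun j => L (n0 + j)) Ti v s) : Lim L Ti v s := by
  obtain ⟨h1, h2, h3, h4, Gs, h5, h6⟩ := h
  refine ⟨h1, h2, h3, h4, fun n => Gs (n - n0), ?_, ?_⟩
  · refine (tendsto_add_atTop_iff_nat n0).1 ?_
    simp only [Nat.add_sub_cancel]
    simpa only [add_comm n0] using h5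
  · refine (tendsto_add_atTop_iff_nat n0).1 ?_
    simp only [Nat.add_sub_cancel]
    simpa only [add_comm n0] using h6

/-- the recursive choice of the tower functions -/
theorem prop_chain (L : ℕ → Lv) (e : ℕ → ℝ) (b : ℕ → ℕ) (c : ℝ)
    (hP : ∀ n, PrpD (L n).toSt (L n).Ms (L n).C (L (n + 1)) (e n) c (b n))
    (G : ℤ → ℤ → ℂ) (γ : ℝ) (hG : Main (L 0).N (L 0).Ms (L 0).C G γ) :
    ∃ (Gs : ℕ → ℤ → ℤ → ℂ) (g : ℕ → ℝ), Gs 0 = G ∧ g 0 = γ ∧ (∀ n, 0 ≤ g n) ∧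
      (∀ n, g (n + 1) = e n * (tn (L n).N (L n).Ms (Gs n) + g n)) ∧
      (∀ n, Marg (L (n + 1)).N (L (n + 1)).Ms (Gs (n + 1)) (b n)) ∧
      (∀ n, n2 (fun p => (L n).vec (ev (L n).Ms (Gs n)) p -
        (L (n + 1)).vec (ev (L (n + 1)).Ms (Gs (n + 1))) p) ≤ e n * tn (L n).N (L n).Ms (Gs n) + c * g n) ∧
      (∀ n, n2 (fun θ => sd (L n).N (L n).Ms (Gs n) θ - sd (L (n + 1)).N (L (n + 1)).Ms (Gs (n + 1)) θ)
        ≤ e n * tn (L n).N (L n).Ms (Gs n) + c * g n) := by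
  choose F hF using hP
  let X : (n : ℕ) → {q : (ℤ → ℤ → ℂ) × ℝ // Main (L n).N (L n).Ms (L n).C q.1 q.2} := fun n =>
    Nat.rec (motive := fun n => {q : (ℤ → ℤ → ℂ) × ℝ // Main (L n).N (L n).Ms (L n).C q.1 q.2})
      ⟨(G, γ), hG⟩ (fun n q => ⟨(F n q.1.1 q.1.2 q.2, e n * (tn (L n).N (L n).Ms q.1.1 + q.1.2)),
        (hF n q.1.1 q.1.2 q.2).1⟩) n
  exact ⟨fun n => (X n).1.1, fun n => (X n).1.2, rfl, rfl, fun n => (X n).2.nonneg, fun n => rfl,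
    fun n => (hF n _ _ (X n).2).2.1, fun n => (hF n _ _ (X n).2).2.2.1,
    fun n => (hF n _ _ (X n).2).2.2.2⟩

theorem prop_zero (L : ℕ → Lv) (e : ℕ → ℝ) (b : ℕ → ℕ) (c E : ℝ) (he : ∀ n, 0 ≤ e n)
    (hc : 0 ≤ c) (hb : Tendsto b atTop atTop) (hE : ∀ n, ∑ i ∈ Finset.range n, e i ≤ E)
    (hcE : (c + 2) * E ≤ 1 / 2)
    (hP : ∀ n, PrpD (L n).toSt (L n).Ms (L n).C (L (n + 1)) (e n) c (b n))
    {Ti : Equiv.Perm T3} (hTi : IsTD Ti) (τ : ℕ → ℝ) (hτ : Tendsto τ atTop (𝓝 0))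
    (hd : ∀ n p, dist (Ti p) ((L n).T p) ≤ τ n ∧ dist (Ti⁻¹ p) ((L n).T⁻¹ p) ≤ τ n)
    (G : ℤ → ℤ → ℂ) (γ : ℝ) (hG : Main (L 0).N (L 0).Ms (L 0).C G γ) :
    ∃ (v : T3 → ℂ) (s : Tc → ℝ), Lim L Ti v s ∧
      n2 (fun p => (L 0).vec (ev (L 0).Ms G) p - v p)
        ≤ 2 * (1 + c) * E * (tn (L 0).N (L 0).Ms G + (c + 1) * γ) + c * γ ∧
      n2 (fun θ => sd (L 0).N (L 0).Ms G θ - s θ)
        ≤ 2 * (1 + c) * E * (tn (L 0).N (L 0).Ms G + (c + 1) * γ) + c * γ := by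
  obtain ⟨Gs, g, rfl, rfl, a1, a2, a3, a4, a5⟩ := prop_chain L e b c hP G γ hG
  have hB := prop_num e (fun n => tn (L n).N (L n).Ms (Gs n)) g c E he hc hE hcE
    (fun n => tn_nonneg _ _ _) a1 (fun n => tn_le_of_sd (a5 n)) a2
  have m1 : ∀ n, MemLp ((L n).vec (ev (L n).Ms (Gs n))) 2 volume := fun n =>
    (L n).memLp_vec_ev _ _
  have m2 : ∀ n, MemLp (sd (L n).N (L n).Ms (Gs n)) 2 volume := fun n => memLp_cont (cont_sd _ _ _)
  obtain ⟨v, v1, v2, v3⟩ := exists_L2_limit' (fun n => (L n).vec (ev (L n).Ms (Gs n))) m1 _ _ a4 hB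
  obtain ⟨s, s1, s2, s3⟩ := exists_L2_limit' (fun n => sd (L n).N (L n).Ms (Gs n)) m2 _ _ a5 hB
  refine ⟨v, s, ⟨v1, s1, ?_, ?_, Gs, v2, s2⟩, v3, s3⟩
  · refine prop_mean m1 v1 (fun n => ?_) v2
    rw [St.integral_vec_ev, if_neg (L n).h0]
  · refine hasD_of_tendsto hTi (fun n => (L n).T) (fun n => (L n).toSt.isTD) τ hτ hd _ _ m1 m2 v1 s1 v2 s2
      fun k => ?_
    obtain ⟨n1, hn1⟩ := eventually_atTop.1 (hb.eventually (eventually_ge_atTop k.natAbs))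
    filter_upwards [eventually_ge_atTop (n1 + 1)] with n hn
    obtain ⟨m, rfl⟩ : ∃ m, n = m + 1 := ⟨n - 1, by omega⟩
    refine St.corr _ _ _ (b m) (a3 m) k ?_
    have := hn1 m (by omega)
    rw [Int.abs_eq_natAbs]
    exact_mod_cast this

/-- First for `n0 = 0` (then apply to the shifted sequences, `Gs n = Gs' (n - n0)`,
`tendsto_add_atTop_iff_nat`).  Choose recursively `G_{j+1}` from `hP`, `γ_{j+1} = e_j (t_j + γ_j)`,
`t_j = tn G_j`.  With `d_j = e_j t_j + c γ_j`: `t_{j+1} ≤ t_j + d_j` (`tn_le_of_sd`), so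
`u_j = t_j + (c+1) γ_j` satisfies `u_{j+1} ≤ u_j + (c+2) e_j u_j`, by induction
`u_j ≤ u_0 (1 + 2 (c+2) ∑_{i<j} e_i) ≤ 2 u_0`, and `∑_{j<n} d_j ≤ c γ_0 + 2 (1+c) E u_0`.
`exists_L2_limit'` twice; `hasD_of_tendsto` with `St.corr` (margins `b j → ∞`); the means vanish
(`integral_vec_ev`, `0 ∉ Ms`; `norm_integral_mul_le` with `u = 1`). -/
theorem propagate (L : ℕ → Lv) (e : ℕ → ℝ) (b : ℕ → ℕ) (c E : ℝ) (n0 : ℕ) (he : ∀ n, 0 ≤ e n)
    (hc : 0 ≤ c) (hb : Tendsto b atTop atTop) (hE : ∀ n, ∑ i ∈ Finset.range n, e (n0 + i) ≤ E)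
    (hcE : (c + 2) * E ≤ 1 / 2)
    (hP : ∀ n, PrpD (L n).toSt (L n).Ms (L n).C (L (n + 1)) (e n) c (b n))
    {Ti : Equiv.Perm T3} (hTi : IsTD Ti) (τ : ℕ → ℝ) (hτ : Tendsto τ atTop (𝓝 0))
    (hd : ∀ n p, dist (Ti p) ((L n).T p) ≤ τ n ∧ dist (Ti⁻¹ p) ((L n).T⁻¹ p) ≤ τ n)
    (G : ℤ → ℤ → ℂ) (γ : ℝ) (hG : Main (L n0).N (L n0).Ms (L n0).C G γ) :
    ∃ (v : T3 → ℂ) (s : Tc → ℝ), Lim L Ti v s ∧
      n2 (fun p => (L n0).vec (ev (L n0).Ms G) p - v p)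
        ≤ 2 * (1 + c) * E * (tn (L n0).N (L n0).Ms G + (c + 1) * γ) + c * γ ∧
      n2 (fun θ => sd (L n0).N (L n0).Ms G θ - s θ)
        ≤ 2 * (1 + c) * E * (tn (L n0).N (L n0).Ms G + (c + 1) * γ) + c * γ := by
  have hsh : Tendsto (fun j => n0 + j) atTop atTop := by
    simpa only [add_comm n0] using tendsto_add_atTop_nat n0
  obtain ⟨v, s, h1, h2, h3⟩ := prop_zero (fun j => L (n0 + j)) (fun j => e (n0 + j)) (fun j => b (n0 + j))
    c E (fun j => he _) hc (hb.comp hsh) hE hcE (fun j => hP (n0 + j)) hTi (fun j => τ (n0 + j))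
    (hτ.comp hsh) (fun j => hd (n0 + j)) G γ hG
  exact ⟨v, s, prop_lim_shift n0 h1, h2, h3⟩

theorem prop_sd_le (σ : St) (Ms : Finset ℤ) (G G' : ℤ → ℤ → ℂ) :
    n2 (fun θ => sd σ.N Ms G θ - sd σ.N Ms G' θ) ≤
      n2 fun p => σ.vec (ev Ms G) p - σ.vec (ev Ms G') p := by
  refine (n2_sd_sub _ _ _ _).trans (le_of_eq ?_)
  rw [← σ.n2_vec_ev]
  congr 1
  funext p
  simp only [St.vec, ev, sub_mul, Finset.sum_sub_distrib]

/-- `n2 (sd G - sd G') ≤ tn (G - G') = n2 (vec (ev G) - vec (ev G'))` (`n2_sd_sub`, `n2_vec_ev`); let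
`n → ∞`. -/
theorem Lim.dist {L : ℕ → Lv} {Ti : Equiv.Perm T3} {v v' : T3 → ℂ} {s s' : Tc → ℝ}
    (h : Lim L Ti v s) (h' : Lim L Ti v' s') :
    n2 (fun θ => s θ - s' θ) ≤ n2 fun p => v p - v' p := by
  obtain ⟨a1, a2, -, -, G, a3, a4⟩ := h
  obtain ⟨b1, b2, -, -, G', b3, b4⟩ := h'
  have hl := (((a3.add b3).add a4).add b4).const_add (n2 fun p => v p - v' p)
  simp only [add_zero] at hl
  refine ge_of_tendsto' hl fun n => ?_
  have m1 := (L n).memLp_vec_ev (L n).Ms (G n)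
  have m2 : MemLp (sd (L n).N (L n).Ms (G n)) 2 volume := memLp_cont (cont_sd _ _ _)
  have m3 : MemLp (sd (L n).N (L n).Ms (G' n)) 2 volume := memLp_cont (cont_sd _ _ _)
  have c1 := n2_sub_le (h := s') a2 m2
  have c2 := n2_sub_le (h := s') m2 m3
  have c3 := prop_sd_le (L n).toSt (L n).Ms (G n) (G' n)
  have c4 := n2_sub_le (h := (L n).vec (ev (L n).Ms (G' n))) m1 a1
  have c5 := n2_sub_le (h := (L n).vec (ev (L n).Ms (G' n))) a1 b1
  rw [n2_sub_comm s (sd _ _ _)] at c1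
  rw [n2_sub_comm v' ((L n).vec _)] at c5
  linarith

/-- choose `v_n, s_n` for `ε = 1/(n+1)`; `s_n` is Cauchy by `Lim.dist`; `hasD_of_tendsto` with the
constant sequence `Ti`, `τ = 0`. -/
theorem dens_of_approx {L : ℕ → Lv} {Ti : Equiv.Perm T3} (hTi : IsTD Ti) {f : T3 → ℂ}
    (hf : MemLp f 2 volume)
    (h : ∀ ε > 0, ∃ (v : T3 → ℂ) (s : Tc → ℝ), Lim L Ti v s ∧ n2 (fun p => f p - v p) ≤ ε) :
    ∃ s : Tc → ℝ, MemLp s 2 volume ∧ HasD Ti f s := by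
  choose v s h1 h2 using fun n : ℕ => h (1 / ((n : ℝ) + 1)) (by positivity)
  obtain ⟨si, hsi, hs⟩ := exists_L2_limit s (fun n => (h1 n).2.1) fun ε hε => by
    obtain ⟨n0, hn0⟩ := exists_nat_one_div_lt (half_pos hε)
    refine ⟨n0, fun m hm n hn => ?_⟩
    have c1 := (h1 m).dist (h1 n)
    have c2 := n2_sub_le (h := v n) (h1 m).1 hf
    rw [n2_sub_comm (v m) f] at c2
    have c3 : 1 / ((m : ℝ) + 1) ≤ 1 / ((n0 : ℝ) + 1) := Nat.one_div_le_one_div hm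
    have c4 : 1 / ((n : ℝ) + 1) ≤ 1 / ((n0 : ℝ) + 1) := Nat.one_div_le_one_div hn
    linarith [h2 m, h2 n]
  refine ⟨si, hsi, hasD_of_tendsto hTi (fun _ => Ti) (fun _ => hTi) (fun _ => 0) tendsto_const_nhds
    (fun n p => by simp) v s (fun n => (h1 n).1) (fun n => (h1 n).2.1) hf hsi ?_ hs
    fun k => Eventually.of_forall fun n => (h1 n).2.2.2.1 k⟩
  refine squeeze_zero (fun n => n2_nonneg _) (fun n => ?_) tendsto_one_div_add_atTop_nhds_zero_nat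
  rw [n2_sub_comm]
  exact h2 n

end Crest.Agent.R81
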