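import Crest.Agent.R81.Cycle
import Crest.Agent.R81.Prop
import Crest.Agent.R81.Final

/-!
# R81: the recursion and the main theorem
-/

set_option autoImplicit false

namespace Crest.Agent.R81

open MeasureTheory Crest.AnalysisR.Torus3 Filter Topology

/-- a node of the recursion -/
structure Nd where
  L : Lv
  f : C(T3, ℝ)
  β : ℝ
  hf : ∫ p, f p = 0
  hβ : 0 < β
  hβ' : β ≤ 1 / 2
  hq : L.ql ≤ 1 / 2

/-- the relation between consecutive nodes -/
def Rel (h : C(T3, ℝ)) (n : ℕ) (x y : Nd) : Prop :=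
  y.L.ql ≤ x.β ∧ y.β ≤ x.β / 2 ∧ Close n x.β x.L.T y.L.T ∧ Close n x.β ⇑x.L.T⁻¹ ⇑y.L.T⁻¹ ∧
    PrpD x.L.toSt x.L.Ms x.L.C y.L (100 * (x.L.ql + x.β)) 21 n ∧
    (∃ G, Main y.L.N y.L.Ms y.L.C G x.β ∧ n2 (fun θ => sd y.L.N y.L.Ms G θ - 1) ≤ x.β) ∧
    (∃ G, Main y.L.N y.L.Ms y.L.C G x.β ∧
      n2 (fun p => (x.f p : ℂ) - y.L.vec (ev y.L.Ms G) p) ≤ x.β) ∧
    ‖y.f - x.f‖ ≤ x.β ∧
    ∃ (A : Finset ℤ) (a : ℤ → ℂ), ∀ T' : Equiv.Perm T3,
      (∀ p, dist (T' p) (y.L.T p) ≤ 2 * y.β ∧ dist (T'⁻¹ p) (y.L.T⁻¹ p) ≤ 2 * y.β) →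
      ∀ f' : C(T3, ℝ), ‖f' - y.f‖ ≤ 2 * y.β →
        n2 (fun p => flt T' A a (fun q => (f' q : ℂ)) p - (h p : ℂ)) ≤ 2 * x.β

theorem integrable_cm (f : C(T3, ℝ)) : Integrable f volume :=
  (memLp_cont3 f.continuous).integrable (by norm_num)

theorem exists_step (h : C(T3, ℝ)) (hh : ∫ p, h p = 0) (n : ℕ) (x : Nd) : ∃ y, Rel h n x y := by
  obtain ⟨L', c, A, a, h1, h2, h3, h4, h5, h6, h7, h8⟩ :=
    cycle x.L x.hq x.f h x.hf hh n x.hβ x.hβ'
  obtain ⟨η, hη, hs⟩ := stab L'.isTD (x.f + c • h) A a x.hβ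
  have hβ := x.hβ
  have hβ' := x.hβ'
  refine ⟨⟨L', x.f + c • h, min (x.β / 2) (η / 2), ?_, by positivity,
    (min_le_left _ _).trans (by linarith), by linarith⟩, h1, min_le_left _ _, h2, h3, h4, h5, h6,
    ?_, A, a, fun T' hT' f' hf' => ?_⟩
  · simp only [ContinuousMap.add_apply, ContinuousMap.smul_apply, smul_eq_mul]
    rw [integral_add (integrable_cm _) ((integrable_cm h).const_mul c), integral_const_mul, x.hf, hh]
    simp
  · simp only [add_sub_cancel_left, norm_smul, Real.norm_eq_abs]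
    exact h7
  · have hm : 2 * min (x.β / 2) (η / 2) ≤ η := by linarith [min_le_right (x.β / 2) (η / 2)]
    have h9 := hs T' (fun p => ⟨(hT' p).1.trans hm, (hT' p).2.trans hm⟩) f' (hf'.trans hm)
    have h10 := n2_le_bound h9 hβ.le
    have h11 := n2_add_le
      (f := fun p => flt L'.T A a (fun q => ((x.f + c • h) q : ℂ)) p - (h p : ℂ))
      (g := fun p => flt T' A a (fun q => (f' q : ℂ)) p
        - flt L'.T A a (fun q => ((x.f + c • h) q : ℂ)) p)
      ((memLp_flt L'.isTD A a (memLp_cm _)).sub (memLp_cm h))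
    simp only [sub_add_sub_cancel'] at h11
    linarith

theorem exists_init {β : ℝ} (hβ : 0 < β) (hβ' : β ≤ 1 / 2) :
    ∃ x : Nd, x.β = β ∧ x.L.ql ≤ β ∧ x.f = 0 := by
  obtain ⟨κ, δ, hκ, hκe, hδ, hδ', hq⟩ := exists_quality hβ
  obtain ⟨Ψ, hΨ⟩ := exists_prof κ hδ
  obtain ⟨S, hS, hSl⟩ := exists_nf 1 0 Ψ hΨ.1 hΨ.2.1
  let σ : St :=
    { N := 1, P := 0, a := 0, ns := 0, t0 := 1, κ := κ, δ := δ, Ψ := Ψ, H := 1, S := S
      hN := one_pos, hns := by simp [Int.modEq_one], hns' := one_pos, ha := by simp [isCoprime_one_right]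
      ht0 := one_pos, hκ := hκ, hκe := hκe, hδ := hδ, hδ' := hδ', hΨ := hΨ, hH := IsTD.one
      hS := hS, hSl := hSl }
  let L : Lv :=
    { toSt := σ, Ms := ∅, C := fun _ => ∅, r := 1, hr := one_pos
      hsep := fun _ h => by simp at h, h0 := by simp }
  exact ⟨⟨L, 0, β, by simp, hβ, hβ', hq.trans hβ'⟩, rfl, hq, rfl⟩

/-- a sequence of mean zero test functions which comes close to every mean zero function
infinitely often -/
theorem exists_tests : ∃ h : ℕ → C(T3, ℝ), (∀ n, ∫ p, h n p = 0) ∧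
    ∀ u : C(T3, ℝ), ∫ p, u p = 0 → ∀ ε > 0, ∀ n0 : ℕ, ∃ n ≥ n0, ‖h n - u‖ ≤ ε := by
  obtain ⟨w, hw⟩ := TopologicalSpace.exists_dense_seq C(T3, ℝ)
  refine ⟨fun n => w n.unpair.1 - ContinuousMap.const _ (∫ p, w n.unpair.1 p), fun n => ?_,
    fun u hu ε hε n0 => ?_⟩
  · simp only [ContinuousMap.sub_apply, ContinuousMap.const_apply]
    rw [integral_sub (integrable_cm _) (integrable_const _)]
    simp
  · obtain ⟨j, hj⟩ := hw.exists_dist_lt u (half_pos hε)
    refine ⟨Nat.pair j n0, Nat.right_le_pair _ _, ?_⟩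
    simp only [Nat.unpair_pair]
    rw [dist_comm, dist_eq_norm] at hj
    have h1 : |∫ p, w j p| ≤ ε / 2 := by
      have e : ∫ p, w j p = ∫ p, (w j - u) p := by
        simp only [ContinuousMap.sub_apply]
        rw [integral_sub (integrable_cm _) (integrable_cm _), hu, sub_zero]
      rw [e, ← Real.norm_eq_abs]
      refine (norm_integral_le_of_norm_le_const (C := ‖w j - u‖)
        (Eventually.of_forall fun p => (w j - u).norm_coe_le_norm p)).trans ?_
      simpa using hj.le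
    have h2 : ‖ContinuousMap.const T3 (∫ p, w j p)‖ ≤ ε / 2 :=
      (ContinuousMap.norm_le _ (by positivity)).2 fun _ => h1
    calc ‖w j - ContinuousMap.const T3 (∫ p, w j p) - u‖
        = ‖(w j - u) - ContinuousMap.const T3 (∫ p, w j p)‖ := by congr 1; abel
      _ ≤ ε / 2 + ε / 2 := (norm_sub_le _ _).trans (add_le_add hj.le h2)
      _ = ε := by ring

theorem geom_tail {β : ℕ → ℝ} (h0 : ∀ n, 0 ≤ β n) (h : ∀ n, β (n + 1) ≤ β n / 2) :
    (∀ n j, β (n + j) ≤ β n / 2 ^ j) ∧ Summable β ∧ ∀ n, ∑' j, β (n + j) ≤ 2 * β n := by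
  have h1 : ∀ n j, β (n + j) ≤ β n / 2 ^ j := by
    intro n j
    induction j with
    | zero => simp
    | succ j ih =>
      refine (h (n + j)).trans ?_
      rw [pow_succ, ← div_div]
      linarith
  have h2 : ∀ n, HasSum (fun j : ℕ => β n / 2 ^ j) (2 * β n) := fun n => by
    have := hasSum_geometric_two' (2 * β n)
    simpa only [mul_div_cancel_left₀ _ (two_ne_zero' ℝ)] using this
  have h3 : ∀ n, Summable fun j => β (n + j) := fun n =>
    Summable.of_nonneg_of_le (fun j => h0 _) (h1 n) (h2 n).summable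
  refine ⟨h1, by simpa using h3 0, fun n => ?_⟩
  rw [← (h2 n).tsum_eq]
  exact (h3 n).tsum_le_tsum (h1 n) (h2 n).summable

theorem main_thm : ∃ (T : Equiv.Perm T3) (g : T3 → ℝ), IsSmoothDiffeo T ∧
      MeasurePreserving T volume volume ∧ MemLp g 2 volume ∧ ∫ x, g x = 0 ∧
      (∀ m n : ℤ, ∫ x, g ((T ^ m) x) * g ((T ^ n) x) = if m = n then 1 else 0) ∧
      (∀ h : T3 → ℂ, MemLp h 2 volume → ∫ x, h x = 0 →
        (∀ n : ℤ, ∫ x, h x * (g ((T ^ n) x) : ℂ) = 0) → h =ᵐ[volume] 0) := by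
  obtain ⟨h, hh0, hh⟩ := exists_tests
  obtain ⟨x0, hx1, hx2, hx3⟩ := exists_init (β := 1 / 100000) (by norm_num) (by norm_num)
  choose nx hnx using fun n x => exists_step (h n) (hh0 n) n x
  let x : ℕ → Nd := fun n => Nat.rec x0 nx n
  have hR : ∀ n, Rel (h n) n (x n) (x (n + 1)) := fun n => hnx n (x n)
  have hx0 : x 0 = x0 := rfl
  clear_value x
  set β : ℕ → ℝ := fun n => (x n).β with hβdef
  have hβ0 : ∀ n, 0 < β n := fun n => (x n).hβ
  obtain ⟨g1, g2, g3⟩ := geom_tail (fun n => (hβ0 n).le) fun n => (hR n).2.1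
  have hβ1 : ∀ n, β n ≤ 1 / 100000 / 2 ^ n := fun n => by
    have := g1 0 n
    rw [zero_add] at this
    refine this.trans (le_of_eq ?_)
    simp only [hβdef, hx0, hx1]
  have hq1 : ∀ n, (x n).L.ql ≤ 2 * (1 / 100000 / 2 ^ n) := by
    intro n
    cases n with
    | zero => rw [hx0]; linarith
    | succ n =>
      refine (hR n).1.trans ((hβ1 n).trans (le_of_eq ?_))
      rw [pow_succ]; field_simp
  have hg0 : Tendsto (fun n : ℕ => (1 : ℝ) / 2 ^ n) atTop (𝓝 0) := by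
    simpa only [one_div_pow] using
      tendsto_pow_atTop_nhds_zero_of_lt_one (r := (1 / 2 : ℝ)) (by norm_num) (by norm_num)
  have hg1 : ∀ ε > 0, ∃ n0 : ℕ, ∀ n ≥ n0, (1 : ℝ) / 2 ^ n ≤ ε := fun ε hε =>
    eventually_atTop.1 (hg0.eventually (ge_mem_nhds hε))
  have hβ2 : ∀ n, β n ≤ 1 / 100000 * (1 / 2 ^ n) := fun n => (hβ1 n).trans (le_of_eq (by ring))
  have hβt : Tendsto (fun n => 2 * β n) atTop (𝓝 0) := by
    simpa using g2.tendsto_atTop_zero.const_mul 2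
  obtain ⟨Ti, hTi, hd'⟩ := exists_limit (fun n => (x n).L.T) (fun n => (x n).L.isTD) β g2
    (fun n => (hR n).2.2.1) fun n => (hR n).2.2.2.1
  have hd : ∀ n p, dist (Ti p) ((x n).L.T p) ≤ 2 * β n ∧
      dist (Ti⁻¹ p) ((x n).L.T⁻¹ p) ≤ 2 * β n :=
    fun n p => ⟨(hd' n p).1.trans (g3 n), (hd' n p).2.trans (g3 n)⟩
  -- the limit function
  have hfd : ∀ n, dist (x n).f (x n.succ).f ≤ β n := fun n => by
    rw [dist_comm, dist_eq_norm]; exact (hR n).2.2.2.2.2.2.2.1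
  obtain ⟨f, hf⟩ := cauchySeq_tendsto_of_complete (cauchySeq_of_dist_le_of_summable β hfd g2)
  have hfn : ∀ n, ‖f - (x n).f‖ ≤ 2 * β n := fun n => by
    rw [← dist_eq_norm, dist_comm]
    exact (dist_le_tsum_of_dist_le_of_tendsto β hfd g2 hf n).trans (g3 n)
  have hβs : ∀ n, β n ≤ 1 / 100000 := fun n => (hβ1 n).trans (by
    have : (1 : ℝ) ≤ 2 ^ n := one_le_pow₀ (by norm_num)
    exact div_le_self (by norm_num) this)
  have hfb : ∀ n, ‖(x n).f‖ ≤ 1 := fun n => by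
    have h1 := hfn 0
    rw [hx0, hx3, sub_zero] at h1
    have h2 := hfn n
    have h3 : ‖(x n).f‖ ≤ ‖f‖ + ‖f - (x n).f‖ := by
      simpa using norm_sub_le f (f - (x n).f)
    linarith [hβs 0, hβs n]
  have hf0 : ∫ p, f p = 0 := by
    have h1 : ∀ n, ‖∫ p, f p‖ ≤ 2 * β n := fun n => by
      have e : ∫ p, f p = ∫ p, (f - (x n).f) p := by
        simp only [ContinuousMap.sub_apply]
        rw [integral_sub (integrable_cm _) (integrable_cm _), (x n).hf, sub_zero]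
      rw [e]
      refine (norm_integral_le_of_norm_le_const (C := ‖f - (x n).f‖)
        (Eventually.of_forall fun p => (f - (x n).f).norm_coe_le_norm p)).trans ?_
      simpa using hfn n
    exact norm_le_zero_iff.1 (ge_of_tendsto' hβt h1)
  -- propagation
  have hprop : ∀ (n : ℕ) (G : ℤ → ℤ → ℂ) (γ : ℝ), Main (x n).L.N (x n).L.Ms (x n).L.C G γ →
      γ ≤ 1 / 100000 * (2 / 2 ^ n) → tn (x n).L.N (x n).L.Ms G ≤ 2 →
      ∃ (v : T3 → ℂ) (s : Tc → ℝ), Lim (fun n => (x n).L) Ti v s ∧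
        n2 (fun p => (x n).L.vec (ev (x n).L.Ms G) p - v p) ≤ 1 / 2 ^ n ∧
        n2 (fun θ => sd (x n).L.N (x n).L.Ms G θ - s θ) ≤ 1 / 2 ^ n := by
    intro n G γ hG hγ ht
    have hp : (0 : ℝ) < 1 / 2 ^ n := by positivity
    have hp1 : (1 : ℝ) / 2 ^ n ≤ 1 := div_le_self (by norm_num) (one_le_pow₀ (by norm_num))
    have hE : ∀ m, ∑ i ∈ Finset.range m, 100 * ((x (n + i)).L.ql + β (n + i))
        ≤ 600 / 100000 * (1 / 2 ^ n) := by
      intro m
      have h1 : ∀ i, 100 * ((x (n + i)).L.ql + β (n + i)) ≤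
          300 / 100000 * (1 / 2 ^ n) * (1 / 2) ^ i := fun i => by
        have a1 := hq1 (n + i)
        have a2 := hβ1 (n + i)
        have e : (300 : ℝ) / 100000 * (1 / 2 ^ n) * (1 / 2) ^ i
            = 300 * (1 / 100000 / 2 ^ (n + i)) := by
          rw [pow_add, one_div_pow]; field_simp
        rw [e]; linarith
      refine (Finset.sum_le_sum fun i _ => h1 i).trans ?_
      rw [← Finset.mul_sum]
      have := sum_geometric_two_le m
      nlinarith
    obtain ⟨v, s, h1, h2, h3⟩ := propagate (fun n => (x n).L)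
      (fun n => 100 * ((x n).L.ql + β n)) id 21 (600 / 100000 * (1 / 2 ^ n)) n
      (fun n => by have := (x n).L.toSt.ql_pos; have := hβ0 n; positivity) (by norm_num)
      tendsto_id hE (by linarith) (fun n => (hR n).2.2.2.2.1) hTi _ hβt hd G γ hG
    have hγ0 := hG.nonneg
    have ht0 := tn_nonneg (x n).L.N (x n).L.Ms G
    have hγ' : γ ≤ 2 / 100000 * (1 / 2 ^ n) := hγ.trans (le_of_eq (by ring))
    have hb : 2 * (1 + 21) * (600 / 100000 * (1 / 2 ^ n)) *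
        (tn (x n).L.N (x n).L.Ms G + (21 + 1) * γ) + 21 * γ ≤ 1 / 2 ^ n := by
      have : tn (x n).L.N (x n).L.Ms G + (21 + 1) * γ ≤ 3 := by linarith
      have : 2 * (1 + 21) * (600 / 100000 * (1 / 2 ^ n)) *
        (tn (x n).L.N (x n).L.Ms G + (21 + 1) * γ) ≤
          2 * (1 + 21) * (600 / 100000 * (1 / 2 ^ n)) * 3 := by gcongr
      linarith
    exact ⟨v, s, h1, h2.trans hb, h3.trans hb⟩
  have hβ3 : ∀ n, β n ≤ 1 / 100000 * (2 / 2 ^ (n + 1)) := fun n =>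
    (hβ1 n).trans (le_of_eq (by rw [pow_succ]; field_simp))
  have hhalf : ∀ n : ℕ, (1 : ℝ) / 2 ^ (n + 1) = 1 / 2 * (1 / 2 ^ n) := fun n => by
    rw [pow_succ]; field_simp
  obtain ⟨s, hs, hD⟩ := dens_of_approx (L := fun n => (x n).L) hTi (memLp_cm f) fun ε hε => by
    obtain ⟨n, hn⟩ := hg1 ε hε
    have hn := hn n le_rfl
    obtain ⟨G, m1, m2⟩ := (hR n).2.2.2.2.2.2.1
    have ht := tn_le_of_approx (x (n + 1)).L.toSt _ G (x n).f m2
    obtain ⟨v, s, l1, l2, -⟩ := hprop (n + 1) G _ m1 (hβ3 n)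
      (ht.trans (by linarith [hfb n, hβs n]))
    refine ⟨v, s, l1, ?_⟩
    have a1 := n2_sub_le (h := v) (memLp_cm f) (memLp_cm (x n).f)
    have a2 := n2_sub_le (h := v) (memLp_cm (x n).f)
      ((x (n + 1)).L.memLp_vec_ev (x (n + 1)).L.Ms G)
    have a3 : n2 (fun p => (f p : ℂ) - ((x n).f p : ℂ)) ≤ 2 * β n :=
      n2_le_bound (fun p => by
        rw [← Complex.ofReal_sub, Complex.norm_real]
        exact ((f - (x n).f).norm_coe_le_norm p).trans (hfn n)) (by linarith [hβ0 n])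
    have a4 := hβ2 n
    have a5 : (x n).β = β n := rfl
    rw [hhalf] at l2
    have hp : (0 : ℝ) < 1 / 2 ^ n := by positivity
    linarith
  refine (final hTi f hf0 (fun u hu ε hε => ?_) s hs hD fun ε hε => ?_).elim
    fun g hg => ⟨Ti, g, hTi.1, hTi.2, hg⟩
  · obtain ⟨n0, hn0⟩ := hg1 ε hε
    obtain ⟨n, hn, hu'⟩ := hh u hu _ (half_pos hε) n0
    obtain ⟨A, a, hA⟩ := (hR n).2.2.2.2.2.2.2.2
    have a1 := hA Ti (hd (n + 1)) f (hfn (n + 1))
    refine ⟨A, a, ?_⟩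
    have a2 := n2_sub_le (h := fun p => (u p : ℂ)) (memLp_flt hTi A a (memLp_cm f)) (memLp_cm (h n))
    have a3 : n2 (fun p => (h n p : ℂ) - (u p : ℂ)) ≤ ε / 2 :=
      n2_le_bound (fun p => by
        rw [← Complex.ofReal_sub, Complex.norm_real]
        exact ((h n - u).norm_coe_le_norm p).trans hu') (by linarith)
    have a4 := hβ2 n
    have a5 : (x n).β = β n := rfl
    have a6 := hn0 n hn
    linarith
  · obtain ⟨n, hn⟩ := hg1 ε hε
    have hn := hn n le_rfl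
    obtain ⟨G, m1, m2⟩ := (hR n).2.2.2.2.2.1
    have a5 : (x n).β = β n := rfl
    have ht : tn (x (n + 1)).L.N (x (n + 1)).L.Ms G ≤ 2 := by
      rw [← n2_sd]
      have b1 := n2_add_le (f := fun θ => sd (x (n + 1)).L.N (x (n + 1)).L.Ms G θ - 1)
        (g := fun _ => (1 : ℝ)) (memLp_cont (by fun_prop))
      have b2 : n2 (fun _ : Tc => (1 : ℝ)) ≤ 1 := n2_le_bound (fun _ => by simp) zero_le_one
      simp only [sub_add_cancel] at b1
      have e : (fun θ => sd (x (n + 1)).L.N (x (n + 1)).L.Ms G θ)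
        = sd (x (n + 1)).L.N (x (n + 1)).L.Ms G := rfl
      rw [e] at b1
      linarith [hβs n]
    obtain ⟨v, t, l1, -, l3⟩ := hprop (n + 1) G _ m1 (hβ3 n) ht
    refine ⟨v, t, l1.1, l1.2.2.1, l1.2.1, l1.2.2.2.1, ?_⟩
    have a1 := n2_sub_le (h := fun _ => (1 : ℝ)) l1.2.1
      (memLp_cont (cont_sd (x (n + 1)).L.N (x (n + 1)).L.Ms G))
    rw [n2_sub_comm] at l3
    rw [hhalf] at l3
    have a4 := hβ2 n
    have hp : (0 : ℝ) < 1 / 2 ^ n := by positivity
    linarith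

end Crest.Agent.R81
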