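import Crest.Agent.R81.Basic

/-!
# R81: `L²` norms, Parseval, independence of scales
-/

set_option autoImplicit false

namespace Crest.Agent.R81

open MeasureTheory Crest.AnalysisR.Torus3

section general
variable {α E : Type} [MeasureSpace α] [NormedAddCommGroup E]

theorem n2_nonneg (f : α → E) : 0 ≤ n2 f := lpNorm_nonneg

/-- `lpNorm_eq_integral_norm_rpow_toReal`. -/
theorem n2_eq_sqrt {f : α → E} (hf : AEStronglyMeasurable f volume) :
    n2 f = Real.sqrt (∫ x, ‖f x‖ ^ 2) := by
  unfold n2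
  rw [lpNorm_eq_integral_norm_rpow_toReal (by norm_num) (by norm_num) hf, Real.sqrt_eq_rpow]
  simp

theorem n2_sq {f : α → E} (hf : AEStronglyMeasurable f volume) :
    n2 f ^ 2 = ∫ x, ‖f x‖ ^ 2 := by
  rw [n2_eq_sqrt hf, Real.sq_sqrt (integral_nonneg fun x => by positivity)]

theorem n2_add_le {f g : α → E} (hf : MemLp f 2 volume) :
    n2 (fun x => f x + g x) ≤ n2 f + n2 g :=
  lpNorm_add_le (g := g) hf (by norm_num)

theorem n2_sub_le {f g h : α → E} (hf : MemLp f 2 volume) (hg : MemLp g 2 volume) :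
    n2 (fun x => f x - h x) ≤ n2 (fun x => f x - g x) + n2 (fun x => g x - h x) :=
  lpNorm_sub_le_lpNorm_sub_add_lpNorm_sub (h := h) hf hg (by norm_num)

theorem n2_sub_comm (f g : α → E) : n2 (fun x => f x - g x) = n2 (fun x => g x - f x) :=
  lpNorm_sub_comm f g 2 volume

theorem n2_mono {f : α → E} {g : α → ℝ} (hg : MemLp g 2 volume) (h : ∀ x, ‖f x‖ ≤ g x) :
    n2 f ≤ n2 g :=
  lpNorm_mono_real hg h

theorem n2_sum_le {ι : Type} (s : Finset ι) {f : ι → α → E} (hf : ∀ i ∈ s, MemLp (f i) 2 volume) :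
    n2 (fun x => ∑ i ∈ s, f i x) ≤ ∑ i ∈ s, n2 (f i) := by
  have h := lpNorm_sum_le hf (by norm_num)
  have e : (fun x => ∑ i ∈ s, f i x) = ∑ i ∈ s, f i := by
    funext x; simp
  rw [e]
  exact h

theorem n2_const_mul (c : ℝ) (f : α → ℝ) : n2 (fun x => c * f x) = |c| * n2 f := by
  have h := lpNorm_const_smul (p := 2) c f (volume : Measure α)
  exact h

theorem n2_const_mul' (c : ℂ) (f : α → ℂ) : n2 (fun x => c * f x) = ‖c‖ * n2 f := by
  have h := lpNorm_const_smul (p := 2) c f (volume : Measure α)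
  exact h

theorem n2_norm {f : α → E} (hf : AEStronglyMeasurable f volume) :
    n2 (fun x => ‖f x‖) = n2 f :=
  lpNorm_norm hf 2

theorem n2_congr {f g : α → E} (h : f =ᵐ[volume] g) : n2 f = n2 g := by
  unfold n2 lpNorm
  rw [eLpNorm_congr_ae h, aestronglyMeasurable_congr h]

theorem n2_le_bound [IsProbabilityMeasure (volume : Measure α)] {f : α → E} {B : ℝ}
    (h : ∀ x, ‖f x‖ ≤ B) (hB : 0 ≤ B) : n2 f ≤ B := by
  have h1 : n2 f ≤ n2 (fun _ : α => B) := n2_mono (memLp_const B) h
  have h2 : n2 (fun _ : α => B) = B := by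
    unfold n2
    rw [lpNorm_const' (by norm_num) (by norm_num)]
    simp [abs_of_nonneg hB]
  rwa [h2] at h1

theorem n2_toLp {f g : α → E} (hf : MemLp f 2 volume) (hg : MemLp g 2 volume) :
    ‖hf.toLp f - hg.toLp g‖ = n2 (fun x => f x - g x) := by
  rw [← MemLp.toLp_sub, Lp.norm_toLp, toReal_eLpNorm (hf.sub hg).1]
  rfl

theorem n2_Lp_sub (f g : Lp E 2 (volume : Measure α)) :
    n2 (fun x => f x - g x) = ‖f - g‖ := by
  rw [Lp.norm_def, toReal_eLpNorm (Lp.aestronglyMeasurable _)]
  exact (n2_congr (Lp.coeFn_sub f g)).symm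

theorem n2_comp {T : α → α} (hT : MeasurePreserving T volume volume) {f : α → E}
    (hf : AEStronglyMeasurable f volume) : n2 (fun x => f (T x)) = n2 f := by
  unfold n2
  have h1 : AEStronglyMeasurable (f ∘ T) volume := hf.comp_measurePreserving hT
  have h2 := eLpNorm_comp_measurePreserving (p := 2) hf hT
  rw [← toReal_eLpNorm hf, ← h2]
  exact (toReal_eLpNorm h1).symm

/-- a function bounded by `B` and vanishing (or small) off a small set -/
theorem n2_le_of_bad [IsProbabilityMeasure (volume : Measure α)] {f : α → E} {B η ε : ℝ}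
    {bad : Set α} (hm : MeasurableSet bad) (hv : volume bad ≤ ENNReal.ofReal ε) (hε : 0 ≤ ε)
    (hη : 0 ≤ η) (hB : ∀ x, ‖f x‖ ≤ B) (h : ∀ x ∉ bad, ‖f x‖ ≤ η) :
    n2 f ≤ η + B * Real.sqrt ε := by
  have hne : Nonempty α := nonempty_of_isProbabilityMeasure (volume : Measure α)
  obtain ⟨x0⟩ := hne
  have hB0 : 0 ≤ B := (norm_nonneg _).trans (hB x0)
  have hi : MemLp (bad.indicator (fun _ : α => B)) 2 volume := (memLp_const B).indicator hm
  have h1 : n2 f ≤ n2 (fun x => η + bad.indicator (fun _ : α => B) x) := by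
    refine n2_mono ((memLp_const η).add hi) fun x => ?_
    by_cases hx : x ∈ bad
    · rw [Set.indicator_of_mem hx]; linarith [hB x]
    · rw [Set.indicator_of_notMem hx]; linarith [h x hx]
  have h2 : n2 (fun x => η + bad.indicator (fun _ : α => B) x) ≤
      n2 (fun _ : α => η) + n2 (bad.indicator (fun _ : α => B)) := n2_add_le (memLp_const η)
  have h3 : n2 (fun _ : α => η) ≤ η := n2_le_bound (fun _ => by simp [abs_of_nonneg hη]) hη
  have h4 : n2 (bad.indicator (fun _ : α => B)) ≤ B * Real.sqrt ε := by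
    rw [n2_eq_sqrt hi.1]
    have e : (fun x => ‖bad.indicator (fun _ : α => B) x‖ ^ 2) =
        bad.indicator (fun _ : α => B ^ 2) := by
      funext x
      by_cases hx : x ∈ bad
      · simp [Set.indicator_of_mem hx]
      · simp [Set.indicator_of_notMem hx]
    rw [e, integral_indicator_const _ hm, smul_eq_mul]
    have hr : (volume : Measure α).real bad ≤ ε := by
      unfold Measure.real
      exact ENNReal.toReal_le_of_le_ofReal hε hv
    rw [← Real.sqrt_sq hB0, ← Real.sqrt_mul (by positivity), Real.sqrt_sq hB0]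
    apply Real.sqrt_le_sqrt
    nlinarith [sq_nonneg B]
  linarith

end general

theorem memLp_cont {E : Type} [NormedAddCommGroup E] {f : Tc → E} (hf : Continuous f) :
    MemLp f 2 volume :=
  hf.memLp_of_hasCompactSupport (HasCompactSupport.of_compactSpace f)

theorem memLp_cont3 {E : Type} [NormedAddCommGroup E] {f : T3 → E} (hf : Continuous f) :
    MemLp f 2 volume :=
  hf.memLp_of_hasCompactSupport (HasCompactSupport.of_compactSpace f)

@[fun_prop] theorem cont_tp (A : Finset ℤ) (c : ℤ → ℂ) : Continuous (tp A c) := by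
  unfold tp; fun_prop

@[fun_prop] theorem cont_FT (N : ℕ) (g : ℤ → ℂ) : Continuous (FT N g) := by
  unfold FT; fun_prop

@[fun_prop] theorem cont_sd (N : ℕ) (Ms : Finset ℤ) (G : ℤ → ℤ → ℂ) :
    Continuous (sd N Ms G) := by
  unfold sd; fun_prop

@[fun_prop] theorem cont_ev (Ms : Finset ℤ) (G : ℤ → ℤ → ℂ) (i : ℤ) :
    Continuous (ev Ms G i) := by
  unfold ev; fun_prop

end Crest.Agent.R81
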