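import Crest.Agent.R81.RL3
import Crest.Agent.R81.Dq

/-!
# R81: the perturbation is small
-/

set_option autoImplicit false

namespace Crest.Agent.R81

open MeasureTheory Crest.AnalysisR.Torus3 Filter Topology
open scoped ContDiff

namespace Par
variable {P : Par}

/-- `Yf = Y1/Lt + Y2/Λ`, `Lt ≥ Λ`, and `Y1, Y2` have bounded derivatives (`BD0_of_periodic`); they
depend only on `σ, D, Ds, δ3`. -/
theorem exists_Lam0 (P0 : Par) (h0 : P0.Ok) (k : ℕ) {η : ℝ} (hη : 0 < η) :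
    ∃ Λ0 : ℕ, ∀ P : Par, P.σ = P0.σ → P.D = P0.D → P.Ds = P0.Ds → P.δ3 = P0.δ3 → P.Ok →
      Λ0 ≤ P.Λ → ∀ j ≤ k, ∀ y, ‖iteratedFDeriv ℝ j P.Yf y‖ ≤ η := by
  obtain ⟨C1, h1, hC1⟩ := dq_unif (BD0_of_periodic (contDiff_Y1 h0) periodic_Y1) k
  obtain ⟨C2, h2, hC2⟩ := dq_unif (BD0_of_periodic (contDiff_Y2 h0) periodic_Y2) k
  refine ⟨⌈(C1 + C2) / η⌉₊, fun P hσ hD hDs hδ h hΛ j hj y => ?_⟩
  rw [← hσ, ← hD, ← hDs, ← hδ] at hC2
  rw [← hD, ← hDs, ← hδ] at hC1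
  have hL : (0 : ℝ) < P.Λ := by exact_mod_cast h.hΛ
  have hN : (0 : ℝ) < P.σ.N := by exact_mod_cast P.σ.hN
  have hLt : (P.Λ : ℝ) ≤ P.Lt := by
    rw [Lt, nn, le_div_iff₀ hN]
    push_cast
    linarith [Nat.cast_nonneg (α := ℝ) P.σ.ns]
  have h3 : C1 + C2 ≤ η * P.Λ := by
    rw [← div_le_iff₀' hη]
    exact (Nat.le_ceil _).trans (by exact_mod_cast hΛ)
  have e : P.Yf = fun y => Y1 P.D P.Ds P.δ3 y / P.Lt + Y2 P.σ.Ψ P.D P.Ds P.δ3 y / P.Λ := rfl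
  have h4 := hC1 j hj y
  have h5 := hC2 j hj y
  rw [norm_iteratedFDeriv_eq_norm_iteratedDeriv] at h4 h5 ⊢
  rw [e, iteratedDeriv_fun_add (dq_at ((contDiff_Y1 h).div_const _) j y)
    (dq_at ((contDiff_Y2 h).div_const _) j y), iteratedDeriv_div_const, iteratedDeriv_div_const]
  refine (norm_add_le _ _).trans ?_
  rw [norm_div, norm_div, Real.norm_of_nonneg hL.le, Real.norm_of_nonneg (hL.le.trans hLt)]
  calc _ ≤ C1 / P.Λ + C2 / P.Λ := by gcongr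
    _ ≤ η := by rw [← add_div, div_le_iff₀ hL]; exact h3

theorem rl4_smul {f : V3 → ℝ} (hf : ContDiff ℝ ∞ f) {v : V3} (hv : ‖v‖ ≤ 1) {j : ℕ} {p : V3}
    {ε : ℝ} (h : ‖iteratedFDeriv ℝ j f p‖ ≤ ε) : ‖iteratedFDeriv ℝ j (fun p => f p • v) p‖ ≤ ε :=
  (norm_iteratedFDeriv_smul_vec hf v j p).trans
    ((mul_le_of_le_one_right (norm_nonneg _) hv).trans h)

theorem rl4_Dk (h : P.Ok) (k : ℕ) {ε : ℝ} (hε : 0 < ε) (i : ℕ) (hi : i < 7) :
    ∃ e0 > 0, ∀ e : ℝ, |e| ≤ e0 → ∀ (N' : ℕ), ∀ j ≤ k, ∀ p : V3, ‖iteratedFDeriv ℝ j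
      (fun p : V3 => P.Dk e i (p 1) (P.lk N' i (p - P.trV N' (p 1))) • P.dk i) p‖ ≤ ε := by
  have hG : BD0 fun z : ℝ × ℝ => if i = 0 then deriv P.Ψ' z.2 else 0 := by
    refine BD0_of_periodic2 ?_ fun y l m n => ?_
    · split_ifs
      · exact (rl1_contDiff_deriv h.hΨ).comp contDiff_snd
      · exact contDiff_const
    · simp only [periodic_add_int (periodic_deriv h.hΨp)]
  have hd : 0 < ‖P.dk i‖ + 1 := by positivity
  have hD : (0 : ℝ) < P.D := by exact_mod_cast h.hD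
  obtain ⟨e0, he0, h1⟩ := small_diff (BD0_of_periodic2 (contDiff_Fk h i)
    fun y l m n => Fk_add_int h i y l m n) hG (P.lowk i) k (div_pos hε hd)
  refine ⟨min e0 (P.δ3 / 12 / P.D), lt_min he0 (by have := h.hδ3; positivity),
    fun e he N' j hj p => ?_⟩
  have hp : ContDiff ℝ ∞ fun p : V3 => p 1 := contDiff_apply ℝ ℝ 1
  refine (norm_iteratedFDeriv_smul_vec ((rl1_contDiff_Dk h _ i).comp (hp.prodMk
    ((contDiff_lk N' i).comp (contDiff_id.sub ((rl1_contDiff_trV h N').comp hp))))) _ j p).trans ?_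
  refine le_trans (mul_le_mul (b := ε / (‖P.dk i‖ + 1)) ?_ (le_add_of_nonneg_right zero_le_one)
    (norm_nonneg _) (div_pos hε hd).le) (div_mul_cancel₀ _ hd.ne').le
  rcases loc_k h N' e ((le_div_iff₀ hD).1 (he.trans (min_le_right _ _))) i hi p with h2 | ⟨c, h2⟩
  · refine le_of_eq_of_le (congrArg _ (Filter.EventuallyEq.iteratedFDeriv ℝ
      (f₂ := fun _ => (0 : ℝ)) (h2.mono fun q hq => hq _) j).self_of_nhds) ?_
    rw [iteratedFDeriv_fun_zero]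
    simpa using (div_pos hε hd).le
  · refine le_of_eq_of_le (congrArg _ (Filter.EventuallyEq.iteratedFDeriv ℝ
      (h2.mono fun q hq => ?_) j).self_of_nhds) (h1 e (he.trans (min_le_left _ _)) c j hj p)
    simp only [Function.comp_apply, id, hq, Dk]

/-- Write `nu = (sg/N) (dq Ψ - Ψ') e₀ + e • (0,1,a/N) + (sg/N²) dq Yf • e₂ + ∑_k Dk • dk` with
`e = sg/N'`, `Rr e = sg/N`.  Use `small_dq`, `dq_bound`, and for each `k < 7`, at each point,
`loc_k` (`Filter.EventuallyEq.iteratedFDeriv`) and `small_diff` with `F = Fk k`,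
`G z = if k = 0 then deriv Ψ' z.2 else 0`, `low = lowk k`. -/
theorem nu_small (h : P.Ok) (k : ℕ) {η : ℝ} (hη : 0 < η)
    (hY : ∀ j ≤ k + 1, ∀ y, ‖iteratedFDeriv ℝ j P.Yf y‖ ≤ η / 4) :
    ∃ N0 : ℕ, ∀ N' : ℕ, N0 ≤ N' → ∀ sg : ℝ, (sg = 1 ∨ sg = -1) →
      ∀ j ≤ k, ∀ p, ‖iteratedFDeriv ℝ j (P.nu N' sg) p‖ ≤ η := by
  choose! e1 he1 h1 using rl4_Dk h k (show 0 < η / 28 by positivity)
  obtain ⟨e2, he2, h2⟩ := small_dq (BD0_of_periodic P.σ.hΨ.1 P.σ.hΨ.2.1) k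
    (show 0 < η / 4 by positivity)
  set v : V3 := ![0, 1, P.σ.a / P.σ.N] with hv
  have hv0 : 0 < ‖v‖ + 1 := by positivity
  have ht : ∀ c > (0 : ℝ), ∀ᶠ n : ℕ in atTop, (1 : ℝ) / n ≤ c := fun c hc =>
    (tendsto_one_div_atTop_nhds_zero_nat.eventually (ge_mem_nhds hc))
  obtain ⟨N0, hN0⟩ := eventually_atTop.1 (((ht _ he2).and (ht (η / 4 / (‖v‖ + 1))
    (by positivity))).and ((eventually_gt_atTop 0).and
      ((eventually_all_finset (Finset.range 7)).2 fun i hi => ht _ (he1 i (Finset.mem_range.1 hi)))))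
  refine ⟨N0, fun N' hN' sg hsg j hj p => ?_⟩
  obtain ⟨⟨h3, h4⟩, h5, h6⟩ := hN0 N' hN'
  have hs : |sg| = 1 := by rcases hsg with rfl | rfl <;> simp
  have hs0 : sg ≠ 0 := fun h0 => by simp [h0] at hs
  have hN : (1 : ℝ) ≤ P.σ.N := by exact_mod_cast P.σ.hN
  have h5' : (0 : ℝ) < N' := by exact_mod_cast h5
  have he : |sg / N'| = 1 / N' := by rw [abs_div, hs, Nat.abs_cast]
  have he0 : sg / N' ≠ 0 := div_ne_zero hs0 h5'.ne'
  have hp : ContDiff ℝ ∞ fun p : V3 => p 1 := contDiff_apply ℝ ℝ 1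
  have hΨ := P.σ.hΨ.1
  have hYc := contDiff_Yf h
  have c1 : ContDiff ℝ ∞ fun p : V3 =>
      (P.σ.Ψ (p 1 + sg / N') - P.σ.Ψ (p 1)) / (sg / N') - deriv P.σ.Ψ (p 1) :=
    (((hΨ.comp (hp.add contDiff_const)).sub (hΨ.comp hp)).div_const _).sub
      ((rl1_contDiff_deriv hΨ).comp hp)
  have c3 : ContDiff ℝ ∞ fun p : V3 => (P.Yf (p 1 + sg / N') - P.Yf (p 1)) / (sg / N') :=
    ((hYc.comp (hp.add contDiff_const)).sub (hYc.comp hp)).div_const _
  have c4 : ∀ i ∈ Finset.range 7, ContDiff ℝ ∞ fun p : V3 =>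
      P.Dk (sg / N') i (p 1) (P.lk N' i (p - P.trV N' (p 1))) • P.dk i := fun i _ =>
    ((rl1_contDiff_Dk h _ i).comp (hp.prodMk ((contDiff_lk N' i).comp
      (contDiff_id.sub ((rl1_contDiff_trV h N').comp hp))))).smul_const _
  set v1 : V3 := ![sg / P.σ.N, 0, 0] with hv1
  set v3 : V3 := ![0, 0, sg / P.σ.N ^ 2] with hv3
  have n1 : ‖v1‖ ≤ 1 := (pi_norm_le_iff_of_nonneg zero_le_one).2 fun i => by
    fin_cases i <;> simp [hv1, hs, inv_le_one_of_one_le₀ hN]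
  have n3 : ‖v3‖ ≤ 1 := (pi_norm_le_iff_of_nonneg zero_le_one).2 fun i => by
    fin_cases i <;> simp [hv3, hs, inv_le_one_of_one_le₀ (one_le_pow₀ (n := 2) hN)]
  have e : P.nu N' sg = fun p : V3 =>
      (((P.σ.Ψ (p 1 + sg / N') - P.σ.Ψ (p 1)) / (sg / N') - deriv P.σ.Ψ (p 1)) • v1 +
        (sg / N') • v) + (((P.Yf (p 1 + sg / N') - P.Yf (p 1)) / (sg / N')) • v3 +
        ∑ i ∈ Finset.range 7,
          P.Dk (sg / N') i (p 1) (P.lk N' i (p - P.trV N' (p 1))) • P.dk i) := by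
    funext q
    rw [← add_assoc, nu]
    congr 1
    funext i
    fin_cases i
    · simp [hv, hv1, hv3, Rr]
      field_simp
    · simp [hv, hv1, hv3]
    · simp [hv, hv1, hv3, Rr]
      field_simp
  have b1 := rl4_smul c1 n1 (h2 _ he0 (he.trans_le h3) j hj p)
  have b2 : ‖iteratedFDeriv ℝ j (fun _ : V3 => (sg / N') • v) p‖ ≤ η / 4 := by
    rcases Nat.eq_zero_or_pos j with rfl | hj0
    · rw [norm_iteratedFDeriv_zero, norm_smul, Real.norm_eq_abs, he]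
      rw [le_div_iff₀ hv0] at h4
      nlinarith [one_div_pos.2 h5']
    · rw [iteratedFDeriv_const_of_ne hj0.ne']
      simpa using (show 0 ≤ η / 4 by positivity)
  have b3 := rl4_smul c3 n3 (dq_bound hYc k hY _ he0 j hj p)
  have b4 := (norm_iteratedFDeriv_sum_le _ c4 j p).trans (Finset.sum_le_card_nsmul _ _ (η / 28)
    fun i hi => h1 i (Finset.mem_range.1 hi) _ (he.trans_le (h6 i hi)) N' j hj p)
  rw [Finset.card_range, nsmul_eq_mul] at b4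
  rw [e, fun_iteratedFDeriv_add_apply (dq_at ((c1.smul_const _).add contDiff_const) j p)
    (dq_at ((c3.smul_const _).add (ContDiff.sum c4)) j p),
    fun_iteratedFDeriv_add_apply (dq_at (c1.smul_const _) j p) contDiffAt_const,
    fun_iteratedFDeriv_add_apply (dq_at (c3.smul_const _) j p) (dq_at (ContDiff.sum c4) j p)]
  refine (norm_add_le _ _).trans ((add_le_add (norm_add_le _ _) (norm_add_le _ _)).trans ?_)
  push_cast at b4
  linarith

end Par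

end Crest.Agent.R81
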