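import Crest.Agent.R81.RL7

/-!
# R81: good points: comparison with the tower map
-/

set_option autoImplicit false

namespace Crest.Agent.R81

open MeasureTheory Crest.AnalysisR.Torus3 Filter Topology
open scoped ContDiff

theorem rl8_shf_mem (s0 J' : ℕ) (x : Tc) :
    (0 : ℝ) ≤ shf s0 J' x ∧ (shf s0 J' x : ℝ) ≤ (s0 * J' : ℕ) := by
  have h0 := rp_nonneg x
  have h1 := rp_lt_one x
  have h2 : (0 : ℝ) ≤ (⌊(J' : ℝ) * rp x⌋ : ℤ) := by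
    exact_mod_cast Int.floor_nonneg.2 (by positivity)
  have h3 : ((⌊(J' : ℝ) * rp x⌋ : ℤ) : ℝ) ≤ J' :=
    (Int.floor_le _).trans (mul_le_of_le_one_right (Nat.cast_nonneg _) h1.le)
  unfold shf
  push_cast
  exact ⟨by positivity, mul_le_mul_of_nonneg_left h3 (Nat.cast_nonneg _)⟩

theorem rl8_X {K w R' ν u j e iN y S ε : ℝ} (hK : 0 ≤ K) (hR' : 0 < R') (hν0 : 0 ≤ ν) (hν1 : ν ≤ 1)
    (hu : 0 ≤ u) (huw : u + w ≤ 1) (hb : u ≤ j / (R' + ν)) (ha : j / R' ≤ u + w)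
    (ha' : u ≤ j / R') (hy : y = (j + e) / R') (hy0 : u ≤ y) (hy1 : y ≤ u + w) (hi0 : 0 ≤ iN)
    (hi1 : iN ≤ 1) (he : |e| ≤ 4 + S) (hKe : K * (4 + S) ^ 2 / R' ≤ ε / 3) :
    |K * (u - 1 / 2) * (iN - e) + -(K * ν * u ^ 2 / 2) + R' * (K * (y ^ 2 - y) / 2) + K * j / 2
      - K * (y - 1 / 2) * iN - K * j ^ 2 / (2 * (R' + ν))| ≤ K * (6 + S) * w + ε / 6 := by
  have hR : 0 < R' + ν := by linarith
  have hw : 0 ≤ w := by linarith
  have hid : K * (u - 1 / 2) * (iN - e) + -(K * ν * u ^ 2 / 2) + R' * (K * (y ^ 2 - y) / 2)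
      + K * j / 2 - K * (y - 1 / 2) * iN - K * j ^ 2 / (2 * (R' + ν)) =
      K * ((u - y) * iN) + K * ((j / R' - u) * e) + K * e ^ 2 / R' / 2
        + K * (ν * (j / R' * (j / (R' + ν)) - u ^ 2) / 2) := by
    rw [hy]; field_simp; ring
  rw [hid]
  have hj : 0 ≤ j := by
    have : 0 ≤ j / R' := hu.trans ha'
    rw [le_div_iff₀ hR'] at this
    simpa using this
  have hba : j / (R' + ν) ≤ j / R' := div_le_div_of_nonneg_left hj hR' (by linarith)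
  clear hid hy
  generalize j / R' = a at *
  generalize j / (R' + ν) = b at *
  have t1 : |(u - y) * iN| ≤ w := by
    rw [abs_mul, abs_of_nonneg hi0, abs_sub_comm, abs_of_nonneg (by linarith)]
    nlinarith
  have t2 : |(a - u) * e| ≤ w * (4 + S) := by
    rw [abs_mul, abs_of_nonneg (by linarith)]
    exact mul_le_mul (by linarith) he (abs_nonneg _) hw
  have t3 : 0 ≤ K * e ^ 2 / R' := by positivity
  have t4 : K * e ^ 2 / R' ≤ ε / 3 := by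
    refine le_trans ?_ hKe
    have : e ^ 2 ≤ (4 + S) ^ 2 := by
      rw [← sq_abs]; exact pow_le_pow_left₀ (abs_nonneg _) he 2
    gcongr
  have t5 : 0 ≤ a * b - u ^ 2 := by nlinarith
  have t6 : a * b - u ^ 2 ≤ 2 * w := by
    have : a * b ≤ (u + w) * (u + w) := mul_le_mul ha (hba.trans ha) (by linarith) (by linarith)
    nlinarith
  have t7 : 0 ≤ ν * (a * b - u ^ 2) / 2 := by positivity
  have t8 : ν * (a * b - u ^ 2) / 2 ≤ w := by nlinarith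
  have s1 := mul_le_mul_of_nonneg_left (abs_le.1 t1).1 hK
  have s2 := mul_le_mul_of_nonneg_left (abs_le.1 t1).2 hK
  have s3 := mul_le_mul_of_nonneg_left (abs_le.1 t2).1 hK
  have s4 := mul_le_mul_of_nonneg_left (abs_le.1 t2).2 hK
  have s5 := mul_le_mul_of_nonneg_left t7 hK
  have s6 := mul_le_mul_of_nonneg_left t8 hK
  have s7 : 0 ≤ K * w := by positivity
  rw [abs_le]
  constructor <;> linarith

theorem rl8_dist_coe (s t : ℝ) (m : ℤ) : dist (s : Tc) (t : Tc) ≤ |s - t - m| := by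
  rw [← coe_add_int t m, sub_sub]
  exact dist_coe_le _ _

namespace Par
variable {P : Par}

theorem rl8_Rr {N' R : ℕ} (hR : (N' : ℤ) = P.σ.N * R - P.nv) :
    (R : ℝ) = P.Rr N' + P.nv / P.σ.N ∧ (0 : ℝ) ≤ P.nv / P.σ.N ∧ (P.nv : ℝ) / P.σ.N ≤ 1 := by
  have hN : (0 : ℝ) < P.σ.N := by exact_mod_cast P.σ.hN
  have h1 : (N' : ℝ) = P.σ.N * R - P.nv := by exact_mod_cast hR
  have h2 : (0 : ℝ) ≤ P.nv := by exact_mod_cast (nv_mem P).1
  have h3 : (P.nv : ℝ) < P.σ.N := by exact_mod_cast (nv_mem P).2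
  refine ⟨?_, by positivity, (div_le_one hN).2 h3.le⟩
  unfold Rr
  rw [h1]; field_simp; ring

theorem rl8_e {N' : ℕ} (hN : P.NOk N') (J : ℤ) (x : Tc) (y0 : ℝ) (hy0 : 0 ≤ y0)
    (hy1 : y0 ≤ 3 * P.σ.N / N') :
    0 < P.Rr N' ∧ (0 : ℝ) ≤ ((J + shf P.s0 P.J' x) % P.σ.N : ℤ) / P.σ.N ∧
    (((J + shf P.s0 P.J' x) % P.σ.N : ℤ) : ℝ) / P.σ.N ≤ 1 ∧
    ∃ e : ℝ, e = P.Rr N' * y0 + ((J + shf P.s0 P.J' x) % P.σ.N : ℤ) / P.σ.N
        - (shf P.s0 P.J' x : ℝ) / P.σ.N ∧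
      -((P.s0 * P.J' : ℕ) : ℝ) ≤ e ∧ e ≤ 4 ∧
      y0 + (J : ℝ) / N' = ((((J + shf P.s0 P.J' x) / P.σ.N : ℤ) : ℝ) + e) / P.Rr N' := by
  have hN0 : (0 : ℝ) < P.σ.N := by exact_mod_cast P.σ.hN
  have hN0' : (0 : ℤ) < P.σ.N := by exact_mod_cast P.σ.hN
  have hN1 : (1 : ℝ) ≤ P.σ.N := by exact_mod_cast P.σ.hN
  have hN' : (0 : ℝ) < N' := by exact_mod_cast hN.1
  obtain ⟨hs0, hs1⟩ := rl8_shf_mem P.s0 P.J' x
  set s := shf P.s0 P.J' x with hs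
  have hi0 : (0 : ℝ) ≤ ((J + s) % P.σ.N : ℤ) := by exact_mod_cast Int.emod_nonneg _ hN0'.ne'
  have hi1 : (((J + s) % P.σ.N : ℤ) : ℝ) < P.σ.N := by exact_mod_cast Int.emod_lt_of_pos _ hN0'
  have hdiv : (P.σ.N : ℝ) * (((J + s) / P.σ.N : ℤ) : ℝ) + (((J + s) % P.σ.N : ℤ) : ℝ) = J + s := by
    exact_mod_cast Int.mul_ediv_add_emod (J + s) P.σ.N
  have hR0 : 0 < P.Rr N' := by unfold Rr; positivity
  have hi2 : (((J + s) % P.σ.N : ℤ) : ℝ) / P.σ.N ≤ 1 := (div_le_one hN0).2 hi1.le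
  have hi3 : (0 : ℝ) ≤ ((J + s) % P.σ.N : ℤ) / P.σ.N := by positivity
  have h1 : P.Rr N' * y0 ≤ 3 := by
    have := mul_le_mul_of_nonneg_left hy1 hR0.le
    refine this.trans_eq ?_
    unfold Rr; field_simp
  have h2 : 0 ≤ P.Rr N' * y0 := by positivity
  have h3 : (s : ℝ) / P.σ.N ≤ s := div_le_self hs0 hN1
  have h4 : (0 : ℝ) ≤ s / P.σ.N := by positivity
  refine ⟨hR0, hi3, hi2, _, rfl, by linarith, by linarith, ?_⟩
  generalize (((J + s) / P.σ.N : ℤ) : ℝ) = j at hdiv ⊢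
  generalize (((J + s) % P.σ.N : ℤ) : ℝ) = i at hdiv ⊢
  have hJ : (J : ℝ) = P.σ.N * j + i - s := by linarith
  rw [hJ]
  unfold Rr
  field_simp
  ring

/-- `y = J/N' + y0`, `J + s = j N + i`, `0 ≤ s ≤ s0 J'`, `Rr ∈ (R-1, R]`: `|y - j/R| ≤ (5 + s0 J')/(R-1)
≤ δ3/D`. -/
theorem main_zone (h : P.Ok) {N' R : ℕ} (hN : P.NOk N') (hR : (N' : ℤ) = P.σ.N * R - P.nv)
    (hRz : ((P.s0 * P.J' : ℕ) + 8 : ℝ) * P.D ≤ P.δ3 * (R - 1)) {d : ℕ} (hd : d ∈ P.Ds)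
    (J : ℤ) (x : Tc) (y0 : ℝ) (hy0 : 0 ≤ y0) (hy1 : y0 ≤ 3 * P.σ.N / N')
    (hj : (J + shf P.s0 P.J' x) / P.σ.N ∈ Iz R P.D P.δ3 d) :
    7 * P.δ3 ≤ P.D * (y0 + (J : ℝ) / N') - d ∧ P.D * (y0 + (J : ℝ) / N') - d ≤ 1 - 7 * P.δ3 ∧
      (d : ℝ) / P.D ≤ (((J + shf P.s0 P.J' x) / P.σ.N : ℤ) : ℝ) / P.Rr N' ∧
      (((J + shf P.s0 P.J' x) / P.σ.N : ℤ) : ℝ) / P.Rr N' ≤ (d + 1 : ℝ) / P.D := by
  have hD : (0 : ℝ) < P.D := by exact_mod_cast h.hD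
  have hδ := h.hδ3
  have hδ' := h.hδ3'
  obtain ⟨hR1, hν0, hν1⟩ := rl8_Rr hR
  obtain ⟨hR0, -, -, e, -, he0, he1, hy⟩ := rl8_e hN J x y0 hy0 hy1
  rw [mem_Iz, div_le_iff₀ hD, lt_div_iff₀ hD] at hj
  obtain ⟨hj0, hj1⟩ := hj
  have hd2 : (d : ℝ) + 2 ≤ P.D := by exact_mod_cast (h.hDs d hd).2.1
  have hd0 : (0 : ℝ) ≤ d := Nat.cast_nonneg d
  have hS : (0 : ℝ) ≤ (P.s0 * P.J' : ℕ) := Nat.cast_nonneg _
  rw [hy]
  generalize (((J + shf P.s0 P.J' x) / P.σ.N : ℤ) : ℝ) = j at hj0 hj1 ⊢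
  generalize ((P.s0 * P.J' : ℕ) : ℝ) = S at *
  generalize (P.nv : ℝ) / P.σ.N = ν at *
  generalize P.Rr N' = R' at *
  rw [hR1] at hj0 hj1 hRz
  have a1 : 0 ≤ ν * d := by positivity
  have a2 : 0 ≤ ν * P.δ3 := by positivity
  have a3 : ν * d ≤ d := by nlinarith
  have a4 : 0 ≤ P.D * (e + S) := by have : 0 ≤ e + S := by linarith
                                    positivity
  have a5 : 0 ≤ P.D * (4 - e) := by have : 0 ≤ 4 - e := by linarith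
                                    positivity
  have a6 : 0 ≤ S * P.D := by positivity
  have a7 : 0 ≤ R' * P.δ3 := by positivity
  refine ⟨?_, ?_, ?_, ?_⟩
  · rw [le_sub_iff_add_le, ← mul_div_assoc, le_div_iff₀ hR0]; nlinarith
  · rw [sub_le_iff_le_add, ← mul_div_assoc, div_le_iff₀ hR0]; nlinarith
  · rw [div_le_div_iff₀ hD hR0]; nlinarith
  · rw [div_le_div_iff₀ hR0 hD]; nlinarith

theorem rl8_kap (h : P.Ok) {d : ℕ} {y : ℝ} (h1 : (d : ℝ) ≤ P.D * y) (h2 : P.D * y < d + 1) :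
    ⌊(P.σ.t0 : ℝ) * y⌋ = P.kap d := by
  obtain ⟨c, hc⟩ := h.htD
  have hc0 : 0 < c := by
    rcases Nat.eq_zero_or_pos c with rfl | h0
    · have := h.hD; omega
    · exact h0
  have hk : P.kap d = d / c := by
    unfold kap
    rw [hc, Nat.mul_div_mul_left _ _ P.σ.ht0]
  have hc' : (0 : ℝ) < c := by exact_mod_cast hc0
  have hD : (P.D : ℝ) = P.σ.t0 * c := by exact_mod_cast hc
  have k1 : ((d / c : ℕ) : ℝ) * c ≤ d := by exact_mod_cast Nat.div_mul_le_self d c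
  have k2 : (d : ℝ) + 1 ≤ ((d / c : ℕ) + 1 : ℝ) * c := by
    have := Nat.lt_div_mul_add (a := d) hc0
    have h3 : d + 1 ≤ (d / c + 1) * c := by nlinarith
    exact_mod_cast h3
  rw [hk, Int.floor_eq_iff]
  rw [hD] at h1 h2
  rw [Int.cast_natCast]
  constructor
  · apply le_of_mul_le_mul_right _ hc'; nlinarith
  · apply lt_of_mul_lt_mul_right _ hc'.le; nlinarith

set_option maxHeartbeats 1600000 in
/-- Let `p̃ = gL p = hk 7 p + (Rr Ψ y, 0, 0)` (`Yf_main`), `y = p 1 ∈ (δ, 1-δ) ⊂ [0,1)`, `n = J + s = jN+i`.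
Position: `pos_proj`, `⌊W p̃⌋ = P n - kap`, `⌊t0 y⌋ = kap d` (as `t0 ∣ D`, `d/D ≤ y < (d+1)/D`), `ns P ≡ 1`.
Fibre: `xc = p̃ 0 - K (y - 1/2) i/N` (`Prof.deriv_eq`); with `R' = Rr`, `y = (j + e)/R'`,
`e = R' y0 + i/N - s/N`, `|e| ≤ 4 + s0 J'`: `R' Ψ y = K j²/(2R') - K j/2 + K (j/R' - 1/2) e + K e²/(2R')`,
`K j/2 ∈ ℤ` (`κ` even); `|K (j/R' - 1/2) - rho| ≤ K/D`, `|K (y-1/2) - rho| ≤ K/D`;
`K j²/(2R') - K j²/(2R) + be3 = K (nv/N)(j²/(R R') - (d/D)²)/2 ∈ [0, K/D]`.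
The distance to `Xi` is the maximum over the three coordinates (`dist_proj_le` after removing the
integer vector). -/
theorem good_final (h : P.Ok) {N' R : ℕ} (hN : P.NOk N') (hR : (N' : ℤ) = P.σ.N * R - P.nv)
    (hRz : ((P.s0 * P.J' : ℕ) + 8 : ℝ) * P.D ≤ P.δ3 * (R - 1))
    {α β : ℤ} {σ' : St} (hσ : P.IsNew N' α β σ')
    {q' : T3} {p : V3} (hp : P.IsSec N' α β σ' q' p) {d : ℕ} (hd : d ∈ P.Ds)
    (B' lmin μ η0 ε : ℝ) (hB' : ∀ y, |deriv P.Ψ' y| ≤ B') (hl0 : 0 < lmin)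
    (hl : lmin ≤ |(P.lam d : ℝ)|)
    (hη0 : 3 * B' * P.σ.N / N' + 3 * P.σ.K / lmin + 1 / lmin ≤ η0)
    (hμ : P.J' * (P.δ2 + 2 * η0) ≤ μ) (hα : (|P.α1| * P.J' + |P.α2 d|) * η0 ≤ ε / 3)
    (hlam : |(P.lam d : ℝ)| * (3 * B' * P.σ.N / N') ≤ ε / 3)
    (hK : P.σ.K * (4 + (P.s0 * P.J' : ℕ) : ℝ) ^ 2 * P.σ.N / N' ≤ ε / 3)
    (hη0' : η0 ≤ ε / 2) (hy : 3 * (P.σ.N : ℝ) / N' * (1 + P.σ.K + |(P.σ.a : ℝ)|) ≤ ε / 2)
    (hq : P.GoodPt N' β σ' μ q')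
    (hj : (σ'.pos q' + shf P.s0 P.J' (σ'.xc q')) / P.σ.N ∈ Iz R P.D P.δ3 d) :
    P.σ.pos (proj (P.gL N' p)) = (σ'.pos q' + shf P.s0 P.J' (σ'.xc q')) % P.σ.N ∧
    dist (P.σ.xc (proj (P.gL N' p)))
      ((phs P.lam P.α1 P.α2 P.J' (σ'.xc q') d + P.σ.K *
        (((σ'.pos q' + shf P.s0 P.J' (σ'.xc q')) / P.σ.N : ℤ) : ℝ) ^ 2 / (2 * R) : ℝ) : Tc)
      ≤ P.σ.K * (6 + (P.s0 * P.J' : ℕ) : ℝ) / P.D + ε ∧
    dist (proj (P.gL N' p)) (P.Xi N' R d (σ'.pos q') (σ'.xc q'))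
      ≤ P.σ.K * (6 + (P.s0 * P.J' : ℕ) : ℝ) / P.D + 2 * ε := by
  have hD : (0 : ℝ) < P.D := by exact_mod_cast h.hD
  have hN0 : (0 : ℝ) < P.σ.N := by exact_mod_cast P.σ.hN
  have hN1 : (1 : ℝ) ≤ P.σ.N := by exact_mod_cast P.σ.hN
  have hN' : (0 : ℝ) < N' := by exact_mod_cast hN.1
  have hδ := h.hδ3
  have hK0 : (0 : ℝ) ≤ P.σ.K := Nat.cast_nonneg _
  obtain ⟨hy0, hy1⟩ := y0_mem hN β q'
  have hp1 : p 1 = P.y0 N' β q' + (σ'.pos q' : ℝ) / N' := hp.2.2.1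
  obtain ⟨z1, z2, z3, z4⟩ := main_zone h hN hR hRz hd (σ'.pos q') (σ'.xc q') _ hy0 hy1 hj
  obtain ⟨hR1, hν0, hν1⟩ := rl8_Rr hR
  obtain ⟨hR0, hi0, hi1, e, hedef, he0, he1, hye⟩ := rl8_e hN (σ'.pos q') (σ'.xc q') _ hy0 hy1
  rw [← hp1] at z1 z2 hye
  obtain ⟨⟨v, hv, hv0, hv1, hW⟩, m, e1, he1', h0⟩ :=
    good_eval h hN hσ hp hd z1 z2 B' lmin μ η0 ε hB' hl0 hl hη0 hμ hα hlam hq
  obtain ⟨-, hd2, hd3, hd4⟩ := h.hDs d hd
  have hj0 := ((mem_Iz _ _ _ _ _).1 hj).1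
  unfold Xi
  clear hj hq hp hσ hlam hα hμ hη0 hl hB'
  generalize σ'.xc q' = x at *
  generalize σ'.pos q' = J at *
  generalize shf P.s0 P.J' x = s at *
  generalize P.y0 N' β q' = y0 at *
  obtain ⟨y, hydef⟩ : ∃ y, y = p 1 := ⟨_, rfl⟩
  rw [← hydef] at z1 z2 hye hp1
  have y1 : (d : ℝ) / P.D < y := by rw [div_lt_iff₀ hD]; linarith
  have y2 : y < (d + 1 : ℝ) / P.D := by rw [lt_div_iff₀ hD]; linarith
  have hδ0 := P.σ.hδ
  have g0 : P.gL N' p 0 = P.hk N' 7 p 0 + P.Rr N' * (P.σ.K * (y ^ 2 - y) / 2) := by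
    have := P.σ.hΨ.2.2 y ⟨by linarith, by linarith⟩
    simp only [gL, trV, Pi.add_apply, Matrix.cons_val, ← hydef, this, St.K]
    push_cast; ring
  have g1 : P.gL N' p 1 = y := (gL_one N' p).trans hydef.symm
  have g2 : P.gL N' p 2 = P.hk N' 7 p 2 := by
    simp only [gL, trV, Pi.add_apply, Matrix.cons_val, ← hydef, Yf_main h hd z1 z2]
    ring
  have gW : (P.σ.N : ℝ) * P.gL N' p 2 - P.σ.a * y =
      (rp x + v) + ((P.σ.P * (J + s) - P.kap d : ℤ) : ℝ) := by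
    rw [g2]
    unfold W at hW
    rw [hk_one, ← hydef] at hW
    push_cast at hW ⊢
    linarith
  have hpos : P.σ.pos (proj (P.gL N' p)) = (J + s) % P.σ.N := by
    rw [St.pos_proj _ _ (by rw [g1]; linarith) (by rw [g1]; linarith), g1, gW,
      Int.floor_add_intCast, Int.floor_eq_zero_iff.2 ⟨hv0, hv1⟩,
      rl8_kap h (d := d) (by linarith) (by linarith)]
    have := P.σ.hns.mul_right (J + s)
    rw [one_mul] at this
    rw [← this]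
    congr 1; ring
  have hε : 0 ≤ ε := by
    have : 0 ≤ 3 * (P.σ.N : ℝ) / N' * (1 + P.σ.K + |(P.σ.a : ℝ)|) := by positivity
    linarith
  obtain ⟨c, hc⟩ : Even P.σ.K := (P.σ.hκe).pow_of_ne_zero (by norm_num)
  have hc' : (P.σ.K : ℝ) = c + c := by exact_mod_cast hc
  have hX := rl8_X (K := P.σ.K) (w := 1 / P.D) (u := d / P.D) (y := y) (S := (P.s0 * P.J' : ℕ))
    (ε := ε) (e := e) (j := (((J + s) / P.σ.N : ℤ) : ℝ)) hK0 hR0 hν0 hν1 (by positivity)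
    (by rw [← add_div]; linarith)
    (by
      rw [← hR1]
      have hRp : (0 : ℝ) < R := by rw [hR1]; linarith
      rw [div_le_iff₀ hD] at hj0
      rw [div_le_div_iff₀ hD hRp]
      have : 0 ≤ R * P.δ3 := by positivity
      nlinarith)
    (by rw [← add_div]; exact z4) z3 hye y1.le (by rw [← add_div]; exact y2.le) hi0 hi1
    (by
      have : (0 : ℝ) ≤ (P.s0 * P.J' : ℕ) := Nat.cast_nonneg _
      rw [abs_le]; constructor <;> linarith)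
    (by
      refine le_trans (le_of_eq ?_) hK
      unfold Rr; field_simp)
  rw [← hR1, mul_one_div] at hX
  have hrp : rp (proj (P.gL N' p) 1) = y := by
    unfold proj
    rw [rp_coe, g1, Int.fract_eq_self.2 ⟨by linarith, by linarith⟩]
  have hder : deriv P.σ.Ψ y = P.σ.K * (y - 1 / 2) := by
    rw [P.σ.hΨ.deriv_eq (by linarith) (by linarith)]
    simp [St.K]
  have hxc : P.σ.xc (proj (P.gL N' p)) =
      ((P.gL N' p 0 - P.σ.K * (y - 1 / 2) * ((J + s) % P.σ.N : ℤ) / P.σ.N : ℝ) : Tc) := by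
    unfold St.xc
    rw [hrp, hder, hpos, AddCircle.coe_sub]
    rfl
  generalize (J + s) / P.σ.N = j at *
  generalize (J + s) % P.σ.N = i at *
  have hXe : P.gL N' p 0 - P.σ.K * (y - 1 / 2) * i / P.σ.N
      - (phs P.lam P.α1 P.α2 P.J' x d + P.σ.K * (j : ℝ) ^ 2 / (2 * R)) - ((m - c * j : ℤ) : ℝ) =
      (P.σ.K * (d / P.D - 1 / 2) * (i / P.σ.N - e) + -(P.σ.K * (P.nv / P.σ.N) * (d / P.D) ^ 2 / 2)
        + P.Rr N' * (P.σ.K * (y ^ 2 - y) / 2) + P.σ.K * j / 2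
        - P.σ.K * (y - 1 / 2) * (i / P.σ.N) - P.σ.K * j ^ 2 / (2 * R)) + e1 := by
    rw [g0, h0, hedef]
    unfold rho be3
    push_cast
    linear_combination (-(j : ℝ) / 2) * hc'
  have hX2 : |P.gL N' p 0 - P.σ.K * (y - 1 / 2) * i / P.σ.N
      - (phs P.lam P.α1 P.α2 P.J' x d + P.σ.K * (j : ℝ) ^ 2 / (2 * R)) - ((m - c * j : ℤ) : ℝ)| ≤
      P.σ.K * (6 + (P.s0 * P.J' : ℕ) : ℝ) / P.D + 5 * ε / 6 := by
    rw [hXe]
    refine (abs_add_le _ _).trans ?_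
    linarith
  have hKD : 0 ≤ P.σ.K * (6 + (P.s0 * P.J' : ℕ) : ℝ) / P.D := by positivity
  have ha0 := abs_nonneg (P.σ.a : ℝ)
  have hy2 : y0 * (1 + P.σ.K + |(P.σ.a : ℝ)|) ≤ ε / 2 :=
    (mul_le_mul_of_nonneg_right hy1 (by positivity)).trans hy
  have hy3 : 0 ≤ y0 * P.σ.K := by positivity
  have hy4 : 0 ≤ y0 * |(P.σ.a : ℝ)| := by positivity
  refine ⟨hpos, ?_, ?_⟩
  · rw [hxc]
    refine (rl8_dist_coe _ _ (m - c * j)).trans (hX2.trans ?_)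
    linarith
  · refine (dist_pi_le_iff (by positivity)).2 fun k => ?_
    fin_cases k
    · refine (rl8_dist_coe _ _ (m - c * j)).trans ?_
      have e2 : P.gL N' p 0 - (phs P.lam P.α1 P.α2 P.J' x d + P.σ.K * (j : ℝ) ^ 2 / (2 * R)
          + P.σ.K * ((J : ℝ) / N' - 1 / 2) * i / P.σ.N) - ((m - c * j : ℤ) : ℝ) =
          (P.gL N' p 0 - P.σ.K * (y - 1 / 2) * i / P.σ.N
            - (phs P.lam P.α1 P.α2 P.J' x d + P.σ.K * (j : ℝ) ^ 2 / (2 * R))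
            - ((m - c * j : ℤ) : ℝ)) + y0 * P.σ.K * (i / P.σ.N) := by
        rw [hp1]; ring
      refine (le_of_eq (congrArg abs e2)).trans ((abs_add_le _ _).trans ?_)
      rw [abs_of_nonneg (mul_nonneg hy3 hi0)]
      have := mul_le_of_le_one_right hy3 hi1
      linarith
    · refine (dist_coe_le _ _).trans ?_
      have e2 : P.gL N' p 1 - (J : ℝ) / N' = y0 := by rw [g1, hp1]; ring
      refine (le_of_eq (congrArg abs e2)).trans ?_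
      rw [abs_of_nonneg hy0]
      linarith
    · refine (dist_coe_le _ _).trans ?_
      have e2 : P.gL N' p 2 - (P.σ.P * (J + s : ℤ) - P.kap d + rp x + P.σ.a * ((J : ℝ) / N')) / P.σ.N
          = (v + P.σ.a * y0) / P.σ.N := by
        rw [hp1] at gW
        push_cast at gW ⊢
        field_simp
        field_simp at gW
        linarith
      refine (le_of_eq (congrArg abs e2)).trans ?_
      rw [abs_div, abs_of_pos hN0]
      refine (div_le_self (abs_nonneg _) hN1).trans ((abs_add_le _ _).trans ?_)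
      rw [abs_mul, abs_of_nonneg hy0]
      linarith

end Par

end Crest.Agent.R81
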