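import Crest.Agent.R81.RL2
import Crest.Agent.R81.RL4
import Crest.Agent.R81.RL8
import Crest.Agent.R81.RL9
import Crest.Agent.R81.Link

/-!
# R81: the geometric realisation lemma
-/

set_option autoImplicit false

namespace Crest.Agent.R81

open MeasureTheory Crest.AnalysisR.Torus3 Filter Topology
open scoped ContDiff

theorem rl_inv_apply (g : Equiv.Perm T3) (x : T3) : g⁻¹ (g x) = x := g.symm_apply_apply x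

/-- From the conjugation formula to closeness.  `g (proj p) = proj (gL p)`, `A (proj p) = proj (linL p)`,
`S' (proj p) = proj (nfL N' P' Ψ' 1 p)`.  For `sg = ±1` and `q = gL p` (surjective):
`g A⁻¹ S'^{sg} A g⁻¹ (proj q) = proj (gL (SL sg p)) = S^{sg} (proj q) + proj (nu sg q)`
(`lin_SL`, `conj_formula`, `St.S_inv`, `proj_add`). -/
theorem Par.close_S {P : Par} (h : P.Ok) {N' : ℕ} (hN : P.NOk N') {α β : ℤ}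
    (hαβ : α * P.σ.N + β * P.σ.a = 1) (he : 12 * (P.D : ℝ) ≤ P.δ3 * N') {σ' : St}
    (hσ : P.IsNew N' α β σ') (g A : Equiv.Perm T3) (hg : ∀ p, g (proj p) = proj (P.gL N' p))
    (hgs : Function.Surjective (P.gL N'))
    (hA : ∀ p, A (proj p) = proj (linL P.σ.N P.σ.a α β p)) (k : ℕ) (η : ℝ)
    (hν : ∀ sg : ℝ, (sg = 1 ∨ sg = -1) → ∀ j ≤ k, ∀ p, ‖iteratedFDeriv ℝ j (P.nu N' sg) p‖ ≤ η) :
    Close k η P.σ.S ⇑(g * A⁻¹ * σ'.S * (g * A⁻¹)⁻¹) ∧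
      Close k η ⇑P.σ.S⁻¹ ⇑(g * A⁻¹ * σ'.S⁻¹ * (g * A⁻¹)⁻¹) := by
  obtain ⟨e1, e2, -, -, -, e6⟩ := hσ
  have key : ∀ sg : ℝ, (sg = 1 ∨ sg = -1) → ∀ S₀ S₁ : Equiv.Perm T3,
      (∀ p, S₀ (proj p) = proj (nfL P.σ.N P.σ.P P.σ.Ψ sg p)) →
      (∀ p, S₁ (proj p) = proj (nfL σ'.N σ'.P σ'.Ψ sg p)) →
      Close k η S₀ ⇑(g * A⁻¹ * S₁ * (g * A⁻¹)⁻¹) := by
    intro sg hsg S₀ S₁ h0 h1
    refine ⟨P.nu N' sg, Par.contDiff_nu h N' sg, hν sg hsg, fun q => ?_⟩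
    obtain ⟨p, rfl⟩ := hgs q
    rw [mul_inv_rev, inv_inv, h0, ← proj_add, ← Par.conj_formula h hN sg hsg he, ← hg, ← hg]
    simp only [Equiv.Perm.mul_apply, rl_inv_apply]
    rw [hA, h1, e1, e2, e6, ← Par.lin_SL h hN hαβ sg hsg, ← hA, rl_inv_apply]
  exact ⟨key 1 (Or.inl rfl) _ _ P.σ.hSl σ'.hSl, key (-1) (Or.inr rfl) _ _ P.σ.S_inv σ'.S_inv⟩

theorem rl_ev_div (c : ℝ) {e : ℝ} (he : 0 < e) : ∀ᶠ x : ℝ in atTop, c / x ≤ e :=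
  (tendsto_const_nhds.div_atTop tendsto_id).eventually (ge_mem_nhds he)

theorem rl_ev_mul (c : ℝ) {e : ℝ} (he : 0 < e) : ∀ᶠ x : ℝ in atTop, c ≤ e * x :=
  (tendsto_id.const_mul_atTop he).eventually_ge_atTop c

/-- The small constants. -/
theorem rl_consts {ε : ℝ} (hε : 0 < ε) (Ds : Finset ℕ) {J' : ℕ} (hJ : 0 < J') (α1 : ℝ)
    (α2 : ℕ → ℝ) (K : ℝ) : ∃ (η0 δ2 : ℝ) (lmin : ℕ), 0 < η0 ∧ 0 < δ2 ∧ 0 < lmin ∧
      J' * (δ2 + 2 * η0) ≤ ε / 8 ∧ 6 * δ2 ≤ ε / 2 ∧ η0 ≤ ε / 2 / 2 ∧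
      (∀ d ∈ Ds, (|α1| * J' + |α2 d|) * η0 ≤ ε / 2 / 3) ∧ (3 * K + 1) / lmin ≤ η0 / 2 := by
  have hJ' : (0 : ℝ) < J' := by exact_mod_cast hJ
  set C : ℝ := |α1| * J' + ∑ d ∈ Ds, |α2 d| + 1 with hC
  have hC0 : 0 < C := by positivity
  set η0 : ℝ := min (ε / 32 / J') (min (ε / 2 / 2) (ε / 2 / 3 / C)) with hη0
  have h0 : 0 < η0 := by positivity
  have h1 : η0 ≤ ε / 32 / J' := min_le_left _ _
  have h2 : η0 ≤ ε / 2 / 3 / C := (min_le_right _ _).trans (min_le_right _ _)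
  have h3 : min (ε / 16 / J') (ε / 12) ≤ ε / 16 / J' := min_le_left _ _
  obtain ⟨l, hl, hl0⟩ := ((tendsto_natCast_atTop_atTop.eventually
    (rl_ev_div (3 * K + 1) (half_pos h0))).and (eventually_gt_atTop 0)).exists
  refine ⟨η0, min (ε / 16 / J') (ε / 12), l, h0, by positivity, hl0, ?_, ?_,
    (min_le_right _ _).trans (min_le_left _ _), fun d hd => ?_, hl⟩
  · rw [le_div_iff₀ hJ'] at h1 h3
    linarith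
  · linarith [min_le_right (ε / 16 / J') (ε / 12)]
  · rw [le_div_iff₀ hC0] at h2
    have h4 : |α2 d| ≤ ∑ d ∈ Ds, |α2 d| :=
      Finset.single_le_sum (f := fun d => |α2 d|) (fun _ _ => abs_nonneg _) hd
    have h5 : |α1| * J' + |α2 d| ≤ C := by linarith
    nlinarith

/-- **Realisation.**  Order of choices.  `ε0 = ε/2` is the `ε` of `good_final`; `μ = ε/8`; `η0 > 0` and
`δ2 > 0` with `J' (δ2 + 2 η0) ≤ μ`, `6 δ2 ≤ ε/2`, `η0 ≤ ε0/2`, `(|α1| J' + |α2 d|) η0 ≤ ε0/3` (`d ∈ Ds`);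
`lmin ≥ 1` with `(3K+1)/lmin ≤ η0/2`.  `η` = minimum of the two `η`'s of `conj_close` (for `σ.S` with lift
`nfL … 1` and `σ.S⁻¹` with lift `nfL … (-1)`).  Given `lam, κ', δ'`: `Ψ'` from `exists_prof`, `B'` a bound
of `deriv Ψ'` (`BD0_of_periodic`); `Λ0` from `exists_Lam0` (order `k+1`, `η/4`), `Λ` from
`exists_prime_nn σ (Λ0 + N Md + 1)`; `P : Par` collects everything; `N0` from `nu_small`; `R, N'` from
`exists_R` with `R` so large that all conditions on `N' > N (R-1) ≥ R - 1` hold (`nv_mem`); `α, β` from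
`σ.ha`; `g` from `exists_g`, `A` from `exists_lin`, `S'` from `exists_nf`; the new state has
`N', Pn, an, ns = N, t0 = Λ, κ', δ', Ψ', H' = H * g * A⁻¹, S'` (`Pn_spec`, `an_coprime`; `N < N'`).
`T' = H (g A⁻¹ S' A g⁻¹) H⁻¹`, use `close_S`.  For a point `x` put `q' = H'⁻¹ x`, `p` from `exists_sec`;
then `H⁻¹ x = g (A⁻¹ q') = proj (gL p)`.  `bad = H'⁻¹ ⁻¹' {¬ GoodPt}` (`bad_meas`), `Ξ = P.Xi N' R`;
`gL_one`, `y0_mem`, `good_final`. -/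
theorem RL (σ : St) (k : ℕ) {ε : ℝ} (hε : 0 < ε) (D : ℕ) (hD : 0 < D) (htD : σ.t0 ∣ D)
    (Ds : Finset ℕ)
    (hDs : ∀ d ∈ Ds, 1 ≤ d ∧ d + 2 ≤ D ∧ σ.δ ≤ (d : ℝ) / D ∧ (d + 1 : ℝ) / D ≤ 1 - σ.δ)
    (δ3 : ℝ) (hδ3 : 0 < δ3) (hδ3' : δ3 ≤ 1 / 20) (s0 J' : ℕ) (hJ : 0 < J') (α1 : ℝ) (α2 : ℕ → ℝ) :
    ∃ lmin : ℕ, ∀ lam : ℕ → ℤ, (∀ d ∈ Ds, (lmin : ℤ) ≤ |lam d|) →
      ∀ (κ' : ℕ) (δ' : ℝ), 2 ≤ κ' → Even κ' → 0 < δ' → δ' ≤ 1 / 8 → ∀ Md R1 : ℕ, 0 < Md →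
      ∃ (R : ℕ) (σ' : St), R1 ≤ R ∧ R ≡ 1 [MOD Md] ∧ σ'.κ = κ' ∧ σ'.δ = δ' ∧
        σ.N * (R - 1) < σ'.N ∧ σ'.N ≤ σ.N * R ∧ Nat.Coprime σ.N σ'.N ∧
        Close k ε σ.T σ'.T ∧ Close k ε ⇑σ.T⁻¹ ⇑σ'.T⁻¹ ∧
        Link σ σ' R D Ds δ3 s0 J' lam α1 α2 ε (σ.K * (6 + (s0 * J' : ℕ) : ℝ) / D + ε) := by
  obtain ⟨η0, δ2, lmin, hη0, hδ2, hl0, c1, c2, c3, c4, c5⟩ := rl_consts hε Ds hJ α1 α2 σ.K
  obtain ⟨η₁, hη₁, hc₁⟩ := conj_close σ.hH.1 (S := σ.S)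
    ⟨contDiff_nfL σ.N σ.P σ.hΨ.1 1, σ.hSl⟩ k hε
  obtain ⟨η₂, hη₂, hc₂⟩ := conj_close σ.hH.1 (S := ⇑σ.S⁻¹)
    ⟨contDiff_nfL σ.N σ.P σ.hΨ.1 (-1), σ.S_inv⟩ k hε
  have hη : 0 < min η₁ η₂ := lt_min hη₁ hη₂
  refine ⟨lmin, fun lam hlam κ' δ' hκ hκe hδ' hδ'' Md R1 hMd => ?_⟩
  obtain ⟨Ψ', hΨ'⟩ := exists_prof κ' hδ'
  obtain ⟨B', hB'⟩ := (BD0_of_periodic (contDiff_infty_iff_deriv.1 hΨ'.1).2
    (periodic_deriv hΨ'.2.1)).2 0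
  simp only [norm_iteratedFDeriv_zero, Real.norm_eq_abs] at hB'
  have hok : ∀ Λ : ℕ, 0 < Λ → Par.Ok ⟨σ, D, Ds, δ3, δ2, s0, J', α1, α2, lam, Λ, Ψ'⟩ :=
    fun Λ hΛ => ⟨hD, htD, hDs, hδ3, hδ3', hδ2, hJ, fun d hd h0 => by
      have := hlam d hd
      change lam d = 0 at h0
      rw [h0, abs_zero] at this
      omega, hΛ, hΨ'.1, hΨ'.2.1⟩
  obtain ⟨Λ0, hΛ0⟩ := Par.exists_Lam0 _ (hok 1 one_pos) (k + 1) (η := min η₁ η₂ / 4)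
    (by positivity)
  obtain ⟨Λ, hΛ, hpr⟩ := Par.exists_prime_nn σ (Λ0 + σ.N * Md + 1)
  have hΛp : 0 < Λ := by omega
  set P : Par := ⟨σ, D, Ds, δ3, δ2, s0, J', α1, α2, lam, Λ, Ψ'⟩ with hP
  have h : P.Ok := hok Λ hΛp
  obtain ⟨N0, hN0⟩ := Par.nu_small h k hη (hΛ0 P rfl rfl rfl rfl h (by change Λ0 ≤ Λ; omega))
  have hev : ∀ᶠ x : ℝ in atTop, (N0 : ℝ) ≤ x ∧ (σ.N : ℝ) < x ∧ 12 * (D : ℝ) ≤ δ3 * x ∧
      ((s0 * J' : ℕ) + 8 : ℝ) * D ≤ δ3 * x ∧ 3 * B' * σ.N / x ≤ η0 / 2 ∧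
      (∀ d ∈ Ds, |(lam d : ℝ)| * (3 * B' * σ.N) / x ≤ ε / 2 / 3) ∧
      σ.K * (4 + (s0 * J' : ℕ) : ℝ) ^ 2 * σ.N / x ≤ ε / 2 / 3 ∧
      3 * (σ.N : ℝ) * (1 + σ.K + |(σ.a : ℝ)|) / x ≤ ε / 2 / 2 :=
    (eventually_ge_atTop _).and <| (eventually_gt_atTop _).and <| (rl_ev_mul _ hδ3).and <|
      (rl_ev_mul _ hδ3).and <| (rl_ev_div _ (half_pos hη0)).and <|
      ((eventually_all_finset Ds).2 fun d _ => rl_ev_div _ (by positivity)).and <|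
      (rl_ev_div _ (by positivity)).and (rl_ev_div _ (by positivity))
  obtain ⟨x0, hx0⟩ := eventually_atTop.1 hev
  obtain ⟨R, N', hR1, hRM, hR, hN, hcop⟩ := P.exists_R Md (max R1 (⌈x0⌉₊ + 1)) hMd hpr (by
    change σ.N * Md < σ.ns + Λ * σ.N
    have := Nat.le_mul_of_pos_right Λ σ.hN
    omega)
  have hR2 : ⌈x0⌉₊ + 1 ≤ R := (le_max_right _ _).trans hR1
  have hnv := P.nv_mem
  have hlow : σ.N * (R - 1) < N' := by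
    have h1 : 1 ≤ R := by omega
    zify [h1]
    change (N' : ℤ) = σ.N * R - P.nv at hR
    change 0 ≤ P.nv ∧ P.nv < σ.N at hnv
    linarith [hnv.2]
  have hup : N' ≤ σ.N * R := by
    zify
    change (N' : ℤ) = σ.N * R - P.nv at hR
    linarith [hnv.1]
  have hxR : x0 ≤ (R : ℝ) - 1 := by
    have h1 : ((⌈x0⌉₊ + 1 : ℕ) : ℝ) ≤ R := by exact_mod_cast hR2
    push_cast at h1
    linarith [Nat.le_ceil x0]
  have hxN : x0 ≤ (N' : ℝ) := by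
    have h1 := Nat.le_mul_of_pos_left (R - 1) σ.hN
    exact (Nat.le_ceil x0).trans (by exact_mod_cast (by omega : ⌈x0⌉₊ ≤ N'))
  obtain ⟨d1, d2, d3, -, d5, d6, d7, d8⟩ := hx0 _ hxN
  obtain ⟨-, -, -, d4, -⟩ := hx0 _ hxR
  obtain ⟨β, α, hαβ⟩ := σ.ha
  replace hαβ : α * P.σ.N + β * P.σ.a = 1 := by rw [← hαβ, add_comm]
  obtain ⟨g, hgT, hg, hgs⟩ := Par.exists_g h hN
  obtain ⟨A, hAT, hA, -⟩ := exists_lin P.σ.N P.σ.a α β hαβ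
  obtain ⟨S', hS'T, hS'⟩ := exists_nf N' (P.Pn N' α β) Ψ' hΨ'.1 hΨ'.2.1
  let σ' : St :=
    { N := N', P := P.Pn N' α β, a := P.an N' β, ns := σ.N, t0 := Λ, κ := κ', δ := δ', Ψ := Ψ'
      H := σ.H * (g * A⁻¹), S := S', hN := hN.1
      hns := by
        rw [show (σ.N : ℤ) * P.Pn N' α β = _ from Par.Pn_spec hN hαβ]
        exact Int.modEq_iff_dvd.2 ⟨-(β * P.σ.P), by ring⟩
      hns' := by exact_mod_cast d2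
      ha := Par.an_coprime hN hαβ hcop, ht0 := hΛp, hκ := hκ, hκe := hκe, hδ := hδ', hδ' := hδ''
      hΨ := hΨ', hH := σ.hH.mul (hgT.mul hAT.inv), hS := hS'T, hSl := hS' }
  have hσ : P.IsNew N' α β σ' := ⟨rfl, rfl, rfl, rfl, rfl, rfl⟩
  obtain ⟨cl1, cl2⟩ := Par.close_S h hN hαβ d3 hσ g A hg hgs hA k (min η₁ η₂)
    (hN0 N' (by exact_mod_cast d1))
  have hsec : ∀ x : T3, ∃ p, P.IsSec N' α β σ' (σ'.H⁻¹ x) p ∧ σ.H⁻¹ x = proj (P.gL N' p) := by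
    intro x
    obtain ⟨p, hp⟩ := Par.exists_sec hN hαβ hσ (σ'.H⁻¹ x)
    refine ⟨p, hp, ?_⟩
    have e : σ.H⁻¹ = g * A⁻¹ * σ'.H⁻¹ := by
      change _ = _ * (σ.H * (g * A⁻¹))⁻¹
      group
    rw [e, Equiv.Perm.mul_apply, ← hp.1, ← hA, Equiv.Perm.mul_apply, rl_inv_apply, hg]
  obtain ⟨bm, bv⟩ := Par.bad_meas h hN.1 β σ' (ε / 8) (by positivity)
  have hmp := σ'.hH.inv.2
  refine ⟨R, σ', (le_max_left _ _).trans hR1, hRM, rfl, rfl, hlow, hup, hN.coprime, ?_, ?_,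
    ⇑σ'.H⁻¹ ⁻¹' {q' | ¬ P.GoodPt N' β σ' (ε / 8) q'}, P.Xi N' R, hmp.measurable bm, ?_,
    Par.measurable_Xi P N' R, fun x => ?_, fun x hx d hd hj => ?_⟩
  · have e : σ'.T = σ.H * (g * A⁻¹ * σ'.S * (g * A⁻¹)⁻¹) * σ.H⁻¹ := by
      change σ.H * (g * A⁻¹) * σ'.S * (σ.H * (g * A⁻¹))⁻¹ = _
      group
    rw [e]
    exact hc₁ _ (cl1.mono le_rfl (min_le_left _ _))
  · have e : σ'.T⁻¹ = σ.H * (g * A⁻¹ * σ'.S⁻¹ * (g * A⁻¹)⁻¹) * σ.H⁻¹ := by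
      change (σ.H * (g * A⁻¹) * σ'.S * (σ.H * (g * A⁻¹))⁻¹)⁻¹ = _
      group
    have e' : σ.T⁻¹ = σ.H * σ.S⁻¹ * σ.H⁻¹ := by
      rw [St.T]
      group
    rw [e, e']
    exact hc₂ _ (cl2.mono le_rfl (min_le_right _ _))
  · rw [hmp.measure_preimage bm.nullMeasurableSet]
    refine bv.trans (ENNReal.ofReal_le_ofReal ?_)
    change 6 * δ2 + _ ≤ _
    linarith
  · obtain ⟨p, hp, e⟩ := hsec x
    refine ⟨_, (Par.y0_mem hN β (σ'.H⁻¹ x)).1, (Par.y0_mem hN β (σ'.H⁻¹ x)).2, ?_⟩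
    rw [e, proj, Par.gL_one, hp.2.2.1]
  · obtain ⟨p, hp, e⟩ := hsec x
    have hl0' : (0 : ℝ) < lmin := by exact_mod_cast hl0
    obtain ⟨f1, f2, f3⟩ := Par.good_final h hN hR d4 hσ hp hd B' lmin (ε / 8) η0 (ε / 2) hB' hl0'
      (by exact_mod_cast hlam d hd)
      (by
        rw [add_div] at c5
        change 3 * B' * σ.N / N' + 3 * σ.K / lmin + 1 / lmin ≤ η0
        linarith)
      c1 (c4 d hd) (by rw [← mul_div_assoc]; exact d6 d hd) d7 c3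
      (by rw [div_mul_eq_mul_div]; exact d8) (not_not.1 hx) hj
    rw [e]
    refine ⟨f1, f2.trans ?_, f3.trans ?_⟩
    · change (σ.K : ℝ) * (6 + (s0 * J' : ℕ) : ℝ) / D + _ ≤ _
      linarith
    · change (σ.K : ℝ) * (6 + (s0 * J' : ℕ) : ℝ) / D + _ ≤ _
      linarith

end Crest.Agent.R81
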