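import Crest.Agent.R81.RLDef

/-!
# R81: smoothness and periodicity of the shears; the conjugacy on the torus
-/

set_option autoImplicit false

namespace Crest.Agent.R81

open MeasureTheory Crest.AnalysisR.Torus3 Filter Topology
open scoped ContDiff

theorem rl1_plat_zero {a b s : ℝ} (ha : 0 ≤ a) (hab : a < b) (hs : s ≤ 0 ∨ 1 ≤ s) :
    plat a b s = 0 := by
  rcases hs with hs | hs
  · exact plat_left hab (by linarith)
  · exact plat_right hab (by linarith)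

theorem rl1_bk_zero {δ : ℝ} (hδ : 0 < δ) (k : ℕ) {s : ℝ} (hs : s ≤ 0 ∨ 1 ≤ s) : bk δ k s = 0 := by
  unfold bk
  rw [rl1_plat_zero (by positivity) (by nlinarith) hs,
    rl1_plat_zero (by positivity) (by nlinarith) hs, sub_zero]

theorem rl1_ck_zero {δ : ℝ} (hδ : 0 < δ) (k : ℕ) {s : ℝ} (hs : s ≤ 0 ∨ 1 ≤ s) : ck δ k s = 0 := by
  unfold ck
  exact rl1_plat_zero (by positivity) (by nlinarith) hs

theorem rl1_contDiff_bk (δ : ℝ) (k : ℕ) : ContDiff ℝ ∞ (bk δ k) :=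
  (contDiff_plat _ _).sub (contDiff_plat _ _)

theorem rl1_contDiff_ck (δ : ℝ) (k : ℕ) : ContDiff ℝ ∞ (ck δ k) := contDiff_plat _ _

theorem rl1_contDiff_deriv {f : ℝ → ℝ} (hf : ContDiff ℝ ∞ f) : ContDiff ℝ ∞ (deriv f) :=
  (contDiff_infty_iff_deriv.1 hf).2

theorem rl1_step {F : V3 → V3}
    (hF : ∃ g : Equiv.Perm T3, IsTD g ∧ (∀ p, g (proj p) = proj (F p)) ∧ Function.Surjective F)
    (dir : V3) (n : ℕ) (hn : 0 < n) (hdir : ∃ z, (n : ℝ) • dir = iv z)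
    (f : V3 → ℝ) (hf : ContDiff ℝ ∞ f) (hper : ∀ p z, f (p + iv z) = f p)
    (hinv : ∀ p (t : ℝ), f (p + t • dir) = f p) :
    ∃ g : Equiv.Perm T3, IsTD g ∧ (∀ p, g (proj p) = proj (F p + f (F p) • dir)) ∧
      Function.Surjective fun p => F p + f (F p) • dir := by
  obtain ⟨g, hg, hgF, hs⟩ := hF
  obtain ⟨T, hT, hTF, -⟩ := exists_shear dir n hn hdir f hf hper hinv
  refine ⟨T * g, hT.mul hg, fun p => by rw [Equiv.Perm.mul_apply, hgF, hTF], fun q => ?_⟩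
  obtain ⟨p, hp⟩ := hs (q + (-f q) • dir)
  refine ⟨p, ?_⟩
  simp only [hp, hinv]
  rw [add_assoc, ← add_smul, neg_add_cancel, zero_smul, add_zero]

namespace Par
variable {P : Par}

theorem rl1_zone (h : P.Ok) {d : ℕ} (hd : d ∈ P.Ds) {t : ℝ}
    (ht : t ≤ 1 / (P.D : ℝ) ∨ 1 - 1 / (P.D : ℝ) ≤ t) :
    (P.D : ℝ) * t - d ≤ 0 ∨ 1 ≤ (P.D : ℝ) * t - d := by
  obtain ⟨h1, h2, -⟩ := h.hDs d hd
  have hD : (0 : ℝ) < P.D := by exact_mod_cast h.hD
  have h1' : (1 : ℝ) ≤ d := by exact_mod_cast h1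
  have h2' : (d : ℝ) + 2 ≤ P.D := by exact_mod_cast h2
  have e : (P.D : ℝ) * (1 / P.D) = 1 := by field_simp
  rcases ht with ht | ht
  · left
    have := mul_le_mul_of_nonneg_left ht hD.le
    linarith
  · right
    have := mul_le_mul_of_nonneg_left ht hD.le
    nlinarith

theorem rl1_Dinv (h : P.Ok) : (0 : ℝ) < 1 / (P.D : ℝ) := by
  have hD : (0 : ℝ) < P.D := by exact_mod_cast h.hD
  positivity

theorem rl1_contDiff_bkf (h : P.Ok) (k : ℕ) {d : ℕ} (hd : d ∈ P.Ds) :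
    ContDiff ℝ ∞ fun y : ℝ => bk P.δ3 k (P.D * Int.fract y - d) :=
  contDiff_comp_fract (g := fun t => bk P.δ3 k (P.D * t - d))
    ((rl1_contDiff_bk _ _).comp (by fun_prop)) (rl1_Dinv h)
    fun _ ht => rl1_bk_zero h.hδ3 k (rl1_zone h hd ht)

theorem rl1_contDiff_ckf (h : P.Ok) (k : ℕ) {d : ℕ} (hd : d ∈ P.Ds) :
    ContDiff ℝ ∞ fun y : ℝ => ck P.δ3 k (P.D * Int.fract y - d) :=
  contDiff_comp_fract (g := fun t => ck P.δ3 k (P.D * t - d))
    ((rl1_contDiff_ck _ _).comp (by fun_prop)) (rl1_Dinv h)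
    fun _ ht => rl1_ck_zero h.hδ3 k (rl1_zone h hd ht)

/-- `contDiff_comp_fract` with `g t = ∑_d -(bk 1 (D t - d) t)`, which vanishes for `t ≤ 1/D`, `t ≥ 1-1/D`
(`1 ≤ d ≤ D-2`; `bk δ3 k s = 0` for `s ≤ 0` and `s ≥ 1`). -/
theorem contDiff_Y1 (h : P.Ok) : ContDiff ℝ ∞ (Y1 P.D P.Ds P.δ3) := by
  refine contDiff_comp_fract (g := fun t => ∑ d ∈ P.Ds, -(bk P.δ3 1 (P.D * t - d) * t))
    (ContDiff.sum fun d _ => (((rl1_contDiff_bk _ _).comp (by fun_prop)).mul contDiff_id).neg)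
    (rl1_Dinv h) fun t ht => ?_
  refine Finset.sum_eq_zero fun d hd => ?_
  rw [rl1_bk_zero h.hδ3 1 (rl1_zone h hd ht), zero_mul, neg_zero]

theorem contDiff_Y2 (h : P.Ok) : ContDiff ℝ ∞ (Y2 P.σ.Ψ P.D P.Ds P.δ3) :=
  ContDiff.sum fun _ hd =>
    ((rl1_contDiff_bkf h 3 hd).add (rl1_contDiff_bkf h 5 hd)).mul P.σ.hΨ.1

theorem periodic_Y1 : Function.Periodic (Y1 P.D P.Ds P.δ3) 1 := by
  intro y
  simp only [Y1, Int.fract_add_one]

theorem periodic_Y2 : Function.Periodic (Y2 P.σ.Ψ P.D P.Ds P.δ3) 1 := by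
  intro y
  simp only [Y2, Int.fract_add_one, P.σ.hΨ.2.1 y]

theorem contDiff_Yf (h : P.Ok) : ContDiff ℝ ∞ P.Yf :=
  ((contDiff_Y1 h).div_const _).add ((contDiff_Y2 h).div_const _)

theorem periodic_Yf : Function.Periodic P.Yf 1 := by
  intro y
  simp only [Yf, periodic_Y1 y, periodic_Y2 y]

theorem rl1_contDiff_fk (h : P.Ok) (k d : ℕ) : ContDiff ℝ ∞ (P.fk k d) := by
  have hs := contDiff_saw h.hδ2
  have h1 : ∀ c : ℝ, ContDiff ℝ ∞ fun l : ℝ => saw P.δ2 (c * l) := fun c =>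
    hs.comp (by fun_prop)
  have h2 : ContDiff ℝ ∞ fun l : ℝ => saw P.δ2 (-l) := hs.comp (by fun_prop)
  have h3 : ∀ c : ℝ, ContDiff ℝ ∞ fun l : ℝ => saw P.δ2 (c * -l) := fun c =>
    hs.comp (by fun_prop)
  match k with
  | 0 => exact contDiff_const
  | 1 => exact contDiff_const.mul hs
  | 2 => exact (contDiff_const.mul hs).sub (contDiff_const.mul (h1 _))
  | 3 => exact (h2.add (contDiff_const.mul ((contDiff_const.mul h2).sub (h3 _)))).sub contDiff_const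
  | 4 => exact hs.neg
  | 5 => exact contDiff_const.mul hs
  | 6 => exact (((contDiff_const.mul hs).add (contDiff_const.mul (h1 _))).add
      (contDiff_const.mul hs)).add contDiff_const
  | k + 7 => exact contDiff_const

theorem contDiff_Fk (h : P.Ok) (k : ℕ) : ContDiff ℝ ∞ fun z : ℝ × ℝ => P.Fk k z.1 z.2 := by
  match k with
  | 0 =>
    have hD : (0 : ℝ) < P.D := by exact_mod_cast h.hD
    exact ((rl1_contDiff_deriv h.hΨ).comp contDiff_snd).mul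
      ((contDiff_saw (by positivity)).comp contDiff_fst).neg
  | k + 1 =>
    exact ContDiff.sum fun d hd => ((rl1_contDiff_ckf h (k + 1) hd).comp contDiff_fst).mul
      ((rl1_contDiff_fk h (k + 1) d).comp contDiff_snd)

theorem rl1_fk_add_int (k d : ℕ) (l : ℝ) (n : ℤ) : P.fk k d (l + n) = P.fk k d l := by
  have h0 := saw_add_int P.δ2 l n
  have h1 : ∀ c : ℕ, saw P.δ2 (c * (l + n)) = saw P.δ2 (c * l) := fun c => by
    rw [← saw_add_int P.δ2 (c * l) (c * n)]; congr 1; push_cast; ring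
  have h2 : saw P.δ2 (-(l + n)) = saw P.δ2 (-l) := by
    rw [← saw_add_int P.δ2 (-l) (-n)]; congr 1; push_cast; ring
  have h3 : ∀ c : ℕ, saw P.δ2 (c * -(l + n)) = saw P.δ2 (c * -l) := fun c => by
    rw [← saw_add_int P.δ2 (c * -l) (-(c * n))]; congr 1; push_cast; ring
  match k with
  | 0 => rfl
  | 1 => simp only [fk, h0]
  | 2 => simp only [fk, h0, h1]
  | 3 => simp only [fk, h2, h3]
  | 4 => simp only [fk, h0]
  | 5 => simp only [fk, h0]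
  | 6 => simp only [fk, h0, h1]
  | k + 7 => rfl

theorem Fk_add_int (h : P.Ok) (k : ℕ) (y l : ℝ) (m n : ℤ) : P.Fk k (y + m) (l + n) = P.Fk k y l := by
  match k with
  | 0 => simp only [Fk, saw_add_int, periodic_add_int (periodic_deriv h.hΨp)]
  | k + 1 => simp only [Fk, Int.fract_add_intCast, rl1_fk_add_int]

theorem rl1_lk_cases (N' k : ℕ) :
    (P.lk N' k = P.uu N' ∧ P.dk k = ![1, 0, 0]) ∨
    (P.lk N' k = P.xw ∧ P.dk k = ![(P.Λ : ℝ), 0, 1 / (P.σ.N : ℝ)]) ∨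
    (P.lk N' k = P.W ∧ P.dk k = ![1, 0, 0]) := by
  match k with
  | 0 => exact Or.inr (Or.inr ⟨rfl, rfl⟩)
  | 1 => exact Or.inl ⟨rfl, rfl⟩
  | 2 => exact Or.inr (Or.inr ⟨rfl, rfl⟩)
  | 3 => exact Or.inr (Or.inl ⟨rfl, rfl⟩)
  | 4 => exact Or.inr (Or.inr ⟨rfl, rfl⟩)
  | 5 => exact Or.inr (Or.inl ⟨rfl, rfl⟩)
  | k + 6 => exact Or.inr (Or.inr ⟨rfl, rfl⟩)

theorem lk_add (N' k : ℕ) (p q : V3) : P.lk N' k (p + q) = P.lk N' k p + P.lk N' k q := by
  rcases rl1_lk_cases (P := P) N' k with ⟨h, -⟩ | ⟨h, -⟩ | ⟨h, -⟩ <;>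
  · rw [h]
    simp only [uu, xw, W, Pi.add_apply]
    ring

theorem lk_smul (N' k : ℕ) (c : ℝ) (p : V3) : P.lk N' k (c • p) = c * P.lk N' k p := by
  rcases rl1_lk_cases (P := P) N' k with ⟨h, -⟩ | ⟨h, -⟩ | ⟨h, -⟩ <;>
  · rw [h]
    simp only [uu, xw, W, Pi.smul_apply, smul_eq_mul]
    ring

theorem lk_dk (N' k : ℕ) : P.lk N' k (P.dk k) = 0 := by
  have hN : (P.σ.N : ℝ) ≠ 0 := by exact_mod_cast P.σ.hN.ne'
  rcases rl1_lk_cases (P := P) N' k with ⟨h, h'⟩ | ⟨h, h'⟩ | ⟨h, h'⟩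
  · rw [h, h']; simp [uu, W]
  · rw [h, h']; simp [xw, W, hN]
  · rw [h, h']; simp [W]

theorem dk_one (k : ℕ) : P.dk k 1 = 0 := by
  rcases rl1_lk_cases (P := P) 0 k with ⟨-, h'⟩ | ⟨-, h'⟩ | ⟨-, h'⟩ <;>
  · rw [h']; simp

theorem contDiff_lk (N' k : ℕ) : ContDiff ℝ ∞ (P.lk N' k) := by
  have hW : ContDiff ℝ ∞ P.W := by unfold W; fun_prop
  rcases rl1_lk_cases (P := P) N' k with ⟨h, -⟩ | ⟨h, -⟩ | ⟨h, -⟩
  · rw [h]; unfold uu; fun_prop
  · rw [h]; unfold xw; fun_prop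
  · rw [h]; exact hW

theorem rl1_ns : ∃ c : ℤ, (P.σ.ns : ℤ) * P.σ.P = 1 + P.σ.N * c := by
  obtain ⟨c, hc⟩ := P.σ.hns.symm.dvd
  exact ⟨c, by linarith⟩

/-- for `uu`: `N ∣ N' + a ns` (multiply `N ∣ N' P + a` by `ns`). -/
theorem lk_iv {N' : ℕ} (hN : P.NOk N') (k : ℕ) (z : Fin 3 → ℤ) : ∃ m : ℤ, P.lk N' k (iv z) = m := by
  have hN0 : (P.σ.N : ℝ) ≠ 0 := by exact_mod_cast P.σ.hN.ne'
  rcases rl1_lk_cases (P := P) N' k with ⟨h, -⟩ | ⟨h, -⟩ | ⟨h, -⟩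
  · obtain ⟨c, hc⟩ := rl1_ns (P := P)
    obtain ⟨e, he⟩ := hN.2
    have h1 : (N' : ℤ) + P.σ.a * P.σ.ns = P.σ.N * (P.σ.ns * e - N' * c) := by
      have : (P.σ.ns : ℤ) * (N' * P.σ.P + P.σ.a) = P.σ.ns * (P.σ.N * e) := by rw [he]
      have h2 : (N' : ℤ) * (P.σ.ns * P.σ.P) = N' * (1 + P.σ.N * c) := by rw [hc]
      linarith
    have h1' : (N' : ℝ) + P.σ.a * P.σ.ns = P.σ.N * (P.σ.ns * e - N' * c) := by exact_mod_cast h1
    refine ⟨(P.σ.ns * e - N' * c + P.σ.a * P.Λ) * z 1 - P.nn * z 2, ?_⟩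
    rw [h]
    simp only [uu, W, iv, Rr, Lt, nn]
    push_cast
    field_simp
    linear_combination (z 1 : ℝ) * h1'
  · exact ⟨P.Λ * (P.σ.N * z 2 - P.σ.a * z 1) - z 0, by rw [h]; simp [xw, W, iv]⟩
  · exact ⟨P.σ.N * z 2 - P.σ.a * z 1, by rw [h]; simp [W, iv]⟩

theorem W_gam {N' : ℕ} (hN : P.NOk N') : P.W (P.gam N') = P.σ.P := by
  have hN0 : (P.σ.N : ℝ) ≠ 0 := by exact_mod_cast P.σ.hN.ne'
  have hN1 : (N' : ℝ) ≠ 0 := by exact_mod_cast hN.1.ne'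
  simp only [W, gam, Matrix.cons_val]
  field_simp
  ring

theorem lk_gam {N' : ℕ} (hN : P.NOk N') (k : ℕ) : ∃ m : ℤ, P.lk N' k (P.gam N') = m := by
  have hN0 : (P.σ.N : ℝ) ≠ 0 := by exact_mod_cast P.σ.hN.ne'
  have hN1 : (N' : ℝ) ≠ 0 := by exact_mod_cast hN.1.ne'
  rcases rl1_lk_cases (P := P) N' k with ⟨h, -⟩ | ⟨h, -⟩ | ⟨h, -⟩
  · obtain ⟨c, hc⟩ := rl1_ns (P := P)
    have hc' : (P.σ.ns : ℝ) * P.σ.P = 1 + P.σ.N * c := by exact_mod_cast hc
    refine ⟨-c - P.Λ * P.σ.P, ?_⟩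
    rw [h]
    simp only [uu, W_gam hN, Rr, Lt, nn]
    simp only [gam, Matrix.cons_val]
    push_cast
    field_simp
    linear_combination -hc'
  · refine ⟨P.Λ * P.σ.P, ?_⟩
    rw [h]
    simp only [xw, W_gam hN]
    simp [gam]
  · exact ⟨P.σ.P, by rw [h, W_gam hN]⟩

theorem hk_one (N' k : ℕ) (p : V3) : P.hk N' k p 1 = p 1 := by
  induction k with
  | zero => rfl
  | succ k ih => simp only [hk, Pi.add_apply, Pi.smul_apply, dk_one, smul_zero, add_zero, ih]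

theorem gL_one (N' : ℕ) (p : V3) : P.gL N' p 1 = p 1 := by
  simp only [gL, Pi.add_apply, hk_one, trV, Matrix.cons_val, add_zero]

theorem rl1_exists_hk (h : P.Ok) {N' : ℕ} (hN : P.NOk N') (k : ℕ) :
    ∃ g : Equiv.Perm T3, IsTD g ∧ (∀ p, g (proj p) = proj (P.hk N' k p)) ∧
      Function.Surjective (P.hk N' k) := by
  induction k with
  | zero => exact ⟨1, IsTD.one, fun _ => rfl, fun q => ⟨q, rfl⟩⟩
  | succ k ih =>
    have hN0 : (P.σ.N : ℝ) ≠ 0 := by exact_mod_cast P.σ.hN.ne'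
    refine rl1_step ih (P.dk k) P.σ.N P.σ.hN ?_ (fun p => P.Fk k (p 1) (P.lk N' k p)) ?_ ?_ ?_
    · rcases rl1_lk_cases (P := P) N' k with ⟨-, h'⟩ | ⟨-, h'⟩ | ⟨-, h'⟩
      · refine ⟨![P.σ.N, 0, 0], ?_⟩
        rw [h']; funext i; fin_cases i <;> simp [iv]
      · refine ⟨![P.σ.N * P.Λ, 0, 1], ?_⟩
        rw [h']; funext i; fin_cases i <;> simp [iv, hN0]
      · refine ⟨![P.σ.N, 0, 0], ?_⟩
        rw [h']; funext i; fin_cases i <;> simp [iv]
    · exact (contDiff_Fk h k).comp ((contDiff_apply ℝ ℝ 1).prodMk (contDiff_lk N' k))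
    · intro p z
      obtain ⟨m, hm⟩ := lk_iv hN k z
      simp only [lk_add, hm, Pi.add_apply, iv, Fk_add_int h]
    · intro p t
      simp only [lk_add, lk_smul, lk_dk, Pi.add_apply, Pi.smul_apply, dk_one, smul_zero, mul_zero,
        add_zero]

/-- Induction on `k` with `exists_shear` (`n = N`; `N • dk k` is an integer vector), each shear of
`ℝ³` is surjective; finally two more shears (directions `e₀`, `e₂`) for `trV`. -/
theorem exists_g (h : P.Ok) {N' : ℕ} (hN : P.NOk N') :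
    ∃ g : Equiv.Perm T3, IsTD g ∧ (∀ p, g (proj p) = proj (P.gL N' p)) ∧
      Function.Surjective (P.gL N') := by
  have h1 := rl1_step (rl1_exists_hk h hN 7) ![1, 0, 0] 1 one_pos
    ⟨![1, 0, 0], by funext i; fin_cases i <;> simp [iv]⟩ (fun p => P.Rr N' * P.σ.Ψ (p 1))
    (contDiff_const.mul (P.σ.hΨ.1.comp (contDiff_apply ℝ ℝ 1)))
    (fun p z => by simp only [Pi.add_apply, iv, periodic_add_int P.σ.hΨ.2.1])
    (fun p t => by simp)
  have h2 := rl1_step h1 ![0, 0, 1] 1 one_pos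
    ⟨![0, 0, 1], by funext i; fin_cases i <;> simp [iv]⟩
    (fun p => P.Rr N' * P.Yf (p 1) / P.σ.N)
    ((contDiff_const.mul ((contDiff_Yf h).comp (contDiff_apply ℝ ℝ 1))).div_const _)
    (fun p z => by simp only [Pi.add_apply, iv, periodic_add_int periodic_Yf])
    (fun p t => by simp)
  have e : P.gL N' = fun p =>
      (P.hk N' 7 p + (P.Rr N' * P.σ.Ψ (P.hk N' 7 p 1)) • (![1, 0, 0] : V3)) +
      (P.Rr N' * P.Yf ((P.hk N' 7 p + (P.Rr N' * P.σ.Ψ (P.hk N' 7 p 1)) • (![1, 0, 0] : V3)) 1)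
        / P.σ.N) • (![0, 0, 1] : V3) := by
    funext p i
    fin_cases i <;> simp [gL, trV, hk_one, Matrix.vecHead, Matrix.vecTail]
  rw [e]
  exact h2

theorem rl1_contDiff_Dk (h : P.Ok) (e : ℝ) (k : ℕ) :
    ContDiff ℝ ∞ fun z : ℝ × ℝ => P.Dk e k z.1 z.2 := by
  unfold Dk
  refine ContDiff.sub (ContDiff.add (ContDiff.mul ?_ contDiff_const) ?_) (contDiff_Fk h k)
  · split_ifs
    · exact (rl1_contDiff_deriv h.hΨ).comp contDiff_snd
    · exact contDiff_const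
  · exact (contDiff_Fk h k).comp ((contDiff_fst.add contDiff_const).prodMk contDiff_snd)

theorem rl1_contDiff_trV (h : P.Ok) (N' : ℕ) : ContDiff ℝ ∞ (P.trV N') := by
  have h1 := P.σ.hΨ.1
  have h2 := contDiff_Yf h
  rw [contDiff_pi]
  intro i
  fin_cases i
  · exact contDiff_const.mul h1
  · exact contDiff_const
  · exact (contDiff_const.mul h2).div_const _

theorem contDiff_nu (h : P.Ok) (N' : ℕ) (sg : ℝ) : ContDiff ℝ ∞ (P.nu N' sg) := by
  have h1 := P.σ.hΨ.1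
  have h2 := contDiff_Yf h
  have h3 := rl1_contDiff_deriv h1
  have hp : ContDiff ℝ ∞ fun p : V3 => p 1 := contDiff_apply ℝ ℝ 1
  unfold nu
  refine ContDiff.add ?_ (ContDiff.sum fun k _ => ContDiff.smul_const ?_ _)
  · rw [contDiff_pi]
    intro i
    fin_cases i
    · exact (contDiff_const.mul ((h1.comp (hp.add contDiff_const)).sub (h1.comp hp))).sub
        ((contDiff_const.mul (h3.comp hp)).div_const _)
    · exact contDiff_const
    · exact contDiff_const.add ((contDiff_const.mul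
        ((h2.comp (hp.add contDiff_const)).sub (h2.comp hp))).div_const _)
  · exact (rl1_contDiff_Dk h _ k).comp (hp.prodMk ((contDiff_lk N' k).comp
      (contDiff_id.sub ((rl1_contDiff_trV h N').comp hp))))

end Par

end Crest.Agent.R81
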