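import Crest.Agent.R81.RL1

/-!
# R81: only one shear moves at a time; formula for the conjugated map
-/

set_option autoImplicit false

namespace Crest.Agent.R81

open MeasureTheory Crest.AnalysisR.Torus3 Filter Topology
open scoped ContDiff

theorem rl2_ck_zero {δ : ℝ} (hδ : 0 < δ) (k : ℕ) {s : ℝ}
    (hs : s ≤ (k + 1 / 3) * δ ∨ 1 - (k + 1 / 3) * δ ≤ s) : ck δ k s = 0 := by
  unfold ck
  rcases hs with hs | hs
  · exact plat_left (by nlinarith) hs
  · exact plat_right (by nlinarith) hs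

theorem rl2_ck_one {δ : ℝ} (hδ : 0 < δ) (k : ℕ) {s : ℝ}
    (h1 : (k + 2 / 3) * δ ≤ s) (h2 : s ≤ 1 - (k + 2 / 3) * δ) : ck δ k s = 1 := by
  unfold ck
  exact plat_one (by nlinarith) h1 h2

namespace Par
variable {P : Par}

theorem rl2_Fk_zero {k : ℕ} (hk : 0 < k) {y : ℝ} (l : ℝ)
    (hz : ∀ d ∈ P.Ds, ck P.δ3 k (P.D * Int.fract y - d) = 0) : P.Fk k y l = 0 := by
  obtain ⟨k, rfl⟩ : ∃ j, k = j + 1 := ⟨k - 1, by omega⟩
  exact Finset.sum_eq_zero fun d hd => by rw [hz d hd, zero_mul]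

theorem rl2_Fk_one {k : ℕ} (hk : 0 < k) {y : ℝ} (l : ℝ) {d0 : ℕ} (hd0 : d0 ∈ P.Ds)
    (hz : ∀ d ∈ P.Ds, d ≠ d0 → ck P.δ3 k (P.D * Int.fract y - d) = 0)
    (h1 : ck P.δ3 k (P.D * Int.fract y - d0) = 1) : P.Fk k y l = P.fk k d0 l := by
  obtain ⟨k, rfl⟩ : ∃ j, k = j + 1 := ⟨k - 1, by omega⟩
  simp only [Fk]
  rw [Finset.sum_eq_single_of_mem d0 hd0 fun d hd hne => by rw [hz d hd hne, zero_mul], h1, one_mul]

/-- Let `s = D fract y`, `d = ⌊s⌋`, `t = s - d ∈ [0,1)`.  All switches `ck k (s - d')`, `d' ≠ d`, vanish at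
`y`; at `y + e` the rescaled coordinate moved by at most `δ3/12` (if `fract` jumps, both points are
within `δ3/(12 D)` of an integer and everything with `k ≥ 1` vanishes).  If `d ∉ Ds` or
`min t (1-t) ≤ δ3` take `k0 = 0`; else `k0 = min 6 ⌊min t (1-t)/δ3⌋`; in this case `1/D ≤ fract y ≤ 1-1/D`
so `saw (1/(2D))` is the fractional part at `y` and `y+e` and `Dk e 0 y l = 0`. -/
theorem excl (h : P.Ok) (e : ℝ) (he : |e| * P.D ≤ P.δ3 / 12) (y : ℝ) :
    ∃ k0 < 7, (∀ k < k0, ∀ l, P.Dk e k y l = 0) ∧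
      ∀ k, k0 < k → k < 7 → ∀ l, P.Fk k y l = 0 ∧ P.Fk k (y + e) l = 0 := by
  have hD : (0 : ℝ) < P.D := by exact_mod_cast h.hD
  have hD1 : (1 : ℝ) ≤ P.D := by exact_mod_cast h.hD
  have hδ := h.hδ3
  have hδ' := h.hδ3'
  have ht0 := Int.fract_nonneg y
  have ht1 := Int.fract_lt_one y
  have heD : |e| ≤ 1 / (2 * P.D) := by
    rw [le_div_iff₀ (by positivity)]; linarith
  have hDi : 1 / (2 * (P.D : ℝ)) + 1 / (2 * P.D) = 1 / P.D := by field_simp; ring
  have hDp : 0 < 1 / (2 * (P.D : ℝ)) := by positivity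
  have hDi1 : 1 / (P.D : ℝ) ≤ 1 := by rw [div_le_one hD]; exact hD1
  have he1 := (abs_le.1 heD).1
  have he2 := (abs_le.1 heD).2
  have hy : y + e = Int.fract y + e + (⌊y⌋ : ℤ) := by
    have := Int.floor_add_fract y; linarith
  by_cases hA : 0 ≤ Int.fract y + e ∧ Int.fract y + e < 1
  swap
  · -- the fractional part jumps
    have hB : (Int.fract y ≤ 1 / (P.D : ℝ) ∨ 1 - 1 / (P.D : ℝ) ≤ Int.fract y) ∧
        (Int.fract (y + e) ≤ 1 / (P.D : ℝ) ∨ 1 - 1 / (P.D : ℝ) ≤ Int.fract (y + e)) := by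
      rw [not_and_or, not_le, not_lt] at hA
      rcases hA with hA | hA
      · have e1 : Int.fract (y + e) = Int.fract y + e + 1 := by
          rw [hy, Int.fract_add_intCast, ← Int.fract_add_one]
          exact Int.fract_eq_self.2 ⟨by linarith, by linarith⟩
        exact ⟨Or.inl (by linarith), Or.inr (by rw [e1]; linarith)⟩
      · have e1 : Int.fract (y + e) = Int.fract y + e - 1 := by
          rw [hy, Int.fract_add_intCast, ← Int.fract_sub_one]
          exact Int.fract_eq_self.2 ⟨by linarith, by linarith⟩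
        exact ⟨Or.inr (by linarith), Or.inl (by rw [e1]; linarith)⟩
    refine ⟨0, by norm_num, fun k hk => absurd hk (Nat.not_lt_zero k), fun k hk _ l => ⟨?_, ?_⟩⟩
    · exact rl2_Fk_zero hk l fun d hd => rl1_ck_zero hδ k (rl1_zone h hd hB.1)
    · exact rl2_Fk_zero hk l fun d hd => rl1_ck_zero hδ k (rl1_zone h hd hB.2)
  have e1 : Int.fract (y + e) = Int.fract y + e := by
    rw [hy, Int.fract_add_intCast]
    exact Int.fract_eq_self.2 hA
  set t := Int.fract y with ht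
  have hη : |P.D * e| ≤ P.δ3 / 12 := by rw [abs_mul, abs_of_pos hD]; linarith
  have hη1 := (abs_le.1 hη).1
  have hη2 := (abs_le.1 hη).2
  set d0 : ℕ := ⌊(P.D : ℝ) * t⌋₊ with hd0
  have hs0 : (d0 : ℝ) ≤ P.D * t := Nat.floor_le (by positivity)
  have hs1 : (P.D : ℝ) * t < d0 + 1 := Nat.lt_floor_add_one _
  have hoff : ∀ k : ℕ, ∀ d : ℕ, d ≠ d0 → ck P.δ3 k (P.D * t - d) = 0 ∧
      ck P.δ3 k (P.D * Int.fract (y + e) - d) = 0 := by
    intro k d hne
    have hk : (0 : ℝ) ≤ k * P.δ3 := by positivity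
    rw [e1]
    rcases lt_or_gt_of_ne hne with hlt | hlt
    · have : (d : ℝ) + 1 ≤ d0 := by exact_mod_cast hlt
      exact ⟨rl2_ck_zero hδ k (Or.inr (by linarith)), rl2_ck_zero hδ k (Or.inr (by linarith))⟩
    · have : (d0 : ℝ) + 1 ≤ d := by exact_mod_cast hlt
      exact ⟨rl2_ck_zero hδ k (Or.inl (by linarith)), rl2_ck_zero hδ k (Or.inl (by linarith))⟩
  by_cases hd : d0 ∈ P.Ds
  swap
  · refine ⟨0, by norm_num, fun k hk => absurd hk (Nat.not_lt_zero k), fun k hk _ l => ⟨?_, ?_⟩⟩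
    · exact rl2_Fk_zero hk l fun d hd' => (hoff k d fun hh => hd (hh ▸ hd')).1
    · exact rl2_Fk_zero hk l fun d hd' => (hoff k d fun hh => hd (hh ▸ hd')).2
  set μ : ℝ := min (P.D * t - d0) (1 - (P.D * t - d0)) with hμ
  have hμ0 : 0 ≤ μ := le_min (by linarith) (by linarith)
  have hμ1 : μ ≤ P.D * t - d0 := min_le_left _ _
  have hμ2 : μ ≤ 1 - (P.D * t - d0) := min_le_right _ _
  have hμ3 : μ = P.D * t - d0 ∨ μ = 1 - (P.D * t - d0) := min_choice _ _
  refine ⟨min 6 ⌊μ / P.δ3⌋₊, by omega, fun k hk l => ?_, fun k hk hk7 l => ?_⟩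
  · rcases Nat.eq_zero_or_pos k with rfl | hk0
    · obtain ⟨h1, h2, -⟩ := h.hDs d0 hd
      have h1' : (1 : ℝ) ≤ d0 := by exact_mod_cast h1
      have h2' : (d0 : ℝ) + 2 ≤ P.D := by exact_mod_cast h2
      have h3 : 1 / (P.D : ℝ) ≤ t := by rw [div_le_iff₀ hD]; linarith
      have h4 : t ≤ 1 - 1 / (P.D : ℝ) := by
        rw [le_sub_iff_add_le, ← le_sub_iff_add_le', div_le_iff₀ hD]; linarith
      have s1 : saw (1 / (2 * P.D)) y = t := saw_eq hDp ⟨by linarith, by linarith⟩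
      have s2 : saw (1 / (2 * P.D)) (y + e) = t + e := by
        rw [← e1]
        exact saw_eq hDp ⟨by rw [e1]; linarith, by rw [e1]; linarith⟩
      simp only [Dk, Fk, s1, s2, if_true]
      ring
    · have h1 : k + 1 ≤ ⌊μ / P.δ3⌋₊ := by omega
      have h2 : ((k + 1 : ℕ) : ℝ) ≤ μ / P.δ3 := (Nat.le_floor_iff (by positivity)).1 h1
      rw [le_div_iff₀ hδ] at h2
      push_cast at h2
      have f1 : P.Fk k y l = P.fk k d0 l :=
        rl2_Fk_one hk0 l hd (fun d _ hne => (hoff k d hne).1)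
          (rl2_ck_one hδ k (by linarith) (by linarith))
      have f2 : P.Fk k (y + e) l = P.fk k d0 l :=
        rl2_Fk_one hk0 l hd (fun d _ hne => (hoff k d hne).2)
          (rl2_ck_one hδ k (by rw [e1]; linarith) (by rw [e1]; linarith))
      simp only [Dk, f1, f2, if_neg hk0.ne']
      ring
  · have h1 : ⌊μ / P.δ3⌋₊ < k := by omega
    have h2 : μ / P.δ3 < k := (Nat.floor_lt (by positivity)).1 h1
    rw [div_lt_iff₀ hδ] at h2
    have hk0 : 0 < k := by omega
    constructor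
    · refine rl2_Fk_zero hk0 l fun d _ => ?_
      by_cases hne : d = d0
      · subst hne
        refine rl2_ck_zero hδ k ?_
        rcases hμ3 with h3 | h3
        · left; linarith
        · right; linarith
      · exact (hoff k d hne).1
    · refine rl2_Fk_zero hk0 l fun d _ => ?_
      by_cases hne : d = d0
      · subst hne
        refine rl2_ck_zero hδ k ?_
        rw [e1]
        rcases hμ3 with h3 | h3
        · left; linarith
        · right; linarith
      · exact (hoff k d hne).2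

theorem rl2_SL_one (N' : ℕ) (sg : ℝ) (p : V3) : P.SL N' sg p 1 = p 1 + sg / N' := by
  simp [SL, gam, div_eq_mul_inv, Matrix.vecHead, Matrix.vecTail]

theorem rl2_hk_succ (N' k : ℕ) (p : V3) : P.hk N' (k + 1) p =
    P.hk N' k p + P.Fk k (p 1) (P.lk N' k (P.hk N' k p)) • P.dk k := by
  rw [← hk_one (P := P) N' k p]; rfl

theorem rl2_Fk_gam (h : P.Ok) {N' : ℕ} (hN : P.NOk N') {sg : ℝ} (hsg : sg = 1 ∨ sg = -1)
    (k : ℕ) (y : ℝ) (q : V3) :
    P.Fk k y (P.lk N' k (q + sg • P.gam N')) = P.Fk k y (P.lk N' k q) := by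
  obtain ⟨m, hm⟩ := lk_gam hN k
  rw [lk_add, lk_smul, hm]
  rcases hsg with rfl | rfl
  · simpa using Fk_add_int h k y (P.lk N' k q) 0 m
  · simpa using Fk_add_int h k y (P.lk N' k q) 0 (-m)

/-- With `k0` from `excl` (`e = sg/N'`, `y = p 1`, `(SL p) 1 = y + e`): by induction, for `1 ≤ k ≤ k0`
`hk k (SL p) = hk k p + sg • gam` (`lk_gam`, `Fk_add_int`; `sg` is an integer); at step `k0` the extra
term `Dk e k0 y (lk k0 (hk k0 p)) • dk k0` appears; later shears are trivial for both points, and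
`lk k0 (hk 7 p) = lk k0 (hk k0 p)` by `lk_dk`; the other `Dk` vanish. -/
theorem hk_SL (h : P.Ok) {N' : ℕ} (hN : P.NOk N') (sg : ℝ) (hsg : sg = 1 ∨ sg = -1)
    (he : 12 * (P.D : ℝ) ≤ P.δ3 * N') (p : V3) :
    P.hk N' 7 (P.SL N' sg p) = P.hk N' 7 p + sg • P.gam N'
      + ∑ k ∈ Finset.range 7, P.Dk (sg / N') k (p 1) (P.lk N' k (P.hk N' 7 p)) • P.dk k := by
  have hN1 : (0 : ℝ) < N' := by exact_mod_cast hN.1
  have habs : |sg / N'| * P.D ≤ P.δ3 / 12 := by
    have : |sg| = 1 := by rcases hsg with rfl | rfl <;> simp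
    rw [abs_div, this, abs_of_pos hN1, div_mul_eq_mul_div, div_le_div_iff₀ hN1 (by norm_num)]
    linarith
  obtain ⟨k0, hk0, hlo, hhi⟩ := excl h (sg / N') habs (p 1)
  have hA : ∀ k ≤ k0, P.hk N' (k + 1) (P.SL N' sg p) = P.hk N' (k + 1) p + sg • P.gam N'
      + P.Dk (sg / N') k (p 1) (P.lk N' k (P.hk N' k p)) • P.dk k := by
    intro k
    induction k with
    | zero =>
      intro _
      have e1 : P.Fk 0 (p 1 + sg / N') (P.lk N' 0 (P.SL N' sg p)) =
          P.Fk 0 (p 1 + sg / N') (P.lk N' 0 p) := by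
        rw [← rl2_Fk_gam h hN hsg 0 _ p]
        congr 1
        unfold SL
        rw [lk_add N' 0 (p + sg • P.gam N'), lk_smul]
        have : P.lk N' 0 ![1, 0, 0] = 0 := lk_dk N' 0
        rw [this, mul_zero, add_zero]
      simp only [hk, rl2_SL_one, e1, Dk, if_true]
      unfold SL
      have e2 : P.dk 0 = ![1, 0, 0] := rfl
      have e3 : P.lk N' 0 p = P.W p := rfl
      rw [e2, e3]
      module
    | succ k ih =>
      intro hk
      have ih' := ih (by omega)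
      rw [hlo k (by omega), zero_smul, add_zero] at ih'
      rw [rl2_hk_succ N' (k + 1) (P.SL N' sg p), rl2_hk_succ N' (k + 1) p,
        rl2_SL_one, ih', rl2_Fk_gam h hN hsg]
      simp only [Dk, if_neg (Nat.succ_ne_zero k)]
      module
  have hB : ∀ k, k0 + 1 ≤ k → k ≤ 7 → P.hk N' k (P.SL N' sg p) = P.hk N' (k0 + 1) (P.SL N' sg p) ∧
      P.hk N' k p = P.hk N' (k0 + 1) p := by
    intro k hk
    induction k, hk using Nat.le_induction with
    | base => exact fun _ => ⟨rfl, rfl⟩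
    | succ k hk ih =>
      intro hk7
      obtain ⟨i1, i2⟩ := ih (by omega)
      constructor
      · rw [← i1, rl2_hk_succ N' k, rl2_SL_one, (hhi k (by omega) (by omega) _).2,
          zero_smul, add_zero]
      · rw [← i2, rl2_hk_succ N' k, (hhi k (by omega) (by omega) _).1,
          zero_smul, add_zero]
  obtain ⟨b1, b2⟩ := hB 7 (by omega) le_rfl
  rw [Finset.sum_eq_single_of_mem k0 (Finset.mem_range.2 hk0), b1, b2, hA k0 le_rfl]
  · congr 3
    rw [rl2_hk_succ N' k0, lk_add, lk_smul, lk_dk, mul_zero, add_zero]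
  · intro k hk hne
    rcases lt_or_gt_of_ne hne with hlt | hlt
    · rw [hlo k hlt, zero_smul]
    · obtain ⟨f1, f2⟩ := hhi k hlt (Finset.mem_range.1 hk) (P.lk N' k (P.hk N' 7 p))
      simp only [Dk, f1, f2, if_neg (show k ≠ 0 by omega)]
      simp

theorem conj_formula (h : P.Ok) {N' : ℕ} (hN : P.NOk N') (sg : ℝ) (hsg : sg = 1 ∨ sg = -1)
    (he : 12 * (P.D : ℝ) ≤ P.δ3 * N') (p : V3) :
    P.gL N' (P.SL N' sg p) =
      nfL P.σ.N P.σ.P P.σ.Ψ sg (P.gL N' p) + P.nu N' sg (P.gL N' p) := by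
  have e1 : P.gL N' p - P.trV N' (p 1) = P.hk N' 7 p := by
    unfold gL; exact add_sub_cancel_right _ _
  unfold nu nfL
  rw [gL_one, e1]
  conv_lhs => unfold gL
  rw [hk_SL h hN sg hsg he, rl2_SL_one]
  generalize (∑ k ∈ Finset.range 7, P.Dk (sg / N') k (p 1) (P.lk N' k (P.hk N' 7 p)) • P.dk k) = S
  funext i
  fin_cases i
  · simp [gL, trV, gam, Matrix.vecHead, Matrix.vecTail]; ring
  · simp [gL, trV, gam, hk_one, Matrix.vecHead, Matrix.vecTail]; ring
  · simp [gL, trV, gam, Matrix.vecHead, Matrix.vecTail]; ring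

end Par

end Crest.Agent.R81
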