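import Crest.Agent.R81.RL1

/-!
# R81: the tilt makes the moving shear of low complexity
-/

set_option autoImplicit false

namespace Crest.Agent.R81

open MeasureTheory Crest.AnalysisR.Torus3 Filter Topology
open scoped ContDiff

theorem rl3_plat_zero {a b t : ℝ} (hab : a < b) (h : min t (1 - t) ≤ a) : plat a b t = 0 := by
  rcases min_le_iff.1 h with h | h
  · exact plat_left hab h
  · exact plat_right hab (by linarith)

theorem rl3_plat_one {a b t : ℝ} (hab : a < b) (h : b ≤ min t (1 - t)) : plat a b t = 1 :=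
  plat_one hab (h.trans (min_le_left _ _)) (by linarith [h.trans (min_le_right _ _)])

theorem rl3_bk_lo {δ t : ℝ} (hδ : 0 < δ) (k : ℕ) (h : min t (1 - t) ≤ (k + 1 / 12) * δ) :
    bk δ k t = 0 := by
  unfold bk
  rw [rl3_plat_zero (by nlinarith) h, rl3_plat_zero (by nlinarith) (by nlinarith), sub_zero]

theorem rl3_bk_hi {δ t : ℝ} (hδ : 0 < δ) (k : ℕ) (h : (k + 11 / 12) * δ ≤ min t (1 - t)) :
    bk δ k t = 0 := by
  unfold bk
  rw [rl3_plat_one (by nlinarith) (by nlinarith), rl3_plat_one (by nlinarith) h, sub_self]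

theorem rl3_bk_mid {δ t : ℝ} (hδ : 0 < δ) (k : ℕ) (h : (k + 1 / 6) * δ ≤ min t (1 - t))
    (h' : min t (1 - t) ≤ (k + 5 / 6) * δ) : bk δ k t = 1 := by
  unfold bk
  rw [rl3_plat_one (by nlinarith) h, rl3_plat_zero (by nlinarith) h', sub_zero]

theorem rl3_bk_ite {δ t : ℝ} (hδ : 0 < δ) (k j : ℕ) (h : (k + 1 / 6) * δ ≤ min t (1 - t))
    (h' : min t (1 - t) ≤ (k + 5 / 6) * δ) : bk δ j t = if j = k then 1 else 0 := by
  rcases lt_trichotomy j k with hj | rfl | hj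
  · have : (j : ℝ) + 1 ≤ k := by exact_mod_cast hj
    rw [if_neg hj.ne, rl3_bk_hi hδ j (by nlinarith)]
  · rw [if_pos rfl, rl3_bk_mid hδ j h h']
  · have : (k : ℝ) + 1 ≤ j := by exact_mod_cast hj
    rw [if_neg hj.ne', rl3_bk_lo hδ j (by nlinarith)]

theorem rl3_ck_lo {δ t : ℝ} (hδ : 0 < δ) (k : ℕ) (h : min t (1 - t) ≤ (k + 1 / 3) * δ) :
    ck δ k t = 0 := rl3_plat_zero (by nlinarith) h

theorem rl3_ck_hi {δ t : ℝ} (hδ : 0 < δ) (k : ℕ) (h : (k + 2 / 3) * δ ≤ min t (1 - t)) :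
    ck δ k t = 1 := rl3_plat_one (by nlinarith) h

theorem rl3_other {s : ℝ} {d d' : ℕ} (h0 : 0 ≤ s - d) (h1 : s - d ≤ 1) (hne : d' ≠ d) :
    s - d' ≤ 0 ∨ 1 ≤ s - d' := by
  rcases lt_or_gt_of_ne hne with h | h
  · have : (d' : ℝ) + 1 ≤ d := by exact_mod_cast h
    right; linarith
  · have : (d : ℝ) + 1 ≤ d' := by exact_mod_cast h
    left; linarith

theorem rl3_near (y y' : ℝ) : ⌊y'⌋ = ⌊y⌋ ∨
    ((Int.fract y ≤ |y' - y| ∨ 1 - |y' - y| ≤ Int.fract y) ∧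
      (Int.fract y' ≤ |y' - y| ∨ 1 - |y' - y| ≤ Int.fract y')) := by
  have a1 := le_abs_self (y' - y)
  have a2 := neg_abs_le (y' - y)
  have b1 := Int.floor_le y
  have b2 := Int.lt_floor_add_one y
  have b3 := Int.floor_le y'
  have b4 := Int.lt_floor_add_one y'
  unfold Int.fract
  rcases lt_trichotomy ⌊y'⌋ ⌊y⌋ with h | h | h
  · have : (⌊y'⌋ : ℝ) + 1 ≤ ⌊y⌋ := by exact_mod_cast h
    exact Or.inr ⟨Or.inl (by linarith), Or.inr (by linarith)⟩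
  · exact Or.inl h
  · have : (⌊y⌋ : ℝ) + 1 ≤ ⌊y'⌋ := by exact_mod_cast h
    exact Or.inr ⟨Or.inr (by linarith), Or.inl (by linarith)⟩

theorem rl3_min_lip (t t' : ℝ) : |min t' (1 - t') - min t (1 - t)| ≤ |t' - t| := by
  refine (abs_min_sub_min_le_max _ _ _ _).trans (max_le le_rfl (le_of_eq ?_))
  rw [← abs_neg]
  congr 1
  ring

theorem rl3_ev (p0 : V3) (D : ℝ) {η : ℝ} (hη : 0 < η) : ∀ᶠ p : V3 in 𝓝 p0, |p 1 - p0 1| * D ≤ η := by
  have hc : Continuous fun p : V3 => |p 1 - p0 1| * D := by fun_prop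
  exact (hc.continuousAt (x := p0)).eventually_le_const (by simpa using hη)

namespace Par
variable {P : Par}

theorem rl3_Y1 (h : P.Ok) {d : ℕ} (hd : d ∈ P.Ds) {y : ℝ} (h0 : 0 ≤ P.D * Int.fract y - d)
    (h1 : P.D * Int.fract y - d ≤ 1) :
    Y1 P.D P.Ds P.δ3 y = -(bk P.δ3 1 (P.D * Int.fract y - d) * Int.fract y) :=
  Finset.sum_eq_single_of_mem d hd fun d' _ hne => by
    rw [rl1_bk_zero h.hδ3 1 (rl3_other h0 h1 hne), zero_mul, neg_zero]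

theorem rl3_Y2 (h : P.Ok) {d : ℕ} (hd : d ∈ P.Ds) {y : ℝ} (h0 : 0 ≤ P.D * Int.fract y - d)
    (h1 : P.D * Int.fract y - d ≤ 1) :
    Y2 P.σ.Ψ P.D P.Ds P.δ3 y =
      (bk P.δ3 3 (P.D * Int.fract y - d) + bk P.δ3 5 (P.D * Int.fract y - d)) * P.σ.Ψ y :=
  Finset.sum_eq_single_of_mem d hd fun d' _ hne => by
    rw [rl1_bk_zero h.hδ3 3 (rl3_other h0 h1 hne), rl1_bk_zero h.hδ3 5 (rl3_other h0 h1 hne),
      add_zero, zero_mul]

theorem rl3_Fk (h : P.Ok) {d : ℕ} (hd : d ∈ P.Ds) {y : ℝ} (h0 : 0 ≤ P.D * Int.fract y - d)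
    (h1 : P.D * Int.fract y - d ≤ 1) (k : ℕ) (l : ℝ) :
    P.Fk (k + 1) y l = ck P.δ3 (k + 1) (P.D * Int.fract y - d) * P.fk (k + 1) d l :=
  Finset.sum_eq_single_of_mem d hd fun d' _ hne => by
    rw [rl1_ck_zero h.hδ3 (k + 1) (rl3_other h0 h1 hne), zero_mul]

theorem rl3_Yf_zero (h : P.Ok) {y : ℝ}
    (hy : Int.fract y ≤ 1 / (P.D : ℝ) ∨ 1 - 1 / (P.D : ℝ) ≤ Int.fract y) : P.Yf y = 0 := by
  have h1 : Y1 P.D P.Ds P.δ3 y = 0 := Finset.sum_eq_zero fun d hd => by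
    rw [rl1_bk_zero h.hδ3 1 (rl1_zone h hd hy), zero_mul, neg_zero]
  have h2 : Y2 P.σ.Ψ P.D P.Ds P.δ3 y = 0 := Finset.sum_eq_zero fun d hd => by
    rw [rl1_bk_zero h.hδ3 3 (rl1_zone h hd hy), rl1_bk_zero h.hδ3 5 (rl1_zone h hd hy),
      add_zero, zero_mul]
  rw [Yf, h1, h2, zero_div, zero_div, add_zero]

theorem rl3_Wc (p : V3) : P.Wc p = P.W p := by
  simp [Wc, W]

theorem rl3_W_sub (N' : ℕ) (p : V3) (y : ℝ) : P.W (p - P.trV N' y) = P.W p - P.Rr N' * P.Yf y := by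
  have hN : (P.σ.N : ℝ) ≠ 0 := by exact_mod_cast P.σ.hN.ne'
  simp only [W, trV, Pi.sub_apply, Matrix.cons_val]
  field_simp
  ring

theorem rl3_W (N' : ℕ) (p : V3) (hY : P.Yf (p 1) = 0) : P.W (p - P.trV N' (p 1)) = P.Wc p + 0 := by
  rw [rl3_W_sub, hY, rl3_Wc, mul_zero, sub_zero, add_zero]

theorem rl3_uu (h : P.Ok) (N' : ℕ) (p : V3) (hY : P.Yf (p 1) = -Int.fract (p 1) / P.Lt) :
    P.uu N' (p - P.trV N' (p 1)) = (-P.Lt • P.Wc) p + P.Rr N' * ⌊p 1⌋ := by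
  have hN : (0 : ℝ) < P.σ.N := by exact_mod_cast P.σ.hN
  have hn : (0 : ℝ) < P.nn := by
    have := Nat.mul_pos h.hΛ P.σ.hN
    have : 0 < P.nn := by unfold nn; omega
    exact_mod_cast this
  have hL : P.Lt ≠ 0 := (div_pos hn hN).ne'
  rw [uu, rl3_W_sub, hY, smul_apply, rl3_Wc, Int.fract]
  simp only [trV, Pi.sub_apply, Matrix.cons_val, smul_eq_mul]
  field_simp
  ring

theorem rl3_xw (h : P.Ok) (N' : ℕ) (p : V3) (hY : P.Yf (p 1) = P.σ.Ψ (p 1) / P.Λ) :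
    P.xw (p - P.trV N' (p 1)) =
      ((P.Λ : ℝ) • P.Wc - ContinuousLinearMap.proj (R := ℝ) (φ := fun _ : Fin 3 => ℝ) 0) p + 0 := by
  have hL : (P.Λ : ℝ) ≠ 0 := by exact_mod_cast h.hΛ.ne'
  rw [xw, rl3_W_sub, hY, sub_apply, smul_apply, rl3_Wc]
  simp only [trV, Pi.sub_apply, Matrix.cons_val, smul_eq_mul, ContinuousLinearMap.proj_apply]
  field_simp
  ring

theorem rl3_small (h : P.Ok) {u c : ℝ} (hu : u * P.D ≤ c) : u ≤ c / P.D := by
  have hD : (0 : ℝ) < P.D := by exact_mod_cast h.hD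
  exact (le_div_iff₀ hD).2 hu

/-- the switch is locally constant -/
theorem rl3_ck_const (h : P.Ok) {d : ℕ} (hd : d ∈ P.Ds) (k : ℕ) {y y' : ℝ}
    (hy : |y' - y| * P.D ≤ P.δ3 / 6)
    (hm : min (P.D * Int.fract y - d) (1 - (P.D * Int.fract y - d)) ≤ (k + 1 / 6) * P.δ3 ∨
      (k + 5 / 6) * P.δ3 ≤ min (P.D * Int.fract y - d) (1 - (P.D * Int.fract y - d))) :
    ck P.δ3 k (P.D * Int.fract y' - d) = ck P.δ3 k (P.D * Int.fract y - d) := by
  have hδ := h.hδ3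
  have hδ' := h.hδ3'
  rcases rl3_near y y' with hf | ⟨h1, h2⟩
  · have h1 := rl3_min_lip (P.D * Int.fract y - d) (P.D * Int.fract y' - d)
    have h2 : |P.D * Int.fract y' - d - (P.D * Int.fract y - d)| = |y' - y| * P.D := by
      rw [Int.fract, Int.fract, hf, ← Nat.abs_cast (R := ℝ) P.D, ← abs_mul, Nat.abs_cast]
      congr 1
      ring
    rw [h2] at h1
    obtain ⟨h3, h4⟩ := abs_le.1 h1
    rcases hm with hm | hm
    · rw [rl3_ck_lo hδ k (by linarith), rl3_ck_lo hδ k (by linarith)]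
    · rw [rl3_ck_hi hδ k (by linarith), rl3_ck_hi hδ k (by linarith)]
  · have h3 : |y' - y| ≤ 1 / P.D := rl3_small h (by linarith)
    rw [rl1_ck_zero hδ k (rl1_zone h hd (h2.imp (fun a => by linarith) fun a => by linarith)),
      rl1_ck_zero hδ k (rl1_zone h hd (h1.imp (fun a => by linarith) fun a => by linarith))]

theorem rl3_loc_zero (h : P.Ok) (N' : ℕ) (e : ℝ) (he : |e| * P.D ≤ P.δ3 / 12) (p0 : V3) :
    (∀ᶠ p : V3 in 𝓝 p0, ∀ l, P.Dk e 0 (p 1) l = 0) ∨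
      ∃ c : ℝ, ∀ᶠ p : V3 in 𝓝 p0, P.lk N' 0 (p - P.trV N' (p 1)) = P.lowk 0 p + c := by
  have hδ := h.hδ3
  have hδ' := h.hδ3'
  have hD : (0 : ℝ) < P.D := by exact_mod_cast h.hD
  have hev := rl3_ev p0 P.D (η := P.δ3 / 12) (by positivity)
  have hq : (0 : ℝ) < 1 / 4 / P.D := by positivity
  have e2 : (1 : ℝ) / (2 * P.D) = 2 * (1 / 4 / P.D) := by field_simp; norm_num
  have e4 : (1 : ℝ) / P.D = 4 * (1 / 4 / P.D) := by field_simp
  by_cases hy : 3 * (1 / 4 / (P.D : ℝ)) < Int.fract (p0 1) ∧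
      Int.fract (p0 1) < 1 - 3 * (1 / 4 / (P.D : ℝ))
  · left
    have key : ∀ y, |y - p0 1| * P.D ≤ 1 / 4 → saw (1 / (2 * P.D)) y = y - ⌊p0 1⌋ := fun y hy' => by
      have h1 : |y - p0 1| ≤ 1 / 4 / P.D := rl3_small h hy'
      rcases rl3_near (p0 1) y with hf | ⟨h2 | h2, -⟩
      · obtain ⟨h3, h4⟩ := abs_le.1 h1
        obtain ⟨h5, h6⟩ := hy
        rw [Int.fract] at h5 h6
        rw [saw_eq (by positivity), Int.fract, hf]
        rw [Int.fract, hf, e2]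
        exact ⟨by linarith, by linarith⟩
      · linarith [hy.1]
      · linarith [hy.2]
    filter_upwards [hev] with p hp l
    have h1 : |p 1 + e - p0 1| * P.D ≤ 1 / 4 := by
      have : |p 1 + e - p0 1| ≤ |p 1 - p0 1| + |e| := by
        rw [add_sub_right_comm]; exact abs_add_le _ _
      nlinarith
    simp only [Dk, Fk, if_true]
    rw [key _ h1, key (p 1) (by linarith)]
    ring
  · right
    refine ⟨0, ?_⟩
    filter_upwards [hev] with p hp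
    refine rl3_W N' p (rl3_Yf_zero h ?_)
    have h1 : |p 1 - p0 1| ≤ 1 / 4 / P.D := rl3_small h (by linarith)
    rw [e4]
    rcases rl3_near (p0 1) (p 1) with hf | ⟨-, h2⟩
    · obtain ⟨h3, h4⟩ := abs_le.1 h1
      rw [not_and_or, not_lt, not_lt, Int.fract] at hy
      rw [Int.fract, hf]
      exact hy.imp (fun a => by linarith) fun a => by linarith
    · exact h2.imp (fun a => by linarith) fun a => by linarith

theorem rl3_loc_Yf (h : P.Ok) {d : ℕ} (hd : d ∈ P.Ds) (k : ℕ) (p0 : V3)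
    (h1 : (k + 1 / 6) * P.δ3 < min (P.D * Int.fract (p0 1) - d) (1 - (P.D * Int.fract (p0 1) - d)))
    (h2 : min (P.D * Int.fract (p0 1) - d) (1 - (P.D * Int.fract (p0 1) - d)) < (k + 5 / 6) * P.δ3) :
    ∀ᶠ p : V3 in 𝓝 p0, ⌊p 1⌋ = ⌊p0 1⌋ ∧
      P.Yf (p 1) = -((if 1 = k then 1 else 0) * Int.fract (p 1)) / P.Lt +
        ((if 3 = k then 1 else 0) + (if 5 = k then 1 else 0)) * P.σ.Ψ (p 1) / P.Λ := by
  have hδ := h.hδ3
  have hk0 : 0 < ((k : ℝ) + 1 / 6) * P.δ3 := by positivity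
  have hfl : ∀ᶠ p : V3 in 𝓝 p0, ⌊p 1⌋ = ⌊p0 1⌋ := by
    have hpos : 0 < Int.fract (p0 1) := by
      rcases (Int.fract_nonneg (p0 1)).lt_or_eq with h3 | h3
      · exact h3
      · have h4 := (hk0.trans h1).trans_le (min_le_left _ _)
        rw [← h3] at h4
        have : (0 : ℝ) ≤ d := Nat.cast_nonneg d
        linarith
    have hmem : Set.Ioo (⌊p0 1⌋ : ℝ) (⌊p0 1⌋ + 1) ∈ 𝓝 (p0 1) :=
      Ioo_mem_nhds (sub_pos.1 hpos) (Int.lt_floor_add_one _)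
    filter_upwards [(continuous_apply 1).continuousAt.preimage_mem_nhds hmem] with p hp
    exact Int.floor_eq_iff.2 ⟨hp.1.le, hp.2⟩
  have hc : Continuous fun p : V3 =>
      min ((P.D : ℝ) * (p 1 - ⌊p0 1⌋) - d) (1 - (P.D * (p 1 - ⌊p0 1⌋) - d)) := by fun_prop
  filter_upwards [hfl, (hc.continuousAt (x := p0)).eventually_const_lt h1,
    (hc.continuousAt (x := p0)).eventually_lt_const h2] with p hp a1 a2
  refine ⟨hp, ?_⟩
  rw [← hp] at a1 a2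
  change _ < min (P.D * Int.fract (p 1) - d) (1 - (P.D * Int.fract (p 1) - d)) at a1
  change min (P.D * Int.fract (p 1) - d) (1 - (P.D * Int.fract (p 1) - d)) < _ at a2
  have b1 : 0 ≤ P.D * Int.fract (p 1) - d := ((hk0.trans a1).trans_le (min_le_left _ _)).le
  have b2 : P.D * Int.fract (p 1) - d ≤ 1 := by
    linarith [(hk0.trans a1).trans_le (min_le_right _ _)]
  rw [Yf, rl3_Y1 h hd b1 b2, rl3_Y2 h hd b1 b2, rl3_bk_ite hδ k 1 a1.le a2.le,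
    rl3_bk_ite hδ k 3 a1.le a2.le, rl3_bk_ite hδ k 5 a1.le a2.le]

theorem rl3_fract (h : P.Ok) {d : ℕ} (hd : d ∈ P.Ds) {y : ℝ} (h1 : 7 * P.δ3 ≤ P.D * y - d)
    (h2 : P.D * y - d ≤ 1 - 7 * P.δ3) :
    Int.fract y = y ∧ 1 / (P.D : ℝ) ≤ y ∧ y ≤ 1 - 1 / (P.D : ℝ) := by
  obtain ⟨a1, a2, -⟩ := h.hDs d hd
  have hδ := h.hδ3
  have hD : (0 : ℝ) < P.D := by exact_mod_cast h.hD
  have a1' : (1 : ℝ) ≤ d := by exact_mod_cast a1
  have a2' : (d : ℝ) + 2 ≤ P.D := by exact_mod_cast a2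
  have b0 := rl1_Dinv h
  have b1 : 1 / (P.D : ℝ) ≤ y := by
    rw [div_le_iff₀ hD]; linarith
  have b2 : y ≤ 1 - 1 / (P.D : ℝ) := by
    rw [le_sub_comm, div_le_iff₀ hD]; linarith
  exact ⟨Int.fract_eq_self.2 ⟨by linarith, by linarith⟩, b1, b2⟩

/-- Let `y = p0 1`, `s = D fract y`.  For `1 ≤ k ≤ 6`: if for some `d ∈ Ds`, `t = s - d` or `1 - t` lies in
the open interval `((k+1/6)δ3, (k+5/6)δ3)` then near `y` (not an integer) `bk k = 1` on zone `d` and all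
other bumps vanish, so `Yf = -fract/Lt` (`k=1`), `Ψ/Λ` (`k=3,5`), `0` (`k=2,4,6`), which gives the second
alternative (`c = Rr ⌊y⌋` for `k = 1`, else `0`).  Otherwise every `ck k (D fract · - d)` takes the same
value (`0` or `1`) at `y'` and `y'+e` for `y'` near `y`.  For `k = 0`: if `fract y ∈ (3/(4D), 1-3/(4D))`
then `Dk e 0 = 0` near `y`; otherwise `Yf = 0` near `y`. -/
theorem loc_k (h : P.Ok) (N' : ℕ) (e : ℝ) (he : |e| * P.D ≤ P.δ3 / 12) (k : ℕ) (hk : k < 7)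
    (p0 : V3) :
    (∀ᶠ p : V3 in 𝓝 p0, ∀ l, P.Dk e k (p 1) l = 0) ∨
      ∃ c : ℝ, ∀ᶠ p : V3 in 𝓝 p0, P.lk N' k (p - P.trV N' (p 1)) = P.lowk k p + c := by
  rcases k with _ | k
  · exact rl3_loc_zero h N' e he p0
  have hδ := h.hδ3
  by_cases hA : ∃ d ∈ P.Ds, ((k + 1 : ℕ) + 1 / 6) * P.δ3 <
      min (P.D * Int.fract (p0 1) - d) (1 - (P.D * Int.fract (p0 1) - d)) ∧
      min (P.D * Int.fract (p0 1) - d) (1 - (P.D * Int.fract (p0 1) - d)) <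
        ((k + 1 : ℕ) + 5 / 6) * P.δ3
  · right
    obtain ⟨d, hd, h1, h2⟩ := hA
    have hev := rl3_loc_Yf h hd (k + 1) p0 h1 h2
    have hk' : k < 6 := by omega
    interval_cases k
    · refine ⟨P.Rr N' * ⌊p0 1⌋, hev.mono fun p hp => ?_⟩
      rw [← hp.1]
      exact rl3_uu h N' p (by simpa using hp.2)
    · exact ⟨0, hev.mono fun p hp => rl3_W N' p (by simpa using hp.2)⟩
    · exact ⟨0, hev.mono fun p hp => rl3_xw h N' p (by simpa using hp.2)⟩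
    · exact ⟨0, hev.mono fun p hp => rl3_W N' p (by simpa using hp.2)⟩
    · exact ⟨0, hev.mono fun p hp => rl3_xw h N' p (by simpa using hp.2)⟩
    · exact ⟨0, hev.mono fun p hp => rl3_W N' p (by simpa using hp.2)⟩
  · left
    have hD : (0 : ℝ) < P.D := by exact_mod_cast h.hD
    have hB : ∀ d ∈ P.Ds, ∀ y : ℝ, |y - p0 1| * P.D ≤ P.δ3 / 6 →
        ck P.δ3 (k + 1) (P.D * Int.fract y - d) = ck P.δ3 (k + 1) (P.D * Int.fract (p0 1) - d) :=
      fun d hd y hy => rl3_ck_const h hd (k + 1) hy (by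
        by_contra hcon
        rw [not_or, not_le, not_le] at hcon
        exact hA ⟨d, hd, hcon⟩)
    filter_upwards [rl3_ev p0 P.D (η := P.δ3 / 12) (by positivity)] with p hp l
    have h1 : |p 1 + e - p0 1| * P.D ≤ P.δ3 / 6 := by
      have : |p 1 + e - p0 1| ≤ |p 1 - p0 1| + |e| := by
        rw [add_sub_right_comm]; exact abs_add_le _ _
      nlinarith
    have h2 : P.Fk (k + 1) (p 1 + e) l = P.Fk (k + 1) (p 1) l :=
      Finset.sum_congr rfl fun d hd => by rw [hB d hd _ h1, hB d hd (p 1) (by linarith)]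
    rw [Dk, h2, if_neg (Nat.succ_ne_zero k)]
    ring

theorem Yf_main (h : P.Ok) {d : ℕ} (hd : d ∈ P.Ds) {y : ℝ} (h1 : 7 * P.δ3 ≤ P.D * y - d)
    (h2 : P.D * y - d ≤ 1 - 7 * P.δ3) : P.Yf y = 0 := by
  have hδ := h.hδ3
  have hf := (rl3_fract h hd h1 h2).1
  have hm : 7 * P.δ3 ≤ min (P.D * y - d) (1 - (P.D * y - d)) := le_min h1 (by linarith)
  rw [Yf, rl3_Y1 h hd (by rw [hf]; linarith) (by rw [hf]; linarith),
    rl3_Y2 h hd (by rw [hf]; linarith) (by rw [hf]; linarith), hf,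
    rl3_bk_hi hδ 1 (by push_cast; linarith), rl3_bk_hi hδ 3 (by push_cast; linarith),
    rl3_bk_hi hδ 5 (by push_cast; linarith)]
  simp

theorem Fk_main (h : P.Ok) {d : ℕ} (hd : d ∈ P.Ds) {y : ℝ} (h1 : 7 * P.δ3 ≤ P.D * y - d)
    (h2 : P.D * y - d ≤ 1 - 7 * P.δ3) (k : ℕ) (hk1 : 1 ≤ k) (hk : k < 7) (l : ℝ) :
    P.Fk k y l = P.fk k d l := by
  have hδ := h.hδ3
  have hf := (rl3_fract h hd h1 h2).1
  have hm : 7 * P.δ3 ≤ min (P.D * y - d) (1 - (P.D * y - d)) := le_min h1 (by linarith)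
  obtain ⟨k, rfl⟩ : ∃ j, k = j + 1 := ⟨k - 1, by omega⟩
  have hk' : ((k + 1 : ℕ) : ℝ) ≤ 6 := by exact_mod_cast Nat.le_of_lt_succ hk
  rw [rl3_Fk h hd (by rw [hf]; linarith) (by rw [hf]; linarith), hf,
    rl3_ck_hi hδ (k + 1) (by nlinarith), one_mul]

theorem F0_main (h : P.Ok) {d : ℕ} (hd : d ∈ P.Ds) {y : ℝ} (h1 : 7 * P.δ3 ≤ P.D * y - d)
    (h2 : P.D * y - d ≤ 1 - 7 * P.δ3) (l : ℝ) : P.Fk 0 y l = -(deriv P.Ψ' l * y) := by
  obtain ⟨hf, b1, b2⟩ := rl3_fract h hd h1 h2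
  have hD : (0 : ℝ) < P.D := by exact_mod_cast h.hD
  have b3 : (1 : ℝ) / (2 * P.D) ≤ 1 / P.D := one_div_le_one_div_of_le hD (by linarith)
  rw [Fk, saw_eq (by positivity) (by rw [hf]; exact ⟨by linarith, by linarith⟩), hf, mul_neg]

end Par

end Crest.Agent.R81
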