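import Crest.Agent.R81.RL1

/-!
# R81: arithmetic of the new coordinates
-/

set_option autoImplicit false

namespace Crest.Agent.R81

open MeasureTheory Crest.AnalysisR.Torus3 Filter Topology
open scoped ContDiff

namespace Par
variable {P : Par}

theorem nv_mem (P : Par) : 0 ≤ P.nv ∧ P.nv < P.σ.N := by
  have hN : (0 : ℤ) < P.σ.N := by exact_mod_cast P.σ.hN
  exact ⟨Int.emod_nonneg _ hN.ne', Int.emod_lt_of_pos _ hN⟩

/-- Dirichlet (`Nat.forall_exists_prime_gt_and_modEq`; `ns` is coprime to `N`). -/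
theorem exists_prime_nn (σ : St) (B : ℕ) :
    ∃ Λ : ℕ, B ≤ Λ ∧ (σ.ns + Λ * σ.N).Prime := by
  have hc : Nat.Coprime σ.ns σ.N := by
    obtain ⟨c, hc⟩ := σ.hns.symm.dvd
    rw [← Nat.isCoprime_iff_coprime]
    exact ⟨σ.P, -c, by linarith⟩
  obtain ⟨p, hp1, hp2, hp3⟩ := Nat.forall_exists_prime_gt_and_modEq (σ.ns + B * σ.N) σ.hN.ne' hc
  have hle : σ.ns ≤ p := by omega
  obtain ⟨L, hL⟩ := (Nat.modEq_iff_dvd' hle).1 hp3.symm
  have hp : p = σ.ns + L * σ.N := by rw [mul_comm L]; omega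
  refine ⟨L, ?_, hp ▸ hp2⟩
  by_contra hlt
  have : L * σ.N ≤ B * σ.N := Nat.mul_le_mul_right _ (by omega)
  omega

theorem rl5_NOk (P : Par) (R : ℕ) (hR : 1 ≤ R) :
    ∃ N' : ℕ, (N' : ℤ) = P.σ.N * R - P.nv ∧ P.NOk N' := by
  obtain ⟨h0, h1⟩ := P.nv_mem
  have hR' : (1 : ℤ) ≤ R := by exact_mod_cast hR
  have hN : (0 : ℤ) < P.σ.N := by exact_mod_cast P.σ.hN
  have hpos : (0 : ℤ) < P.σ.N * R - P.nv := by nlinarith
  refine ⟨(P.σ.N * R - P.nv).toNat, Int.toNat_of_nonneg hpos.le, by omega, ?_⟩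
  rw [Int.toNat_of_nonneg hpos.le]
  obtain ⟨c, hc⟩ := rl1_ns (P := P)
  have he : P.nv = P.σ.a * P.σ.ns - P.σ.N * (P.σ.a * P.σ.ns / P.σ.N) := Int.emod_def _ _
  refine ⟨R * P.σ.P + (P.σ.a * P.σ.ns / P.σ.N) * P.σ.P - P.σ.a * c, ?_⟩
  rw [he]
  linear_combination (-P.σ.a) * hc

/-- among `R` and `R + Md` one works, since the prime `nn` does not divide `N Md`. -/
theorem exists_R (P : Par) (Md R1 : ℕ) (hMd : 0 < Md) (hp : P.nn.Prime) (hb : P.σ.N * Md < P.nn) :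
    ∃ R N' : ℕ, R1 ≤ R ∧ R ≡ 1 [MOD Md] ∧ (N' : ℤ) = P.σ.N * R - P.nv ∧ P.NOk N' ∧
      Nat.Coprime P.nn N' := by
  have hle : R1 ≤ R1 * Md := Nat.le_mul_of_pos_right _ hMd
  obtain ⟨N1, e1, h1⟩ := rl5_NOk P (1 + R1 * Md) (by omega)
  obtain ⟨N2, e2, h2⟩ := rl5_NOk P (1 + R1 * Md + Md) (by omega)
  have m1 : 1 + R1 * Md ≡ 1 [MOD Md] := by
    unfold Nat.ModEq
    rw [Nat.add_mul_mod_self_right]
  have m2 : 1 + R1 * Md + Md ≡ 1 [MOD Md] := by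
    unfold Nat.ModEq
    rw [Nat.add_mod_right, Nat.add_mul_mod_self_right]
  by_cases hd : P.nn ∣ N1
  · refine ⟨1 + R1 * Md + Md, N2, by omega, m2, e2, h2, (Nat.Prime.coprime_iff_not_dvd hp).2 ?_⟩
    intro hd2
    have e : N2 = N1 + P.σ.N * Md := by
      have : (N2 : ℤ) = N1 + P.σ.N * Md := by rw [e1, e2]; push_cast; ring
      exact_mod_cast this
    rw [e] at hd2
    have h3 : P.nn ∣ P.σ.N * Md := (Nat.dvd_add_right hd).1 hd2
    have := Nat.le_of_dvd (Nat.mul_pos P.σ.hN hMd) h3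
    omega
  · exact ⟨1 + R1 * Md, N1, by omega, m1, e1, h1, (Nat.Prime.coprime_iff_not_dvd hp).2 hd⟩

theorem NOk.coprime {N' : ℕ} (hN : P.NOk N') : Nat.Coprime P.σ.N N' := by
  obtain ⟨e, he⟩ := hN.2
  obtain ⟨u, v, huv⟩ := P.σ.ha
  rw [← Nat.isCoprime_iff_coprime]
  exact ⟨u * e + v, -(u * P.σ.P), by linear_combination huv - u * he⟩

theorem Pn_spec {N' : ℕ} (hN : P.NOk N') {α β : ℤ} (hαβ : α * P.σ.N + β * P.σ.a = 1) :
    (P.σ.N : ℤ) * P.Pn N' α β = 1 + β * P.σ.P * N' := by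
  have he := Int.mul_ediv_cancel' hN.2
  unfold Pn
  linear_combination hαβ + β * he

theorem an_spec {N' : ℕ} (hN : P.NOk N') {α β : ℤ} (hαβ : α * P.σ.N + β * P.σ.a = 1) :
    (P.σ.N : ℤ) * P.an N' β = β * N' + P.nn := by
  obtain ⟨c, hc⟩ := rl1_ns (P := P)
  obtain ⟨e, he⟩ := hN.2
  refine Int.mul_ediv_cancel' ⟨β * (P.σ.ns * e - N' * c) + P.σ.ns * α + P.Λ, ?_⟩
  unfold nn
  push_cast
  linear_combination β * P.σ.ns * he - β * N' * hc - P.σ.ns * hαβ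

theorem an_coprime {N' : ℕ} (hN : P.NOk N') {α β : ℤ} (hαβ : α * P.σ.N + β * P.σ.a = 1)
    (hc : Nat.Coprime P.nn N') : IsCoprime (P.an N' β) (N' : ℤ) := by
  obtain ⟨u, v, huv⟩ := Nat.isCoprime_iff_coprime.2 hc
  have h := an_spec hN hαβ
  exact ⟨u * P.σ.N, v - u * β, by linear_combination huv + u * h⟩

theorem uu_lin {N' : ℕ} (hN : P.NOk N') {α β : ℤ} (hαβ : α * P.σ.N + β * P.σ.a = 1) (p : V3) :
    P.uu N' p = N' * linL P.σ.N P.σ.a α β p 2 - P.an N' β * linL P.σ.N P.σ.a α β p 1 := by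
  have hN0 : (P.σ.N : ℝ) ≠ 0 := by exact_mod_cast P.σ.hN.ne'
  have h1 : (P.σ.N : ℝ) * P.an N' β = β * N' + P.nn := by exact_mod_cast an_spec hN hαβ
  have h2 : (α : ℝ) * P.σ.N + β * P.σ.a = 1 := by exact_mod_cast hαβ
  simp only [uu, W, Rr, Lt, linL, Matrix.cons_val, Int.cast_natCast]
  field_simp
  linear_combination (P.σ.N * p 2 - P.σ.a * p 1) * h1 - N' * p 1 * h2

/-- in the new coordinates `SL` is the normal form up to the integer vector `(0, sg P, 0)` -/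
theorem lin_SL (h : P.Ok) {N' : ℕ} (hN : P.NOk N') {α β : ℤ} (hαβ : α * P.σ.N + β * P.σ.a = 1)
    (sg : ℝ) (hsg : sg = 1 ∨ sg = -1) (p : V3) :
    proj (linL P.σ.N P.σ.a α β (P.SL N' sg p)) =
      proj (nfL N' (P.Pn N' α β) P.Ψ' sg (linL P.σ.N P.σ.a α β p)) := by
  have hN0 : (P.σ.N : ℝ) ≠ 0 := by exact_mod_cast P.σ.hN.ne'
  have hN1 : (N' : ℝ) ≠ 0 := by exact_mod_cast hN.1.ne'
  have h1 : (P.σ.N : ℝ) * P.Pn N' α β = 1 + β * P.σ.P * N' := by exact_mod_cast Pn_spec hN hαβ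
  have h2 : (α : ℝ) * P.σ.N + β * P.σ.a = 1 := by exact_mod_cast hαβ
  obtain ⟨s, hs⟩ : ∃ s : ℤ, sg = s := by
    rcases hsg with rfl | rfl
    · exact ⟨1, by simp⟩
    · exact ⟨-1, by simp⟩
  have e0 : P.SL N' sg p 0 = p 0 + deriv P.Ψ' (P.W p) * (sg / N') := by
    simp only [SL, gam, Pi.add_apply, Pi.smul_apply, smul_eq_mul, Matrix.cons_val]
    ring
  have e1 : P.SL N' sg p 1 = p 1 + sg * (1 / N') := by
    simp only [SL, gam, Pi.add_apply, Pi.smul_apply, smul_eq_mul, Matrix.cons_val]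
    ring
  have e2 : P.SL N' sg p 2 = p 2 + sg * (P.σ.P / P.σ.N + P.σ.a / (P.σ.N * N')) := by
    simp only [SL, gam, Pi.add_apply, Pi.smul_apply, smul_eq_mul, Matrix.cons_val]
    ring
  rw [proj_eq_iff]
  refine ⟨![0, s * P.σ.P, 0], ?_⟩
  funext i
  fin_cases i
  · simp [linL, nfL, iv, e0, W]
    ring
  · simp [linL, nfL, iv, e1, e2]
    rw [← hs]
    field_simp
    ring
  · simp [linL, nfL, iv, e1, e2]
    field_simp
    linear_combination sg * h2 - sg * h1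

/-- Let `W0 = rp (q' 1)`, `u = N' rp (q' 2) - a' W0`, `J = pos q' ≡ N (⌊u⌋ + ⌊Λ W0⌋)`, so
`J P' ≡ ⌊u⌋ + ⌊Λ W0⌋ (mod N')`.  Take `p = linI (rp (q' 0), W0 + J P, z0 + J P'/N')` with
`N' z0 = a' W0 + fract u - ⌊Λ W0⌋`.  Use `Rr · p 1 = uu p + Lt W p`, `uu_lin`, `Lt = Λ + tau1`,
`N P' = 1 + β P N'`, `N a' = β N' + nn`. -/
theorem exists_sec {N' : ℕ} (hN : P.NOk N') {α β : ℤ} (hαβ : α * P.σ.N + β * P.σ.a = 1)
    {σ' : St} (hσ : P.IsNew N' α β σ') (q' : T3) : ∃ p, P.IsSec N' α β σ' q' p := by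
  obtain ⟨s1, s2, s3, s4, s5, -⟩ := hσ
  have hN0 : (P.σ.N : ℝ) ≠ 0 := by exact_mod_cast P.σ.hN.ne'
  have hN1 : (N' : ℝ) ≠ 0 := by exact_mod_cast hN.1.ne'
  have h1z := Pn_spec hN hαβ
  have h1 : (P.σ.N : ℝ) * P.Pn N' α β = 1 + β * P.σ.P * N' := by exact_mod_cast h1z
  have h3 : (P.σ.N : ℝ) * P.an N' β = β * N' + (P.σ.ns + P.Λ * P.σ.N) := by
    have := an_spec hN hαβ
    unfold nn at this
    exact_mod_cast this
  set W0 := rp (q' 1) with hW0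
  set u : ℝ := N' * rp (q' 2) - P.an N' β * W0 with hu
  set J := σ'.pos q' with hJ
  set Fl : ℤ := ⌊u⌋ + ⌊(P.Λ : ℝ) * W0⌋ with hFl
  have hJ2 : J = P.σ.N * Fl - N' * (P.σ.N * Fl / N') := by
    rw [hJ]
    unfold St.pos
    rw [s1, s3, s4, s5]
    exact Int.emod_def _ _
  set t : ℤ := P.σ.N * Fl / N' with ht
  have hJP : J * P.Pn N' α β = Fl + N' * (β * P.σ.P * Fl - t * P.Pn N' α β) := by
    rw [hJ2]
    linear_combination Fl * h1z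
  have hJP' : (J : ℝ) * P.Pn N' α β =
      ⌊u⌋ + ⌊(P.Λ : ℝ) * W0⌋ + N' * ((β * P.σ.P * Fl - t * P.Pn N' α β : ℤ) : ℝ) := by
    rw [hFl] at hJP
    rw [hFl]
    exact_mod_cast hJP
  set z0 : ℝ := (P.an N' β * W0 + Int.fract u - ⌊(P.Λ : ℝ) * W0⌋) / N' with hz0
  set w : V3 := ![rp (q' 0), W0 + J * P.σ.P, z0 + J * P.Pn N' α β / N'] with hw
  have hL : linL P.σ.N P.σ.a α β (linI P.σ.N P.σ.a α β w) = w := linL_linI hαβ w
  refine ⟨linI P.σ.N P.σ.a α β w, ?_, ?_, ?_, ?_, ?_⟩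
  · rw [hL]
    funext i
    change ((_ : ℝ) : Tc) = _
    rw [← coe_rp (q' i), coe_eq_coe_iff]
    fin_cases i
    · exact ⟨0, by simp [hw]⟩
    · exact ⟨J * P.σ.P, by simp [hw, hW0]⟩
    · refine ⟨β * P.σ.P * Fl - t * P.Pn N' α β, ?_⟩
      change z0 + J * P.Pn N' α β / N' = rp (q' 2) + _
      rw [hJP', hz0, Int.fract, hu]
      field_simp
      ring
  · simp [linI, hw]
  · change ((P.σ.N : ℤ) : ℝ) * (z0 + J * P.Pn N' α β / N') - β * (W0 + J * P.σ.P) = _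
    unfold y0
    have hf : Int.fract ((P.Λ : ℝ) * W0) = P.Λ * W0 - ⌊(P.Λ : ℝ) * W0⌋ := rfl
    rw [← hW0, ← hu, hz0, hf]
    simp only [Rr, tau1, Int.cast_natCast]
    field_simp
    linear_combination W0 * h3 + J * h1
  · have : P.W (linI P.σ.N P.σ.a α β w) = linL P.σ.N P.σ.a α β (linI P.σ.N P.σ.a α β w) 1 := by
      simp [W, linL]
    rw [this, hL]
    rfl
  · refine ⟨-⌊(P.Λ : ℝ) * W0⌋ + J * P.Pn N' α β - P.an N' β * J * P.σ.P, ?_⟩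
    rw [uu_lin hN hαβ, hL]
    change (N' : ℝ) * (z0 + J * P.Pn N' α β / N') - P.an N' β * (W0 + J * P.σ.P) = _
    rw [hz0]
    push_cast
    field_simp
    ring

theorem y0_mem {N' : ℕ} (hN : P.NOk N') (β : ℤ) (q' : T3) :
    0 ≤ P.y0 N' β q' ∧ P.y0 N' β q' ≤ 3 * P.σ.N / N' := by
  have hN0 : (0 : ℝ) < P.σ.N := by exact_mod_cast P.σ.hN
  have hN1 : (0 : ℝ) < N' := by exact_mod_cast hN.1
  have ht0 : 0 ≤ P.tau1 := by unfold tau1; positivity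
  have ht1 : P.tau1 ≤ 1 := by
    unfold tau1
    rw [div_le_one hN0]
    exact_mod_cast P.σ.hns'.le
  have hr : 0 < P.Rr N' := by unfold Rr; positivity
  have a0 := Int.fract_nonneg ((N' : ℝ) * rp (q' 2) - P.an N' β * rp (q' 1))
  have a1 := Int.fract_lt_one ((N' : ℝ) * rp (q' 2) - P.an N' β * rp (q' 1))
  have b0 := Int.fract_nonneg ((P.Λ : ℝ) * rp (q' 1))
  have b1 := Int.fract_lt_one ((P.Λ : ℝ) * rp (q' 1))
  have c0 := rp_nonneg (q' 1)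
  have c1 := rp_lt_one (q' 1)
  have d0 : 0 ≤ P.tau1 * rp (q' 1) := mul_nonneg ht0 c0
  have d1 : P.tau1 * rp (q' 1) ≤ 1 := by nlinarith
  unfold y0
  refine ⟨by positivity, ?_⟩
  rw [div_le_iff₀ hr]
  have : 3 * (P.σ.N : ℝ) / N' * P.Rr N' = 3 := by unfold Rr; field_simp
  rw [this]
  linarith

end Par

end Crest.Agent.R81
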