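import Crest.Agent.R81.RL3

/-!
# R81: evaluation of the seven shears at a good point
-/

set_option autoImplicit false

namespace Crest.Agent.R81

open MeasureTheory Crest.AnalysisR.Torus3 Filter Topology
open scoped ContDiff

namespace Par
variable {P : Par}

theorem r6_saw {δ t : ℝ} (hδ : 0 < δ) (u : ℝ) (m : ℤ) (hu : Gd δ (Int.fract u)) (ht : t = u + m) :
    saw δ t = Int.fract u := by
  rw [ht, saw_add_int, saw_eq hδ hu]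

theorem r6_fract {δ t : ℝ} (hδ : 0 < δ) (h : Gd δ t) : Int.fract t = t :=
  Int.fract_eq_self.2 ⟨by linarith [h.1], by linarith [h.2]⟩

theorem r6_step (N' k : ℕ) (p : V3) :
    P.hk N' (k + 1) p = P.hk N' k p + P.Fk k (p 1) (P.lk N' k (P.hk N' k p)) • P.dk k := by
  rw [hk, hk_one]

theorem r6_e0 (q : V3) (c : ℝ) : (q + c • (![1, 0, 0] : V3)) 0 = q 0 + c ∧
    P.W (q + c • (![1, 0, 0] : V3)) = P.W q ∧
    ∀ N', P.uu N' (q + c • (![1, 0, 0] : V3)) = P.uu N' q := by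
  simp [W, uu]

theorem r6_e3 (q : V3) (c : ℝ) : (q + c • (![P.Λ, 0, 1 / P.σ.N] : V3)) 0 = q 0 + c * P.Λ ∧
    P.W (q + c • (![P.Λ, 0, 1 / P.σ.N] : V3)) = P.W q + c := by
  have hN : (P.σ.N : ℝ) ≠ 0 := by exact_mod_cast P.σ.hN.ne'
  refine ⟨by simp, ?_⟩
  simp only [W, Pi.add_apply, Pi.smul_apply, smul_eq_mul, Matrix.cons_val_one, Matrix.cons_val_zero,
    Matrix.cons_val]
  field_simp
  ring

/-- Unfold `hk` step by step (`Fk_main`, `F0_main`, `hk_one`, `saw_eq`, `saw_add_int`).  With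
`x_c = x1 + Λ W0` after three shears; `xw = Λ m1 - x1`; `f₃ = fract x1 + P s - kap` with
`s = s0 ⌊J' fract x1⌋` (`J' fract x1 - fract (J' x1) = ⌊J' fract x1⌋`); `W₁ = W0 + m1 + f₃`;
shear 4 subtracts `fract W₁ = fract (W0 + x1)`, after which `xw ≡ W0` mod 1; shear 5 gives
`W = m1 + P s - kap + W2`, `x ≡ Λ W - W0`; shear 6 gives `x ≡ lam W2 - W0 + … ≡ lam x1 + …`. -/
theorem eval_h7 (h : P.Ok) (N' : ℕ) {d : ℕ} (hd : d ∈ P.Ds) (p : V3)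
    (h1 : 7 * P.δ3 ≤ P.D * p 1 - d) (h2 : P.D * p 1 - d ≤ 1 - 7 * P.δ3)
    (W0 τ x1 W2 : ℝ) (m1 m2 : ℤ) (hW : P.W p = W0 + m1) (hu : P.uu N' p = τ + m2)
    (hx1 : x1 = p 0 - deriv P.Ψ' W0 * p 1
      - P.rho d / P.lam d * (τ + Int.fract (P.Λ * W0) + P.tau1 * W0))
    (hW2 : W2 = Int.fract x1 + W0 / P.lam d)
    (g1 : Gd P.δ2 τ) (g2 : Gd P.δ2 W0) (g3 : Gd P.δ2 (Int.fract (P.Λ * W0)))
    (g4 : Gd P.δ2 (Int.fract x1)) (g5 : Gd P.δ2 (Int.fract (P.J' * x1)))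
    (g6 : Gd P.δ2 (Int.fract (W0 + x1))) (g7 : Gd P.δ2 W2)
    (g8 : Gd P.δ2 (Int.fract (P.J' * W2))) :
    P.W (P.hk N' 7 p) = m1 + P.σ.P * (P.s0 * ⌊(P.J' : ℝ) * Int.fract x1⌋ : ℤ) - P.kap d + W2 ∧
      ∃ m : ℤ, P.hk N' 7 p 0 = P.lam d * x1 + P.be1 d * Int.fract (P.J' * W2) + P.be2 d * W2
        + P.be3 d + m := by
  have hδ := h.hδ2
  have hl : (P.lam d : ℝ) ≠ 0 := by exact_mod_cast h.hlam d hd
  have hF := fun k hk1 hk l => Fk_main h hd h1 h2 k hk1 hk l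
  have fτ := r6_fract hδ g1
  have fW0 := r6_fract hδ g2
  have fW2 := r6_fract hδ g7
  set s : ℤ := P.s0 * ⌊(P.J' : ℝ) * Int.fract x1⌋ with hs
  -- shear 0
  have e1 : P.hk N' 1 p = p + (-(deriv P.Ψ' W0 * p 1)) • (![1, 0, 0] : V3) := by
    rw [r6_step, F0_main h hd h1 h2]
    simp only [hk, lk, dk]
    rw [hW, periodic_add_int (periodic_deriv h.hΨp)]
  obtain ⟨x_1, W_1, u_1⟩ := r6_e0 (P := P) p (-(deriv P.Ψ' W0 * p 1))
  rw [← e1] at x_1 W_1 u_1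
  -- shear 1
  have e2 : P.hk N' 2 p = P.hk N' 1 p + (-(P.rho d / P.lam d) * τ) • (![1, 0, 0] : V3) := by
    rw [r6_step, hF 1 le_rfl (by norm_num)]
    simp only [lk, dk, fk]
    rw [r6_saw hδ τ m2 (by rwa [fτ]) (by rw [u_1, hu]), fτ]
  obtain ⟨x_2, W_2, -⟩ := r6_e0 (P := P) (P.hk N' 1 p) (-(P.rho d / P.lam d) * τ)
  rw [← e2] at x_2 W_2
  rw [W_1, hW] at W_2
  -- shear 2
  have e3 : P.hk N' 3 p = P.hk N' 2 p + ((P.Λ - P.rho d * P.tau1 / P.lam d) * W0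
      - P.rho d / P.lam d * Int.fract (P.Λ * W0)) • (![1, 0, 0] : V3) := by
    rw [r6_step, hF 2 (by norm_num) (by norm_num)]
    simp only [lk, dk, fk]
    rw [r6_saw hδ W0 m1 (by rwa [fW0]) W_2, fW0,
      r6_saw hδ (P.Λ * W0) (P.Λ * m1) g3 (by rw [W_2]; push_cast; ring)]
  obtain ⟨x_3, W_3, -⟩ := r6_e0 (P := P) (P.hk N' 2 p) ((P.Λ - P.rho d * P.tau1 / P.lam d) * W0
      - P.rho d / P.lam d * Int.fract (P.Λ * W0))
  rw [← e3] at x_3 W_3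
  rw [W_2] at W_3
  have x3 : P.hk N' 3 p 0 = x1 + P.Λ * W0 := by
    rw [x_3, x_2, x_1, hx1]; ring
  -- shear 3
  have hfl : (P.J' : ℝ) * Int.fract x1 - Int.fract (P.J' * x1) = ⌊(P.J' : ℝ) * Int.fract x1⌋ := by
    have : (P.J' : ℝ) * x1 = P.J' * Int.fract x1 + ((P.J' * ⌊x1⌋ : ℤ) : ℝ) := by
      push_cast; rw [← mul_add, Int.fract_add_floor]
    rw [this, Int.fract_add_intCast, Int.self_sub_fract]
  have e4 : P.hk N' 4 p = P.hk N' 3 p + (Int.fract x1 + P.σ.P * s - P.kap d)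
      • (![P.Λ, 0, 1 / P.σ.N] : V3) := by
    rw [r6_step, hF 3 (by norm_num) (by norm_num)]
    simp only [lk, dk, fk, xw]
    rw [r6_saw hδ x1 (-(P.Λ * m1)) g4 (by rw [W_3, x3]; push_cast; ring),
      r6_saw hδ (P.J' * x1) (-(P.J' * P.Λ * m1)) g5 (by rw [W_3, x3]; push_cast; ring), hfl, hs]
    push_cast
    rw [mul_assoc]
  obtain ⟨x_4, W_4⟩ := r6_e3 (P := P) (P.hk N' 3 p) (Int.fract x1 + P.σ.P * s - P.kap d)
  rw [← e4] at x_4 W_4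
  rw [W_3] at W_4
  rw [x3] at x_4
  -- shear 4
  have e5 : P.hk N' 5 p = P.hk N' 4 p + (-Int.fract (W0 + x1)) • (![1, 0, 0] : V3) := by
    rw [r6_step, hF 4 (by norm_num) (by norm_num)]
    simp only [lk, dk, fk]
    rw [r6_saw hδ (W0 + x1) (m1 + P.σ.P * s - P.kap d - ⌊x1⌋) g6
      (by rw [W_4, Int.fract]; push_cast; ring)]
  obtain ⟨x_5, W_5, -⟩ := r6_e0 (P := P) (P.hk N' 4 p) (-Int.fract (W0 + x1))
  rw [← e5] at x_5 W_5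
  rw [W_4] at W_5
  rw [x_4] at x_5
  -- shear 5
  have e6 : P.hk N' 6 p = P.hk N' 5 p + (-(1 - 1 / P.lam d) * W0)
      • (![P.Λ, 0, 1 / P.σ.N] : V3) := by
    rw [r6_step, hF 5 (by norm_num) (by norm_num)]
    simp only [lk, dk, fk, xw]
    rw [r6_saw hδ W0 (P.Λ * m1 - ⌊W0 + x1⌋) (by rwa [fW0])
      (by rw [W_5, x_5, ← Int.self_sub_floor (W0 + x1), ← Int.self_sub_floor x1]; push_cast; ring),
      fW0]
  obtain ⟨x_6, W_6⟩ := r6_e3 (P := P) (P.hk N' 5 p) (-(1 - 1 / P.lam d) * W0)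
  rw [← e6] at x_6 W_6
  rw [W_5] at W_6
  rw [x_5] at x_6
  have W6 : P.W (P.hk N' 6 p) = W2 + ((m1 + P.σ.P * s - P.kap d : ℤ) : ℝ) := by
    rw [W_6, hW2]; push_cast; ring
  -- shear 6
  have e7 : P.hk N' 7 p = P.hk N' 6 p + ((P.lam d - P.Λ) * W2 + P.be1 d * Int.fract (P.J' * W2)
      + P.be2 d * W2 + P.be3 d) • (![1, 0, 0] : V3) := by
    rw [r6_step, hF 6 (by norm_num) (by norm_num)]
    simp only [lk, dk, fk]
    rw [r6_saw hδ W2 _ (by rwa [fW2]) W6, fW2,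
      r6_saw hδ (P.J' * W2) (P.J' * (m1 + P.σ.P * s - P.kap d)) g8 (by rw [W6]; push_cast; ring)]
  obtain ⟨x_7, W_7, -⟩ := r6_e0 (P := P) (P.hk N' 6 p) ((P.lam d - P.Λ) * W2
    + P.be1 d * Int.fract (P.J' * W2) + P.be2 d * W2 + P.be3 d)
  rw [← e7] at x_7 W_7
  refine ⟨by rw [W_7, W6]; push_cast; ring,
    ⟨P.Λ * (P.σ.P * s - P.kap d) + ⌊W0 + x1⌋ - P.lam d * ⌊x1⌋, ?_⟩⟩
  rw [x_7, x_6]
  have hW2' : W2 = x1 - ⌊x1⌋ + W0 / P.lam d := hW2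
  have e8 : (P.lam d : ℝ) * W2 = P.lam d * (x1 - ⌊x1⌋) + W0 := by rw [hW2']; field_simp
  have e9 : (P.Λ : ℝ) * W2 = P.Λ * (x1 - ⌊x1⌋) + P.Λ * (1 / P.lam d * W0) := by rw [hW2']; ring
  simp only [Int.fract] at *
  push_cast
  linear_combination e8 - e9

end Par

end Crest.Agent.R81
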