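import Crest.Agent.R81.RL5
import Crest.Agent.R81.RL6

/-!
# R81: good points
-/

set_option autoImplicit false

namespace Crest.Agent.R81

open MeasureTheory Crest.AnalysisR.Torus3 Filter Topology
open scoped ContDiff

namespace Par
variable {P : Par}

theorem r7_fract {δ a w : ℝ} (hδ : 0 < δ) (h : Gd δ (Int.fract a + w)) :
    Int.fract (a + w) = Int.fract a + w ∧ ⌊a + w⌋ = ⌊a⌋ := by
  have e : a + w = (Int.fract a + w) + (⌊a⌋ : ℤ) := by rw [add_right_comm, Int.fract_add_floor]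
  constructor
  · rw [e, Int.fract_add_intCast, r6_fract hδ h]
  · rw [e, Int.floor_add_intCast, Int.floor_eq_zero_iff.2 ⟨by linarith [h.1], by linarith [h.2]⟩,
      zero_add]

theorem r7_key {δ μ η0 t w : ℝ} {J : ℕ} (hδ : 0 ≤ δ) (hJ0 : 0 < J) (ht0 : 0 ≤ t) (ht1 : t < 1)
    (hμ : J * (δ + 2 * η0) ≤ μ) (G4 : Gd μ (Int.fract (J * t))) (hw : |w| ≤ η0) :
    Gd δ (t + w) ∧ Gd δ (Int.fract (J * t) + J * w) := by
  have hJ : (1 : ℝ) ≤ J := by exact_mod_cast hJ0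
  have hη : 0 ≤ η0 := (abs_nonneg _).trans hw
  obtain ⟨w1, w2⟩ := abs_le.1 hw
  obtain ⟨a1, a2⟩ := G4
  have f0 : (0 : ℝ) ≤ ⌊(J : ℝ) * t⌋ := by
    exact_mod_cast Int.floor_nonneg.2 (by positivity)
  have f1 : ((⌊(J : ℝ) * t⌋ : ℤ) : ℝ) + 1 ≤ J := by
    have : ⌊(J : ℝ) * t⌋ < (J : ℤ) := by
      rw [Int.floor_lt]; push_cast; nlinarith
    exact_mod_cast this
  have f2 : (J : ℝ) * t = ⌊(J : ℝ) * t⌋ + Int.fract (J * t) := (Int.floor_add_fract _).symm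
  have b1 : J * δ ≤ Int.fract (J * t) + J * w := by nlinarith
  have b2 : Int.fract (J * t) + J * w ≤ 1 - J * δ := by nlinarith
  have b3 : δ ≤ J * δ := by nlinarith
  refine ⟨⟨?_, ?_⟩, ⟨by linarith, by linarith⟩⟩
  · refine le_of_mul_le_mul_left ?_ (by linarith : (0 : ℝ) < J)
    linarith
  · refine le_of_mul_le_mul_left ?_ (by linarith : (0 : ℝ) < J)
    linarith

theorem r7_key2 {δ μ η0 a w : ℝ} {J : ℕ} (hδ : 0 ≤ δ) (hJ0 : 0 < J)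
    (hμ : J * (δ + 2 * η0) ≤ μ) (G : Gd μ a) (hw : |w| ≤ η0) : Gd δ (a + w) := by
  have hJ : (1 : ℝ) ≤ J := by exact_mod_cast hJ0
  have hη : 0 ≤ η0 := (abs_nonneg _).trans hw
  obtain ⟨w1, w2⟩ := abs_le.1 hw
  obtain ⟨a1, a2⟩ := G
  have : δ + 2 * η0 ≤ J * (δ + 2 * η0) := le_mul_of_one_le_left (by linarith) hJ
  constructor <;> linarith

/-- Put `W0 = rp (q' 1)`, `τ = fract (N' rp (q' 2) - a' W0)`, `t = rp (xc q')`, `J = pos q'`.  Since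
`xc q' = q' 0 - Ψ''(W0) J/N'` and `p 1 = y0 + J/N'`, `x1 = t - u + integer` with
`u = deriv Ψ' W0 · y0 + (rho/lam) Rr y0`, `|u| ≤ 3 B' N/N' + 3K/lmin` (`y0_mem`, `|rho| ≤ K/2`).
`Gd_of_norm` gives `Gd μ (fract (J' t))`, hence `μ/J' ≤ t ≤ 1 - μ/J'`, `fract x1 = t - u`,
`⌊J' (t-u)⌋ = ⌊J' t⌋`, `fract (J' W2) = fract (J' t) + J' v` with `W2 = t + v`, `v = W0/lam - u`,
`|v| ≤ η0`.  Apply `eval_h7`; `be1 J' + be2 = α1 J' + α2`;
`be1 fract (J't) + be2 t = α1 fract (J't) + α2 t + rho · shf/N`. -/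
theorem good_eval (h : P.Ok) {N' : ℕ} (hN : P.NOk N') {α β : ℤ} {σ' : St} (hσ : P.IsNew N' α β σ')
    {q' : T3} {p : V3} (hp : P.IsSec N' α β σ' q' p) {d : ℕ} (hd : d ∈ P.Ds)
    (h1 : 7 * P.δ3 ≤ P.D * p 1 - d) (h2 : P.D * p 1 - d ≤ 1 - 7 * P.δ3)
    (B' lmin μ η0 ε : ℝ) (hB' : ∀ y, |deriv P.Ψ' y| ≤ B') (hl0 : 0 < lmin)
    (hl : lmin ≤ |(P.lam d : ℝ)|)
    (hη0 : 3 * B' * P.σ.N / N' + 3 * P.σ.K / lmin + 1 / lmin ≤ η0)
    (hμ : P.J' * (P.δ2 + 2 * η0) ≤ μ) (hα : (|P.α1| * P.J' + |P.α2 d|) * η0 ≤ ε / 3)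
    (hlam : |(P.lam d : ℝ)| * (3 * B' * P.σ.N / N') ≤ ε / 3)
    (hq : P.GoodPt N' β σ' μ q') :
    (∃ v : ℝ, |v| ≤ η0 ∧ 0 ≤ rp (σ'.xc q') + v ∧ rp (σ'.xc q') + v < 1 ∧
      P.W (P.hk N' 7 p) = P.σ.P * (σ'.pos q' + shf P.s0 P.J' (σ'.xc q') : ℤ) - P.kap d
        + (rp (σ'.xc q') + v)) ∧
    ∃ (m : ℤ) (e1 : ℝ), |e1| ≤ 2 * ε / 3 ∧
      P.hk N' 7 p 0 = phs P.lam P.α1 P.α2 P.J' (σ'.xc q') d
        + P.rho d * ((shf P.s0 P.J' (σ'.xc q') : ℝ) / P.σ.N - P.Rr N' * P.y0 N' β q')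
        + P.be3 d + e1 + m := by
  have hδ := h.hδ2
  have hlam0 : (P.lam d : ℝ) ≠ 0 := by exact_mod_cast h.hlam d hd
  have hN0 : (0 : ℝ) < P.σ.N := by exact_mod_cast P.σ.hN
  have hN' : (0 : ℝ) < N' := by exact_mod_cast hN.1
  have hD : (0 : ℝ) < P.D := by exact_mod_cast h.hD
  have hJ : (1 : ℝ) ≤ P.J' := by exact_mod_cast h.hJ
  have hK : (0 : ℝ) ≤ P.σ.K := by positivity
  have hB0 : 0 ≤ B' := (abs_nonneg _).trans (hB' 0)
  obtain ⟨-, hp0, hp1, hpW, m2, hpu⟩ := hp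
  obtain ⟨q1, q2, q3, q4, q5⟩ := hq
  obtain ⟨hy0, hy1⟩ := y0_mem hN β q'
  obtain ⟨s1, -, -, -, -, s6⟩ := hσ
  set W0 := rp (q' 1) with hW0
  set τ := Int.fract (N' * rp (q' 2) - P.an N' β * W0) with hτ
  set t := rp (σ'.xc q') with ht
  set J := σ'.pos q' with hJdef
  set y0 := P.y0 N' β q' with hy0d
  have hW00 : 0 ≤ W0 := rp_nonneg _
  have hW01 : W0 < 1 := rp_lt_one _
  have ht0 : 0 ≤ t := rp_nonneg _
  have ht1 : t < 1 := rp_lt_one _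
  have hRy : P.Rr N' * y0 = τ + Int.fract (P.Λ * W0) + P.tau1 * W0 := by
    have : P.Rr N' ≠ 0 := by unfold Rr; positivity
    rw [hy0d, Par.y0, ← hW0, ← hτ]; field_simp
  have hRy0 : 0 ≤ P.Rr N' * y0 := by unfold Rr; positivity
  have hRy1 : P.Rr N' * y0 ≤ 3 := by
    unfold Rr
    rw [le_div_iff₀ hN'] at hy1
    rw [div_mul_eq_mul_div, div_le_iff₀ hN0]; linarith
  obtain ⟨n0, hn0⟩ : ∃ n0 : ℤ, t = p 0 - deriv P.Ψ' W0 * J / N' + n0 := by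
    rw [← coe_eq_coe_iff, ht, coe_rp, AddCircle.coe_sub, hp0, coe_rp, St.xc, s1, s6]
  have hρ : |P.rho d| ≤ P.σ.K := by
    obtain ⟨-, d2, -⟩ := h.hDs d hd
    have d3 : (d : ℝ) / P.D ≤ 1 := by
      rw [div_le_one hD]; exact_mod_cast (by omega : d ≤ P.D)
    have d4 : (0 : ℝ) ≤ (d : ℝ) / P.D := by positivity
    rw [rho, abs_mul, abs_of_nonneg hK]
    exact mul_le_of_le_one_right hK (abs_le.2 ⟨by linarith, by linarith⟩)
  set u := deriv P.Ψ' W0 * y0 + P.rho d / P.lam d * (P.Rr N' * y0) with hu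
  have hu1 : |deriv P.Ψ' W0 * y0| ≤ 3 * B' * P.σ.N / N' := by
    rw [abs_mul, abs_of_nonneg hy0]
    calc _ ≤ B' * (3 * P.σ.N / N') := mul_le_mul (hB' _) hy1 hy0 hB0
      _ = _ := by ring
  have hu2 : |P.rho d / P.lam d * (P.Rr N' * y0)| ≤ 3 * P.σ.K / lmin := by
    rw [abs_mul, abs_of_nonneg hRy0, abs_div]
    calc _ ≤ P.σ.K / lmin * 3 := by gcongr
      _ = _ := by ring
  have hu3 : |W0 / P.lam d| ≤ 1 / lmin := by
    rw [abs_div, abs_of_nonneg hW00]; gcongr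
  have hl1 : 0 ≤ 1 / lmin := by positivity
  have hu4 : |u| ≤ 3 * B' * P.σ.N / N' + 3 * P.σ.K / lmin :=
    (abs_add_le _ _).trans (add_le_add hu1 hu2)
  have huη : |-u| ≤ η0 := by rw [abs_neg]; linarith
  set v := W0 / P.lam d - u with hv
  have hvη : |v| ≤ η0 := (abs_sub _ _).trans (by linarith)
  have hη00 : 0 ≤ η0 := (abs_nonneg _).trans hvη
  have G4 : Gd μ (Int.fract (P.J' * t)) := Gd_of_norm (by rwa [← fq_nsmul, ht, coe_rp])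
  have G5 : Gd μ (Int.fract (W0 + t)) :=
    Gd_of_norm (by rwa [AddCircle.coe_add, hW0, ht, coe_rp, coe_rp])
  have key := fun w hw => r7_key (w := w) hδ.le h.hJ ht0 ht1 hμ G4 hw
  obtain ⟨k1, k2⟩ := key (-u) huη
  obtain ⟨k3, k4⟩ := key v hvη
  set x1 := p 0 - deriv P.Ψ' W0 * p 1
    - P.rho d / P.lam d * (τ + Int.fract (P.Λ * W0) + P.tau1 * W0) with hx1
  have hx1' : x1 = (t + -u) + ((-n0 : ℤ) : ℝ) := by
    rw [hx1, ← hRy, hp1, hn0, hu]; push_cast; ring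
  have hfx : Int.fract x1 = t + -u := by rw [hx1', Int.fract_add_intCast, r6_fract hδ k1]
  obtain ⟨c1, c2⟩ := r7_fract hδ k2
  obtain ⟨c3, -⟩ := r7_fract hδ k4
  rw [← mul_add] at c1 c2 c3
  have hW2 : t + v = Int.fract x1 + W0 / P.lam d := by rw [hfx, hv]; ring
  have G6 : Gd P.δ2 (Int.fract (W0 + t) + -u) := r7_key2 hδ.le h.hJ hμ G5 huη
  obtain ⟨r1, m, r2⟩ := eval_h7 h N' hd p h1 h2 W0 τ x1 (t + v) (J * P.σ.P) m2
    (by rw [hpW]; push_cast; ring) hpu hx1 hW2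
    (Gd_of_norm (by
      rwa [AddCircle.coe_sub, ← zsmul_eq_mul, AddCircle.coe_zsmul, ← fq_nsmul, hW0, coe_rp, coe_rp,
        ← natCast_zsmul]))
    (by
      have := Gd_of_norm (δ := P.δ2) (t := W0) (by rwa [hW0, coe_rp])
      rwa [Int.fract_eq_self.2 ⟨hW00, hW01⟩] at this)
    (Gd_of_norm (by rwa [← fq_nsmul, hW0, coe_rp]))
    (by rwa [hfx])
    (by
      have : (P.J' : ℝ) * x1 = P.J' * (t + -u) + ((-(P.J' * n0) : ℤ) : ℝ) := by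
        rw [hx1']; push_cast; ring
      rwa [this, Int.fract_add_intCast, c1])
    (by
      have : W0 + x1 = (W0 + t + -u) + ((-n0 : ℤ) : ℝ) := by rw [hx1']; ring
      rwa [this, Int.fract_add_intCast, (r7_fract hδ G6).1])
    k3 (by rwa [c3])
  refine ⟨⟨v, hvη, by linarith [k3.1], by linarith [k3.2], ?_⟩,
    m - P.lam d * n0, (P.α1 * P.J' + P.α2 d) * v - P.lam d * (deriv P.Ψ' W0 * y0), ?_, ?_⟩
  · rw [r1, hfx, c2, shf, ← ht]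
    push_cast; ring
  · refine (abs_sub _ _).trans ?_
    have b1 : |(P.α1 * P.J' + P.α2 d) * v| ≤ (|P.α1| * P.J' + |P.α2 d|) * η0 := by
      rw [abs_mul]
      refine mul_le_mul ((abs_add_le _ _).trans (le_of_eq ?_)) hvη (abs_nonneg _) (by positivity)
      rw [abs_mul, Nat.abs_cast]
    have b2 : |P.lam d * (deriv P.Ψ' W0 * y0)| ≤ |(P.lam d : ℝ)| * (3 * B' * P.σ.N / N') := by
      rw [abs_mul]; gcongr
    linarith
  · have hlu : P.lam d * u = P.lam d * (deriv P.Ψ' W0 * y0) + P.rho d * (P.Rr N' * y0) := by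
      rw [hu]; field_simp
    have f2 : ((⌊(P.J' : ℝ) * t⌋ : ℤ) : ℝ) = P.J' * t - Int.fract (P.J' * t) :=
      (Int.self_sub_fract _).symm
    rw [r2, c3, hx1', phs, shf, ← ht, be1, be2]
    push_cast
    rw [f2]
    linear_combination -hlu

end Par

end Crest.Agent.R81
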