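import Crest.Agent.R81.Bump
import Crest.Agent.R81.Law0
import Crest.Agent.R81.Zon
import Crest.Agent.R81.FreqA

/-!
# R81: the conjugacy of one step (definitions)

Coordinates `p = (x,y,z) = (p 0, p 1, p 2)` are the normal coordinates of the old state.
-/

set_option autoImplicit false

namespace Crest.Agent.R81

open Crest.AnalysisR.Torus3
open scoped ContDiff

/-- switch of the `k`-th shear inside a zone (zone rescaled to `[0,1]`) -/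
noncomputable def ck (δ3 : ℝ) (k : ℕ) (t : ℝ) : ℝ := plat ((k + 1 / 3) * δ3) ((k + 2 / 3) * δ3) t

/-- bump equal to `1` where the `k`-th switch moves -/
noncomputable def bk (δ3 : ℝ) (k : ℕ) (t : ℝ) : ℝ :=
  plat ((k + 1 / 12) * δ3) ((k + 1 / 6) * δ3) t - plat ((k + 5 / 6) * δ3) ((k + 11 / 12) * δ3) t

/-- first tilt profile -/
noncomputable def Y1 (D : ℕ) (Ds : Finset ℕ) (δ3 : ℝ) (y : ℝ) : ℝ :=
  ∑ d ∈ Ds, -(bk δ3 1 (D * Int.fract y - d) * Int.fract y)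

/-- second tilt profile -/
noncomputable def Y2 (Ψ : ℝ → ℝ) (D : ℕ) (Ds : Finset ℕ) (δ3 : ℝ) (y : ℝ) : ℝ :=
  ∑ d ∈ Ds, (bk δ3 3 (D * Int.fract y - d) + bk δ3 5 (D * Int.fract y - d)) * Ψ y

/-- all data of a step except the new period -/
structure Par where
  σ : St
  D : ℕ
  Ds : Finset ℕ
  δ3 : ℝ
  δ2 : ℝ
  s0 : ℕ
  J' : ℕ
  α1 : ℝ
  α2 : ℕ → ℝ
  lam : ℕ → ℤ
  Λ : ℕ
  Ψ' : ℝ → ℝ

namespace Par
variable (P : Par)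

/-- admissibility -/
structure Ok : Prop where
  hD : 0 < P.D
  htD : P.σ.t0 ∣ P.D
  hDs : ∀ d ∈ P.Ds, 1 ≤ d ∧ d + 2 ≤ P.D ∧ P.σ.δ ≤ (d : ℝ) / P.D ∧ (d + 1 : ℝ) / P.D ≤ 1 - P.σ.δ
  hδ3 : 0 < P.δ3
  hδ3' : P.δ3 ≤ 1 / 20
  hδ2 : 0 < P.δ2
  hJ : 0 < P.J'
  hlam : ∀ d ∈ P.Ds, P.lam d ≠ 0
  hΛ : 0 < P.Λ
  hΨ : ContDiff ℝ ∞ P.Ψ'
  hΨp : Function.Periodic P.Ψ' 1

/-- admissible new period -/
def NOk (N' : ℕ) : Prop := 0 < N' ∧ (P.σ.N : ℤ) ∣ N' * P.σ.P + P.σ.a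

def nv : ℤ := (P.σ.a * P.σ.ns) % P.σ.N
def nn : ℕ := P.σ.ns + P.Λ * P.σ.N
noncomputable def Lt : ℝ := (P.nn : ℝ) / P.σ.N
noncomputable def tau1 : ℝ := (P.σ.ns : ℝ) / P.σ.N
noncomputable def rho (d : ℕ) : ℝ := P.σ.K * ((d : ℝ) / P.D - 1 / 2)
def kap (d : ℕ) : ℕ := P.σ.t0 * d / P.D
noncomputable def be1 (d : ℕ) : ℝ := P.α1 - P.rho d * P.s0 / P.σ.N
noncomputable def be2 (d : ℕ) : ℝ := P.α2 d + P.rho d * P.s0 * P.J' / P.σ.N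
noncomputable def be3 (d : ℕ) : ℝ := -(P.σ.K * (P.nv / P.σ.N) * ((d : ℝ) / P.D) ^ 2 / 2)
noncomputable def Rr (N' : ℕ) : ℝ := (N' : ℝ) / P.σ.N

def W (p : V3) : ℝ := P.σ.N * p 2 - P.σ.a * p 1
noncomputable def uu (N' : ℕ) (p : V3) : ℝ := P.Rr N' * p 1 - P.Lt * P.W p
def xw (p : V3) : ℝ := P.Λ * P.W p - p 0

/-- amplitude of the `k`-th shear on zone `d` -/
noncomputable def fk : ℕ → ℕ → ℝ → ℝ
  | 1, d, l => -(P.rho d / P.lam d) * saw P.δ2 l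
  | 2, d, l => (P.Λ - P.rho d * P.tau1 / P.lam d) * saw P.δ2 l
      - P.rho d / P.lam d * saw P.δ2 (P.Λ * l)
  | 3, d, l => saw P.δ2 (-l)
      + P.σ.P * P.s0 * (P.J' * saw P.δ2 (-l) - saw P.δ2 (P.J' * -l)) - P.kap d
  | 4, _, l => -saw P.δ2 l
  | 5, d, l => -(1 - 1 / P.lam d) * saw P.δ2 l
  | 6, d, l => (P.lam d - P.Λ) * saw P.δ2 l + P.be1 d * saw P.δ2 (P.J' * l)
      + P.be2 d * saw P.δ2 l + P.be3 d
  | _, _, _ => 0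

/-- amplitude of the `k`-th shear -/
noncomputable def Fk : ℕ → ℝ → ℝ → ℝ
  | 0, y, l => deriv P.Ψ' l * -saw (1 / (2 * P.D)) y
  | k + 1, y, l => ∑ d ∈ P.Ds, ck P.δ3 (k + 1) (P.D * Int.fract y - d) * P.fk (k + 1) d l

/-- argument of the `k`-th shear -/
noncomputable def lk (N' : ℕ) : ℕ → V3 → ℝ
  | 1 => P.uu N'
  | 3 => P.xw
  | 5 => P.xw
  | _ => P.W

/-- direction of the `k`-th shear -/
noncomputable def dk : ℕ → V3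
  | 3 => ![P.Λ, 0, 1 / P.σ.N]
  | 5 => ![P.Λ, 0, 1 / P.σ.N]
  | _ => ![1, 0, 0]

/-- composition of the first `k` shears -/
noncomputable def hk (N' : ℕ) : ℕ → V3 → V3
  | 0, p => p
  | k + 1, p => hk N' k p + P.Fk k (hk N' k p 1) (P.lk N' k (hk N' k p)) • P.dk k

noncomputable def Yf (y : ℝ) : ℝ :=
  Y1 P.D P.Ds P.δ3 y / P.Lt + Y2 P.σ.Ψ P.D P.Ds P.δ3 y / P.Λ

noncomputable def trV (N' : ℕ) (y : ℝ) : V3 :=
  ![P.Rr N' * P.σ.Ψ y, 0, P.Rr N' * P.Yf y / P.σ.N]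

/-- the lift of the conjugacy -/
noncomputable def gL (N' : ℕ) (p : V3) : V3 := P.hk N' 7 p + P.trV N' (p 1)

/-- the new translation vector -/
noncomputable def gam (N' : ℕ) : V3 := ![0, 1 / N', P.σ.P / P.σ.N + P.σ.a / (P.σ.N * N')]

/-- the new normal form in the old coordinates (`sg = ±1`) -/
noncomputable def SL (N' : ℕ) (sg : ℝ) (p : V3) : V3 :=
  p + sg • P.gam N' + (deriv P.Ψ' (P.W p) * (sg / N')) • (![1, 0, 0] : V3)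

/-- increments of the amplitudes -/
noncomputable def Dk (e : ℝ) (k : ℕ) (y l : ℝ) : ℝ :=
  (if k = 0 then deriv P.Ψ' l else 0) * e + P.Fk k (y + e) l - P.Fk k y l

/-- the perturbation -/
noncomputable def nu (N' : ℕ) (sg : ℝ) (p : V3) : V3 :=
  ![P.Rr N' * (P.σ.Ψ (p 1 + sg / N') - P.σ.Ψ (p 1)) - sg * deriv P.σ.Ψ (p 1) / P.σ.N,
    sg / N',
    P.σ.a * (sg / N') / P.σ.N + P.Rr N' * (P.Yf (p 1 + sg / N') - P.Yf (p 1)) / P.σ.N]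
  + ∑ k ∈ Finset.range 7, P.Dk (sg / N') k (p 1) (P.lk N' k (p - P.trV N' (p 1))) • P.dk k

noncomputable def Wc : V3 →L[ℝ] ℝ :=
  (P.σ.N : ℝ) • ContinuousLinearMap.proj (R := ℝ) (φ := fun _ : Fin 3 => ℝ) 2
    - (P.σ.a : ℝ) • ContinuousLinearMap.proj (R := ℝ) (φ := fun _ : Fin 3 => ℝ) 1

/-- low complexity form of the arguments (independent of the new period) -/
noncomputable def lowk : ℕ → V3 →L[ℝ] ℝ
  | 1 => -P.Lt • P.Wc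
  | 3 => (P.Λ : ℝ) • P.Wc - ContinuousLinearMap.proj (R := ℝ) (φ := fun _ : Fin 3 => ℝ) 0
  | 5 => (P.Λ : ℝ) • P.Wc - ContinuousLinearMap.proj (R := ℝ) (φ := fun _ : Fin 3 => ℝ) 0
  | _ => P.Wc

/-- new translation numerator -/
def Pn (N' : ℕ) (α β : ℤ) : ℤ := α + β * ((N' * P.σ.P + P.σ.a) / P.σ.N)
/-- new slope -/
def an (N' : ℕ) (β : ℤ) : ℤ := (β * N' + P.nn) / P.σ.N

/-- `σ'` has the arithmetic data of the new state -/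
def IsNew (N' : ℕ) (α β : ℤ) (σ' : St) : Prop :=
  σ'.N = N' ∧ σ'.P = P.Pn N' α β ∧ σ'.a = P.an N' β ∧ σ'.ns = P.σ.N ∧ σ'.t0 = P.Λ ∧ σ'.Ψ = P.Ψ'

/-- offset of the section -/
noncomputable def y0 (N' : ℕ) (β : ℤ) (q' : T3) : ℝ :=
  (Int.fract (N' * rp (q' 2) - P.an N' β * rp (q' 1)) + Int.fract (P.Λ * rp (q' 1))
    + P.tau1 * rp (q' 1)) / P.Rr N'

/-- `p` is the canonical lift (old coordinates) of the point `q'` (new coordinates) -/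
def IsSec (N' : ℕ) (α β : ℤ) (σ' : St) (q' : T3) (p : V3) : Prop :=
  proj (linL P.σ.N P.σ.a α β p) = q' ∧ p 0 = rp (q' 0) ∧
    p 1 = P.y0 N' β q' + (σ'.pos q' : ℝ) / N' ∧ P.W p = rp (q' 1) + σ'.pos q' * P.σ.P ∧
    ∃ m : ℤ, P.uu N' p = Int.fract (N' * rp (q' 2) - P.an N' β * rp (q' 1)) + m

/-- the good points (new normal coordinates) -/
def GoodPt (N' : ℕ) (β : ℤ) (σ' : St) (μ : ℝ) (q' : T3) : Prop :=
  P.δ2 ≤ ‖(N' : ℤ) • q' 2 - P.an N' β • q' 1‖ ∧ P.δ2 ≤ ‖q' 1‖ ∧ P.δ2 ≤ ‖P.Λ • q' 1‖ ∧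
    μ ≤ ‖P.J' • σ'.xc q'‖ ∧ μ ≤ ‖q' 1 + σ'.xc q'‖

/-- the physical point predicted from the new tower coordinates -/
noncomputable def Xi (N' R : ℕ) (d : ℕ) (J : ℤ) (x : Tc) : T3 :=
  proj ![phs P.lam P.α1 P.α2 P.J' x d
      + P.σ.K * (((J + shf P.s0 P.J' x) / P.σ.N : ℤ) : ℝ) ^ 2 / (2 * R)
      + P.σ.K * ((J : ℝ) / N' - 1 / 2) * (((J + shf P.s0 P.J' x) % P.σ.N : ℤ) : ℝ) / P.σ.N,
    (J : ℝ) / N',
    (P.σ.P * (J + shf P.s0 P.J' x : ℤ) - P.kap d + rp x + P.σ.a * ((J : ℝ) / N')) / P.σ.N]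

end Par

end Crest.Agent.R81
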