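import Crest.Agent.R81.TD0

/-!
# R81: volume preserving smooth diffeomorphisms of the torus: group operations, shears, linear maps,
limits
-/

set_option autoImplicit false

namespace Crest.Agent.R81

open MeasureTheory Crest.AnalysisR.Torus3
open scoped ContDiff

theorem shear_mp (z : Fin 3 → ℤ) {g : T3 → Tc} (hg : Measurable g)
    (hinv : ∀ (q : T3) (x : Tc), g (q + fun i => z i • x) = g q) :
    MeasurePreserving (fun q : T3 => q + fun i => z i • g q) volume volume := by
  have hD : Continuous fun x : Tc => (fun i => z i • x : T3) := by fun_prop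
  have h1 : MeasurePreserving (fun p : Tc × T3 => (id p.1, p.2 + fun i => z i • p.1))
      ((volume : Measure Tc).prod (volume : Measure T3))
      ((volume : Measure Tc).prod (volume : Measure T3)) :=
    (MeasurePreserving.id _).skew_product (g := fun x (q : T3) => q + fun i => z i • x)
      (measurable_snd.add (hD.measurable.comp measurable_fst))
      (Filter.Eventually.of_forall fun x => (measurePreserving_add_right volume _).map_eq)
  have h2 : MeasurePreserving (fun p : T3 × Tc => p.1 + fun i => z i • p.2)
      ((volume : Measure T3).prod (volume : Measure Tc)) (volume : Measure T3) :=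
    measurePreserving_snd.comp (h1.comp Measure.measurePreserving_swap)
  have h3 : MeasurePreserving (fun p : T3 × Tc => (id p.1, p.2 + g p.1))
      ((volume : Measure T3).prod (volume : Measure Tc))
      ((volume : Measure T3).prod (volume : Measure Tc)) :=
    (MeasurePreserving.id _).skew_product (g := fun q x => x + g q)
      (measurable_snd.add (hg.comp measurable_fst))
      (Filter.Eventually.of_forall fun x => (measurePreserving_add_right volume _).map_eq)
  refine MeasurePreserving.of_semiconj h2 h3 (fun p => ?_)
    (measurable_id.add (hD.measurable.comp hg))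
  simp only [id, hinv]
  funext i
  simp only [Pi.add_apply, smul_add, add_assoc]

/-- **Shears.**  Volume: let `f̂` be the continuous function on `T3` induced by `f`, and
`τ t = proj (t • dir)` (`n`-periodic in `t`).  For measurable `φ ≥ 0`, by translation invariance and
`f̂ (q + τ t) = f̂ q`: `∫ φ (q + τ (f̂ q)) dq = ∫ φ (q + τ (t + f̂ q)) dq` for every `t`; average over
`t ∈ [0,n]`, swap the integrals, use periodicity (`Function.Periodic.intervalIntegral_add_eq` or its
`lintegral` analogue, or `t ∈ AddCircle n`) to remove `f̂ q`, and swap back. -/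
theorem exists_shear (dir : V3) (n : ℕ) (hn : 0 < n) (hdir : ∃ z, (n : ℝ) • dir = iv z)
    (f : V3 → ℝ) (hf : ContDiff ℝ ∞ f) (hper : ∀ p z, f (p + iv z) = f p)
    (hinv : ∀ p (t : ℝ), f (p + t • dir) = f p) :
    ∃ T : Equiv.Perm T3, IsTD T ∧ (∀ p, T (proj p) = proj (p + f p • dir)) ∧
      ∀ p, T⁻¹ (proj p) = proj (p - f p • dir) := by
  obtain ⟨z, hz⟩ := hdir
  have hn' : (n : ℝ) ≠ 0 := by exact_mod_cast hn.ne'
  obtain ⟨T, h1, h2⟩ := exists_perm_of_lift (fun p => p + f p • dir) (fun p => p - f p • dir)
    (fun p => by
      have e : f (p - f p • dir) = f p := by rw [sub_eq_add_neg, ← neg_smul, hinv]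
      simp only [e, sub_add_cancel])
    (fun p => by simp only [hinv, add_sub_cancel_right])
    (fun p w => by rw [hper, add_right_comm, proj_add, proj_iv, add_zero])
    (fun p w => by rw [hper, add_sub_right_comm, proj_add, proj_iv, add_zero])
  have l1 : IsSmoothLift T fun p => p + f p • dir :=
    ⟨contDiff_id.add (hf.smul contDiff_const), h1⟩
  refine ⟨T, ⟨⟨⟨_, l1⟩, ⟨_, contDiff_id.sub (hf.smul contDiff_const), h2⟩⟩, ?_⟩, h1, h2⟩
  have hD : ∀ t : ℝ, (fun i => z i • ((t : ℝ) : Tc) : T3) = proj ((t * n) • dir) := fun t => by
    funext i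
    have e := congrFun hz i
    simp only [Pi.smul_apply, smul_eq_mul, iv] at e
    rw [← AddCircle.coe_zsmul, zsmul_eq_mul, ← e]
    simp only [proj, Pi.smul_apply, smul_eq_mul]
    congr 1
    ring
  have hkey : ∀ p, f (fun i => rp (proj p i)) = f p := fun p => by
    obtain ⟨w, hw⟩ := (proj_eq_iff _ _).1 (proj_surj (proj p))
    rw [hw, hper]
  have hm : Measurable fun q : T3 => ((f (fun i => rp (q i)) / n : ℝ) : Tc) :=
    AddCircle.measurable_mk'.comp ((hf.continuous.measurable.comp
      (measurable_pi_lambda _ fun i => measurable_rp.comp (measurable_pi_apply i))).div_const _)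
  have e : ⇑T = fun q : T3 => q + fun i => z i • ((f (fun i => rp (q i)) / n : ℝ) : Tc) := by
    funext q
    rw [hD, div_mul_cancel₀ _ hn']
    conv_lhs => rw [← proj_surj q, h1, proj_add, proj_surj]
  rw [e]
  refine shear_mp z hm fun q x => ?_
  have e2 : (q + fun i => z i • x) = proj ((fun i => rp (q i)) + (rp x * n) • dir) := by
    rw [proj_add, proj_surj, ← hD, coe_rp]
  simp only [e2, hkey, hinv]

end Crest.Agent.R81
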