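import Crest.Agent.R81.Smooth1

/-!
# R81: lifts, `C^k` closeness
-/

set_option autoImplicit false

namespace Crest.Agent.R81

open MeasureTheory Crest.AnalysisR.Torus3
open scoped ContDiff

/-- with lifts `F, G` of `H, H⁻¹` and `S̃` of `S`: `E = (F (S̃ + ν) - F S̃) ∘ G`. -/
theorem conj_close {H : Equiv.Perm T3} (hH : IsSmoothDiffeo H) {S : T3 → T3} {Sl : V3 → V3}
    (hS : IsSmoothLift S Sl) (k : ℕ) {ε : ℝ} (hε : 0 < ε) :
    ∃ η > 0, ∀ S' : T3 → T3, Close k η S S' →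
      Close k ε (fun p => H (S (H⁻¹ p))) (fun p => H (S' (H⁻¹ p))) := by
  obtain ⟨⟨F, hF⟩, G, hG⟩ := hH
  obtain ⟨η₁, hη₁, h1⟩ := small_comp_right (lift_BD hG) k hε
  obtain ⟨η, hη, h2⟩ := small_comp_left (lift_BD hF) (lift_BD hS) k hη₁
  refine ⟨η, hη, fun S' hc => ?_⟩
  obtain ⟨ν, hν, hb, hS'⟩ := hc
  have hE : ContDiff ℝ ∞ fun p => F (Sl p + ν p) - F (Sl p) :=
    (hF.1.comp (hS.1.add hν)).sub (hF.1.comp hS.1)
  have hE' : ContDiff ℝ ∞ fun p => F (Sl (G p) + ν (G p)) - F (Sl (G p)) := hE.comp hG.1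
  have h3 := h1 (fun p => F (Sl p + ν p) - F (Sl p)) hE (h2 ν hν hb)
  refine ⟨fun p => F (Sl (G p) + ν (G p)) - F (Sl (G p)), hE', h3, fun p => ?_⟩
  have e : H⁻¹ (proj p) = proj (G p) := hG.2 p
  beta_reduce
  rw [e, hS', hS.2, ← proj_add, hF.2, hF.2, ← proj_add, add_sub_cancel]

theorem Close.mono {k k' : ℕ} {ε ε' : ℝ} {T T' : T3 → T3} (h : Close k ε T T') (hk : k' ≤ k)
    (hε : ε ≤ ε') : Close k' ε' T T' := by
  obtain ⟨E, h1, h2, h3⟩ := h
  exact ⟨E, h1, fun j hj p => (h2 j (hj.trans hk) p).trans hε, h3⟩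

theorem Close.trans {k : ℕ} {ε ε' : ℝ} {T T' T'' : T3 → T3} (h : Close k ε T T')
    (h' : Close k ε' T' T'') : Close k (ε + ε') T T'' := by
  obtain ⟨E, hE, hb, hT⟩ := h
  obtain ⟨E', hE', hb', hT'⟩ := h'
  refine ⟨fun p => E p + E' p, hE.add hE', fun j hj p => ?_, fun p => ?_⟩
  · rw [fun_iteratedFDeriv_add_apply (hE.of_le (by exact_mod_cast le_top)).contDiffAt
      (hE'.of_le (by exact_mod_cast le_top)).contDiffAt]
    exact norm_add_le_of_le (hb j hj p) (hb' j hj p)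
  · rw [hT', hT, proj_add, add_assoc]

theorem Close.dist_le {k : ℕ} {ε : ℝ} {T T' : T3 → T3} (h : Close k ε T T') (p : T3) :
    dist (T' p) (T p) ≤ ε := by
  obtain ⟨E, -, hb, hT⟩ := h
  rw [← proj_surj p, hT, dist_self_add_left]
  have h0 : proj 0 = 0 := by
    funext i
    simp [proj]
  have h1 := dist_proj_le (E fun i => rp (p i)) 0
  rw [h0, dist_zero_right, dist_zero_right] at h1
  exact h1.trans (by simpa only [norm_iteratedFDeriv_zero] using hb 0 (Nat.zero_le k) _)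

end Crest.Agent.R81
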