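import Crest.Agent.R81.Basic

/-!
# R81: lifts, `C^k` closeness
-/

set_option autoImplicit false

namespace Crest.Agent.R81

open MeasureTheory Crest.AnalysisR.Torus3
open scoped ContDiff

/-- integer vector -/
def iv (z : Fin 3 → ℤ) : V3 := fun i => (z i : ℝ)

theorem proj_iv (z : Fin 3 → ℤ) : proj (iv z) = 0 := by
  funext i; exact coe_intCast (z i)

theorem proj_eq_iff (p q : V3) : proj p = proj q ↔ ∃ z : Fin 3 → ℤ, p = q + iv z := by
  constructor
  · intro h
    choose z hz using fun i => (coe_eq_coe_iff (p i) (q i)).1 (congrFun h i)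
    exact ⟨z, funext hz⟩
  · rintro ⟨z, rfl⟩
    rw [proj_add, proj_iv, add_zero]

theorem continuous_proj : Continuous proj := by
  exact continuous_pi fun i => (AddCircle.continuous_mk' 1).comp (continuous_apply i)

/-- `proj` is an open quotient map (`IsOpenQuotientMap.piMap`, `QuotientAddGroup.isOpenQuotientMap_mk`) -/
theorem continuous_of_comp_proj {X : Type} [TopologicalSpace X] {f : T3 → X}
    (h : Continuous fun p => f (proj p)) : Continuous f := by
  have hq : IsOpenQuotientMap proj :=
    IsOpenQuotientMap.piMap (f := fun (_ : Fin 3) (x : ℝ) => (x : Tc))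
      fun _ => QuotientAddGroup.isOpenQuotientMap_mk
  exact hq.isQuotientMap.continuous_iff.2 h

theorem dist_proj_le (p q : V3) : dist (proj p) (proj q) ≤ dist p q := by
  refine (dist_pi_le_iff dist_nonneg).2 fun i => le_trans ?_ (dist_le_pi_dist p q i)
  rw [dist_eq_norm, dist_eq_norm]
  change ‖((p i : ℝ) : Tc) - ((q i : ℝ) : Tc)‖ ≤ _
  rw [← AddCircle.coe_sub]
  exact QuotientAddGroup.norm_mk_le_norm

theorem lift_continuous {T : T3 → T3} {F : V3 → V3} (h : IsSmoothLift T F) : Continuous T := by
  refine continuous_of_comp_proj ?_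
  simp only [h.2]
  exact continuous_proj.comp h.1.continuous

/-- `p ↦ F (p+z) - F p` is continuous with values in `ℤ³`, hence constant. -/
theorem lift_int_shift {T : T3 → T3} {F : V3 → V3} (h : IsSmoothLift T F) (z : Fin 3 → ℤ) :
    ∃ w : Fin 3 → ℤ, ∀ p, F (p + iv z) = F p + iv w := by
  have h1 : ∀ p, ∃ w : Fin 3 → ℤ, F (p + iv z) = F p + iv w := fun p => by
    rw [← proj_eq_iff, ← h.2, ← h.2, proj_add, proj_iv, add_zero]
  choose w hw using h1
  have hc : Continuous w := continuous_pi fun i => by
    rw [Int.isClosedEmbedding_coe_real.isEmbedding.continuous_iff]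
    have : ((↑) : ℤ → ℝ) ∘ (fun p => w p i) = fun p => F (p + iv z) i - F p i := by
      funext p
      rw [hw p]
      simp [iv]
    rw [this]
    have := h.1.continuous
    fun_prop
  refine ⟨w 0, fun p => ?_⟩
  rw [hw p, PreconnectedSpace.constant inferInstance hc (x := p) (y := 0)]

/-- all derivatives of positive order are bounded -/
def BD {E F : Type} [NormedAddCommGroup E] [NormedSpace ℝ E] [NormedAddCommGroup F]
    [NormedSpace ℝ F] (f : E → F) : Prop :=
  ContDiff ℝ ∞ f ∧ ∀ j : ℕ, 1 ≤ j → ∃ C : ℝ, ∀ p, ‖iteratedFDeriv ℝ j f p‖ ≤ C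

/-- derivatives of positive order are `ℤ³`-periodic and continuous, so bounded on the unit cube. -/
theorem lift_BD {T : T3 → T3} {F : V3 → V3} (h : IsSmoothLift T F) : BD F := by
  refine ⟨h.1, fun j hj => ?_⟩
  have hper : ∀ p z, iteratedFDeriv ℝ j F (p + iv z) = iteratedFDeriv ℝ j F p := fun p z => by
    obtain ⟨w, hw⟩ := lift_int_shift h z
    rw [← iteratedFDeriv_comp_add_right]
    simp only [hw]
    rw [fun_iteratedFDeriv_add_apply (h.1.of_le (by exact_mod_cast le_top)).contDiffAt
      contDiffAt_const, iteratedFDeriv_const_of_ne (by omega)]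
    simp
  obtain ⟨C, hC⟩ := (isCompact_Icc (a := (0 : V3)) (b := 1)).exists_bound_of_continuousOn
    (h.1.continuous_iteratedFDeriv (m := j) (by exact_mod_cast le_top)).continuousOn
  refine ⟨C, fun p => ?_⟩
  have e : p = (fun i => Int.fract (p i)) + iv fun i => ⌊p i⌋ := by
    funext i
    simp [iv]
  rw [e, hper]
  exact hC _ ⟨fun i => Int.fract_nonneg _, fun i => (Int.fract_lt_one _).le⟩

end Crest.Agent.R81
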