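import Crest.Agent.R81.Smooth0

/-!
# R81: lifts, `C^k` closeness
-/

set_option autoImplicit false

namespace Crest.Agent.R81

open MeasureTheory Crest.AnalysisR.Torus3
open scoped ContDiff

theorem sm1_top (j : ℕ) : (j : WithTop ℕ∞) ≤ ∞ := by exact_mod_cast le_top

theorem BD.exists_bound {g : V3 → V3} (hg : BD g) (k : ℕ) :
    ∃ D : ℝ, 1 ≤ D ∧ ∀ i, 1 ≤ i → i ≤ k → ∀ p, ‖iteratedFDeriv ℝ i g p‖ ≤ D := by
  induction k with
  | zero => exact ⟨1, le_rfl, fun i h1 h2 => by omega⟩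
  | succ k ih =>
    obtain ⟨D, hD, h⟩ := ih
    obtain ⟨C, hC⟩ := hg.2 (k + 1) (by omega)
    refine ⟨max D C, hD.trans (le_max_left _ _), fun i h1 h2 p => ?_⟩
    rcases h2.eq_or_lt with rfl | h3
    · exact (hC p).trans (le_max_right _ _)
    · exact (h i h1 (by omega) p).trans (le_max_left _ _)

theorem sm1_fac {j k : ℕ} (hj : j ≤ k) {D c : ℝ} (hD : 1 ≤ D) (hc : 0 ≤ c) :
    (j.factorial : ℝ) * c * D ^ j ≤ c * (k.factorial * D ^ k) := by
  have h1 : (j.factorial : ℝ) ≤ k.factorial := by exact_mod_cast Nat.factorial_le hj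
  have h2 : D ^ j ≤ D ^ k := pow_le_pow_right₀ hD hj
  calc (j.factorial : ℝ) * c * D ^ j = c * (j.factorial * D ^ j) := by ring
    _ ≤ _ := by gcongr

theorem sm1_lip {Φ : V3 → V3} (hΦ : BD Φ) (i : ℕ) : ∃ C : ℝ, 0 ≤ C ∧
    ∀ x y, ‖iteratedFDeriv ℝ i Φ y - iteratedFDeriv ℝ i Φ x‖ ≤ C * ‖y - x‖ := by
  obtain ⟨C, hC⟩ := hΦ.2 (i + 1) (by omega)
  refine ⟨C, (norm_nonneg _).trans (hC 0), fun x y => ?_⟩
  have hd : Differentiable ℝ fun x => iteratedFDeriv ℝ i Φ x :=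
    hΦ.1.differentiable_iteratedFDeriv (by exact_mod_cast ENat.coe_lt_top i)
  exact convex_univ.norm_image_sub_le_of_norm_fderiv_le (𝕜 := ℝ) (fun x _ => hd x)
    (fun x _ => norm_fderiv_iteratedFDeriv.trans_le (hC x)) (Set.mem_univ x) (Set.mem_univ y)

theorem sm1_bd {Φ : V3 → V3} (hΦ : BD Φ) (i : ℕ) : ∃ C : ℝ, 0 ≤ C ∧
    ∀ x, ‖iteratedFDeriv ℝ i Φ x‖ * i ≤ C := by
  rcases Nat.eq_zero_or_pos i with rfl | hi
  · exact ⟨0, le_rfl, fun x => by simp⟩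
  · obtain ⟨C, hC⟩ := hΦ.2 i hi
    have h0 : 0 ≤ C := (norm_nonneg _).trans (hC 0)
    exact ⟨C * i, by positivity, fun x => by gcongr; exact hC x⟩

/-- the linear map `(u, s) ↦ u + η s` -/
noncomputable def sm1A (η : ℝ) : V3 × V3 →L[ℝ] V3 :=
  ContinuousLinearMap.fst ℝ V3 V3 + η • ContinuousLinearMap.snd ℝ V3 V3

theorem sm1A_apply (η : ℝ) (w : V3 × V3) : sm1A η w = w.1 + η • w.2 := rfl

theorem sm1A_sub {η : ℝ} (h0 : 0 ≤ η) : ‖sm1A η - sm1A 0‖ ≤ η := by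
  refine ContinuousLinearMap.opNorm_le_bound _ h0 fun w => ?_
  rw [ContinuousLinearMap.sub_apply, sm1A_apply, sm1A_apply, zero_smul, add_zero,
    add_sub_cancel_left, norm_smul, Real.norm_of_nonneg h0]
  exact mul_le_mul_of_nonneg_left (norm_snd_le w) h0

theorem sm1A_le {η : ℝ} (h0 : 0 ≤ η) (h1 : η ≤ 1) : ‖sm1A η‖ ≤ 2 := by
  refine ContinuousLinearMap.opNorm_le_bound _ zero_le_two fun w => ?_
  rw [sm1A_apply]
  refine (norm_add_le _ _).trans ?_
  rw [norm_smul, Real.norm_of_nonneg h0]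
  nlinarith [norm_fst_le w, norm_snd_le w, norm_nonneg w.2]

theorem sm1_one {Φ : V3 → V3} (hΦ : BD Φ) (i : ℕ) : ∃ K : ℝ, 0 ≤ K ∧ ∀ η : ℝ, 0 ≤ η → η ≤ 1 →
    ∀ w : V3 × V3, ‖w.2‖ ≤ 1 →
      ‖iteratedFDeriv ℝ i (fun w => Φ (sm1A η w) - Φ (sm1A 0 w)) w‖ ≤ K * η := by
  obtain ⟨C, hC0, hC⟩ := sm1_lip hΦ i
  obtain ⟨B, hB0, hB⟩ := sm1_bd hΦ i
  refine ⟨C * 2 ^ i + B * 2 ^ (i - 1), by positivity, fun η h0 h1 w hw => ?_⟩
  have hc : ∀ t, ContDiff ℝ ∞ (Φ ∘ sm1A t) := fun t => hΦ.1.comp (sm1A t).contDiff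
  have e := fun_iteratedFDeriv_sub_apply (𝕜 := ℝ) (i := i) (x := w)
    ((hc η).of_le (sm1_top i)).contDiffAt ((hc 0).of_le (sm1_top i)).contDiffAt
  rw [(sm1A η).iteratedFDeriv_comp_right hΦ.1 w (sm1_top i),
    (sm1A 0).iteratedFDeriv_comp_right hΦ.1 w (sm1_top i)] at e
  refine (congrArg norm e).trans_le ?_
  set M' := iteratedFDeriv ℝ i Φ (sm1A η w)
  set M := iteratedFDeriv ℝ i Φ (sm1A 0 w)
  have e2 : (M'.compContinuousLinearMap fun _ => sm1A η) -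
      (M.compContinuousLinearMap fun _ => sm1A 0) =
      ((M' - M).compContinuousLinearMap fun _ => sm1A η) +
        (M.compContinuousLinearMapLRight (fun _ => sm1A η) -
          M.compContinuousLinearMapLRight fun _ => sm1A 0) := by
    ext v
    simp
  have h3 : ‖M' - M‖ ≤ C * η := by
    refine (hC _ _).trans (mul_le_mul_of_nonneg_left ?_ hC0)
    rw [← ContinuousLinearMap.sub_apply, sm1A, sm1A]
    simp only [zero_smul, add_zero, add_sub_cancel_left, ContinuousLinearMap.smul_apply,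
      ContinuousLinearMap.coe_snd', norm_smul, Real.norm_of_nonneg h0]
    exact mul_le_of_le_one_right h0 hw
  have h4 : ‖(M' - M).compContinuousLinearMap fun _ => sm1A η‖ ≤ C * η * 2 ^ i := by
    refine (ContinuousMultilinearMap.norm_compContinuousLinearMap_le _ _).trans ?_
    rw [Finset.prod_const, Finset.card_univ, Fintype.card_fin]
    have := sm1A_le h0 h1
    gcongr
  have h5 : ‖M.compContinuousLinearMapLRight (fun _ => sm1A η) -
      M.compContinuousLinearMapLRight fun _ => sm1A 0‖ ≤ B * 2 ^ (i - 1) * η := by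
    refine (ContinuousMultilinearMap.norm_image_sub_le _ _ _).trans ?_
    rw [Fintype.card_fin]
    have a1 : ‖M.compContinuousLinearMapLRight (E := fun _ : Fin i => V3 × V3)‖ * i ≤ B :=
      (mul_le_mul_of_nonneg_right (ContinuousMultilinearMap.norm_compContinuousLinearMapLRight_le _ M)
        (Nat.cast_nonneg i)).trans (hB _)
    have a2 : max ‖fun _ : Fin i => sm1A η‖ ‖fun _ : Fin i => sm1A 0‖ ≤ 2 :=
      max_le ((pi_norm_le_iff_of_nonneg zero_le_two).2 fun _ => sm1A_le h0 h1)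
        ((pi_norm_le_iff_of_nonneg zero_le_two).2 fun _ => sm1A_le le_rfl zero_le_one)
    have a3 : ‖(fun _ : Fin i => sm1A η) - fun _ : Fin i => sm1A 0‖ ≤ η :=
      (pi_norm_le_iff_of_nonneg h0).2 fun _ => sm1A_sub h0
    gcongr
  rw [e2]
  refine (norm_add_le_of_le h4 h5).trans_eq (by ring)

theorem sm1_all {Φ : V3 → V3} (hΦ : BD Φ) (k : ℕ) : ∃ K : ℝ, 0 < K ∧ ∀ η : ℝ, 0 ≤ η → η ≤ 1 →
    ∀ i ≤ k, ∀ w : V3 × V3, ‖w.2‖ ≤ 1 →
      ‖iteratedFDeriv ℝ i (fun w => Φ (sm1A η w) - Φ (sm1A 0 w)) w‖ ≤ K * η := by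
  choose K hK0 hK using sm1_one hΦ
  have h1 : 0 ≤ ∑ i ∈ Finset.range (k + 1), K i := Finset.sum_nonneg fun i _ => hK0 i
  refine ⟨∑ i ∈ Finset.range (k + 1), K i + 1, by linarith, fun η h0 hη i hi w hw => ?_⟩
  refine (hK i η h0 hη w hw).trans (mul_le_mul_of_nonneg_right ?_ h0)
  have := Finset.single_le_sum (f := K) (fun i _ => hK0 i) (Finset.mem_range.2 (Nat.lt_succ_of_le hi))
  linarith

/-- `norm_iteratedFDeriv_comp_le` with `C = η`, `D ≥ 1` bounding the derivatives of `g`. -/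
theorem small_comp_right {g : V3 → V3} (hg : BD g) (k : ℕ) {ε : ℝ} (hε : 0 < ε) :
    ∃ η > 0, ∀ E : V3 → V3, ContDiff ℝ ∞ E → (∀ j ≤ k, ∀ p, ‖iteratedFDeriv ℝ j E p‖ ≤ η) →
      ∀ j ≤ k, ∀ p, ‖iteratedFDeriv ℝ j (fun p => E (g p)) p‖ ≤ ε := by
  obtain ⟨D, hD, h⟩ := hg.exists_bound k
  have hp : 0 < (k.factorial : ℝ) * D ^ k := by positivity
  refine ⟨ε / (k.factorial * D ^ k), by positivity, fun E hE hb j hj p => ?_⟩
  refine (norm_iteratedFDeriv_comp_le hE hg.1 (sm1_top j) p (D := D)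
    (fun i hi => hb i (hi.trans hj) _)
    fun i h1 hi => (h i h1 (hi.trans hj) p).trans (le_self_pow₀ hD (by omega))).trans ?_
  exact (sm1_fac hj hD (by positivity)).trans_eq (div_mul_cancel₀ _ hp.ne')

/-- Let `Φ̃ (u,s) = Φ (u+s) - Φ u` on `V3 × V3` and `L_η (u,s) = (u, η s)`.  Write `ν = η ν̂`; the map is
`(Φ̃ ∘ L_η) ∘ (S, ν̂)`.  All derivatives of `(S, ν̂)` of order `1..k` are bounded independently of `η`,
so by `norm_iteratedFDeriv_comp_le` it suffices to see that the derivatives of order `i ≤ k` of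
`Φ̃ ∘ L_η` at points `(u,ŝ)`, `‖ŝ‖ ≤ 1`, are `O(η)`.  With `A (u,s) = u + η s`, `B (u,s) = u`:
`D^i(Φ∘A) - D^i(Φ∘B) = (D^iΦ(u+ηŝ)).compContinuousLinearMap A - (D^iΦ u).compContinuousLinearMap B`
(`ContinuousLinearMap.iteratedFDeriv_comp_right`), `‖A - B‖ ≤ η`; `D^iΦ` is Lipschitz (mean value
inequality with the bound on `D^{i+1}Φ`, `norm_fderiv_iteratedFDeriv`) and bounded for `i ≥ 1`;
`compContinuousLinearMap` is Lipschitz in the linear maps on bounded sets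
(`ContinuousMultilinearMap.compContinuousLinearMapContinuousMultilinear`,
`ContinuousMultilinearMap.norm_image_sub_le`).  Any other proof (e.g. induction on `k` with the chain
rule, generalising the target space) is fine. -/
theorem small_comp_left {Φ S : V3 → V3} (hΦ : BD Φ) (hS : BD S) (k : ℕ) {ε : ℝ} (hε : 0 < ε) :
    ∃ η > 0, ∀ ν : V3 → V3, ContDiff ℝ ∞ ν → (∀ j ≤ k, ∀ p, ‖iteratedFDeriv ℝ j ν p‖ ≤ η) →
      ∀ j ≤ k, ∀ p, ‖iteratedFDeriv ℝ j (fun p => Φ (S p + ν p) - Φ (S p)) p‖ ≤ ε := by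
  obtain ⟨D, hD, h⟩ := hS.exists_bound k
  obtain ⟨K, hK0, hK⟩ := sm1_all hΦ k
  have hp : 0 < (k.factorial : ℝ) * D ^ k := by positivity
  refine ⟨min 1 (ε / (K * (k.factorial * D ^ k))), by positivity, fun ν hν hb j hj p => ?_⟩
  set η := min 1 (ε / (K * (k.factorial * D ^ k))) with hηdef
  have hη : 0 < η := by positivity
  have hν' : ContDiff ℝ ∞ fun p => η⁻¹ • ν p := hν.const_smul _
  have hb' : ∀ i ≤ k, ‖iteratedFDeriv ℝ i (fun p => η⁻¹ • ν p) p‖ ≤ 1 := fun i hi => by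
    rw [iteratedFDeriv_const_smul_apply' (hν.of_le (sm1_top i)).contDiffAt, norm_smul,
      Real.norm_of_nonneg (inv_nonneg.2 hη.le), inv_mul_le_iff₀ hη, mul_one]
    exact hb i hi p
  have e : (fun p => Φ (S p + ν p) - Φ (S p)) =
      (fun w => Φ (sm1A η w) - Φ (sm1A 0 w)) ∘ fun p => (S p, η⁻¹ • ν p) := by
    funext p
    simp only [Function.comp_apply, sm1A_apply, zero_smul, add_zero, smul_inv_smul₀ hη.ne']
  have hc : ContDiff ℝ ∞ fun w => Φ (sm1A η w) - Φ (sm1A 0 w) :=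
    (hΦ.1.comp (sm1A η).contDiff).sub (hΦ.1.comp (sm1A 0).contDiff)
  rw [e]
  refine (norm_iteratedFDeriv_comp_le hc (hS.1.prodMk hν') (sm1_top j) p (D := D) (C := K * η)
    (fun i hi => hK η hη.le (min_le_left _ _) i (hi.trans hj) _ ?_) fun i h1 hi => ?_).trans ?_
  · simpa only [norm_iteratedFDeriv_zero] using hb' 0 (Nat.zero_le k)
  · rw [iteratedFDeriv_prodMk hS.1.contDiffAt hν'.contDiffAt (sm1_top i),
      ContinuousMultilinearMap.opNorm_prod]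
    exact (max_le (h i h1 (hi.trans hj) p) ((hb' i (hi.trans hj)).trans hD)).trans
      (le_self_pow₀ hD (by omega))
  · refine (sm1_fac hj hD (by positivity)).trans ?_
    have h2 : η ≤ ε / (K * (k.factorial * D ^ k)) := min_le_right _ _
    rw [le_div_iff₀ (by positivity)] at h2
    linarith

end Crest.Agent.R81
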