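import Crest.Agent.R81.Link

/-!
# R81: stability under `C⁰` perturbations, `L²` limits
-/

set_option autoImplicit false

namespace Crest.Agent.R81

open MeasureTheory Crest.AnalysisR.Torus3 Filter Topology

theorem stab_step {S : T3 → T3} (hS : Continuous S) {ε : ℝ} (hε : 0 < ε) :
    ∃ δ > 0, ∀ x x' y : T3, dist x' x ≤ δ → dist y (S x') ≤ δ → dist y (S x) ≤ ε := by
  have hu : UniformContinuous S := CompactSpace.uniformContinuous_of_continuous hS
  obtain ⟨δ, hδ, h⟩ := Metric.uniformContinuous_iff.1 hu (ε / 2) (by positivity)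
  refine ⟨min (δ / 2) (ε / 2), by positivity, fun x x' y h1 h2 => ?_⟩
  have h3 : dist (S x') (S x) < ε / 2 :=
    h (lt_of_le_of_lt (h1.trans (min_le_left _ _)) (by linarith))
  have h4 := h2.trans (min_le_right _ _)
  linarith [dist_triangle y (S x') (S x)]

/-- induction on `k` (`Int.induction_on`), uniform continuity of `T` and `T⁻¹` -/
theorem zpow_stab {T : Equiv.Perm T3} (hT : IsTD T) (k : ℤ) {ε : ℝ} (hε : 0 < ε) :
    ∃ η > 0, ∀ T' : Equiv.Perm T3,
      (∀ p, dist (T' p) (T p) ≤ η ∧ dist (T'⁻¹ p) (T⁻¹ p) ≤ η) →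
      ∀ p, dist ((T' ^ k) p) ((T ^ k) p) ≤ ε := by
  induction k using Int.induction_on generalizing ε with
  | zero => exact ⟨1, one_pos, fun T' _ p => by simpa using hε.le⟩
  | succ n ih =>
    obtain ⟨δ, hδ, h⟩ := stab_step hT.continuous hε
    obtain ⟨η, hη, h'⟩ := ih hδ
    refine ⟨min η δ, by positivity, fun T' hT' p => ?_⟩
    rw [add_comm, zpow_one_add, zpow_one_add, Equiv.Perm.mul_apply, Equiv.Perm.mul_apply]
    exact h _ _ _ (h' T' (fun q => ⟨(hT' q).1.trans (min_le_left _ _),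
      (hT' q).2.trans (min_le_left _ _)⟩) p) ((hT' _).1.trans (min_le_right _ _))
  | pred n ih =>
    obtain ⟨δ, hδ, h⟩ := stab_step hT.inv.continuous hε
    obtain ⟨η, hη, h'⟩ := ih hδ
    refine ⟨min η δ, by positivity, fun T' hT' p => ?_⟩
    have e : ∀ U : Equiv.Perm T3, U ^ (-(n : ℤ) - 1) = U⁻¹ * U ^ (-(n : ℤ)) := fun U => by
      rw [sub_eq_add_neg, add_comm, zpow_add, zpow_neg_one]
    rw [e, e, Equiv.Perm.mul_apply, Equiv.Perm.mul_apply]
    exact h _ _ _ (h' T' (fun q => ⟨(hT' q).1.trans (min_le_left _ _),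
      (hT' q).2.trans (min_le_left _ _)⟩) p) ((hT' _).2.trans (min_le_right _ _))

theorem stab {T : Equiv.Perm T3} (hT : IsTD T) (f : C(T3, ℝ)) (A : Finset ℤ) (a : ℤ → ℂ) {ε : ℝ}
    (hε : 0 < ε) :
    ∃ η > 0, ∀ T' : Equiv.Perm T3,
      (∀ p, dist (T' p) (T p) ≤ η ∧ dist (T'⁻¹ p) (T⁻¹ p) ≤ η) →
      ∀ f' : C(T3, ℝ), ‖f' - f‖ ≤ η →
      ∀ p, ‖flt T' A a (fun q => (f' q : ℂ)) p - flt T A a (fun q => (f q : ℂ)) p‖ ≤ ε := by
  classical
  induction A using Finset.induction_on generalizing ε with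
  | empty => exact ⟨1, one_pos, fun T' _ f' _ p => by simpa [flt] using hε.le⟩
  | insert k A hk ih =>
    obtain ⟨η, hη, h⟩ := ih (half_pos hε)
    set c : ℝ := ε / 2 / (‖a k‖ + 1) / 2 with hc
    have hc0 : 0 < c := by positivity
    have hu : UniformContinuous f := CompactSpace.uniformContinuous_of_continuous f.continuous
    obtain ⟨δ, hδ, hf⟩ := Metric.uniformContinuous_iff.1 hu c hc0
    obtain ⟨η', hη', h'⟩ := zpow_stab hT k (half_pos hδ)
    refine ⟨min (min η η') c, by positivity, fun T' hT' f' hf' p => ?_⟩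
    have a1 : min (min η η') c ≤ η := (min_le_left _ _).trans (min_le_left _ _)
    have a2 : min (min η η') c ≤ η' := (min_le_left _ _).trans (min_le_right _ _)
    have a3 : min (min η η') c ≤ c := min_le_right _ _
    have b1 := h T' (fun q => ⟨(hT' q).1.trans a1, (hT' q).2.trans a1⟩) f' (hf'.trans a1) p
    have b2 := h' T' (fun q => ⟨(hT' q).1.trans a2, (hT' q).2.trans a2⟩) p
    have b3 : dist (f ((T' ^ k) p)) (f ((T ^ k) p)) < c := hf (by linarith)
    have b4 : ‖f' ((T' ^ k) p) - f ((T' ^ k) p)‖ ≤ c :=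
      ((f' - f).norm_coe_le_norm _).trans (hf'.trans a3)
    have b5 : ‖(f' ((T' ^ k) p) : ℂ) - (f ((T ^ k) p) : ℂ)‖ ≤ 2 * c := by
      rw [← Complex.ofReal_sub, Complex.norm_real]
      rw [dist_eq_norm] at b3
      have := norm_add_le (f' ((T' ^ k) p) - f ((T' ^ k) p)) (f ((T' ^ k) p) - f ((T ^ k) p))
      rw [sub_add_sub_cancel] at this
      linarith
    have b6 : ‖a k * ((f' ((T' ^ k) p) : ℂ) - (f ((T ^ k) p) : ℂ))‖ ≤ ε / 2 := by
      rw [norm_mul]
      have h1 : ‖a k‖ * ‖(f' ((T' ^ k) p) : ℂ) - (f ((T ^ k) p) : ℂ)‖ ≤ (‖a k‖ + 1) * (2 * c) := by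
        gcongr; linarith
      have h2 : (‖a k‖ + 1) * (2 * c) = ε / 2 := by rw [hc]; field_simp
      linarith
    have e : flt T' (insert k A) a (fun q => (f' q : ℂ)) p -
        flt T (insert k A) a (fun q => (f q : ℂ)) p =
        a k * ((f' ((T' ^ k) p) : ℂ) - (f ((T ^ k) p) : ℂ)) +
        (flt T' A a (fun q => (f' q : ℂ)) p - flt T A a (fun q => (f q : ℂ)) p) := by
      unfold flt
      rw [Finset.sum_insert hk, Finset.sum_insert hk]
      ring
    rw [e]
    refine (norm_add_le _ _).trans ?_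
    linarith

/-- approximate `v` in `L²` by a continuous function (`MemLp.exists_boundedContinuous_eLpNorm_sub_le`
or similar), use `n2_comp` and `zpow_stab` (for `Ti`). -/
theorem comp_tendsto {Ti : Equiv.Perm T3} (hTi : IsTD Ti) (T : ℕ → Equiv.Perm T3)
    (hT : ∀ n, IsTD (T n)) (τ : ℕ → ℝ) (hτ : Tendsto τ atTop (𝓝 0))
    (hd : ∀ n p, dist (Ti p) (T n p) ≤ τ n ∧ dist (Ti⁻¹ p) ((T n)⁻¹ p) ≤ τ n)
    {v : T3 → ℂ} (hv : MemLp v 2 volume) (k : ℤ) :
    Tendsto (fun n => n2 fun p => v ((T n ^ k) p) - v ((Ti ^ k) p)) atTop (𝓝 0) := by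
  rw [Metric.tendsto_atTop]
  intro ε hε
  have hε4 : 0 < ε / 4 := by positivity
  obtain ⟨g, hg, hgm⟩ := hv.exists_boundedContinuous_eLpNorm_sub_le (by norm_num)
    (ε := ENNReal.ofReal (ε / 4)) (by simpa using hε)
  have hg' : n2 (fun p => v p - g p) ≤ ε / 4 := by
    change lpNorm (v - ⇑g) 2 volume ≤ _
    rw [← toReal_eLpNorm (hv.sub hgm).1]
    exact ENNReal.toReal_le_of_le_ofReal hε4.le hg
  have hu : UniformContinuous g := CompactSpace.uniformContinuous_of_continuous g.continuous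
  obtain ⟨δ, hδ, hf⟩ := Metric.uniformContinuous_iff.1 hu (ε / 4) hε4
  obtain ⟨η, hη, h⟩ := zpow_stab hTi k (half_pos hδ)
  obtain ⟨n0, hn0⟩ := Metric.tendsto_atTop.1 hτ η hη
  refine ⟨n0, fun n hn => ?_⟩
  have hτn : τ n ≤ η := by
    have := hn0 n hn
    rw [Real.dist_eq, sub_zero] at this
    exact (le_abs_self _).trans this.le
  have h1 := h (T n) fun p => ⟨(dist_comm _ _).trans_le ((hd n p).1.trans hτn),
    (dist_comm _ _).trans_le ((hd n p).2.trans hτn)⟩
  have m1 := ((hT n).zpow k).2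
  have m2 := (hTi.zpow k).2
  have c1 : n2 (fun p => v ((T n ^ k) p) - g ((T n ^ k) p)) ≤ ε / 4 :=
    (n2_comp m1 (f := fun p => v p - g p) (hv.sub hgm).1).trans_le hg'
  have c2 : n2 (fun p => g ((Ti ^ k) p) - v ((Ti ^ k) p)) ≤ ε / 4 := by
    rw [n2_sub_comm]
    exact (n2_comp m2 (f := fun p => v p - g p) (hv.sub hgm).1).trans_le hg'
  have c3 : n2 (fun p => g ((T n ^ k) p) - g ((Ti ^ k) p)) ≤ ε / 4 := by
    refine n2_le_bound (fun p => ?_) hε4.le
    rw [← dist_eq_norm]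
    exact (hf (by linarith [h1 p])).le
  have d1 := n2_sub_le (f := fun p => v ((T n ^ k) p)) (g := fun p => g ((T n ^ k) p))
    (h := fun p => v ((Ti ^ k) p)) (hv.comp_measurePreserving m1) (hgm.comp_measurePreserving m1)
  have d2 := n2_sub_le (f := fun p => g ((T n ^ k) p)) (g := fun p => g ((Ti ^ k) p))
    (h := fun p => v ((Ti ^ k) p)) (hgm.comp_measurePreserving m1) (hgm.comp_measurePreserving m2)
  rw [Real.dist_eq, sub_zero, abs_of_nonneg (n2_nonneg _)]
  linarith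

/-- Cauchy–Schwarz -/
theorem norm_integral_mul_le {α : Type} [MeasureSpace α] {u v : α → ℂ} (hu : MemLp u 2 volume)
    (hv : MemLp v 2 volume) : ‖∫ x, u x * v x‖ ≤ n2 u * n2 v := by
  refine (norm_integral_le_integral_norm _).trans ?_
  have h := integral_mul_norm_le_Lp_mul_Lq (μ := (volume : Measure α)) Real.HolderConjugate.two_two
    (f := u) (g := v) (by simpa using hu) (by simpa using hv)
  simp only [norm_mul]
  refine h.trans (le_of_eq ?_)
  rw [n2_eq_sqrt hu.1, n2_eq_sqrt hv.1, Real.sqrt_eq_rpow, Real.sqrt_eq_rpow]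
  simp

/-- the bilinear pairing is continuous on `L² × L²` -/
theorem stab_pair {α : Type} [MeasureSpace α] {u w : ℕ → α → ℂ} {ui wi : α → ℂ}
    (hu : ∀ n, MemLp (u n) 2 volume) (hw : ∀ n, MemLp (w n) 2 volume) (hui : MemLp ui 2 volume)
    (hwi : MemLp wi 2 volume) (h1 : Tendsto (fun n => n2 fun p => u n p - ui p) atTop (𝓝 0))
    (h2 : Tendsto (fun n => n2 fun p => w n p - wi p) atTop (𝓝 0)) :
    Tendsto (fun n => ∫ p, u n p * w n p) atTop (𝓝 (∫ p, ui p * wi p)) := by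
  rw [tendsto_iff_norm_sub_tendsto_zero]
  have hb : Tendsto (fun n => n2 (fun p => u n p - ui p) * (n2 (fun p => w n p - wi p) + n2 wi) +
      n2 ui * n2 (fun p => w n p - wi p)) atTop (𝓝 0) := by
    have := (h1.mul (h2.add_const (n2 wi))).add (h2.const_mul (n2 ui))
    simpa using this
  refine squeeze_zero (fun _ => norm_nonneg _) (fun n => ?_) hb
  have i1 : Integrable (fun p => u n p * w n p) := (hu n).integrable_mul (hw n)
  have i2 : Integrable (fun p => ui p * wi p) := hui.integrable_mul hwi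
  have i3 : Integrable (fun p => (u n p - ui p) * w n p) := ((hu n).sub hui).integrable_mul (hw n)
  have i4 : Integrable (fun p => ui p * (w n p - wi p)) := hui.integrable_mul ((hw n).sub hwi)
  have e : (∫ p, u n p * w n p) - ∫ p, ui p * wi p =
      (∫ p, (u n p - ui p) * w n p) + ∫ p, ui p * (w n p - wi p) := by
    rw [← integral_sub i1 i2, ← integral_add i3 i4]
    congr 1; funext p; ring
  rw [e]
  refine (norm_add_le _ _).trans (add_le_add ?_ ?_)
  · refine (norm_integral_mul_le (u := fun p => u n p - ui p) ((hu n).sub hui) (hw n)).trans ?_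
    refine mul_le_mul_of_nonneg_left ?_ (n2_nonneg _)
    have := n2_add_le (f := fun p => w n p - wi p) (g := wi) ((hw n).sub hwi)
    simpa using this
  · exact norm_integral_mul_le (v := fun p => w n p - wi p) hui ((hw n).sub hwi)

theorem stab_n2_eq {α E F : Type} [MeasureSpace α] [NormedAddCommGroup E] [NormedAddCommGroup F]
    {f : α → E} {g : α → F} (hf : AEStronglyMeasurable f volume)
    (hg : AEStronglyMeasurable g volume) (h : ∀ x, ‖f x‖ = ‖g x‖) : n2 f = n2 g := by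
  rw [← n2_norm hf, ← n2_norm hg]
  simp only [h]

/-- both sides of the correlation identity pass to the limit -/
theorem hasD_of_tendsto {Ti : Equiv.Perm T3} (hTi : IsTD Ti) (T : ℕ → Equiv.Perm T3)
    (hT : ∀ n, IsTD (T n)) (τ : ℕ → ℝ) (hτ : Tendsto τ atTop (𝓝 0))
    (hd : ∀ n p, dist (Ti p) (T n p) ≤ τ n ∧ dist (Ti⁻¹ p) ((T n)⁻¹ p) ≤ τ n)
    (v : ℕ → T3 → ℂ) (s : ℕ → Tc → ℝ) (hv : ∀ n, MemLp (v n) 2 volume)
    (hs : ∀ n, MemLp (s n) 2 volume) {vi : T3 → ℂ} {si : Tc → ℝ} (hvi : MemLp vi 2 volume)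
    (hsi : MemLp si 2 volume) (h1 : Tendsto (fun n => n2 fun p => v n p - vi p) atTop (𝓝 0))
    (h2 : Tendsto (fun n => n2 fun θ => s n θ - si θ) atTop (𝓝 0))
    (hc : ∀ k : ℤ, ∀ᶠ n in atTop, ∫ p, (starRingEnd ℂ) (v n p) * v n ((T n ^ k) p)
      = ∫ θ, fourier k θ * ((s n θ : ℝ) : ℂ) ^ 2) : HasD Ti vi si := by
  intro k
  have mi := (hTi.zpow k).2
  have mn := fun n => ((hT n).zpow k).2
  have cj : ∀ {f : T3 → ℂ}, MemLp f 2 volume → MemLp (fun p => (starRingEnd ℂ) (f p)) 2 volume :=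
    fun {f} hf => hf.star
  have L : Tendsto (fun n => ∫ p, (starRingEnd ℂ) (v n p) * v n ((T n ^ k) p)) atTop
      (𝓝 (∫ p, (starRingEnd ℂ) (vi p) * vi ((Ti ^ k) p))) := by
    refine stab_pair (u := fun n p => (starRingEnd ℂ) (v n p)) (w := fun n p => v n ((T n ^ k) p))
      (fun n => cj (hv n)) (fun n => (hv n).comp_measurePreserving (mn n)) (cj hvi)
      (hvi.comp_measurePreserving mi) ?_ ?_
    · refine h1.congr fun n => stab_n2_eq ((hv n).sub hvi).1 ((cj (hv n)).sub (cj hvi)).1 fun x => ?_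
      rw [← map_sub, Complex.norm_conj]; rfl
    · have h3 := comp_tendsto hTi T hT τ hτ hd hvi k
      have h4 := h1.add h3
      rw [add_zero] at h4
      refine squeeze_zero (fun _ => n2_nonneg _) (fun n => ?_) h4
      refine (n2_sub_le (f := fun p => v n ((T n ^ k) p)) (g := fun p => vi ((T n ^ k) p))
        (h := fun p => vi ((Ti ^ k) p)) ((hv n).comp_measurePreserving (mn n))
        (hvi.comp_measurePreserving (mn n))).trans ?_
      exact add_le_add (n2_comp (mn n) (f := fun p => v n p - vi p) ((hv n).sub hvi).1).le le_rfl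
  have oR : ∀ {f : Tc → ℝ}, MemLp f 2 volume → MemLp (fun p => (f p : ℂ)) 2 volume :=
    fun {f} hf => hf.ofReal
  have fR : ∀ {f : Tc → ℝ}, MemLp f 2 volume →
      MemLp (fun p => fourier k p * (f p : ℂ)) 2 volume := fun {f} hf =>
    (oR hf).of_le ((fourier k).continuous.aestronglyMeasurable.mul (oR hf).1)
      (Eventually.of_forall fun x => by rw [norm_mul, norm_fourier', one_mul])
  have R : Tendsto (fun n => ∫ θ, (fourier k θ * (s n θ : ℂ)) * (s n θ : ℂ)) atTop
      (𝓝 (∫ θ, (fourier k θ * (si θ : ℂ)) * (si θ : ℂ))) := by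
    refine stab_pair (u := fun n θ => fourier k θ * (s n θ : ℂ)) (w := fun n θ => (s n θ : ℂ))
      (fun n => fR (hs n)) (fun n => oR (hs n)) (fR hsi) (oR hsi) ?_ ?_
    · refine h2.congr fun n => stab_n2_eq ((hs n).sub hsi).1 ((fR (hs n)).sub (fR hsi)).1 fun x => ?_
      rw [← mul_sub, norm_mul, norm_fourier', one_mul, ← Complex.ofReal_sub, Complex.norm_real]; rfl
    · refine h2.congr fun n => stab_n2_eq ((hs n).sub hsi).1 ((oR (hs n)).sub (oR hsi)).1 fun x => ?_
      rw [← Complex.ofReal_sub, Complex.norm_real]; rfl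
  simp only [mul_assoc, ← sq] at R
  exact tendsto_nhds_unique (L.congr' (hc k)) R

/-- completeness of `L²` (`n2_toLp`, `n2_Lp_sub`) -/
theorem exists_L2_limit {α E : Type} [MeasureSpace α] [NormedAddCommGroup E] [CompleteSpace E]
    (f : ℕ → α → E) (hf : ∀ n, MemLp (f n) 2 volume)
    (hc : ∀ ε > 0, ∃ n0, ∀ m ≥ n0, ∀ n ≥ n0, n2 (fun x => f m x - f n x) ≤ ε) :
    ∃ g : α → E, MemLp g 2 volume ∧ Tendsto (fun n => n2 fun x => f n x - g x) atTop (𝓝 0) := by
  have hC : CauchySeq fun n => (hf n).toLp (f n) := by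
    rw [Metric.cauchySeq_iff]
    intro ε hε
    obtain ⟨n0, h⟩ := hc (ε / 2) (half_pos hε)
    refine ⟨n0, fun m hm n hn => ?_⟩
    rw [dist_eq_norm, n2_toLp]
    linarith [h m hm n hn]
  obtain ⟨g, hg⟩ := cauchySeq_tendsto_of_complete hC
  refine ⟨g, Lp.memLp g, ?_⟩
  rw [tendsto_iff_norm_sub_tendsto_zero] at hg
  refine hg.congr fun n => ?_
  rw [← n2_Lp_sub]
  refine n2_congr ?_
  filter_upwards [(hf n).coeFn_toLp] with x hx
  rw [hx]

/-- telescoping version -/
theorem exists_L2_limit' {α E : Type} [MeasureSpace α] [NormedAddCommGroup E] [CompleteSpace E]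
    (f : ℕ → α → E) (hf : ∀ n, MemLp (f n) 2 volume) (d : ℕ → ℝ) (B : ℝ)
    (hd : ∀ n, n2 (fun x => f n x - f (n + 1) x) ≤ d n) (hB : ∀ n, ∑ i ∈ Finset.range n, d i ≤ B) :
    ∃ g : α → E, MemLp g 2 volume ∧ Tendsto (fun n => n2 fun x => f n x - g x) atTop (𝓝 0) ∧
      n2 (fun x => f 0 x - g x) ≤ B := by
  have hd0 : ∀ n, 0 ≤ d n := fun n => (n2_nonneg _).trans (hd n)
  have hsum : Summable d := summable_of_sum_range_le hd0 hB
  have hdist : ∀ n, dist ((hf n).toLp (f n)) ((hf (n + 1)).toLp (f (n + 1))) ≤ d n := fun n => by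
    rw [dist_eq_norm, n2_toLp]; exact hd n
  have hC : CauchySeq fun n => (hf n).toLp (f n) := cauchySeq_of_dist_le_of_summable d hdist hsum
  obtain ⟨g, hg⟩ := cauchySeq_tendsto_of_complete hC
  have key : ∀ n, ‖(hf n).toLp (f n) - g‖ = n2 fun x => f n x - g x := fun n => by
    rw [← n2_Lp_sub]
    refine n2_congr ?_
    filter_upwards [(hf n).coeFn_toLp] with x hx
    rw [hx]
  refine ⟨g, Lp.memLp g, ?_, ?_⟩
  · exact (tendsto_iff_norm_sub_tendsto_zero.1 hg).congr key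
  · rw [← key, ← dist_eq_norm]
    exact (dist_le_tsum_of_dist_le_of_tendsto₀ d hdist hsum hg).trans
      (hsum.tsum_le_of_sum_range_le hB)

end Crest.Agent.R81
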