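import Crest.Agent.R81.Core
import Crest.Agent.R81.Folner
import Crest.Agent.R81.FreqC

/-!
# R81: step A (merging of all characters)
-/

set_option autoImplicit false

namespace Crest.Agent.R81

open MeasureTheory Crest.AnalysisR.Torus3 Filter Topology

/-- `ε0 = min ε 1 / 10`.  `folner M (ε0²/2)` gives `F0`; `Q1` with `4 F0/Q1 ≤ εp/2` gives `Q, q, Λ, Good`.
`exists_Deta (K q t0) C ε''` gives `D2', η`; `D2 = t0 D2'`, `D = K q D2 (≥ D2' ≥ C)`.  `C` is such that `herr`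
holds and `4/D ≤ ε0²/2`; `ε''` is such that `30 (M K)² √(2M+1) ε'' ≤ ε0` (`hloc`), `ε'' ≤ 1/(2q)`, `≤ 1/4`,
`F0 ε'' ≤ εp/2`, `3 (2M+1) 7 ε'' √N ≤ ε0`.  `Ds` = the filter of `count_zones` applied to the set of `count_A`,
`g = 2δ + ε0²/2 + 4/D`, `√g ≤ √(2δ) + ε0`.  `s0 = 0`, `J' = 1`, `α1 = 0`, `α2 = 0`; `lmin` from `stepCore`,
`Λ0 = lmin + 1`, `freqA`, then `σ'` from `stepCore`; `L' = (σ', Ns.erase 0, thickenings, r)` (`Sep.thick`,
`Sep.mono`, `Finset.insert_erase`).  Propagation: `Ns0 = Ns.erase 0`, `ν = 1` (`Disj.card_le`), `FreqH.mono`,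
`Main.dom`.  Merging: `Ns0 = Ns`, `ν = 2M+1`, `C0 = Cmer N`, `dom_zero`. -/
theorem stepA (σ : St) (M k b : ℕ) {ε εp : ℝ} (hε : 0 < ε) (hεp : 0 < εp) (hεp' : εp ≤ 1 / 4)
    (κ' : ℕ) (δ' : ℝ) (hκ : 2 ≤ κ') (hκe : Even κ') (hδ : 0 < δ') (hδ' : δ' ≤ 1 / 8) :
    ∃ L' : Lv, L'.κ = κ' ∧ L'.δ = δ' ∧ PostA L' εp ∧
      Close k ε σ.T L'.T ∧ Close k ε ⇑σ.T⁻¹ ⇑L'.T⁻¹ ∧ Gen σ L'.toSt ε (2 * σ.δ + ε) ∧
      (∀ Ms0 ⊆ Finset.Icc (-(M : ℤ)) M, 0 ∉ Ms0 → ∀ C0 : ℤ → Set Tc, Disj Ms0 C0 →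
        PrpD σ Ms0 C0 L' (σ.ql + ε) 3 b) ∧
      ∀ G : ℤ → ℤ → ℂ, ∑ i ∈ Finset.Ico (0 : ℤ) σ.N, G 0 i = 0 →
        ∃ G' : ℤ → ℤ → ℂ,
          Main L'.N (insert 0 L'.Ms) L'.C G' (ε * tn σ.N (Finset.Icc (-(M : ℤ)) M) G) ∧
          n2 (fun p => σ.vec (ev (Finset.Icc (-(M : ℤ)) M) G) p - L'.vec (ev (insert 0 L'.Ms) G') p)
            ≤ (σ.ql + ε) * tn σ.N (Finset.Icc (-(M : ℤ)) M) G := by
  obtain ⟨e, he, he1, heε⟩ : ∃ e : ℝ, 0 < e ∧ e ≤ 1 / 10 ∧ 10 * e ≤ ε :=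
    ⟨min ε 1 / 10, by positivity, by linarith [min_le_right ε 1], by linarith [min_le_left ε 1]⟩
  obtain ⟨F0, hF0, hfol⟩ := folner M (e ^ 2 / 2) (by positivity)
  obtain ⟨Q, q, hQ1, hq1, hQ, hq, Λ, Good, hper, hΛ0, hG, hGc, hGood, hpur⟩ :=
    hfol ⌈8 * F0 / εp⌉₊
  have hfq : ∀ n : ℕ, 0 < n → ⌈8 * F0 / εp⌉₊ ≤ n → (F0 : ℝ) / n ≤ εp / 8 := fun n hn h => by
    have h1 : 8 * F0 / εp ≤ (n : ℝ) := (Nat.le_ceil _).trans (by exact_mod_cast h)
    rw [div_le_iff₀ hεp] at h1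
    rw [div_le_iff₀ (by exact_mod_cast hn)]
    linarith
  have hsm : ∀ B c : ℝ, 0 < c → ∀ᶠ x in 𝓝[>] (0 : ℝ), B * x ≤ c := fun B c hc =>
    (((continuous_const.mul continuous_id).tendsto' 0 0 (by simp)).eventually
      (ge_mem_nhds hc)).filter_mono nhdsWithin_le_nhds
  have hq' : (0 : ℝ) < q := by exact_mod_cast hq
  obtain ⟨x, ⟨⟨⟨⟨⟨x1, x2⟩, x3⟩, x4⟩, x5⟩, hx⟩⟩ :=
    ((((((hsm (30 * (M * σ.K) ^ 2 * Real.sqrt (2 * M + 1)) e he).and
      (hsm 1 (1 / (2 * q)) (by positivity))).and (hsm 1 (1 / 4) (by norm_num))).and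
      (hsm F0 (εp / 2) (by positivity))).and
      (hsm (3 * (2 * M + 1) * 7 * Real.sqrt σ.N) e he)).and self_mem_nhdsWithin).exists
  have hK : 0 < σ.K := pow_pos (by have := σ.hκ; omega) 4
  set B : ℝ := 7 * M * Real.sqrt (σ.N * (2 * M + 1)) + 1 with hB
  have hB0 : 0 ≤ B := by positivity
  obtain ⟨D2', η, hD2', hC, hη, hηx, -, hDη⟩ := exists_Deta (σ.K * q * σ.t0)
    (Nat.mul_pos (Nat.mul_pos hK hq) σ.ht0) (B * (σ.K * 6) / e + 8 / e ^ 2) x hx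
  rw [mul_assoc (σ.K * q)] at hDη
  have hD2 : 0 < σ.t0 * D2' := Nat.mul_pos σ.ht0 hD2'
  have hD : 0 < σ.K * q * (σ.t0 * D2') := Nat.mul_pos (Nat.mul_pos hK hq) hD2
  have hDD : D2' ≤ σ.K * q * (σ.t0 * D2') :=
    (Nat.le_mul_of_pos_left _ σ.ht0).trans (Nat.le_mul_of_pos_left _ (Nat.mul_pos hK hq))
  have hcount := count_zones _ hD _ (Finset.filter_subset _ _) _ σ.δ σ.hδ.le
    (count_A σ.K q _ hq hD2 Good hG _ hGc)
  have htD : σ.t0 ∣ σ.K * q * (σ.t0 * D2') := (dvd_mul_right _ _).mul_left _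
  have hfr := fun Λ0 hΛ0' => freqA σ.N σ.K M F0 Q q _ Λ0 σ.hN hK hF0 hQ hq hD2 hΛ0' Λ Good hper
    hΛ0 hGood hpur η εp hη (by linarith) (by linarith) hεp'
    (by rw [mul_div_assoc]; linarith [hfq Q hQ hQ1, hfq q hq hq1])
    ((mul_le_mul_of_nonneg_left hηx (Nat.cast_nonneg _)).trans x4)
  generalize σ.t0 * D2' = D2 at *
  generalize σ.K * q * D2 = D at *
  have hD' : (0 : ℝ) < D := by exact_mod_cast hD
  have hCD : B * (σ.K * 6) / e + 8 / e ^ 2 ≤ D := hC.trans (by exact_mod_cast hDD)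
  have h4 : 4 / (D : ℝ) ≤ e ^ 2 / 2 := by
    have h1 : 8 / e ^ 2 ≤ D := le_trans (le_add_of_nonneg_left (by positivity)) hCD
    rw [div_le_iff₀ (by positivity)] at h1
    rw [div_le_iff₀ hD']
    linarith
  set g : ℝ := 2 * σ.δ + e ^ 2 / 2 + 4 / D with hg
  have hσδ := σ.hδ
  have hsg : Real.sqrt g ≤ Real.sqrt (2 * σ.δ) + e := by
    rw [Real.sqrt_le_left (by positivity), add_sq, Real.sq_sqrt (by positivity)]
    nlinarith [mul_nonneg (Real.sqrt_nonneg (2 * σ.δ)) he.le]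
  obtain ⟨lmin, hcore⟩ := stepCore σ M k b he (by linarith) D hD htD _
    (fun d hd => (Finset.mem_filter.1 hd).2) g η (by positivity) hη hcount 0 1 one_pos 0
    (fun _ => 0) (by
      have h1 : B * (σ.K * 6) / e ≤ D := le_trans (le_add_of_nonneg_right (by positivity)) hCD
      rw [div_le_iff₀ he] at h1
      rw [← hB, ← mul_div_assoc, div_le_iff₀ hD']
      simpa [mul_comm e] using h1) (by
      have h1 : 0 < Real.sqrt D := Real.sqrt_pos.2 hD'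
      have h2 : 6 * (2 / Real.sqrt D * (40 * (M * σ.K / D) ^ 2) / (16 * η ^ 2)) * D
          * Real.sqrt (2 * M + 1) = 30 * (M * σ.K) ^ 2 * Real.sqrt (2 * M + 1) *
            (1 / (D * Real.sqrt D * η ^ 2)) := by
        field_simp
        ring
      rw [h2]
      refine le_trans (mul_le_mul_of_nonneg_left ?_ (by positivity)) x1
      rwa [div_le_iff₀ (by positivity)])
  obtain ⟨Ns, A, U, r, Θ, h0, hr, hsep, hU, hF1, hF2, hpure⟩ := hfr (lmin + 1) lmin.succ_pos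
    (((Finset.range D).filter fun d => d / D2 % q ∈ Good).filter fun d : ℕ =>
      1 ≤ d ∧ d + 2 ≤ D ∧ σ.δ ≤ (d : ℝ) / D ∧ (d + 1 : ℝ) / D ≤ 1 - σ.δ)
    fun d hd => (Finset.mem_filter.1 (Finset.mem_filter.1 hd).1).2
  obtain ⟨σ', h1, h2, h3, h5, h6, h7, h8⟩ := hcore
    (fun d => ((lmin + 1 : ℕ) : ℤ) * Λ (d / D2 % q : ℕ)) (fun d hd => by
      have := Int.one_le_abs (hGood _ (Finset.mem_filter.1 (Finset.mem_filter.1 hd).1).2).1
      rw [abs_mul, Nat.abs_cast]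
      exact le_trans (by omega) (le_mul_of_one_le_right (Int.natCast_nonneg _) this)) Ns A r hr hsep κ' δ' hκ hκe hδ hδ'
  have hins := Finset.insert_erase h0
  have hκ0 : (0 : ℝ) ≤ 4 / σ.κ := by positivity
  have hql := σ.ql_pos
  refine ⟨⟨σ', Ns.erase 0, fun n => Metric.thickening r (A n), r, hr,
    hsep.thick.mono (Finset.erase_subset _ _) le_rfl, Finset.notMem_erase _ _⟩, h1, h2,
    ⟨hins.symm ▸ hsep.thick, hpure _ h3⟩, h5.mono le_rfl (by linarith only [he, heε]),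
    h6.mono le_rfl (by linarith only [he, heε]),
    h7.mono (by linarith only [he, heε]) (by nlinarith only [hg, h4, he, he1, heε]), fun Ms0 hMs h0' C0 hC0 G γ hGγ => ?_, fun G hG0 => ?_⟩
  · obtain ⟨G', a1, a2, a3, a4⟩ := h8 _ (Finset.erase_subset 0 Ns) Ms0 hMs C0 U Θ 0 0 1 le_rfl le_rfl
      (by omega) ((hF2 C0).mono fun m hm => Finset.mem_erase.2 ⟨fun h => h0' (h ▸ hm), hMs hm⟩)
      hC0.card_le G γ (hGγ.dom U)
    have ht := tn_nonneg σ.N Ms0 G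
    have hγ := hGγ.nonneg
    refine ⟨G', a1.mono (mul_le_mul (by linarith only [hql, he, heε])
      (le_add_of_nonneg_right hγ) ht (by positivity)), a2, a3.trans ?_, (a4 h0' hC0 hGγ).trans ?_⟩
    · refine add_le_add (mul_le_mul_of_nonneg_right ?_ ht) le_rfl
      unfold St.ql
      linarith only [hsg, hκ0, heε, he]
    · refine add_le_add (mul_le_mul_of_nonneg_right ?_ ht) le_rfl
      unfold St.ql
      linarith only [hsg, hκ0, heε, he]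
  · obtain ⟨G', a1, -, a3, -⟩ := h8 _ subset_rfl _ subset_rfl _ U Θ 0 0 (2 * M + 1) le_rfl le_rfl
      le_rfl hF1 (fun θ S hS _ => (Finset.card_le_card hS).trans (by rw [Int.card_Icc]; omega)) G _
      (dom_zero σ.N M σ.hN η hη.le U hU G hG0)
    have ht := tn_nonneg σ.N (Finset.Icc (-(M : ℤ)) M) G
    refine ⟨G', ?_, ?_⟩
    · simp only [hins]
      exact a1.mono (mul_le_mul_of_nonneg_right (by linarith only [he, heε]) ht)
    · simp only [hins]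
      refine a3.trans ?_
      rw [← mul_assoc, ← add_mul]
      refine mul_le_mul_of_nonneg_right ?_ ht
      have : 3 * (2 * M + 1) * 7 * Real.sqrt σ.N * η ≤ e :=
        le_trans (mul_le_mul_of_nonneg_left hηx (by positivity)) x5
      unfold St.ql
      linarith only [hsg, hκ0, heε, he, this]

end Crest.Agent.R81
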