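import Crest.Agent.R81.Lin

/-!
# R81: volume preserving smooth diffeomorphisms of the torus: group operations, shears, linear maps,
limits
-/

set_option autoImplicit false

namespace Crest.Agent.R81

open MeasureTheory Crest.AnalysisR.Torus3
open scoped ContDiff

open Filter Topology in
theorem td_tail {ε : ℕ → ℝ} : Tendsto (fun n => ∑' j, ε (n + j)) atTop (𝓝 0) := by
  simpa only [add_comm] using tendsto_sum_nat_add ε

open Filter Topology in
theorem td_tendsto {T : ℕ → T3 → T3} {L : T3 → T3} {ε : ℕ → ℝ}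
    (h : ∀ n p, dist (L p) (T n p) ≤ ∑' j, ε (n + j)) (p : T3) :
    Tendsto (fun n => T n p) atTop (𝓝 (L p)) :=
  tendsto_iff_dist_tendsto_zero.2 <| squeeze_zero (fun _ => dist_nonneg)
    (fun n => (dist_comm _ _).trans_le (h n p)) td_tail

/-- The `C^∞` limit of a chain of close torus maps. -/
theorem td_lim_map (T : ℕ → T3 → T3) {F : V3 → V3} (hF : IsSmoothLift (T 0) F) (ε : ℕ → ℝ)
    (hε : Summable ε) (h1 : ∀ n, Close n (ε n) (T n) (T (n + 1))) :
    ∃ L : T3 → T3, (∃ G, IsSmoothLift L G) ∧ ∀ n p, dist (L p) (T n p) ≤ ∑' j, ε (n + j) := by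
  choose E hE hb hT using h1
  have hb0 : ∀ n p, ‖E n p‖ ≤ ε n := fun n p => by
    simpa only [norm_iteratedFDeriv_zero] using hb n 0 (Nat.zero_le n) p
  have hs : ∀ p, Summable fun n => E n p := fun p => Summable.of_norm_bounded hε fun n => hb0 n p
  have hG : ContDiff ℝ ∞ fun p => ∑' n, E n p := by
    refine contDiff_tsum_of_eventually (v := fun _ => ε) hE (fun _ _ => hε) fun k _ => ?_
    rw [Nat.cofinite_eq_atTop]
    exact (Filter.eventually_ge_atTop k).mono fun n hn p => hb n k hn p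
  have hTn : ∀ n p, T n (proj p) = proj (F p + ∑ i ∈ Finset.range n, E i p) := fun n p => by
    induction n with
    | zero => simpa using hF.2 p
    | succ n ih => rw [hT, ih, Finset.sum_range_succ, ← proj_add, add_assoc]
  have hd : ∀ n p, dist (proj (F p + ∑' n, E n p)) (T n (proj p)) ≤ ∑' j, ε (n + j) := by
    intro n p
    rw [hTn]
    refine (dist_proj_le _ _).trans ?_
    rw [dist_add_left, ← (hs p).sum_add_tsum_nat_add n, dist_self_add_left]
    simp only [add_comm n]
    exact tsum_of_norm_bounded ((summable_nat_add_iff n).2 hε).hasSum fun j => hb0 _ p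
  have hd' : ∀ n q, dist (proj (F (fun i => rp (q i)) + ∑' n, E n fun i => rp (q i))) (T n q) ≤
      ∑' j, ε (n + j) := fun n q => by
    have := hd n fun i => rp (q i)
    rwa [proj_surj] at this
  refine ⟨fun q => proj (F (fun i => rp (q i)) + ∑' n, E n fun i => rp (q i)),
    ⟨fun p => F p + ∑' n, E n p, hF.1.add hG, fun p => ?_⟩, hd'⟩
  refine tendsto_nhds_unique (td_tendsto hd' (proj p)) ?_
  exact tendsto_iff_dist_tendsto_zero.2 <| squeeze_zero (fun _ => dist_nonneg)
    (fun n => (dist_comm _ _).trans_le (hd n p)) td_tail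

theorem td_inv {T T' : ℕ → T3 → T3} {L L' : T3 → T3} {ε : ℕ → ℝ} (hL : Continuous L)
    (h : ∀ n p, dist (L p) (T n p) ≤ ∑' j, ε (n + j))
    (h' : ∀ n p, dist (L' p) (T' n p) ≤ ∑' j, ε (n + j)) (hi : ∀ n p, T n (T' n p) = p) (p : T3) :
    L (L' p) = p := by
  refine tendsto_nhds_unique ((hL.tendsto _).comp (td_tendsto h' p)) ?_
  refine tendsto_iff_dist_tendsto_zero.2 <| squeeze_zero (fun _ => dist_nonneg)
    (fun n => ?_) (td_tail (ε := ε))
  have := h n (T' n p)
  rwa [hi] at this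

theorem td_mp {T : ℕ → T3 → T3} {L : T3 → T3} {ε : ℕ → ℝ} (hL : Continuous L)
    (h : ∀ n p, dist (L p) (T n p) ≤ ∑' j, ε (n + j))
    (hT : ∀ n, MeasurePreserving (T n) volume volume) : MeasurePreserving L volume volume := by
  refine ⟨hL.measurable, ext_of_forall_integral_eq_of_IsFiniteMeasure fun f => ?_⟩
  rw [integral_map hL.measurable.aemeasurable f.continuous.aestronglyMeasurable]
  have h1 : ∀ n, ∫ p, f (T n p) = ∫ p, f p := fun n => by
    rw [← integral_map (hT n).measurable.aemeasurable f.continuous.aestronglyMeasurable,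
      (hT n).map_eq]
  have h2 := tendsto_integral_of_dominated_convergence (μ := (volume : Measure T3))
    (F := fun n p => f (T n p)) (f := fun p => f (L p)) (fun _ => ‖f‖)
    (fun n => (f.continuous.measurable.comp (hT n).measurable).aestronglyMeasurable)
    (integrable_const _) (fun n => Filter.Eventually.of_forall fun p => f.norm_coe_le_norm _)
    (Filter.Eventually.of_forall fun p => (f.continuous.tendsto _).comp (td_tendsto h p))
  simp only [h1] at h2
  exact tendsto_nhds_unique h2 tendsto_const_nhds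

/-- **Limit.**  Choose `E n` as in `Close`; `‖D^j E n‖ ≤ ε n` for `n ≥ j`; so `E = ∑' E n` is smooth
(`contDiff_tsum_of_eventually`).  `T n (proj p) = T 0 (proj p) + proj (∑_{i<n} E i p)`.  Define the
limit by `T∞ q = T 0 q + proj (E (rp ∘ q))` or as pointwise limit; it is the uniform limit of `T n`
(so continuous), likewise for the inverses; `T n (T n⁻¹ q) = q` passes to the limit.  Volume:
`∫ φ ∘ T n = ∫ φ` for bounded continuous `φ`, dominated convergence,
`ext_of_forall_integral_eq_of_IsFiniteMeasure`. -/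
theorem exists_limit (T : ℕ → Equiv.Perm T3) (hT : ∀ n, IsTD (T n)) (ε : ℕ → ℝ) (hε : Summable ε)
    (h1 : ∀ n, Close n (ε n) (T n) (T (n + 1)))
    (h2 : ∀ n, Close n (ε n) ⇑(T n)⁻¹ ⇑(T (n + 1))⁻¹) :
    ∃ Ti : Equiv.Perm T3, IsTD Ti ∧ ∀ n p,
      dist (Ti p) (T n p) ≤ ∑' j, ε (n + j) ∧ dist (Ti⁻¹ p) ((T n)⁻¹ p) ≤ ∑' j, ε (n + j) := by
  obtain ⟨⟨F, hF⟩, G, hG⟩ := (hT 0).1
  obtain ⟨L, ⟨F', hF'⟩, hL⟩ := td_lim_map (fun n => T n) hF ε hε h1
  obtain ⟨L', ⟨G', hG'⟩, hL'⟩ := td_lim_map (fun n => ⇑(T n)⁻¹) hG ε hε h2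
  have e1 := td_inv (lift_continuous hF') hL hL' fun n p => (T n).apply_symm_apply p
  have e2 := td_inv (lift_continuous hG') hL' hL fun n p => (T n).symm_apply_apply p
  exact ⟨⟨L, L', e2, e1⟩, ⟨⟨⟨F', hF'⟩, G', hG'⟩, td_mp (lift_continuous hF') hL fun n => (hT n).2⟩,
    fun n p => ⟨hL n p, hL' n p⟩⟩

end Crest.Agent.R81
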